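import Crest.Agent.R227.K.ActEx1

/-! Row 227, task `R227/K/ActEx`: the action of `1 + p ^ N b` and its congruences. -/

set_option autoImplicit false

namespace Crest.Agent.R227.K

open MvPowerSeries Crest.LubinTate IsLocalRing

variable {p : ℕ} [Fact p.Prime] {n : ℕ}

theorem actex_inv_unique {R : Type*} [CommRing R] {g g₁ g₂ : PowerSeries R}
    (h0 : PowerSeries.constantCoeff g = 0) (h2 : PowerSeries.constantCoeff g₂ = 0)
    (e1 : g₁.subst g = PowerSeries.X) (e2 : g.subst g₂ = PowerSeries.X) : g₁ = g₂ := by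
  have s0 := PowerSeries.HasSubst.of_constantCoeff_zero' h0
  have s2 := PowerSeries.HasSubst.of_constantCoeff_zero' h2
  calc g₁ = g₁.subst (g.subst g₂) := by rw [e2, PowerSeries.X_subst]
    _ = g₂ := by rw [← PowerSeries.subst_comp_subst_apply s0 s2, e1, PowerSeries.subst_X s2]

theorem actex_sub_mem (hn : 1 ≤ n) {H : FormalGroup (LTRing p n)} [H.IsComm]
    (hH : IsUniversalDeformation p n (G0 p n (GaloisField p n)) H) {N : ℕ}
    {b g' : PowerSeries (GaloisField p n)}
    (hb : IsFGHom (G0 p n (GaloisField p n)) (G0 p n (GaloisField p n)) b)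
    (hu : IsUnit (PowerSeries.coeff 1 (gser p n N b))) (hu' : IsUnit (PowerSeries.coeff 1 g'))
    (e : g'.subst (gser p n N b) = PowerSeries.X)
    {φ : LTRing p n →ₐ[WittVector p (GaloisField p n)] LTRing p n}
    (hφ : IsStabilizerMap p n H g' φ) {J : Ideal (LTRing p n)}
    (hJ : ∀ z : R227.Pt H C (R227.XI (Fin 2) (LTRing p n)), z.val ∈ (mE p n).map C →
      (p ^ N • z).val ∈ J.map C) (x : LTRing p n) : φ x - x ∈ J := by
  obtain ⟨b', h0, hb'⟩ := R227.exists_lift b hb.1
  have hm : mE p n ≠ ⊤ := by rw [mE_eq]; exact (maximalIdeal.isMaximal (LTRing p n)).ne_top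
  have hτ := R227.isFGHom_oneAdd_quot H (p ^ N) h0 (mE p n) J (IsNoetherian.noetherian _) (by
    refine isFGHom_of_map (φ := R227.resQ hm) ?_ ?_
    · rw [injective_iff_map_eq_zero]
      intro y hy
      obtain ⟨y, rfl⟩ := Ideal.Quotient.mk_surjective y
      exact Ideal.Quotient.eq_zero_iff_mem.mpr hy
    · have e : PowerSeries.map (R227.resQ hm) (PowerSeries.map (Ideal.Quotient.mk _) b') = b := by
        rw [← hb']; ext; simp
      rwa [map_map, R227.resQ_comp_mk, hH.1, e]) hJ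
  have hres : PowerSeries.map (LTRing.residue p n) (R227.oneAdd H (p ^ N) b') = gser p n N b := by
    rw [R227.map_oneAdd H _ h0, hH.1, hb', gser_eq_oneAdd hn (CharP.cast_eq_zero _ p) hb.1]
  have c0 := R227.constantCoeff_oneAdd H (p ^ N) h0
  obtain ⟨τ, t0, -, t1, t2⟩ := exists_substInv c0 (by
    rw [R227.isUnit_iff_residue, ← PowerSeries.coeff_map, hres]; exact hu.ne_zero)
  refine R227.IsStabilizerMap.sub_mem hH hu' hφ (τ := τ) (isFGHom_inv hτ ?_ ?_ ?_) ?_ x
  · rw [R227.ps_constantCoeff_map, t0, map_zero]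
  · rw [← univ_map_subst _ t0, t1, PowerSeries.map_X]
  · rw [← univ_map_subst _ c0, t2, PowerSeries.map_X]
  · refine (actex_inv_unique (gser_constantCoeff hb.1) ?_ e ?_).symm
    · rw [R227.ps_constantCoeff_map, t0, map_zero]
    · rw [← hres, ← univ_map_subst _ t0, t1, PowerSeries.map_X]

/-- let `g'` be the inverse of `g = gser N b`, `φ` its stabilizer map with witness `θ₀` and `ψ` the
inverse of `θ₀`.  For a lift `b~` of `b`, `g~ = H (X, [p ^ N] b~)` is an endomorphism of `H` modulo any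
ideal `J` as in `kills_aI`, `kills_height` (apply them to `b~ (H (X, Y))` and `H (b~ X, b~ Y)`), so
`g~ ∘ θ₀` is a ⋆-isomorphism modulo `J` and `univ_unique` gives `φ ≡ id`. -/
theorem exists_act (hn : 1 ≤ n) {H : FormalGroup (LTRing p n)} [H.IsComm]
    (hH : IsUniversalDeformation p n (G0 p n (GaloisField p n)) H) {N : ℕ} (hN : 1 ≤ N)
    {b : PowerSeries (GaloisField p n)}
    (hb : IsFGHom (G0 p n (GaloisField p n)) (G0 p n (GaloisField p n)) b) :
    ∃ (g' : PowerSeries (GaloisField p n))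
      (φ : LTRing p n →ₐ[WittVector p (GaloisField p n)] LTRing p n)
      (ψ : PowerSeries (LTRing p n)),
      IsFGAut (G0 p n (GaloisField p n)) g' ∧
      (∀ i < (p ^ n) ^ N, PowerSeries.coeff i g' = PowerSeries.coeff i PowerSeries.X) ∧
      IsStabilizerMap p n H g' φ ∧ Act p n H N b φ.toRingHom ψ := by
  have hg := gser_hom hn (CharP.cast_eq_zero (GaloisField p n) p) N hb
  have hu : IsUnit (PowerSeries.coeff 1 (gser p n N b)) := by
    rw [gser_coeff hb.1 (lt_of_le_of_lt hN (R227.lt_q_pow hn N))]; simp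
  obtain ⟨g', g0, g1, h1, h2⟩ := exists_substInv hg.1 hu
  have hg' : IsFGAut (G0 p n (GaloisField p n)) g' := ⟨isFGHom_inv hg g0 h1 h2, g1⟩
  obtain ⟨φ, hφ⟩ := exists_stab hH hg'
  obtain ⟨r, θ, hθ, e⟩ := id hφ
  obtain ⟨ψ, p0, -, q1, q2⟩ := exists_substInv hθ.1 (by
    rw [R227.isUnit_iff_residue, ← PowerSeries.coeff_map, e]; exact g1.ne_zero)
  refine ⟨g', φ, ψ, hg', fun i hi => ?_, hφ, φ.commutes, fun f => RingHom.congr_fun r f,
    isFGHom_inv hθ p0 q1 q2, ?_, actex_sub_mem hn hH hb hu g1 h2 hφ (actex1_nsmul_aI H N),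
    fun h _ _ => actex_sub_mem hn hH hb hu g1 h2 hφ (actex1_nsmul_height H h N)⟩
  · have s := PowerSeries.HasSubst.of_constantCoeff_zero' g0
    have h3 : PowerSeries.X ^ (p ^ n) ^ N ∣ PowerSeries.X - gser p n N b := by
      rw [PowerSeries.X_pow_dvd_iff]
      intro j hj
      rw [map_sub, gser_coeff hb.1 hj, sub_self]
    have h4 := R227.X_pow_dvd_subst g0 h3
    rw [PowerSeries.subst_sub s, PowerSeries.subst_X s, h1, PowerSeries.X_pow_dvd_iff] at h4
    have := h4 i hi
    rwa [map_sub, sub_eq_zero] at this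
  · refine actex_inv_unique g0 hg.1 ?_ h2
    rw [← e, ← univ_map_subst _ hθ.1, q2, PowerSeries.map_X]

end Crest.Agent.R227.K
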