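import Crest.Agent.R227.K.Univ

/-! Row 227, task `R227/K/ActEx1`: the action of `1 + p ^ N b` and its congruences. -/

set_option autoImplicit false

namespace Crest.Agent.R227.K

open MvPowerSeries Crest.LubinTate IsLocalRing

variable {p : ℕ} [Fact p.Prime] {n : ℕ}

theorem actex1_pow_c {κ : Type*} [CommRing κ] (N : ℕ) {b : PowerSeries κ}
    (hb : PowerSeries.constantCoeff b = 0) : PowerSeries.constantCoeff (b ^ (p ^ n) ^ N) = 0 := by
  rw [map_pow, hb, zero_pow (pow_ne_zero _ (pow_ne_zero _ (Fact.out : p.Prime).ne_zero))]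

theorem gser_eq_fadd {κ : Type*} [CommRing κ] {N : ℕ} {b : PowerSeries κ}
    (hb : PowerSeries.constantCoeff b = 0) :
    gser p n N b = R227.fadd (G0 p n κ) PowerSeries.C PowerSeries.X (b ^ (p ^ n) ^ N) :=
  (R227.fadd_eq_subst _ PowerSeries.constantCoeff_X (actex1_pow_c N hb)).symm

theorem gser_eq_oneAdd (hn : 1 ≤ n) {κ : Type*} [CommRing κ] (hκ : (p : κ) = 0) {N : ℕ}
    {b : PowerSeries κ} (hb : PowerSeries.constantCoeff b = 0) :
    gser p n N b = R227.oneAdd (G0 p n κ) (p ^ N) b := by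
  have hs := PowerSeries.HasSubst.of_constantCoeff_zero' hb
  rw [gser_eq_fadd hb, R227.oneAdd, mulSeries_pow_of_eq_X_pow p (mulSeries_G0 p hn κ hκ),
    PowerSeries.subst_pow hs, PowerSeries.subst_X hs]

theorem gser_constantCoeff {κ : Type*} [CommRing κ] {N : ℕ} {b : PowerSeries κ}
    (hb : PowerSeries.constantCoeff b = 0) : PowerSeries.constantCoeff (gser p n N b) = 0 := by
  rw [gser_eq_fadd hb]
  exact R227.constantCoeff_fadd _ _ PowerSeries.constantCoeff_X (actex1_pow_c N hb)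

theorem gser_map {κ κ' : Type*} [CommRing κ] [CommRing κ'] (φ : κ →+* κ') {N : ℕ}
    {b : PowerSeries κ} (hb : PowerSeries.constantCoeff b = 0) :
    (gser p n N b).map φ = gser p n N (b.map φ) := by
  have h := map_subst (a := ![PowerSeries.X, b ^ (p ^ n) ^ N])
    (hasSubst_of_constantCoeff_zero fun i => by
      fin_cases i
      · exact PowerSeries.constantCoeff_X
      · exact actex1_pow_c N hb) (h := φ) (G0 p n κ).toPowerSeries
  refine h.trans ?_
  rw [gser, ← G0_map p n φ]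
  congr 1
  ext1 i; fin_cases i
  · exact PowerSeries.map_X φ
  · exact map_pow (PowerSeries.map φ) b _

theorem gser_coeff {κ : Type*} [CommRing κ] {N : ℕ} {b : PowerSeries κ}
    (hb : PowerSeries.constantCoeff b = 0) {i : ℕ} (hi : i < (p ^ n) ^ N) :
    PowerSeries.coeff i (gser p n N b) = PowerSeries.coeff i PowerSeries.X := by
  have := R227.fadd_sub_fadd_mem (G0 p n κ) (R227.XI Unit κ) PowerSeries.C R227.X_mem_XI_unit
    (R227.mem_XI_unit_radical (actex1_pow_c (p := p) (n := n) N hb)) R227.X_mem_XI_unit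
    (Ideal.zero_mem _) (𝔟 := Ideal.span {PowerSeries.X ^ (p ^ n) ^ N}) (by simp) (by
      rw [sub_zero, Ideal.mem_span_singleton]
      exact pow_dvd_pow_of_dvd (PowerSeries.X_dvd_iff.mpr hb) _)
  rw [R227.fadd_zero _ (R227.XI Unit κ) _ R227.X_mem_XI_unit, ← gser_eq_fadd hb,
    Ideal.mem_span_singleton, PowerSeries.X_pow_dvd_iff] at this
  have h := this i hi
  rwa [map_sub, sub_eq_zero] at h

theorem gser_hom (hn : 1 ≤ n) {κ : Type*} [CommRing κ] (hκ : (p : κ) = 0) (N : ℕ)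
    {b : PowerSeries κ} (hb : IsFGHom (G0 p n κ) (G0 p n κ) b) :
    IsFGHom (G0 p n κ) (G0 p n κ) (gser p n N b) := by
  rw [gser_eq_oneAdd hn hκ hb.1]
  exact R227.isFGHom_oneAdd _ _ hb

theorem actex1_nsmul_aI (H : FormalGroup (LTRing p n)) (N : ℕ) {σ : Type*} [Finite σ]
    (z : R227.Pt H C (R227.XI σ (LTRing p n))) (hz : z.val ∈ (mE p n).map C) :
    (p ^ N • z).val ∈ (aI p n N).map C := by
  induction N with
  | zero => simpa [aI] using hz
  | succ N ih =>
    rw [pow_succ' p, mul_nsmul', aI, Ideal.map_sup, Ideal.map_mul, Ideal.map_pow, pow_two]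
    have h1 := R227.Pt.val_nsmul_sub_mem ih p
    have h2 : (p : MvPowerSeries σ (LTRing p n)) ∈ (Ideal.span {(p : LTRing p n)}).map C := by
      rw [← map_natCast C]; exact Ideal.mem_map_of_mem _ (Ideal.mem_span_singleton_self _)
    simpa using Ideal.add_mem _ (Ideal.mem_sup_left (Ideal.mul_mem_mul h2 ih))
      (Ideal.mem_sup_right h1)

theorem actex1_kills (H : FormalGroup (LTRing p n)) [H.IsComm] (m : ℕ) {σ : Type*} [Finite σ]
    {J : Ideal (LTRing p n)}
    (hJ : ∀ z : R227.Pt H C (R227.XI σ (LTRing p n)), z.val ∈ (mE p n).map C →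
      (m • z).val ∈ J.map C)
    {a a' : MvPowerSeries σ (LTRing p n)} (ha : constantCoeff a = 0) (ha' : constantCoeff a' = 0)
    (h : ∀ d, coeff d a - coeff d a' ∈ mE p n) (d : σ →₀ ℕ) :
    coeff d ((mulSeries H m).subst a) - coeff d ((mulSeries H m).subst a') ∈ J := by
  have h1 := hJ (R227.Pt.ofSeries H a ha - R227.Pt.ofSeries H a' ha') (by
    rw [R227.Pt.val_sub_mem_iff, R227.mem_map_C_iff (IsNoetherian.noetherian _)]
    simpa using h)
  rw [nsmul_sub, R227.Pt.val_sub_mem_iff, R227.Pt.val_nsmul, R227.Pt.val_nsmul,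
    R227.Pt.val_ofSeries, R227.Pt.val_ofSeries, R227.ev1_eq_subst ha, R227.ev1_eq_subst ha'] at h1
  simpa using R227.coeff_mem_of_mem_map_C h1 d

theorem actex1_nsmul_height (H : FormalGroup (LTRing p n)) [H.IsComm] (h N : ℕ) {σ : Type*}
    [Finite σ] (z : R227.Pt H C (R227.XI σ (LTRing p n))) (hz : z.val ∈ (mE p n).map C) :
    (p ^ N • z).val ∈ (heightIdeal p n H h ⊔ mE p n ^ (p ^ h) ^ N).map C := by
  rw [Ideal.map_sup, Ideal.map_pow, R227.heightIdeal_eq_hI]
  exact R227.Pt.val_p_pow_nsmul_mem p h hz N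

/-- `[p ^ N]` kills congruences modulo `𝔪` over `E₀ ⧸ 𝔞 N`: write `[p] = V (X ^ p) + p R (X)`; if
`a - a'` has coefficients in `𝔞` then `[p] a - [p] a'` has coefficients in `p 𝔞 + 𝔞 ^ 2`. -/
theorem kills_aI (H : FormalGroup (LTRing p n)) [H.IsComm] (N : ℕ) {σ : Type*} [Finite σ]
    {a a' : MvPowerSeries σ (LTRing p n)} (ha : constantCoeff a = 0) (ha' : constantCoeff a' = 0)
    (h : ∀ d, coeff d a - coeff d a' ∈ mE p n) (d : σ →₀ ℕ) :
    coeff d ((mulSeries H (p ^ N)).subst a) - coeff d ((mulSeries H (p ^ N)).subst a') ∈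
      aI p n N := by
  exact actex1_kills H _ (actex1_nsmul_aI H N) ha ha' h d

/-- modulo `I h`, `[p] a - [p] a' = V (a ^ p ^ h) - V (a' ^ p ^ h)` is a multiple of
`(a - a') ^ p ^ h` (`exists_V_mod`) -/
theorem kills_height (H : FormalGroup (LTRing p n)) [H.IsComm] {h : ℕ} (_hh : 1 ≤ h) (N : ℕ)
    {σ : Type*} [Finite σ]
    {a a' : MvPowerSeries σ (LTRing p n)} (ha : constantCoeff a = 0) (ha' : constantCoeff a' = 0)
    (hd : ∀ d, coeff d a - coeff d a' ∈ mE p n) (d : σ →₀ ℕ) :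
    coeff d ((mulSeries H (p ^ N)).subst a) - coeff d ((mulSeries H (p ^ N)).subst a') ∈
      heightIdeal p n H h ⊔ mE p n ^ (p ^ h) ^ N := by
  exact actex1_kills H _ (actex1_nsmul_height H h N) ha ha' hd d

end Crest.Agent.R227.K
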