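import Crest.Agent.R227.K.Basis1

/-! Row 227, task `R227/K/Basis`: choice of torsion points with invertible Kodaira–Spencer matrix. -/

set_option autoImplicit false
set_option linter.unusedSectionVars false

namespace Crest.Agent.R227.K

open MvPowerSeries Crest.LubinTate
open scoped BigOperators

variable {C : Type*} [NormedField C] [IsUltrametricDist C] {κ : Type*} [CommRing κ] {m : ℕ}
  [CompleteSpace C] [IsAlgClosed C] (p : ℕ) [Fact p.Prime] [CharP C p]

theorem basis_cc_map {R B : Type*} [CommRing R] [CommRing B] (φ : R →+* B) (f : PowerSeries R) :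
    PowerSeries.constantCoeff (f.map φ) = φ (PowerSeries.constantCoeff f) := by
  rw [← PowerSeries.coeff_zero_eq_constantCoeff_apply, PowerSeries.coeff_map,
    PowerSeries.coeff_zero_eq_constantCoeff_apply]

theorem basis_map_map {R B T : Type*} [CommRing R] [CommRing B] [CommRing T] (φ : R →+* B)
    (ψ : B →+* T) (V : PowerSeries R) : (V.map φ).map ψ = V.map (ψ.comp φ) := by
  ext j
  simp

theorem basis_mem {R σ : Type*} [CommRing R] [Finite σ] {f : MvPowerSeries σ R}
    (hf : constantCoeff f = 0) : f ∈ Ideal.span (Set.range (X : σ → MvPowerSeries σ R)) := by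
  have := mem_span_X_pow (f := f) (j := 1) fun d hd => by
    rw [Nat.lt_one_iff, Finsupp.degree_eq_zero_iff] at hd
    rw [hd, coeff_zero_eq_constantCoeff_apply, hf]
  rwa [pow_one] at this

/-- linear algebra: a family of vectors not killed by any functional contains a basis -/
theorem basis_lin {K ι : Type*} [Field K] (v : ι → Fin m → K)
    (hv : ∀ δ : Fin m → K, (∀ y, ∑ l, δ l * v y l = 0) → δ = 0) :
    ∃ a : Fin m → ι, (Matrix.of fun i l => v (a i) l).det ≠ 0 := by
  have htop : Submodule.span K (Set.range v) = ⊤ := by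
    by_contra hne
    obtain ⟨f, hf, hle⟩ := Submodule.exists_le_ker_of_lt_top _ (lt_top_iff_ne_top.2 hne)
    have h0 := hv (fun l => f fun j => if l = j then 1 else 0) fun y => by
      have := hle (Submodule.subset_span ⟨y, rfl⟩)
      rw [LinearMap.mem_ker, LinearMap.pi_apply_eq_sum_univ] at this
      simpa only [smul_eq_mul, mul_comm] using this
    refine hf (LinearMap.ext fun w => ?_)
    rw [LinearMap.pi_apply_eq_sum_univ]
    refine Finset.sum_eq_zero fun l _ => ?_
    rw [show (f fun j => if l = j then 1 else 0) = 0 from congrFun h0 l, smul_zero]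
  obtain ⟨τ, a, -, hsp, hli⟩ := exists_linearIndependent' K v
  have hfin : Finite τ := hli.finite
  have := Fintype.ofFinite τ
  have hcard : Fintype.card τ = m := by
    rw [← Module.finrank_eq_card_basis (Module.Basis.mk hli (hsp.trans htop).ge)]
    simp
  let e : Fin m ≃ τ := (Fintype.equivFinOfCardEq hcard).symm
  refine ⟨fun i => a (e i), ?_⟩
  have hli' : LinearIndependent K (Matrix.of fun i l => v (a (e i)) l).row :=
    hli.comp e e.injective
  exact ((Matrix.isUnit_iff_isUnit_det _).1 (Matrix.linearIndependent_rows_iff_isUnit.1 hli')).ne_zero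

omit [IsAlgClosed C] in
/-- division by the product of the linear factors -/
theorem basis_div (S : Finset (O C)) (hS : ∀ y ∈ S, y ∈ mO C) {g : PowerSeries (O C)}
    (hg : ∀ y ∈ S, ev1 y g = 0) :
    ∃ g' : PowerSeries (O C), g = (∏ y ∈ S, (PowerSeries.X - PowerSeries.C y)) * g' := by
  classical
  induction S using Finset.induction_on with
  | empty => exact ⟨g, by simp⟩
  | insert a S ha ih =>
    obtain ⟨g', hg'⟩ := ih (fun y hy => hS y (Finset.mem_insert_of_mem hy))
      fun y hy => hg y (Finset.mem_insert_of_mem hy)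
    have ham := hS a (Finset.mem_insert_self _ _)
    have h0 := hg a (Finset.mem_insert_self _ _)
    rw [hg', map_mul, map_prod, mul_eq_zero] at h0
    have h1 : ev1 a g' = 0 := h0.resolve_left (Finset.prod_ne_zero_iff.2 fun y hy => by
      rw [map_sub, ev1_X good_mO ham, ev1_C, sub_ne_zero]
      rintro rfl
      exact ha hy)
    obtain ⟨g'', hg''⟩ := exists_factor good_mO ham g'
    refine ⟨g'', ?_⟩
    rw [Finset.prod_insert ha, hg', hg'', h1, map_zero, zero_add]
    ring

omit [IsAlgClosed C] [CompleteSpace C] in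
theorem basis_red (S : Finset (O C)) (hS : ∀ y ∈ S, y ∈ mO C) (g : PowerSeries (O C)) :
    ((∏ y ∈ S, (PowerSeries.X - PowerSeries.C y)) * g).map (Ideal.Quotient.mk (mO C)) =
      PowerSeries.X ^ S.card * g.map (Ideal.Quotient.mk (mO C)) := by
  rw [map_mul, map_prod, ← Finset.prod_const]
  refine congrArg (· * _) (Finset.prod_congr rfl fun y hy => ?_)
  rw [map_sub, PowerSeries.map_X, PowerSeries.map_C, Ideal.Quotient.eq_zero_iff_mem.2 (hS y hy),
    map_zero, sub_zero]

omit [IsAlgClosed C] [CompleteSpace C] in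
theorem basis_nm_one {a : O C} (h : a - 1 ∈ mO C) : nm a = 1 := by
  refine le_antisymm (nm_le_one a) (not_lt.1 fun ha => ?_)
  have := (mO C).sub_mem (mem_mO.2 ha) h
  rw [sub_sub_cancel, mem_mO] at this
  simp [nm] at this

/-- distinct roots -/
theorem basis_roots {W : PowerSeries (O C)} {e : ℕ}
    (hW : W.map (Ideal.Quotient.mk (mO C)) = PowerSeries.X ^ e)
    (hd : ∀ y ∈ mO C, ev1 y (PowerSeries.derivative (O C) W) ≠ 0) (k : ℕ) (hk : k ≤ e) :
    ∃ S : Finset (O C), S.card = k ∧ ∀ y ∈ S, y ∈ mO C ∧ ev1 y W = 0 := by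
  classical
  induction k with
  | zero => exact ⟨∅, rfl, fun _ h => absurd h (Finset.notMem_empty _)⟩
  | succ k ih =>
    obtain ⟨S, hS, hS'⟩ := ih (by omega)
    obtain ⟨g, hg⟩ := basis_div S (fun y hy => (hS' y hy).1) fun y hy => (hS' y hy).2
    have h1 := basis_red S (fun y hy => (hS' y hy).1) g
    rw [← hg, hW, hS] at h1
    have h2 : ∀ j, Ideal.Quotient.mk (mO C) (PowerSeries.coeff j g) =
        if j + k = e then 1 else 0 := fun j => by
      rw [← PowerSeries.coeff_map, ← PowerSeries.coeff_X_pow_mul _ k, ← h1,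
        PowerSeries.coeff_X_pow]
    obtain ⟨z, hz, hzg⟩ := exists_root (g := g) (e := e - k) (by omega)
      (fun j hj => mem_mO.1 (Ideal.Quotient.eq_zero_iff_mem.1 (by rw [h2, if_neg (by omega)])))
      (basis_nm_one (Ideal.Quotient.eq.1 (by rw [h2, if_pos (by omega), map_one])))
    have hzS : z ∉ S := fun hzS => hd z hz (by
      rw [hg, ← Finset.mul_prod_erase _ _ hzS, mul_assoc, Derivation.leibniz, Derivation.leibniz]
      simp only [smul_eq_mul, map_add, map_mul, map_sub, ev1_X good_mO hz, ev1_C, hzg, sub_self,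
        zero_mul, mul_zero, add_zero])
    refine ⟨insert z S, by rw [Finset.card_insert_of_notMem hzS, hS], fun y hy => ?_⟩
    rcases Finset.mem_insert.1 hy with rfl | hy
    · exact ⟨hz, by rw [hg, map_mul, hzg, mul_zero]⟩
    · exact hS' y hy

omit [IsAlgClosed C] in
/-- the Kodaira–Spencer vectors at the roots span -/
theorem basis_span {V : PowerSeries (MvPowerSeries (Fin m) κ)}
    (hcoord : ∀ i : Fin m, PowerSeries.coeff (p ^ (i : ℕ)) V = X i)
    (x : MvPowerSeries (Fin m) κ →+* O C) (S : Finset (O C)) (hS : ∀ y ∈ S, y ∈ mO C)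
    (hc : S.card = p ^ m) (δ : Fin m → C)
    (h : ∀ y : S, ∑ l, δ l * ((ev1 (y : O C) (kap V x l) : O C) : C) = 0) : δ = 0 := by
  by_contra hne
  obtain ⟨l₁, hl₁⟩ := Function.ne_iff.1 hne
  obtain ⟨l₀, -, hl₀⟩ := Finset.exists_max_image Finset.univ (fun l => ‖δ l‖)
    ⟨l₁, Finset.mem_univ _⟩
  have h0 : 0 < ‖δ l₀‖ := (norm_pos_iff.2 hl₁).trans_le (hl₀ l₁ (Finset.mem_univ _))
  have h0' : δ l₀ ≠ 0 := norm_pos_iff.1 h0
  let δ' : Fin m → O C := fun l => ⟨δ l / δ l₀, mem_O.2 (by
    rw [norm_div, div_le_one h0]; exact hl₀ l (Finset.mem_univ _))⟩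
  obtain ⟨g, hg⟩ := basis_div S hS (g := ∑ l, PowerSeries.C (δ' l) * kap V x l) fun y hy => by
    refine Subtype.ext ?_
    have := h ⟨y, hy⟩
    simp only [map_sum, map_mul, ev1_C, AddSubmonoidClass.coe_finsetSum, Subring.coe_mul, δ',
      div_mul_eq_mul_div, ← Finset.sum_div]
    rw [this, zero_div]
    rfl
  have h1 := congrArg (PowerSeries.coeff (p ^ (l₀ : ℕ))) (basis_red S hS g)
  have hlt : p ^ (l₀ : ℕ) < p ^ m := Nat.pow_lt_pow_right (Fact.out : p.Prime).one_lt l₀.2
  rw [← hg, PowerSeries.coeff_X_pow_mul', if_neg (by omega), PowerSeries.coeff_map,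
    Ideal.Quotient.eq_zero_iff_mem, map_sum, Finset.sum_eq_single l₀] at h1
  · rw [PowerSeries.coeff_C_mul, kap, PowerSeries.coeff_mk, hcoord, pderiv_X_self, map_one, mul_one,
      mem_mO] at h1
    simp [nm, δ', h0'] at h1
  · intro l _ hl
    rw [PowerSeries.coeff_C_mul, kap, PowerSeries.coeff_mk, hcoord, pderiv_X_of_ne hl.symm,
      map_zero, mul_zero]
  · exact fun hh => absurd (Finset.mem_univ _) hh

/-- additivity of the Kodaira–Spencer map on the roots -/
theorem basis_add [CharP κ p] {h : ℕ} (hh : 1 ≤ h) {H : FormalGroup (MvPowerSeries (Fin m) κ)}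
    {V : PowerSeries (MvPowerSeries (Fin m) κ)}
    (hV : IsFGHom (H.map (iterateFrobenius _ p h)) H V)
    {x : MvPowerSeries (Fin m) κ →+* O C} (hx : ∀ i, x (X i) ∈ mO C) {a b : O C} (ha : a ∈ mO C)
    (hb : b ∈ mO C) (ha0 : ev1 (a ^ p ^ h) (V.map x) = 0) (hb0 : ev1 (b ^ p ^ h) (V.map x) = 0)
    (l : Fin m) : ev1 (fadd (H.map x) a b ^ p ^ h) (kap V x l) =
      ev1 (a ^ p ^ h) (kap V x l) + ev1 (b ^ p ^ h) (kap V x l) := by
  have hp : p.Prime := Fact.out
  have hp0 := hp.pos
  have hg : Good (liftI (Fin m) (mO C)) := good_mO.liftI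
  have ha' := Ideal.pow_mem_of_mem _ ha (p ^ h) (by positivity)
  have hb' := Ideal.pow_mem_of_mem _ hb (p ^ h) (by positivity)
  have e0 : fadd (H.map x) a b ^ p ^ h = fadd (H.map (x.comp (iterateFrobenius _ p h)))
      (a ^ p ^ h) (b ^ p ^ h) := by
    have := map_fadd (F := H.map x) good_mO good_mO (iterateFrobenius (O C) p h) ha hb ha' hb'
    rwa [map_map, ← RingHom.iterateFrobenius_comm] at this
  rw [e0]
  generalize a ^ p ^ h = y at *
  generalize b ^ p ^ h = y' at *
  have hC : ∀ w ∈ mO C, (MvPowerSeries.C w : MvPowerSeries (Fin m) (O C)) ∈ liftI (Fin m) (mO C) :=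
    fun w hw => mem_liftI.2 (by rwa [constantCoeff_C])
  have hτ : (constantCoeff : MvPowerSeries (Fin m) (O C) →+* O C).comp (tau x 1) = x :=
    RingHom.ext fun g => constantCoeff_tau hx 1 g
  have hu : ∀ w ∈ mO C, ev1 w (V.map x) = 0 →
      constantCoeff (ev1 (MvPowerSeries.C w) (V.map (tau x 1))) = 0 ∧
        coeff (Finsupp.single l 1) (ev1 (MvPowerSeries.C w) (V.map (tau x 1))) =
          ev1 w (kap V x l) := fun w hw h0 => by
    constructor
    · rw [map_ev1 hg good_mO _ (hC w hw) (hC w hw), basis_map_map, hτ, constantCoeff_C, h0]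
    · rw [coeff_single_ev1_tau hx 1 V (hC w hw) l, constantCoeff_C,
        coeff_C_of_ne_zero (by simp), zero_mul, add_zero, one_mul]
  obtain ⟨u1, u2⟩ := hu y ha' ha0
  obtain ⟨v1, v2⟩ := hu y' hb' hb0
  have key := ev1_fadd hg (isFGHom_map hV (tau x 1)) (hC y ha') (hC y' hb')
  have hm : ∀ u : MvPowerSeries (Fin m) (O C), constantCoeff u = 0 → u ∈ liftI (Fin m) (mO C) :=
    fun u hu => mem_liftI.2 (by rw [hu]; exact zero_mem _)
  have r1 := fadd_sub_mem (F := H.map (tau x 1)) hg (hm _ u1) (hm _ v1)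
  have r2 := coeff_eq_zero_of_mem_span_X_pow (j := 2) (d := Finsupp.single l 1)
    ((Ideal.span_singleton_le_iff_mem _).2
      (by rw [pow_two]; exact Ideal.mul_mem_mul (basis_mem u1) (basis_mem v1)) r1) (by simp)
  rw [← key, map_sub, map_add, u2, v2, sub_eq_zero, map_map] at r2
  have hY := fadd_mem (F := H.map ((tau x 1).comp (iterateFrobenius _ p h))) hg (hC y ha')
    (hC y' hb')
  have c1 : constantCoeff (fadd (H.map ((tau x 1).comp (iterateFrobenius _ p h)))
      (MvPowerSeries.C y) (MvPowerSeries.C y')) =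
      fadd (H.map (x.comp (iterateFrobenius _ p h))) y y' := by
    rw [map_fadd hg good_mO _ (hC y ha') (hC y' hb') (hC y ha') (hC y' hb'), map_map,
      ← RingHom.comp_assoc, hτ, constantCoeff_C, constantCoeff_C]
  have c2 : fadd (H.map ((tau x 1).comp (iterateFrobenius _ p h)))
      (MvPowerSeries.C y) (MvPowerSeries.C y') -
      MvPowerSeries.C (fadd (H.map (x.comp (iterateFrobenius _ p h))) y y') ∈
      Ideal.span (Set.range (X : Fin m → MvPowerSeries (Fin m) (O C))) ^ p ^ h := by
    rw [map_fadd good_mO hg _ ha' hb' (hC y ha') (hC y' hb'), map_map, fadd, fadd, ← map_sub]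
    refine ev_mem_of_coeff_mem hg _ (fun i => ?_)
      (Ideal.FG.pow (Submodule.fg_span (Set.finite_range _))) fun d => ?_
    · fin_cases i
      exacts [hC y ha', hC y' hb']
    · simp only [FormalGroup.map, RingHom.id_apply, map_sub, coeff_map, RingHom.comp_apply,
        iterateFrobenius_def, map_pow]
      rw [← sub_pow_char_pow]
      refine Ideal.pow_mem_pow (basis_mem ?_) _
      rw [map_sub, constantCoeff_C, constantCoeff_tau hx, sub_self]
  have c3 := coeff_eq_zero_of_mem_span_X_pow (d := Finsupp.single l 1) c2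
    (by simpa using Nat.one_lt_pow (by omega) hp.one_lt)
  rw [map_sub, coeff_C_of_ne_zero (by simp), sub_zero] at c3
  rw [coeff_single_ev1_tau hx 1 V hY l, c1, c3, zero_mul, add_zero, one_mul] at r2
  exact r2

/-- `V.map x` has `p ^ m` distinct roots `y` in the open ball (`exists_root`, `exists_factor`,
`nm_derivative_hom`).  If `∑ δ l • kap l` vanishes at all of them, normalise `δ` to have a unit
entry; the series is divisible by `∏ (X - y)`, so its coefficients below degree `p ^ m` are of norm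
`< 1`, but its coefficient of `X ^ p ^ i` is `δ i`.  Hence the vectors `(kap l y)_l` span and we can
choose a basis `y i`; let `z i 1 = (y i) ^ (1 / d)`, extend to systems.  `y ↦ kap l y` is additive on
the roots (expand `V (H^(d) (y, y')) = H (V y, V y')` along `tau x 1` to first order; the Frobenius
twist of the family is constant to first order), which gives the independence. -/
theorem exists_basis [CharP κ p] {h : ℕ} (hh : 1 ≤ h) (H : FormalGroup (MvPowerSeries (Fin m) κ))
    [H.IsComm] (V : PowerSeries (MvPowerSeries (Fin m) κ))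
    (hV : mulSeries H p =
      V.subst (PowerSeries.X ^ p ^ h : PowerSeries (MvPowerSeries (Fin m) κ)))
    (hcoord : ∀ i : Fin m, PowerSeries.coeff (p ^ (i : ℕ)) V = X i)
    (x : MvPowerSeries (Fin m) κ →+* O C) (hx : ∀ i, x (X i) ∈ mO C) {ε : ℝ} (hε : ε < 1)
    (hH : Near p (h + m) h (H.map x) (V.map x) ε) (h1 : x (PowerSeries.coeff 1 V) ≠ 0) :
    ∃ (z : Fin m → ℕ → O C) (z₁ : Fin m → Pt (H.map x) (mO C)),
      (∀ i, IsSys p (H.map x) (z i)) ∧ (∀ i, z i 0 = 0) ∧ (∀ i, (z₁ i).1 = z i 1) ∧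
      (Matrix.of fun i l => ((ev1 (z i 1 ^ p ^ h) (kap V x l) : O C) : C)).det ≠ 0 ∧
      ∀ c : Fin m → ℕ, ∑ i, c i • z₁ i = 0 → ∀ i, p ∣ c i := by
  have hp : p.Prime := Fact.out
  have hp0 := hp.pos
  have hn : 1 ≤ h + m := by omega
  have hVhom : IsFGHom (H.map (iterateFrobenius _ p h)) H V :=
    isFGHom_of_subst_X_pow p (hV ▸ isFGHom_mulSeries p)
  have hred : (V.map x).map (Ideal.Quotient.mk (mO C)) = PowerSeries.X ^ p ^ m := by
    have e : (PowerSeries.X ^ p ^ m : PowerSeries (O C ⧸ mO C)) =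
        (PowerSeries.X ^ p ^ m : PowerSeries (O C)).map (Ideal.Quotient.mk (mO C)) := by
      rw [map_pow, PowerSeries.map_X]
    rw [e]
    ext j
    rw [PowerSeries.coeff_map, PowerSeries.coeff_map (Ideal.Quotient.mk (mO C)), Ideal.Quotient.eq]
    exact mem_mO.2 ((Near.V p hn hH j).trans_lt hε)
  obtain ⟨S, hS, hS'⟩ := basis_roots hred (fun y hy h0 => h1 (by
    have := nm_derivative_hom (isFGHom_map hVhom x) hy
    rw [h0, PowerSeries.coeff_map, nm_eq_zero.2 rfl] at this
    exact nm_eq_zero.1 this.symm)) _ le_rfl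
  obtain ⟨a, ha⟩ := basis_lin (fun (y : S) l => ((ev1 (y : O C) (kap V x l) : O C) : C))
    (basis_span p hcoord x S (fun y hy => (hS' y hy).1) hS)
  have hw : ∀ i, frz C p (-(h : ℤ)) (a i) ∈ mO C := fun i => frz_mem_mO p _ (hS' _ (a i).2).1
  have hmul : ∀ w ∈ mO C, ev1 w (mulSeries (H.map x) p) = ev1 (w ^ p ^ h) (V.map x) :=
    fun w hw => by
      rw [hH.hV, ev1_subst good_mO hw
        (by rw [map_pow, PowerSeries.constantCoeff_X, zero_pow (by positivity)]), map_pow,
        ev1_X good_mO hw]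
  have hw0 : ∀ i, ev1 (frz C p (-(h : ℤ)) (a i)) (mulSeries (H.map x) p) = 0 := fun i => by
    rw [hmul _ (hw i), frz_neg_pow]
    exact (hS' _ (a i).2).2
  choose z' hz' hz'0 using fun i => exists_sys hn hε hH (hw i)
  refine ⟨fun i s => Nat.casesOn s 0 (z' i), fun i => ⟨z' i 0, (hz' i).1 0⟩,
    fun i => ⟨fun s => ?_, fun s => ?_⟩, fun _ => rfl, fun _ => rfl, ?_, fun c hc i => ?_⟩
  · cases s
    exacts [zero_mem _, (hz' i).1 _]
  · cases s
    · change ev1 (z' i 0) _ = 0
      rw [hz'0, hw0]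
    · exact (hz' i).2 _
  · change (Matrix.of fun i l => ((ev1 (z' i 0 ^ p ^ h) (kap V x l) : O C) : C)).det ≠ 0
    simpa only [hz'0, frz_neg_pow] using ha
  · let T : AddSubmonoid (Pt (H.map x) (mO C)) :=
      AddMonoidHom.mker (Pt.hom (mulSeries (H.map x) p) (isFGHom_mulSeries p))
    have hT : ∀ P : T, ev1 (P.1.1 ^ p ^ h) (V.map x) = 0 := fun P => by
      rw [← hmul _ P.1.2]
      have h0 : Pt.hom (mulSeries (H.map x) p) (isFGHom_mulSeries p) P.1 = 0 := P.2
      exact congrArg (fun Q : Pt (H.map x) (mO C) => Q.1) h0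
    let φ : Fin m → T →+ O C := fun l => AddMonoidHom.mk'
      (fun P => ev1 (P.1.1 ^ p ^ h) (kap V x l)) fun P Q =>
        basis_add p hh hVhom hx P.1.2 Q.1.2 (hT P) (hT Q) l
    let t : Fin m → T := fun i => ⟨⟨z' i 0, (hz' i).1 0⟩, AddMonoidHom.mem_mker.2 (Pt.ext (by
      change ev1 (z' i 0) _ = 0
      rw [hz'0, hw0]))⟩
    have h0 : ∑ i, c i • t i = 0 := Subtype.ext (by
      rw [AddSubmonoidClass.coe_finsetSum]
      exact hc)
    have h2 : Matrix.vecMul (fun i => (c i : C))
        (Matrix.of fun i l => ((ev1 (a i : O C) (kap V x l) : O C) : C)) = 0 := by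
      funext l
      have h3 := congrArg (fun P => ((φ l P : O C) : C)) h0
      simp only [map_sum, map_nsmul, map_zero, AddSubmonoidClass.coe_finsetSum, φ, t,
        AddMonoidHom.mk'_apply, hz'0, frz_neg_pow, nsmul_eq_mul, Subring.coe_mul,
        Subring.coe_natCast] at h3
      exact h3
    exact (CharP.cast_eq_zero_iff C p _).1 (congrFun (Matrix.eq_zero_of_vecMul_eq_zero ha h2) i)

end Crest.Agent.R227.K
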