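import Crest.Agent.R227.K.ThetaFn

/-! Row 227, task `R227/K/Basis1`: choice of torsion points with invertible Kodaira–Spencer matrix.
Definitions: DO NOT CHANGE (owner helper98). -/

set_option autoImplicit false

namespace Crest.Agent.R227.K

open MvPowerSeries Crest.LubinTate
open scoped BigOperators

variable {C : Type*} [NormedField C] [IsUltrametricDist C] {κ : Type*} [CommRing κ] {m : ℕ}

/-- the derivative of `V` in the direction of the `l`-th coordinate, at the point `x` -/
noncomputable def kap (V : PowerSeries (MvPowerSeries (Fin m) κ))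
    (x : MvPowerSeries (Fin m) κ →+* O C) (l : Fin m) : PowerSeries (O C) :=
  PowerSeries.mk fun j => x (pderiv κ l (PowerSeries.coeff j V))

/-- the family `u ↦ x (u) + c δ` around the point `x` -/
noncomputable def tau (x : MvPowerSeries (Fin m) κ →+* O C) (c : O C) :
    MvPowerSeries (Fin m) κ →+* MvPowerSeries (Fin m) (O C) :=
  ev ((MvPowerSeries.C : O C →+* MvPowerSeries (Fin m) (O C)).comp
      (x.comp (MvPowerSeries.C : κ →+* MvPowerSeries (Fin m) κ)))
    fun i => MvPowerSeries.C (x (X i)) + MvPowerSeries.C c * X i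

theorem basis1_coeff_ev1 {B σ : Type*} [CommRing B] [Finite σ] {N : Ideal B} (hN : Good N)
    {Y : MvPowerSeries σ B} (hY : constantCoeff Y ∈ N) (W : PowerSeries (MvPowerSeries σ B))
    (l : σ) : coeff (Finsupp.single l 1) (ev1 Y W) =
      ev1 (constantCoeff Y) (PowerSeries.mk fun j =>
          coeff (Finsupp.single l 1) (PowerSeries.coeff j W)) + coeff (Finsupp.single l 1) Y *
        ev1 (constantCoeff Y) (PowerSeries.derivative B (W.map constantCoeff)) := by
  obtain ⟨g, hg⟩ := exists_factor (hN.liftI (σ := σ)) hY W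
  generalize ev1 Y W = r at hg
  have h1 : (PowerSeries.mk fun j => coeff (Finsupp.single l 1) (PowerSeries.coeff j W)) =
      PowerSeries.C (coeff (Finsupp.single l 1) r) +
        (PowerSeries.X - PowerSeries.C (constantCoeff Y)) *
          (PowerSeries.mk fun j => coeff (Finsupp.single l 1) (PowerSeries.coeff j g)) -
        PowerSeries.C (coeff (Finsupp.single l 1) Y) * g.map constantCoeff := by
    ext j
    have h2 : coeff (Finsupp.single l 1) (Y * PowerSeries.coeff j g) =
        constantCoeff Y * coeff (Finsupp.single l 1) (PowerSeries.coeff j g) +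
          coeff (Finsupp.single l 1) Y * constantCoeff (PowerSeries.coeff j g) := by
      simp only [← R227.constantCoeff_pderiv, Derivation.leibniz, smul_eq_mul, map_add, map_mul]
      ring
    rw [hg, map_sub, PowerSeries.coeff_C_mul, PowerSeries.coeff_map]
    cases j <;> simp [sub_mul, PowerSeries.coeff_C, PowerSeries.coeff_succ_X_mul] at h2 ⊢ <;>
      linear_combination -h2
  rw [h1, hg]
  simp [ev1_X hN hY]

variable [CompleteSpace C]

theorem constantCoeff_tau {x : MvPowerSeries (Fin m) κ →+* O C} (hx : ∀ i, x (X i) ∈ mO C)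
    (c : O C) (f : MvPowerSeries (Fin m) κ) : constantCoeff (tau x c f) = x f := by
  rw [tau, constantCoeff_ev_translate good_mO _ hx,
    ← eq_ev good_mO x _ _ hx (fun _ => rfl) fun _ => rfl]

theorem coeff_single_tau {x : MvPowerSeries (Fin m) κ →+* O C} (hx : ∀ i, x (X i) ∈ mO C)
    (c : O C) (f : MvPowerSeries (Fin m) κ) (l : Fin m) :
    coeff (Finsupp.single l 1) (tau x c f) = c * x (pderiv κ l f) := by
  rw [tau, coeff_single_ev_translate good_mO _ hx,
    ← eq_ev good_mO x _ _ hx (fun _ => rfl) fun _ => rfl]

/-- evaluation of `V` along the family at a point `Y` over `y`: linear coefficients -/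
theorem coeff_single_ev1_tau {x : MvPowerSeries (Fin m) κ →+* O C} (hx : ∀ i, x (X i) ∈ mO C)
    (c : O C) (V : PowerSeries (MvPowerSeries (Fin m) κ)) {Y : MvPowerSeries (Fin m) (O C)}
    (hY : constantCoeff Y ∈ mO C) (l : Fin m) :
    coeff (Finsupp.single l 1) (ev1 Y (V.map (tau x c))) =
      c * ev1 (constantCoeff Y) (kap V x l) +
        coeff (Finsupp.single l 1) Y *
          ev1 (constantCoeff Y) (PowerSeries.derivative (O C) (V.map x)) := by
  have h1 : (PowerSeries.mk fun j => coeff (Finsupp.single l 1)
      (PowerSeries.coeff j (V.map (tau x c)))) = PowerSeries.C c * kap V x l := by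
    ext j
    rw [PowerSeries.coeff_mk, PowerSeries.coeff_map, coeff_single_tau hx, PowerSeries.coeff_C_mul,
      kap, PowerSeries.coeff_mk]
  have h2 : (V.map (tau x c)).map constantCoeff = V.map x := by
    ext j
    rw [PowerSeries.coeff_map, PowerSeries.coeff_map, constantCoeff_tau hx, PowerSeries.coeff_map]
  rw [basis1_coeff_ev1 good_mO hY, h1, h2, map_mul, ev1_C]

variable [IsAlgClosed C] (p : ℕ) [Fact p.Prime] [CharP C p]

/-- derivative of a homomorphism at a point (`derivative_mul_invDiff`; `invDiff` takes unit values) -/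
theorem nm_derivative_hom {F G : FormalGroup (O C)} {f : PowerSeries (O C)} (hf : IsFGHom F G f)
    {y : O C} (hy : y ∈ mO C) :
    nm (ev1 y (PowerSeries.derivative (O C) f)) = nm (PowerSeries.coeff 1 f) := by
  have h1 : ∀ (z : O C) (H : FormalGroup (O C)), nm (ev1 z (invDiff H)) = 1 := fun z H =>
    isUnit_iff_nm.1 ((PowerSeries.isUnit_iff_constantCoeff.2
      (by rw [constantCoeff_invDiff]; exact isUnit_one)).map _)
  have h2 := congrArg (fun g => nm (ev1 y g)) (derivative_mul_invDiff hf)
  simpa only [map_mul, ev1_C, ev1_subst good_mO hy hf.1, nm_mul, h1, mul_one] using h2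

end Crest.Agent.R227.K
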