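import Crest.Agent.R227.K.Big1

/-! Row 227, task `R227/K/Big`: a complete algebraically closed nonarchimedean field of
characteristic `p`. -/

set_option autoImplicit false

namespace Crest.Agent.R227.K

open UniformSpace in
/-- the completion of a nontrivially normed nonarchimedean field -/
theorem big_completion (p : ℕ) (K : Type) [NontriviallyNormedField K] [IsUltrametricDist K]
    [CharP K p] : ∃ (C : Type) (_ : NontriviallyNormedField C) (_ : IsUltrametricDist C)
      (_ : CompleteSpace C) (φ : K →+* C), CharP C p ∧ DenseRange φ := by
  let : NontriviallyNormedField (Completion K) :=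
    { (inferInstance : NormedField (Completion K)) with
      non_trivial :=
        let ⟨x, hx⟩ := NontriviallyNormedField.non_trivial (α := K)
        ⟨x, hx.trans_eq (Completion.norm_coe x).symm⟩ }
  exact ⟨Completion K, this, IsUltrametricDist.of_normedAlgebra K, inferInstance,
    Completion.coeRingHom, charP_of_injective_ringHom Completion.coeRingHom.injective p,
    Completion.denseRange_coe⟩

theorem big_first (p : ℕ) [Fact p.Prime] : ∃ (K : Type) (_ : NontriviallyNormedField K)
    (_ : IsUltrametricDist K), CharP K p := by
  have hb : (1 : NNReal) < 2 := one_lt_two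
  let v : AbsoluteValue (RatFunc (ZMod p)) ℝ := (Polynomial.idealX (ZMod p)).adicAbv hb
  have h1 : v RatFunc.X < 1 := by
    rw [← RatFunc.algebraMap_X]
    exact ((Polynomial.idealX (ZMod p)).adicAbv_coe_lt_one_iff hb _).2
      (Ideal.mem_span_singleton_self _)
  let : NontriviallyNormedField (RatFunc (ZMod p)) :=
    { v.toNormedField with
      non_trivial := ⟨RatFunc.X⁻¹, by
        change 1 < v RatFunc.X⁻¹
        rw [map_inv₀]
        exact (one_lt_inv₀ (v.pos RatFunc.X_ne_zero)).2 h1⟩ }
  exact ⟨RatFunc (ZMod p), this, IsUltrametricDist.isUltrametricDist_of_isNonarchimedean_norm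
    ((Polynomial.idealX (ZMod p)).isNonarchimedean_adicAbv hb),
    charP_of_injective_ringHom (RatFunc.C : ZMod p →+* RatFunc (ZMod p)).injective p⟩

/-- complete `RatFunc (ZMod p)` (or Laurent series) for a nontrivial nonarchimedean absolute value,
put the spectral norm on an algebraic closure (`spectralNorm.normedField`, as for `PadicAlgCl`),
complete again. -/
theorem exists_bigField (p : ℕ) [Fact p.Prime] :
    ∃ (C : Type) (_ : NontriviallyNormedField C) (_ : IsUltrametricDist C) (_ : CompleteSpace C)
      (_ : IsAlgClosed C), CharP C p := by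
  obtain ⟨K₀, _, _, _⟩ := big_first p
  obtain ⟨K, _, _, _, -, _, -⟩ := big_completion p K₀
  let := spectralNorm.nontriviallyNormedField K (AlgebraicClosure K)
  have : IsUltrametricDist (AlgebraicClosure K) :=
    IsUltrametricDist.isUltrametricDist_of_isNonarchimedean_norm
      (isNonarchimedean_spectralNorm (K := K) (L := AlgebraicClosure K))
  obtain ⟨C, i1, i2, i3, φ, h, hφ⟩ := big_completion p (AlgebraicClosure K)
  exact ⟨C, i1, i2, i3, isAlgClosed_of_denseRange φ hφ, h⟩

end Crest.Agent.R227.K
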