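import Mathlib

/-! Row 227, task `R227/K/Big1`: a complete algebraically closed nonarchimedean field of
characteristic `p`. -/

set_option autoImplicit false

namespace Crest.Agent.R227.K

open Polynomial in
theorem big1_nontriv {K L : Type*} [Field K] [NontriviallyNormedField L]
    [CompleteSpace L] [IsUltrametricDist L] [Algebra K L]
    (hi : DenseRange (algebraMap K L)) [IsAlgClosed K] : IsAlgClosed L := by
  apply IsAlgClosed.of_exists_root
  intro f fmon firr
  have fnatdeg0 : f.natDegree ≠ 0 := (Irreducible.natDegree_pos firr).ne'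
  let F := f.SplittingField
  let : NormedField F := spectralNorm.normedField L F
  let : NormedAlgebra L F := spectralNorm.normedAlgebra L F
  let a := rootOfSplits (SplittingField.splits f)
      (by simpa using degree_ne_of_natDegree_ne fnatdeg0)
  have fa0 : f.aeval a = 0 := by
    rw [← eval_map_algebraMap]
    exact eval_rootOfSplits (Polynomial.SplittingField.splits f)
      (by simpa using degree_ne_of_natDegree_ne fnatdeg0)
  have hcl : IsClosed (Set.range (algebraMap L F)) :=
    (algebraMap_isometry L F).isClosedEmbedding.isClosed_range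
  have hmem : a ∈ Set.range (algebraMap L F) := by
    rw [← hcl.closure_eq, Metric.mem_closure_iff]
    intro δ δpos
    have hε : (δ / (max ‖a‖ 1)) ^ f.natDegree / (f.natDegree + 1) > 0 := by positivity
    obtain ⟨g, gmon, gdeg, gcoeff⟩ :=
      exists_monic_and_natDegree_eq_and_norm_map_algebraMap_coeff_sub_lt hi fmon hε
    let ⟨b, hb, hab⟩ := exists_aroots_norm_sub_lt_of_norm_coeff_sub_lt
      hε fa0 fmon (gmon.map _) (gdeg ▸ (g.natDegree_map _)) gcoeff
      (by simpa [Polynomial.map_map] using (IsAlgClosed.splits g).map ((algebraMap L F).comp _))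
    have hab : ‖a - b‖ < δ := by
      rw [← Real.rpow_natCast, ← mul_comm_div, div_self, one_mul,
          ← Real.rpow_mul (div_pos δpos (by positivity)).le, mul_inv_cancel₀] at hab
      · simpa [mul_assoc, div_mul_cancel₀ _ (by positivity : (max ‖a‖ 1) > 0).ne'] using hab
      · simp [fnatdeg0]
      · positivity
    rw [Polynomial.aroots_def, Splits.roots_map ((IsAlgClosed.splits g).map _),
        Multiset.mem_map] at hb
    obtain ⟨c, _, hc⟩ := hb
    exact ⟨b, ⟨c, hc⟩, by rwa [dist_eq_norm]⟩
  obtain ⟨c, hc⟩ := hmem
  use c
  apply_fun algebraMap L F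
  · rwa [← Polynomial.aeval_algebraMap_apply_eq_algebraMap_eval, hc, map_zero]
  · exact RingHom.injective _

/-- a complete nonarchimedean field with an algebraically closed dense subfield is algebraically
closed: approximate a monic `f` of degree `n` by monic `f i` over the subfield; a root `a` of `f i`
has a root `a'` of `f (i + 1)` with `‖a - a'‖ ^ n ≤ ‖f (i + 1) a‖`; the roots form a Cauchy
sequence. -/
theorem isAlgClosed_of_denseRange {K L : Type*} [Field K] [IsAlgClosed K] [NormedField L]
    [IsUltrametricDist L] [CompleteSpace L] (φ : K →+* L) (hφ : DenseRange φ) :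
    IsAlgClosed L := by
  by_cases h : ∃ x : L, 1 < ‖x‖
  · let : NontriviallyNormedField L := { ‹NormedField L› with non_trivial := h }
    let : Algebra K L := φ.toAlgebra
    exact big1_nontriv (K := K) hφ
  · push Not at h
    have hs : Function.Surjective φ := by
      intro y
      obtain ⟨k, hk⟩ := Metric.denseRange_iff.1 hφ y 1 one_pos
      refine ⟨k, ?_⟩
      by_contra hne
      have h0 : y - φ k ≠ 0 := sub_ne_zero.2 (Ne.symm hne)
      have h1 := h (y - φ k)⁻¹
      rw [dist_eq_norm] at hk
      rw [norm_inv, inv_le_one₀ (norm_pos_iff.2 h0)] at h1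
      linarith
    refine ⟨fun p => ?_⟩
    obtain ⟨g, rfl⟩ := Polynomial.map_surjective φ hs p
    exact (IsAlgClosed.splits g).map φ

end Crest.Agent.R227.K
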