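import Crest.Agent.R227.K.Chart1

/-! Row 227, task `R227/K/Chart`: the formal chart around a point of the height `h` stratum. -/

set_option autoImplicit false
set_option linter.unusedSectionVars false

namespace Crest.Agent.R227.K

open MvPowerSeries Crest.LubinTate
open scoped BigOperators

section alg

variable {R B σ : Type*} [CommRing R] [CommRing B]

theorem chart_cc_map (φ : R →+* B) (f : PowerSeries R) :
    PowerSeries.constantCoeff (f.map φ) = φ (PowerSeries.constantCoeff f) := by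
  rw [← PowerSeries.coeff_zero_eq_constantCoeff_apply, PowerSeries.coeff_map,
    PowerSeries.coeff_zero_eq_constantCoeff_apply]

theorem chart_mem [Finite σ] {f : MvPowerSeries σ R} (hf : constantCoeff f = 0) :
    f ∈ Ideal.span (Set.range (X : σ → MvPowerSeries σ R)) := by
  have := mem_span_X_pow (f := f) (j := 1) fun d hd => by
    rw [Nat.lt_one_iff, Finsupp.degree_eq_zero_iff] at hd
    rw [hd, coeff_zero_eq_constantCoeff_apply, hf]
  rwa [pow_one] at this

theorem chart_fg [Finite σ] (j : ℕ) :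
    (Ideal.span (Set.range (X : σ → MvPowerSeries σ R)) ^ j).FG :=
  Ideal.FG.pow (Submodule.fg_span (Set.finite_range _))

theorem chart_order [Finite σ] {f : MvPowerSeries σ R} {b : σ → MvPowerSeries σ R}
    (hb : ∀ i, constantCoeff (b i) = 0) {j : ℕ} (hf : ∀ d : σ →₀ ℕ, d.degree < j → coeff d f = 0)
    {d : σ →₀ ℕ} (hd : d.degree < j) : coeff d (f.subst b) = 0 := by
  rw [subst_eq_ev hb]
  exact coeff_eq_zero_of_mem_span_X_pow (ev_mem_pow good_liftI_bot _
    (fun i => mem_liftI.2 (by rw [hb]; exact zero_mem _)) (fun i => chart_mem (hb i)) hf) hd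

theorem chart_ev1_map_sub {N J : Ideal B} (hN : Good N) (hJ : J.FG) {z : B} (hz : z ∈ N)
    (V : PowerSeries R) {τ₁ τ₂ : R →+* B} (h : ∀ v, τ₁ v - τ₂ v ∈ J) :
    ev1 z (V.map τ₁) - ev1 z (V.map τ₂) ∈ J := by
  rw [← map_sub]
  refine ev_mem_of_coeff_mem hN (RingHom.id B) (fun _ => hz) hJ fun d => ?_
  rw [RingHom.id_apply, ← PowerSeries.coeff_def rfl, map_sub, PowerSeries.coeff_map,
    PowerSeries.coeff_map]
  exact h _

theorem chart_ev1_sub {N J : Ideal B} (hN : Good N) {z z' : B} (hz : z ∈ N) (hz' : z' ∈ N)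
    (h : z' - z ∈ J) (f : PowerSeries B) : ev1 z' f - ev1 z f ∈ J :=
  ev_sub_mem hN (RingHom.id B) (fun _ => hz) (fun _ => hz') (fun _ => h) f

theorem chart_ev1_comp {N : Ideal B} (hN : Good N) {z : B} (hz : z ∈ N) (φ : R →+* B)
    (θ : PowerSeries R) {V : PowerSeries R} (hV : PowerSeries.constantCoeff V = 0) :
    ev1 z (PowerSeries.map φ (θ.subst V)) = ev1 (ev1 z (V.map φ)) (θ.map φ) := by
  have e : PowerSeries.map φ (θ.subst V) = (θ.map φ).subst (V.map φ) :=
    PowerSeries.map_subst (PowerSeries.HasSubst.of_constantCoeff_zero' hV) θ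
  rw [e, ev1_subst hN hz (by rw [chart_cc_map, hV, map_zero])]

theorem chart_map_map {T : Type*} [CommRing T] (φ : R →+* B) (ψ : B →+* T) (V : PowerSeries R) :
    (V.map φ).map ψ = V.map (ψ.comp φ) := by
  ext j
  simp

end alg

variable {C : Type*} [NormedField C] [IsUltrametricDist C] [CompleteSpace C] {κ : Type*}
  [CommRing κ] {m : ℕ} [IsAlgClosed C] (p : ℕ) [Fact p.Prime] [CharP C p] [CharP κ p]

omit [CompleteSpace C] [IsAlgClosed C] in
theorem chart_denom {σ : Type*} (G : MvPolynomial σ C) : ∃ μ : O C, μ ≠ 0 ∧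
    ∃ G' : MvPolynomial σ (O C), G'.map (O C).subtype = MvPolynomial.C (μ : C) * G := by
  induction G using MvPolynomial.induction_on' with
  | monomial u a =>
    by_cases ha : ‖a‖ ≤ 1
    · exact ⟨1, one_ne_zero, MvPolynomial.monomial u ⟨a, ha⟩, by simp⟩
    · have ha1 : 1 < ‖a‖ := not_le.1 ha
      have ha0 : a ≠ 0 := norm_pos_iff.1 (zero_lt_one.trans ha1)
      refine ⟨⟨a⁻¹, mem_O.2 (by rw [norm_inv]; exact inv_le_one_of_one_le₀ ha1.le)⟩,
        fun h => inv_ne_zero ha0 (congrArg Subtype.val h), MvPolynomial.monomial u 1, ?_⟩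
      simp [MvPolynomial.C_mul_monomial, ha0]
  | add P Q hP hQ =>
    obtain ⟨μ, hμ, P', hP⟩ := hP
    obtain ⟨ν, hν, Q', hQ⟩ := hQ
    refine ⟨μ * ν, mul_ne_zero hμ hν, MvPolynomial.C ν * P' + MvPolynomial.C μ * Q', ?_⟩
    simp only [map_add, map_mul, MvPolynomial.map_C, hP, hQ, Subring.coe_subtype, Subring.coe_mul]
    ring

omit [CompleteSpace C] [IsAlgClosed C] in
/-- `f ∘ 𝒩⁻¹`, truncated and multiplied by a common denominator -/
theorem chart_alg (𝒩 : Fin m → MvPowerSeries (Fin m) (O C)) (h0 : ∀ i, constantCoeff (𝒩 i) = 0)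
    (h1 : (Matrix.of fun i l => ((coeff (Finsupp.single l 1) (𝒩 i) : O C) : C)).det ≠ 0)
    (F : MvPowerSeries (Fin m) (O C)) {J₀ : Fin m →₀ ℕ} (hF : coeff J₀ F ≠ 0) {n : ℕ}
    (hn : J₀.degree < n) : ∃ (G : MvPolynomial (Fin m) (O C)) (μ : O C),
      (∃ J : Fin m →₀ ℕ, J.degree ≤ J₀.degree ∧ G.coeff J ≠ 0) ∧
      ∀ d : Fin m →₀ ℕ, d.degree < n →
        coeff d ((G : MvPowerSeries (Fin m) (O C)).subst 𝒩 - MvPowerSeries.C μ * F) = 0 := by
  have h0' : ∀ i, constantCoeff ((𝒩 i).map (O C).subtype) = 0 := fun i => by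
    rw [constantCoeff_map, h0, map_zero]
  obtain ⟨Ψ, hΨ, hΨ1, -⟩ := exists_inverse (fun i => (𝒩 i).map (O C).subtype) h0'
    (isUnit_iff_ne_zero.2 h1)
  have s0 := hasSubst_of_constantCoeff_zero h0
  have s1 := hasSubst_of_constantCoeff_zero h0'
  have s2 := hasSubst_of_constantCoeff_zero hΨ
  obtain ⟨Gf, hGf⟩ : ∃ Gf : MvPowerSeries (Fin m) C, Gf = (F.map (O C).subtype).subst Ψ := ⟨_, rfl⟩
  have hback : Gf.subst (fun i => (𝒩 i).map (O C).subtype) = F.map (O C).subtype := by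
    rw [hGf, subst_comp_subst_apply s2 s1]
    simp only [hΨ1]
    exact congrFun subst_self _
  obtain ⟨μ, hμ, G, hG⟩ := chart_denom (Gf.truncTotal n)
  refine ⟨G, μ, ?_, fun d hd => ?_⟩
  · by_contra hcon
    push Not at hcon
    refine hF (Subtype.ext ?_)
    have := chart_order (f := Gf) h0' (j := J₀.degree + 1) (fun d hd => by
      have e := congrArg (MvPolynomial.coeff d) hG
      rw [MvPolynomial.coeff_map, MvPolynomial.coeff_C_mul, hcon d (Nat.lt_succ_iff.1 hd), map_zero,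
        coeff_truncTotal _ (by omega)] at e
      exact (mul_eq_zero.1 e.symm).resolve_left fun h => hμ (Subtype.ext h)) (Nat.lt_succ_self _)
    rwa [hback, coeff_map] at this
  · refine Subtype.ext ?_
    have e1 : ((G : MvPowerSeries (Fin m) (O C)).subst 𝒩 - MvPowerSeries.C μ * F).map
        (O C).subtype = ((G : MvPowerSeries (Fin m) (O C)).map (O C).subtype -
          MvPowerSeries.C (μ : C) * Gf).subst fun i => (𝒩 i).map (O C).subtype := by
      rw [subst_sub s1, subst_mul s1, subst_C, hback, map_sub, map_mul, map_C, map_subst s0]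
      rfl
    have := chart_order (f := (G : MvPowerSeries (Fin m) (O C)).map (O C).subtype -
      MvPowerSeries.C (μ : C) * Gf) h0' (j := n) (fun d hd => by
        have e := congrArg (MvPolynomial.coeff d) hG
        rw [MvPolynomial.coeff_map, MvPolynomial.coeff_C_mul, coeff_truncTotal _ hd] at e
        rw [map_sub, coeff_map, coeff_C_mul, MvPolynomial.coeff_coe, e, sub_self]) hd
    rwa [← e1, coeff_map] at this

omit [IsAlgClosed C] in
theorem chart_good : Good (liftI (Fin m) (mO C)) := good_mO.liftI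

omit [IsAlgClosed C] in
/-- the Frobenius twist of the family is constant to high order -/
theorem chart_step {x : MvPowerSeries (Fin m) κ →+* O C} (hx : ∀ i, x (X i) ∈ mO C) (c : O C)
    (k : ℕ) {V : PowerSeries (MvPowerSeries (Fin m) κ)} (hV : PowerSeries.constantCoeff V = 0)
    {Y : MvPowerSeries (Fin m) (O C)} (hY : constantCoeff Y ∈ mO C) (θ : PowerSeries (O C)) :
    ev1 Y (PowerSeries.map MvPowerSeries.C
        (θ.subst (V.map (x.comp (iterateFrobenius (MvPowerSeries (Fin m) κ) p k))))) -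
      ev1 (ev1 Y (V.map ((tau x c).comp (iterateFrobenius (MvPowerSeries (Fin m) κ) p k))))
        (θ.map MvPowerSeries.C) ∈
      Ideal.span (Set.range (X : Fin m → MvPowerSeries (Fin m) (O C))) ^ p ^ k := by
  have hY' : Y ∈ liftI (Fin m) (mO C) := hY
  rw [chart_ev1_comp chart_good hY' _ _ (by rw [chart_cc_map, hV, map_zero]),
    chart_map_map]
  refine chart_ev1_sub chart_good
    (ev1_mem chart_good hY' (by rw [chart_cc_map, hV, map_zero]; exact zero_mem _))
    (ev1_mem chart_good hY' (by rw [chart_cc_map, hV, map_zero]; exact zero_mem _))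
    (chart_ev1_map_sub chart_good (chart_fg _) hY' V fun v => ?_) _
  simp only [RingHom.comp_apply, iterateFrobenius_def, map_pow]
  rw [← sub_pow_char_pow]
  refine Ideal.pow_mem_pow (chart_mem ?_) _
  rw [map_sub, constantCoeff_C, constantCoeff_tau hx, sub_self]

omit [IsAlgClosed C] in
theorem chart_tau_zero {x : MvPowerSeries (Fin m) κ →+* O C} (hx : ∀ i, x (X i) ∈ mO C) :
    tau x 0 = (MvPowerSeries.C : O C →+* MvPowerSeries (Fin m) (O C)).comp x := by
  refine (eq_ev chart_good _ _ _ (fun i => mem_liftI.2 ?_) (fun _ => rfl) fun i => ?_).symm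
  · simpa using hx i
  · simp

omit [IsAlgClosed C] in
/-- the linear part of the chart -/
theorem chart_lin {x : MvPowerSeries (Fin m) κ →+* O C} (hx : ∀ i, x (X i) ∈ mO C) (c : O C)
    {V : PowerSeries (MvPowerSeries (Fin m) κ)} (hV : PowerSeries.constantCoeff V = 0)
    {Y : MvPowerSeries (Fin m) (O C)} (hY : constantCoeff Y ∈ mO C)
    (h0 : ev1 Y (V.map (tau x c)) = 0) {θ : PowerSeries (O C)}
    (hθ : PowerSeries.constantCoeff θ = 0) (l : Fin m) :
    coeff (Finsupp.single l 1) (ev1 Y (PowerSeries.map MvPowerSeries.C (θ.subst (V.map x)))) =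
      -(PowerSeries.coeff 1 θ * c) * ev1 (constantCoeff Y) (kap V x l) := by
  have hY' : Y ∈ liftI (Fin m) (mO C) := hY
  rw [chart_ev1_comp chart_good hY' _ _ (by rw [chart_cc_map, hV, map_zero]),
    chart_map_map, ← chart_tau_zero hx]
  have e1 := coeff_single_ev1_tau hx c V hY l
  have e2 := coeff_single_ev1_tau hx 0 V hY l
  have e3 : ev1 Y (V.map (tau x 0)) - ev1 Y (V.map (tau x c)) ∈
      Ideal.span (Set.range (X : Fin m → MvPowerSeries (Fin m) (O C))) :=
    chart_ev1_map_sub chart_good (Submodule.fg_span (Set.finite_range _)) hY' V fun v =>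
      chart_mem (by rw [map_sub, constantCoeff_tau hx, constantCoeff_tau hx, sub_self])
  have e4 : ev1 Y (V.map (tau x 0)) ∈ liftI (Fin m) (mO C) :=
    ev1_mem chart_good hY' (by rw [chart_cc_map, hV, map_zero]; exact zero_mem _)
  rw [h0, map_zero] at e1
  rw [h0, sub_zero] at e3
  generalize ev1 Y (V.map (tau x 0)) = W at *
  obtain ⟨c', hc'⟩ := ev1_taylor chart_good (zero_mem _) e4 (θ.map MvPowerSeries.C)
  have e5 : coeff (Finsupp.single l 1) (W ^ 2 * c') = 0 :=
    coeff_eq_zero_of_mem_span_X_pow (Ideal.mul_mem_right _ _ (Ideal.pow_mem_pow e3 2))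
      (by simp)
  have e6 : PowerSeries.constantCoeff (PowerSeries.derivative (MvPowerSeries (Fin m) (O C))
      (θ.map MvPowerSeries.C)) = MvPowerSeries.C (PowerSeries.coeff 1 θ) := by
    rw [← PowerSeries.coeff_zero_eq_constantCoeff_apply, PowerSeries.coeff_derivative,
      PowerSeries.coeff_map]
    simp
  rw [hc', ev1_zero, ev1_zero, chart_cc_map, hθ, map_zero, zero_add, sub_zero,
    map_add, e5, e6, coeff_mul_C, e2]
  linear_combination (-PowerSeries.coeff 1 θ) * e1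

/-- systems and the twists of `V` -/
theorem chart_sys {h : ℕ} {H : FormalGroup (MvPowerSeries (Fin m) κ)}
    {V : PowerSeries (MvPowerSeries (Fin m) κ)}
    (hV : mulSeries H p =
      V.subst (PowerSeries.X ^ p ^ h : PowerSeries (MvPowerSeries (Fin m) κ)))
    (x : MvPowerSeries (Fin m) κ →+* O C) {z : ℕ → O C} (hz : IsSys p (H.map x) z) (t : ℕ) :
    ev1 (z (t + 1) ^ (p ^ h) ^ (t + 1))
      (V.map (x.comp (iterateFrobenius (MvPowerSeries (Fin m) κ) p (h * t)))) =
      z t ^ (p ^ h) ^ t := by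
  have hp : 0 < p := (Fact.out : p.Prime).pos
  have e := hz.2 t
  rw [mulSeries_map, hV, chart_ev1_comp good_mO (hz.1 _) _ _
    (by rw [map_pow, PowerSeries.constantCoeff_X, zero_pow (by positivity)]), map_pow,
    PowerSeries.map_X, map_pow, ev1_X good_mO (hz.1 _)] at e
  have hm := Ideal.pow_mem_of_mem _ (hz.1 (t + 1)) (p ^ h) (by positivity)
  have e' := congrArg (iterateFrobenius (O C) p (h * t)) e
  rw [map_ev1 good_mO good_mO _ hm (Ideal.pow_mem_of_mem _ hm _ (by positivity)), chart_map_map,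
    ← RingHom.iterateFrobenius_comm, iterateFrobenius_def, iterateFrobenius_def, pow_mul p,
    ← pow_mul (z (t + 1)), ← pow_succ'] at e'
  exact e'

/-- specialisation of one formal root -/
theorem chart_root {x x' : MvPowerSeries (Fin m) κ →+* O C} (hx : ∀ i, x (X i) ∈ mO C) {c : O C}
    {e : MvPowerSeries (Fin m) (O C) →+* O C} (he : ∀ g, e (tau x c g) = x' g) {ρ β : ℝ}
    (hρ : ∀ g, nm (e g - constantCoeff g) ≤ ρ) (hρβ : ρ < β) {k : ℕ}
    {F G : FormalGroup (MvPowerSeries (Fin m) κ)} {V : PowerSeries (MvPowerSeries (Fin m) κ)}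
    (hV : IsFGHom F G V) (hβ : β ≤ nm (x (PowerSeries.coeff 1 V)) ^ p ^ k)
    {Y : MvPowerSeries (Fin m) (O C)} (hY : constantCoeff Y ∈ mO C) {a : O C} (ha : a ∈ mO C)
    (haY : nm (a - constantCoeff Y) < β)
    (hroot : ev1 a (V.map (x'.comp (iterateFrobenius (MvPowerSeries (Fin m) κ) p k))) =
      e (ev1 Y (V.map ((tau x c).comp (iterateFrobenius (MvPowerSeries (Fin m) κ) p k))))) :
    e Y = a := by
  have hp : 0 < p := (Fact.out : p.Prime).pos
  have hβ1 : β ≤ nm (x (PowerSeries.coeff 1 V)) :=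
    hβ.trans (pow_le_of_le_one (nm_nonneg _) (nm_le_one _) (by positivity))
  have hY' : Y ∈ liftI (Fin m) (mO C) := hY
  have heY : e Y ∈ mO C := by
    have := (mO C).add_mem (mem_mO.2 ((hρ Y).trans_lt (hρβ.trans_le (hβ1.trans (nm_le_one _))))) hY
    rwa [sub_add_cancel] at this
  have hc : e.comp ((tau x c).comp (iterateFrobenius (MvPowerSeries (Fin m) κ) p k)) =
      x'.comp (iterateFrobenius (MvPowerSeries (Fin m) κ) p k) := RingHom.ext fun g => he _
  rw [map_ev1 chart_good good_mO e hY' heY, chart_map_map, hc] at hroot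
  refine root_unique heY ha hroot.symm ?_
  rw [nm_derivative_hom (isFGHom_map hV _) heY, PowerSeries.coeff_map, RingHom.comp_apply,
    iterateFrobenius_def, map_pow, nm_pow]
  have h1 : nm (x (PowerSeries.coeff 1 V)) ≤ nm (x' (PowerSeries.coeff 1 V)) := by
    have h2 := hρ (tau x c (PowerSeries.coeff 1 V))
    rw [he, constantCoeff_tau hx] at h2
    have h3 := nm_sub_le (x' (PowerSeries.coeff 1 V))
      (x' (PowerSeries.coeff 1 V) - x (PowerSeries.coeff 1 V))
    rw [sub_sub_cancel] at h3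
    exact (le_max_iff.1 h3).resolve_right (not_le.2 (h2.trans_lt (hρβ.trans_le hβ1)))
  refine lt_of_lt_of_le ?_ (hβ.trans (pow_le_pow_left₀ (nm_nonneg _) h1 _))
  refine (nm_sub_le_max a (constantCoeff Y) (e Y)).trans_lt (max_lt haY ?_)
  rw [nm_sub_comm]
  exact (hρ Y).trans_lt hρβ

/-- THE CHART.  Take `r₀` with a nonzero coefficient of `tau x 1 f` in degree `r₀`.  Given `j`, let
`J = max j r₀`, `s ≥ 1` with `d ^ s > J`, `(c, Y)` from `exists_tower`, and
`𝒩 i = ev1 (Y i s) (θ^(d ^ s))` (coefficients of `θ` raised to `d ^ s` and included as constants).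
With `𝒩 i t` defined in the same way for `t ≤ s`: `θ^(d ^ (t + 1)) = θ^(d ^ t) ∘ V^(d ^ t)`
(`theta_subst_V`) and the `d ^ t`-twist of the family is constant modulo `(δ) ^ d ^ t`, so
`𝒩 i (t + 1) ≡ 𝒩 i t` modulo `(δ) ^ d ^ t`; `𝒩 i 0 = 0`; the linear part of `𝒩 i 1 = θ (V^x (Y i 1))` is
`- θ₁ c kap l (y i 1)` (`coeff_single_ev1_tau`).  So `𝒩` is invertible over `C` (`exists_inverse`);
`G` is the truncation in degree `≤ J` of `(tau x c f) ∘ 𝒩⁻¹`.  For `x'` close to `x`, evaluate at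
`δ' = (x' X - x X) / c` (`ev_tau`): `Y i t ↦ z' i t ^ d ^ t` by `root_unique` and induction on `t`,
and `μ (G (𝒩) - tau x c f)` is an integral series of order `> J` for a common denominator `μ`. -/
theorem exists_chart {h : ℕ} (hh : 1 ≤ h) (H : FormalGroup (MvPowerSeries (Fin m) κ)) [H.IsComm]
    (V : PowerSeries (MvPowerSeries (Fin m) κ))
    (hV : mulSeries H p =
      V.subst (PowerSeries.X ^ p ^ h : PowerSeries (MvPowerSeries (Fin m) κ)))
    (x : MvPowerSeries (Fin m) κ →+* O C) (hx : ∀ i, x (X i) ∈ mO C)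
    (hinj : Function.Injective (x.comp (MvPowerSeries.C : κ →+* MvPowerSeries (Fin m) κ)))
    (h1 : x (PowerSeries.coeff 1 V) ≠ 0) (θ : PowerSeries (O C))
    (hθ : IsFGHom (H.map x) (G0 p h (O C)) θ) (hθ1 : PowerSeries.coeff 1 θ ≠ 0)
    (z : Fin m → ℕ → O C) (hz : ∀ i, IsSys p (H.map x) (z i)) (hz0 : ∀ i, z i 0 = 0)
    (hdet : (Matrix.of fun i l => ((ev1 (z i 1 ^ p ^ h) (kap V x l) : O C) : C)).det ≠ 0)
    {f : MvPowerSeries (Fin m) κ} (hf : f ≠ 0) :
    ∃ r₀ : ℕ, ∀ j : ℕ, ∃ G : MvPolynomial (Fin m) C,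
      (∃ J : Fin m →₀ ℕ, J.degree ≤ r₀ ∧ G.coeff J ≠ 0) ∧
      ∃ (s : ℕ) (c η₀ : ℝ), 0 < η₀ ∧
        ∀ (x' : MvPowerSeries (Fin m) κ →+* O C) (z' : Fin m → ℕ → O C) (ν : Fin m → O C) (η : ℝ),
          (∀ r, x' (MvPowerSeries.C r) = x (MvPowerSeries.C r)) → x' f = 0 →
          (∀ i, IsSys p (H.map x') (z' i)) → (∀ i, z' i 0 = 0) → 0 ≤ η → η ≤ η₀ →
          (∀ l, nm (x' (X l) - x (X l)) ≤ η) → (∀ i t, t ≤ s → nm (z' i t - z i t) ≤ η₀) →
          (∀ i, nm (ν i - ev1 (z' i s) θ ^ (p ^ h) ^ s) ≤ η ^ (p ^ h) ^ s) →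
          ‖MvPolynomial.eval (fun i => (ν i : C)) G‖ ≤ c * η ^ (j + 1) := by
  have hp : p.Prime := Fact.out
  have hp0 : 0 < p := hp.pos
  have hd : 1 < p ^ h := Nat.one_lt_pow (by omega) hp.one_lt
  obtain ⟨J₀, hJ₀⟩ := (ne_zero_iff_exists_coeff_ne_zero _).1 (tau_one_ne_zero hx hinj hf)
  refine ⟨J₀.degree, fun j => ?_⟩
  obtain ⟨s, hs1, hsj, hsJ⟩ : ∃ s : ℕ, 1 ≤ s ∧ j + 1 ≤ s ∧ J₀.degree < s :=
    ⟨max j J₀.degree + 1, by omega, by omega, by omega⟩
  obtain ⟨c, hc, Y, hY0, hYc, hYt⟩ := exists_tower p hh H V hV x hx h1 z hz hz0 s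
  have hVhom : IsFGHom (H.map (iterateFrobenius _ p h)) H V :=
    isFGHom_of_subst_X_pow p (hV ▸ isFGHom_mulSeries p)
  have hV0 : PowerSeries.constantCoeff V = 0 := hVhom.1
  have hYm : ∀ i t, t ≤ s → constantCoeff (Y i t) ∈ mO C := fun i t ht => by
    rw [hYc i t ht]
    exact Ideal.pow_mem_of_mem _ ((hz i).1 t) _ (by positivity)
  have hθV : θ.subst (V.map x) = θ.map (iterateFrobenius (O C) p h) := by
    refine theta_subst_V p hh ?_ hθ
    rw [mulSeries_map, hV]
    refine (PowerSeries.map_subst (PowerSeries.HasSubst.X_pow (by positivity)) V).trans ?_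
    congr 1
    exact (map_pow (PowerSeries.map x) _ _).trans (by rw [PowerSeries.map_X])
  have hθt : ∀ t, θ.map (iterateFrobenius (O C) p (h * (t + 1))) =
      (θ.map (iterateFrobenius (O C) p (h * t))).subst
        (V.map (x.comp (iterateFrobenius (MvPowerSeries (Fin m) κ) p (h * t)))) := fun t => by
    rw [mul_add, mul_one, iterateFrobenius_add, ← chart_map_map, ← hθV,
      RingHom.iterateFrobenius_comm, ← chart_map_map x]
    exact PowerSeries.map_subst (PowerSeries.HasSubst.of_constantCoeff_zero'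
      (by rw [chart_cc_map, hV0, map_zero])) θ
  obtain ⟨𝒩, h𝒩⟩ : ∃ 𝒩 : Fin m → ℕ → MvPowerSeries (Fin m) (O C), ∀ i t, 𝒩 i t =
      ev1 (Y i t) ((θ.map (iterateFrobenius (O C) p (h * t))).map MvPowerSeries.C) :=
    ⟨_, fun _ _ => rfl⟩
  have hstep : ∀ i t, t < s → 𝒩 i (t + 1) - 𝒩 i t ∈
      Ideal.span (Set.range (X : Fin m → MvPowerSeries (Fin m) (O C))) ^ p ^ (h * t) :=
    fun i t ht => by
      rw [h𝒩, h𝒩, hθt, ← hYt i t ht]
      exact chart_step p hx c _ hV0 (hYm i _ ht) _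
  have h𝒩0 : ∀ i, 𝒩 i 0 = 0 := fun i => by
    rw [h𝒩, hY0, ev1_zero, chart_cc_map, chart_cc_map, hθ.1,
      map_zero, map_zero]
  have h𝒩1 : ∀ i t, t + 1 ≤ s → 𝒩 i (t + 1) - 𝒩 i 1 ∈
      Ideal.span (Set.range (X : Fin m → MvPowerSeries (Fin m) (O C))) ^ 2 := fun i t => by
    induction t with
    | zero => exact fun _ => by rw [zero_add, sub_self]; exact zero_mem _
    | succ t ih =>
      intro ht
      rw [← sub_add_sub_cancel _ (𝒩 i (t + 1))]
      refine Ideal.add_mem _ (Ideal.pow_le_pow_right ?_ (hstep i _ ht)) (ih (by omega))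
      exact Nat.one_lt_pow (by positivity) hp.one_lt
  have h𝒩s : ∀ i, 𝒩 i s - 𝒩 i 1 ∈
      Ideal.span (Set.range (X : Fin m → MvPowerSeries (Fin m) (O C))) ^ 2 := fun i => by
    have := h𝒩1 i (s - 1) (by omega)
    rwa [Nat.sub_add_cancel hs1] at this
  have hc0 : ∀ i, constantCoeff (𝒩 i s) = 0 := fun i => by
    have e1 := coeff_eq_zero_of_mem_span_X_pow (h𝒩s i) (d := 0) (by simp)
    have e2 := coeff_eq_zero_of_mem_span_X_pow (hstep i 0 hs1) (d := 0) (by simp)
    rw [h𝒩0, sub_zero, zero_add] at e2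
    rwa [map_sub, e2, sub_zero, coeff_zero_eq_constantCoeff_apply] at e1
  have hlin : ∀ i l, coeff (Finsupp.single l 1) (𝒩 i s) =
      -(PowerSeries.coeff 1 θ * c) * ev1 (z i 1 ^ p ^ h) (kap V x l) := fun i l => by
    have e1 := coeff_eq_zero_of_mem_span_X_pow (h𝒩s i) (d := Finsupp.single l 1) (by simp)
    have e2 := hYt i 0 hs1
    rw [mul_zero, iterateFrobenius_zero, RingHom.comp_id, hY0, zero_add] at e2
    have e3 := chart_lin hx c hV0 (hYm i 1 hs1) e2 hθ.1 l
    rw [map_sub, sub_eq_zero] at e1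
    rw [e1, h𝒩, mul_one, ← hθV, e3, hYc i 1 hs1, pow_one]
  have hdet' : (Matrix.of fun i l => ((coeff (Finsupp.single l 1) (𝒩 i s) : O C) : C)).det ≠ 0 := by
    have e : (Matrix.of fun i l => ((coeff (Finsupp.single l 1) (𝒩 i s) : O C) : C)) =
        ((-(PowerSeries.coeff 1 θ * c) : O C) : C) •
          Matrix.of fun i l => ((ev1 (z i 1 ^ p ^ h) (kap V x l) : O C) : C) := by
      ext i l
      simp [hlin]
    rw [e, Matrix.det_smul]
    refine mul_ne_zero (pow_ne_zero _ fun h0 => ?_) hdet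
    exact neg_ne_zero.2 (mul_ne_zero hθ1 hc) (Subtype.ext h0)
  have hF : coeff J₀ (tau x c f) ≠ 0 := by
    rw [← one_mul c, tau_mul hx, coeff_rescale]
    exact mul_ne_zero (Finset.prod_ne_zero_iff.2 fun _ _ => pow_ne_zero _ hc) hJ₀
  obtain ⟨G, μ, ⟨J, hJ, hGJ⟩, hG⟩ := chart_alg (fun i => 𝒩 i s) hc0 hdet' (tau x c f) hF hsJ
  have hcn : 0 < nm c := (nm_nonneg c).lt_of_ne fun h0 => hc (nm_eq_zero.1 h0.symm)
  have hun : 0 < nm (x (PowerSeries.coeff 1 V)) :=
    (nm_nonneg _).lt_of_ne fun h0 => h1 (nm_eq_zero.1 h0.symm)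
  obtain ⟨β, hβ0, hβ1, hβ⟩ : ∃ β : ℝ, 0 < β ∧ β ≤ 1 ∧
      ∀ t ≤ s, β ≤ nm (x (PowerSeries.coeff 1 V)) ^ p ^ (h * t) :=
    ⟨nm (x (PowerSeries.coeff 1 V)) ^ p ^ (h * s), by positivity,
      pow_le_one₀ hun.le (nm_le_one _), fun t ht => pow_le_pow_of_le_one hun.le (nm_le_one _)
        (Nat.pow_le_pow_right hp0 (Nat.mul_le_mul_left _ ht))⟩
  refine ⟨G.map (O C).subtype, ⟨J, hJ, ?_⟩, s, (1 / nm c) ^ (j + 1), nm c * (β / 2),
    by positivity, fun x' z' ν η hC hf' hz' hz0' hη0 hη hxx hzz hν => ?_⟩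
  · rw [MvPolynomial.coeff_map]
    exact fun h0 => hGJ (Subtype.ext h0)
  have hc1 := nm_le_one c
  have hη₀ : nm c * (β / 2) ≤ β / 2 := mul_le_of_le_one_left (by positivity) hc1
  have hη₀' : nm c * (β / 2) ≤ nm c := mul_le_of_le_one_right hcn.le (by linarith)
  obtain ⟨ρ, hρ⟩ : ∃ ρ : ℝ, ρ = η / nm c := ⟨_, rfl⟩
  have hρ0 : 0 ≤ ρ := by rw [hρ]; positivity
  have hρβ : ρ ≤ β / 2 := by rw [hρ, div_le_iff₀' hcn]; exact hη
  have hηρ : η ≤ ρ := by rw [hρ]; exact le_div_self hη0 hcn hc1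
  choose δ hδ using fun l => dvd_of_nm_le ((hxx l).trans (hη.trans hη₀'))
  have hδρ : ∀ l, nm (δ l) ≤ ρ := fun l => by
    rw [hρ, le_div_iff₀' hcn, ← nm_mul, ← hδ]
    exact hxx l
  have hδm : ∀ l, δ l ∈ mO C := fun l => mem_mO.2 (by linarith [hδρ l])
  obtain ⟨e, hed⟩ : ∃ e : MvPowerSeries (Fin m) (O C) →+* O C, e = ev (RingHom.id (O C)) δ :=
    ⟨_, rfl⟩
  have he : ∀ g, e (tau x c g) = x' g := fun g => by
    rw [hed]
    exact ev_tau hx hC c hδm (fun i => by rw [← hδ, add_sub_cancel]) g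
  have heρ : ∀ g, nm (e g - constantCoeff g) ≤ ρ := fun g => by
    rw [hed]
    exact (mem_ball hρ0).1 (ev_sub_const_mem good_mO (RingHom.id (O C)) hδm
      (fun i => (mem_ball hρ0).2 (hδρ i)) g)
  have heY : ∀ i t, t ≤ s → e (Y i t) = z' i t ^ (p ^ h) ^ t := fun i t => by
    induction t with
    | zero => exact fun _ => by rw [hY0, hz0', map_zero, pow_zero, pow_one]
    | succ t ih =>
      intro ht
      refine chart_root p hx he heρ (by linarith) hVhom (hβ t (by omega)) (hYm i _ ht)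
        (Ideal.pow_mem_of_mem _ ((hz' i).1 _) _ (by positivity)) ?_ ?_
      · rw [hYc i _ ht, ← pow_mul p, ← sub_pow_char_pow, nm_pow]
        refine (pow_le_of_le_one (nm_nonneg _) (nm_le_one _) (by positivity)).trans_lt ?_
        linarith [hzz i _ ht]
      · rw [hYt i t ht, ih (by omega), chart_sys p hV x' (hz' i)]
  have heN : ∀ i, e (𝒩 i s) = ev1 (z' i s) θ ^ (p ^ h) ^ s := fun i => by
    have hm := Ideal.pow_mem_of_mem _ ((hz' i).1 s) ((p ^ h) ^ s) (by positivity)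
    have e1 : e.comp MvPowerSeries.C = RingHom.id (O C) := RingHom.ext fun r => by
      rw [hed, RingHom.comp_apply, ev_C]
    rw [h𝒩, map_ev1 chart_good good_mO e (hYm i s le_rfl) (by rw [heY i s le_rfl]; exact hm),
      chart_map_map, e1, PowerSeries.map_id, id, heY i s le_rfl, ← pow_mul p,
      ← iterateFrobenius_def, ← iterateFrobenius_def,
      map_ev1 good_mO good_mO _ ((hz' i).1 s) (by rw [iterateFrobenius_def, pow_mul p]; exact hm)]
  have hρ1 : ρ < 1 := by linarith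
  have hNm : ∀ i, e (𝒩 i s) ∈ mO C := fun i => by
    have := heρ (𝒩 i s)
    rw [hc0, sub_zero] at this
    exact mem_mO.2 (this.trans_lt hρ1)
  have hνN : ∀ i, nm (ν i - e (𝒩 i s)) ≤ ρ ^ (j + 1) := fun i => by
    rw [heN]
    refine (hν i).trans ((pow_le_pow_left₀ hη0 hηρ _).trans
      (pow_le_pow_of_le_one hρ0 hρ1.le (hsj.trans (Nat.lt_pow_self hd).le)))
  have hνm : ∀ i, ν i ∈ mO C := fun i => by
    have := (mO C).add_mem (mem_mO.2 ((hνN i).trans_lt (pow_lt_one₀ hρ0 hρ1 (by omega)))) (hNm i)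
    rwa [sub_add_cancel] at this
  have b1 := nm_ev_sub_le (RingHom.id (O C)) hNm hνm (by positivity) hνN
    (G : MvPowerSeries (Fin m) (O C))
  have b2 := nm_ev_le_pow (RingHom.id (O C)) hρ1 hρ0 hδρ hG
  rw [map_sub, map_mul, ev_subst good_mO _ hδm hc0, ← hed, he, hf', mul_zero, sub_zero] at b2
  have b3 := nm_add_le (ev (RingHom.id (O C)) ν (G : MvPowerSeries (Fin m) (O C)) -
    ev (RingHom.id (O C)) (fun i => e (𝒩 i s)) (G : MvPowerSeries (Fin m) (O C)))
    (ev (RingHom.id (O C)) (fun i => e (𝒩 i s)) (G : MvPowerSeries (Fin m) (O C)))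
  rw [sub_add_cancel] at b3
  have b4 : MvPolynomial.eval (fun i => (ν i : C)) (G.map (O C).subtype) =
      ((ev (RingHom.id (O C)) ν (G : MvPowerSeries (Fin m) (O C)) : O C) : C) := by
    rw [MvPolynomial.eval_map, ev_coe good_mO _ hνm]
    exact (MvPolynomial.eval₂_comp_left (O C).subtype (RingHom.id (O C)) ν G).symm
  rw [b4, ← mul_pow, one_div_mul_eq_div, ← hρ]
  exact b3.trans (max_le b1 (b2.trans (pow_le_pow_of_le_one hρ0 hρ1.le hsj)))

end Crest.Agent.R227.K
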