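import Crest.Agent.R227.K.Ev
import Crest.Agent.R227.Pt

/-! Row 227, task `R227/K/InvFn`: formal inverse and implicit function theorems. -/

set_option autoImplicit false

namespace Crest.Agent.R227.K

open MvPowerSeries

variable {R : Type*} [CommRing R] {σ : Type*}

theorem invfn_jac_zero [Fintype σ] [DecidableEq σ] (Φ : σ → MvPowerSeries σ R)
    (h1 : IsUnit (Matrix.of fun i l => coeff (Finsupp.single l 1) (Φ i)).det)
    {S : Type*} [CommRing S] (φ : R →+* S) : IsUnit (R227.jac φ (fun _ => 0) Φ) := by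
  have : R227.jac φ (fun _ => 0) Φ =
      φ.mapMatrix (Matrix.of fun i l => coeff (Finsupp.single l 1) (Φ i)) := by
    ext i j
    simp [R227.jac, R227.ev_zero, R227.constantCoeff_pderiv]
  rw [this]
  exact ((Matrix.isUnit_iff_isUnit_det _).mpr h1).map _

theorem invfn_root [Finite σ] (E : PowerSeries (MvPowerSeries σ R))
    (h0 : constantCoeff (PowerSeries.constantCoeff E) = 0)
    (h1 : IsUnit (constantCoeff (PowerSeries.coeff 1 E))) :
    ∃ η : MvPowerSeries σ R, constantCoeff η = 0 ∧ ev1 η E = 0 := by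
  obtain ⟨η, -, h2, h3⟩ := R227.hensel1_exists (R227.XI σ R) (RingHom.id _) (Ideal.zero_mem _) E
    (by
      rw [R227.ev1_zero, ← PowerSeries.coeff_zero_eq_constantCoeff_apply,
        PowerSeries.coeff_derivative]
      simpa [isUnit_iff_constantCoeff] using h1)
    (by rw [R227.ev1_zero]; exact R227.mem_XI_radical_of_constantCoeff h0)
  refine ⟨η, ?_, h3⟩
  obtain ⟨c, hc⟩ := h2
  rw [sub_zero, R227.ev1_zero] at hc
  rw [hc, map_mul, RingHom.id_apply, h0, zero_mul]

theorem invfn_right [Fintype σ] [DecidableEq σ] (Φ : σ → MvPowerSeries σ R)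
    (h0 : ∀ i, constantCoeff (Φ i) = 0)
    (h1 : IsUnit (R227.jac (C : R →+* MvPowerSeries σ R) (fun _ => 0) Φ)) :
    ∃ Ψ : σ → MvPowerSeries σ R, (∀ i, constantCoeff (Ψ i) = 0) ∧ ∀ i, ev C Ψ (Φ i) = X i := by
  have hJ : R227.jac (RingHom.id (MvPowerSeries σ R)) (fun _ => 0)
      (fun i => map C (Φ i) - C (X i)) = R227.jac C (fun _ => 0) Φ := by
    ext1 i j
    simp [R227.jac, R227.ev_zero, R227.constantCoeff_pderiv]
  rw [← hJ] at h1
  obtain ⟨Ψ, h2, h3, h4⟩ := R227.hensel_exists (R227.XI σ R) (RingHom.id _)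
    (a := fun _ => 0) (fun _ => Ideal.zero_mem _) (fun i => map C (Φ i) - C (X i))
    h1 (𝔟 := R227.XI σ R)
    (fun i => by simp [R227.ev_zero, h0, R227.X_mem_XI])
    (fun i => by simp [R227.ev_zero, h0, R227.X_mem_XI_radical])
  refine ⟨Ψ, fun i => R227.mem_XI.mp (by simpa using h3 i), fun i => ?_⟩
  have := h4 i
  rwa [map_sub, R227.ev_map (R227.XI σ R) _ _ h2, R227.ev_C, sub_eq_zero] at this

theorem invfn_left [Fintype σ] [DecidableEq σ] (Φ Ψ : σ → MvPowerSeries σ R)
    (h0 : ∀ i, constantCoeff (Φ i) = 0)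
    (h1 : IsUnit (R227.jac (C : R →+* MvPowerSeries σ R) (fun _ => 0) Φ))
    (hΨ : ∀ i, constantCoeff (Ψ i) = 0) (h5 : ∀ i, ev C Ψ (Φ i) = X i) (i : σ) :
    ev C Φ (Ψ i) = X i := by
  have r : ∀ i, Φ i ∈ (R227.XI σ R).radical := fun i => R227.mem_XI_radical_of_constantCoeff (h0 i)
  have hy : ∀ i, ev C Φ (Ψ i) ∈ (R227.XI σ R).radical := fun i =>
    R227.ev_mem_radical (R227.XI σ R) C r (hΨ i)
  have hJX : IsUnit (R227.jac (C : R →+* MvPowerSeries σ R) X Φ) :=
    R227.isUnit_jac_of_isUnit (R227.XI σ R) C (x := X) (y := fun _ => 0) R227.X_mem_XI_radical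
      (fun _ => Ideal.zero_mem _) Φ h1
  have h7 : ∀ i, ev C (fun j => ev C Φ (Ψ j)) (Φ i) = ev C X (Φ i) := fun i => by
    rw [← R227.ev_subst (R227.XI σ R) C r hΨ, ← R227.ev_eq_subst hΨ, h5,
      R227.ev_X (R227.XI σ R) C r, R227.ev_C_X]
  exact congrFun (R227.hensel_unique_eq (R227.XI σ R) C hy R227.X_mem_XI_radical Φ hJX h7) i

/-- inverse function theorem.  Proof: first compose with the inverse linear substitution, so that
`Φ i = X i + (order ≥ 2)`; then `f ↦ f.subst Φ - f` raises the order, so `subst Φ` is injective and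
(Neumann series, coefficientwise finite) surjective; `Ψ i` is the preimage of `X i`; the other
identity follows from `hom_ext` / injectivity. -/
theorem exists_inverse [Fintype σ] [DecidableEq σ] (Φ : σ → MvPowerSeries σ R)
    (h0 : ∀ i, constantCoeff (Φ i) = 0)
    (h1 : IsUnit (Matrix.of fun i l => coeff (Finsupp.single l 1) (Φ i)).det) :
    ∃ Ψ : σ → MvPowerSeries σ R, (∀ i, constantCoeff (Ψ i) = 0) ∧
      (∀ i, (Ψ i).subst Φ = X i) ∧ ∀ i, (Φ i).subst Ψ = X i := by
  obtain ⟨Ψ, hΨ, h5⟩ := invfn_right Φ h0 (invfn_jac_zero Φ h1 C)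
  refine ⟨Ψ, hΨ, fun i => ?_, fun i => ?_⟩
  · rw [← R227.ev_eq_subst h0]; exact invfn_left Φ Ψ h0 (invfn_jac_zero Φ h1 C) hΨ h5 i
  · rw [← R227.ev_eq_subst hΨ, h5]

/-- implicit function theorem: apply `exists_inverse` to `(none ↦ E, some i ↦ X (some i))`; the
inverse `Ψ'` has `Ψ' (some i) = X (some i)`; put `Ψ := Ψ' none` with the variable `none` set to `0`;
`Ψ' none - Ψ` is divisible by `X none` with quotient a unit; substitute back. -/
theorem exists_implicit [Finite σ] (E : MvPowerSeries (Option σ) R) (h0 : constantCoeff E = 0)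
    (h1 : IsUnit (coeff (Finsupp.single none 1) E)) :
    ∃ (Ψ : MvPowerSeries σ R) (U : MvPowerSeries (Option σ) R), constantCoeff Ψ = 0 ∧ IsUnit U ∧
      E = U * (X none - Ψ.subst (fun i => (X (some i) : MvPowerSeries (Option σ) R))) := by
  classical
  have := Fintype.ofFinite σ
  let b : Option σ → PowerSeries (MvPowerSeries σ R) := fun o =>
    o.elim PowerSeries.X fun i => PowerSeries.C (X i)
  have hb : ∀ o, b o ∈ (R227.PI Unit (R227.XI σ R)).radical := by
    rintro (_ | i)
    · exact R227.X_mem_PI_radical _ ()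
    · exact R227.C_mem_PI_radical (R227.X_mem_XI_radical i)
  let ψ : R →+* PowerSeries (MvPowerSeries σ R) := PowerSeries.C.comp C
  have hcc : ∀ g, constantCoeff (PowerSeries.constantCoeff (ev ψ b g)) = constantCoeff g := by
    intro g
    have e : ∀ o, (constantCoeff.comp PowerSeries.constantCoeff :
        PowerSeries (MvPowerSeries σ R) →+* R) (b o) = 0 := by rintro (_ | i) <;> simp [b]
    have := R227.map_ev (R227.PI Unit (R227.XI σ R)) ⊥ ψ hb
      (constantCoeff.comp PowerSeries.constantCoeff) (fun o => by rw [e]; exact Ideal.zero_mem _) g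
    simp_rw [e] at this
    rw [R227.ev_zero] at this
    simpa [ψ] using this
  have hd : PowerSeries.derivative _ (ev ψ b E) = ev ψ b (pderiv R none E) := by
    have := R227.der_ev (R227.PI Unit (R227.XI σ R)) ψ hb
      (PowerSeries.derivative (MvPowerSeries σ R)).toLinearMap.toAddMonoidHom (fun x y => by simp)
      (fun r => by simp [ψ]) E
    simpa [Fintype.sum_option, b] using this
  obtain ⟨η, hη, hroot⟩ := invfn_root (ev ψ b E) (by rw [hcc, h0]) (by
    have := congrArg (fun g => constantCoeff (PowerSeries.constantCoeff g)) hd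
    simp only [hcc, R227.constantCoeff_pderiv] at this
    rw [← this, ← PowerSeries.coeff_zero_eq_constantCoeff_apply, PowerSeries.coeff_derivative] at h1
    simpa using h1)
  let ι : MvPowerSeries σ R →+* MvPowerSeries (Option σ) R := ev C fun i => X (some i)
  have hιX : ∀ i, ι (X i) = X (some i) :=
    R227.ev_X (R227.XI _ R) C fun i => R227.X_mem_XI_radical (some i)
  have hι0 : constantCoeff (ι η) = 0 := R227.mem_XI.mp
    (R227.ev_mem (R227.XI _ R) C (fun i => R227.X_mem_XI_radical (some i))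
      (fun i => R227.X_mem_XI (some i)) hη)
  have rη := R227.mem_XI_radical_of_constantCoeff hη
  let c : Option σ → MvPowerSeries (Option σ) R := fun o => o.elim (ι η) fun i => X (some i)
  have hc0 : ∀ o, constantCoeff (c o) = 0 := by rintro (_ | i) <;> simp [c, hι0]
  have hc : ∀ o, c o ∈ (R227.XI (Option σ) R).radical := fun o =>
    R227.mem_XI_radical_of_constantCoeff (hc0 o)
  have e : ∀ o, (ι.comp (ev1 η)) (b o) = c o := by
    rintro (_ | i)
    · simp [b, c, ev1_eq, R227.ev1_X _ _ rη]
    · simp [b, c, hιX]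
  have hE : ev C c E = 0 := by
    have := R227.map_ev (R227.PI Unit (R227.XI σ R)) (R227.XI (Option σ) R) ψ hb (ι.comp (ev1 η))
      (fun o => by rw [e]; exact hc o) E
    simp_rw [e] at this
    rw [RingHom.comp_apply, hroot, map_zero] at this
    rw [this]
    congr 2
    ext1 r; simp [ψ, ι]
  have ht := R227.ev_sub_taylor_mem (R227.XI (Option σ) R) C R227.X_mem_XI_radical hc
    (𝔟 := Ideal.span {X none - ι η}) (by rintro (_ | i) <;> simp [c]) E
  rw [R227.ev_C_X, hE, Fintype.sum_option, Ideal.span_singleton_pow,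
    Ideal.mem_span_singleton] at ht
  obtain ⟨d, hd⟩ := ht
  refine ⟨η, ev C c (pderiv R none E) + (X none - ι η) * d, hη, ?_, ?_⟩
  · rw [isUnit_iff_constantCoeff, map_add, R227.constantCoeff_ev C hc0]
    simpa [hι0, R227.constantCoeff_pderiv] using h1
  · rw [← R227.ev_eq_subst (fun i => by simp)]
    have c1 : c none = ι η := rfl
    have c2 : ∀ i, c (some i) = X (some i) := fun _ => rfl
    simp only [c1, c2, sub_self, mul_zero, Finset.sum_const_zero] at hd
    change E = _ * (X none - ι η)
    linear_combination hd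

/-- roots of series over a power series ring: a series `E` over `R⟦σ⟧` with `E(0)` without constant
term and linear coefficient a unit has a root without constant term -/
theorem exists_formal_root [Finite σ] (E : PowerSeries (MvPowerSeries σ R))
    (h0 : constantCoeff (PowerSeries.constantCoeff E) = 0)
    (h1 : IsUnit (constantCoeff (PowerSeries.coeff 1 E))) :
    ∃ η : MvPowerSeries σ R, constantCoeff η = 0 ∧ ev1 η E = 0 := by
  exact invfn_root E h0 h1

end Crest.Agent.R227.K
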