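import Crest.Agent.R227.K.Basis1
import Crest.Agent.R227.K.InvFn

/-! Row 227, task `R227/K/Chart1`: the formal chart around a point of the height `h` stratum. -/

set_option autoImplicit false
set_option linter.unusedSectionVars false

namespace Crest.Agent.R227.K

open MvPowerSeries Crest.LubinTate
open scoped BigOperators

variable {C : Type*} [NormedField C] [IsUltrametricDist C] [CompleteSpace C] {κ : Type*}
  [CommRing κ] {m : ℕ}

section alg

variable {R B T σ : Type*} [CommRing R] [CommRing B] [CommRing T]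

theorem chart1_cc_map (φ : R →+* B) (f : PowerSeries R) :
    PowerSeries.constantCoeff (f.map φ) = φ (PowerSeries.constantCoeff f) := by
  rw [← PowerSeries.coeff_zero_eq_constantCoeff_apply, PowerSeries.coeff_map,
    PowerSeries.coeff_zero_eq_constantCoeff_apply]

theorem chart1_map_map (φ : R →+* B) (ψ : B →+* T) (V : PowerSeries R) :
    (V.map φ).map ψ = V.map (ψ.comp φ) := by
  ext j
  simp

theorem chart1_derivative_map (φ : R →+* B) (V : PowerSeries R) :
    PowerSeries.derivative B (V.map φ) = (PowerSeries.derivative R V).map φ := by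
  ext j
  simp [PowerSeries.coeff_derivative]

theorem chart1_rescale_C (a : σ → R) (r : R) :
    rescale a (MvPowerSeries.C r : MvPowerSeries σ R) = MvPowerSeries.C r := by
  rw [rescale_eq_subst, subst_C]

theorem chart1_rescale_X (a : σ → R) (i : σ) :
    rescale a (X i : MvPowerSeries σ R) = MvPowerSeries.C (a i) * X i := by
  rw [rescale_eq_subst, subst_X (HasSubst.smul_X a), Pi.smul_apply', smul_eq_C_mul]

theorem chart1_cc_rescale (a : σ → R) (f : MvPowerSeries σ R) :
    constantCoeff (rescale a f) = constantCoeff f := by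
  rw [← coeff_zero_eq_constantCoeff_apply, coeff_rescale, Finsupp.prod_zero_index, one_mul,
    coeff_zero_eq_constantCoeff_apply]

theorem chart1_rescale_div [Finite σ] (c : R) {u : MvPowerSeries σ R} (hu : constantCoeff u = 0) :
    ∃ u' : MvPowerSeries σ R, constantCoeff u' = 0 ∧
      rescale (fun _ => c) u = MvPowerSeries.C c * u' := by
  have h := mem_span_X_pow (f := u) (j := 1) fun d hd => by
    rw [Nat.lt_one_iff, Finsupp.degree_eq_zero_iff] at hd
    rw [hd, coeff_zero_eq_constantCoeff_apply, hu]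
  rw [pow_one] at h
  clear hu
  induction h using Submodule.span_induction with
  | mem f hf =>
    obtain ⟨i, rfl⟩ := hf
    exact ⟨X i, constantCoeff_X i, chart1_rescale_X _ i⟩
  | zero => exact ⟨0, map_zero _, by simp⟩
  | add f g _ _ hf hg =>
    obtain ⟨f', hf0, hf⟩ := hf
    obtain ⟨g', hg0, hg⟩ := hg
    exact ⟨f' + g', by rw [map_add, hf0, hg0, add_zero], by rw [map_add, hf, hg, mul_add]⟩
  | smul a f _ hf =>
    obtain ⟨f', hf0, hf⟩ := hf
    exact ⟨rescale (fun _ => c) a * f', by rw [map_mul, hf0, mul_zero],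
      by rw [smul_eq_mul, map_mul, hf, mul_left_comm]⟩

end alg

theorem chart1_good : Good (liftI (Fin m) (mO C)) := good_mO.liftI

theorem chart1_mem {x : MvPowerSeries (Fin m) κ →+* O C} (hx : ∀ i, x (X i) ∈ mO C) (c : O C)
    (i : Fin m) : MvPowerSeries.C (x (X i)) + MvPowerSeries.C c * X i ∈ liftI (Fin m) (mO C) :=
  mem_liftI.2 (by simpa using hx i)

theorem chart1_tau_C (x : MvPowerSeries (Fin m) κ →+* O C) (c : O C) (r : κ) :
    tau x c (MvPowerSeries.C r) = MvPowerSeries.C (x (MvPowerSeries.C r)) :=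
  ev_C _ _ _

theorem chart1_tau_X {x : MvPowerSeries (Fin m) κ →+* O C} (hx : ∀ i, x (X i) ∈ mO C) (c : O C)
    (i : Fin m) : tau x c (X i) = MvPowerSeries.C (x (X i)) + MvPowerSeries.C c * X i :=
  ev_X chart1_good _ (chart1_mem hx c) i

theorem chart1_rescale_ev1 (a : Fin m → O C) {Y : MvPowerSeries (Fin m) (O C)}
    (hY : constantCoeff Y ∈ mO C) (E : PowerSeries (MvPowerSeries (Fin m) (O C))) :
    rescale a (ev1 Y E) = ev1 (rescale a Y) (E.map (rescale a)) :=
  map_ev1 chart1_good chart1_good _ hY (mem_liftI.2 (by rwa [chart1_cc_rescale])) E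

/-- specialisation of the family: evaluating `δ` at `δ'` with `x' (X i) = x (X i) + c δ' i` -/
theorem ev_tau {x x' : MvPowerSeries (Fin m) κ →+* O C} (hx : ∀ i, x (X i) ∈ mO C)
    (hC : ∀ r, x' (MvPowerSeries.C r) = x (MvPowerSeries.C r)) (c : O C) {δ : Fin m → O C}
    (hδ : ∀ i, δ i ∈ mO C) (h : ∀ i, x' (X i) = x (X i) + c * δ i) (f : MvPowerSeries (Fin m) κ) :
    ev (RingHom.id (O C)) δ (tau x c f) = x' f := by
  have e : ∀ i, ((ev (RingHom.id (O C)) δ).comp (tau x c)) (X i) = x (X i) + c * δ i := fun i => by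
    rw [RingHom.comp_apply, chart1_tau_X hx, map_add, map_mul, ev_C, ev_C, ev_X good_mO _ hδ]
    rfl
  refine RingHom.congr_fun (hom_ext good_mO ((ev (RingHom.id (O C)) δ).comp (tau x c)) x'
    (fun r => ?_) (fun i => (e i).trans (h i).symm) fun i => ?_) f
  · rw [RingHom.comp_apply, chart1_tau_C, ev_C, hC, RingHom.id_apply]
  · rw [e]
    exact Ideal.add_mem _ (hx i) (Ideal.mul_mem_left _ _ (hδ i))

theorem tau_mul {x : MvPowerSeries (Fin m) κ →+* O C} (hx : ∀ i, x (X i) ∈ mO C) (c c' : O C)
    (f : MvPowerSeries (Fin m) κ) : tau x (c * c') f = rescale (fun _ => c') (tau x c f) := by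
  refine RingHom.congr_fun (hom_ext chart1_good (tau x (c * c'))
    ((rescale fun _ => c').comp (tau x c)) (fun r => ?_) (fun i => ?_) fun i => ?_) f
  · rw [RingHom.comp_apply, chart1_tau_C, chart1_tau_C, chart1_rescale_C]
  · rw [RingHom.comp_apply, chart1_tau_X hx, chart1_tau_X hx, map_add, map_mul (rescale _),
      chart1_rescale_C, chart1_rescale_C, chart1_rescale_X, map_mul, mul_assoc]
  · rw [chart1_tau_X hx]
    exact chart1_mem hx _ i

/-- translating back gives the coefficientwise image of `f` -/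
theorem tau_one_ne_zero {x : MvPowerSeries (Fin m) κ →+* O C} (hx : ∀ i, x (X i) ∈ mO C)
    (hinj : Function.Injective (x.comp (MvPowerSeries.C : κ →+* MvPowerSeries (Fin m) κ)))
    {f : MvPowerSeries (Fin m) κ} (hf : f ≠ 0) : tau x 1 f ≠ 0 := by
  intro h0
  have hm : ∀ i, (X i - MvPowerSeries.C (x (X i)) : MvPowerSeries (Fin m) (O C)) ∈
      liftI (Fin m) (mO C) := fun i => mem_liftI.2 (by simpa using hx i)
  have e := hom_ext chart1_good
    (MvPowerSeries.map (σ := Fin m) (x.comp (MvPowerSeries.C : κ →+* MvPowerSeries (Fin m) κ)))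
    ((ev MvPowerSeries.C fun i => X i - MvPowerSeries.C (x (X i))).comp (tau x 1))
    (fun r => by rw [RingHom.comp_apply, chart1_tau_C, ev_C, map_C, RingHom.comp_apply])
    (fun i => by
      rw [RingHom.comp_apply, chart1_tau_X hx, map_add, map_mul, ev_C, ev_C, ev_X chart1_good _ hm,
        map_X, map_one, one_mul, add_sub_cancel])
    fun i => by rw [map_X]; exact mem_liftI.2 (by simp)
  have e' := RingHom.congr_fun e f
  rw [RingHom.comp_apply, h0, map_zero] at e'
  refine hf (MvPowerSeries.ext fun d => hinj ?_)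
  rw [← coeff_map, e', coeff_zero, coeff_zero, map_zero]

/-- Hensel in a family: if `E (y) = w` at `δ = 0` with `β = E' (y) ≠ 0`, then after rescaling
`δ ↦ β ^ 2 δ` there is a root `Y = y + β η`: expand `E (C y + T) = a₀ + a₁ T + T ^ 2 (..)`
(`exists_factor` or `ev1_taylor` over `O⟦δ⟧⟦T⟧`), divide by `β ^ 2` and use `exists_formal_root`. -/
theorem exists_family_root (E : PowerSeries (MvPowerSeries (Fin m) (O C)))
    (w : MvPowerSeries (Fin m) (O C)) {y : O C} (hy : y ∈ mO C)
    (h0 : ev1 y (E.map (constantCoeff : MvPowerSeries (Fin m) (O C) →+* O C)) = constantCoeff w)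
    (h1 : ev1 y (PowerSeries.derivative (O C)
      (E.map (constantCoeff : MvPowerSeries (Fin m) (O C) →+* O C))) ≠ 0) :
    ∃ c : O C, c ≠ 0 ∧ ∃ Y : MvPowerSeries (Fin m) (O C), constantCoeff Y = y ∧
      ev1 Y (E.map (rescale fun _ => c)) = rescale (fun _ => c) w := by
  obtain ⟨β, hβ⟩ : ∃ β, β = ev1 y (PowerSeries.derivative (O C)
    (E.map (constantCoeff : MvPowerSeries (Fin m) (O C) →+* O C))) := ⟨_, rfl⟩
  rw [← hβ] at h1
  have hCy : constantCoeff (MvPowerSeries.C y : MvPowerSeries (Fin m) (O C)) ∈ mO C := by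
    rwa [constantCoeff_C]
  have hCy' : (MvPowerSeries.C y : MvPowerSeries (Fin m) (O C)) ∈ liftI (Fin m) (mO C) := hCy
  obtain ⟨u, hu0, hu⟩ := chart1_rescale_div (β ^ 2) (u := ev1 (MvPowerSeries.C y) E - w) (by
    rw [map_sub, map_ev1 chart1_good good_mO _ hCy' hCy, constantCoeff_C, h0, sub_self])
  obtain ⟨v, hv0, hv⟩ := chart1_rescale_div (β ^ 2)
    (u := ev1 (MvPowerSeries.C y) (PowerSeries.derivative _ E) - MvPowerSeries.C β) (by
      rw [map_sub, map_ev1 chart1_good good_mO _ hCy' hCy, constantCoeff_C, constantCoeff_C,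
        ← chart1_derivative_map, ← hβ, sub_self])
  rw [map_sub, chart1_rescale_ev1 _ hCy, chart1_rescale_C] at hu hv
  rw [chart1_rescale_C, ← chart1_derivative_map] at hv
  refine ⟨β ^ 2, pow_ne_zero _ h1, ?_⟩
  generalize E.map (rescale fun _ => β ^ 2) = E' at hu hv ⊢
  generalize rescale (fun _ => β ^ 2) w = w' at hu ⊢
  have hg : Good (liftI Unit (liftI (Fin m) (mO C))) := chart1_good.liftI
  have hz : (PowerSeries.C (MvPowerSeries.C y) : PowerSeries (MvPowerSeries (Fin m) (O C))) ∈
      liftI Unit (liftI (Fin m) (mO C)) := by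
    change PowerSeries.constantCoeff (PowerSeries.C _) ∈ _
    rwa [PowerSeries.constantCoeff_C]
  have hz' : (PowerSeries.C (MvPowerSeries.C y) + PowerSeries.C (MvPowerSeries.C β) *
      PowerSeries.X : PowerSeries (MvPowerSeries (Fin m) (O C))) ∈
      liftI Unit (liftI (Fin m) (mO C)) := by
    refine mem_liftI.2 ?_
    change PowerSeries.constantCoeff (PowerSeries.C _ + PowerSeries.C _ * PowerSeries.X) ∈ _
    simpa using hCy'
  obtain ⟨c₀, hc₀⟩ := ev1_taylor hg hz hz' (E'.map PowerSeries.C)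
  rw [chart1_derivative_map, ← map_ev1 chart1_good hg PowerSeries.C hCy' hz,
    ← map_ev1 chart1_good hg PowerSeries.C hCy' hz, add_sub_cancel_left] at hc₀
  obtain ⟨η, hη0, hη⟩ := exists_formal_root (PowerSeries.C u +
    PowerSeries.C (1 + MvPowerSeries.C β * v) * PowerSeries.X + PowerSeries.X ^ 2 * c₀)
    (by simp [hu0]) (by simp [hv0, PowerSeries.coeff_X_pow_mul'])
  have hηm : η ∈ liftI (Fin m) (mO C) := mem_liftI.2 (by rw [hη0]; exact zero_mem _)
  have e1 : ev1 η (PowerSeries.C (MvPowerSeries.C y) + PowerSeries.C (MvPowerSeries.C β) *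
      PowerSeries.X) = MvPowerSeries.C y + MvPowerSeries.C β * η := by
    rw [map_add, map_mul, ev1_C, ev1_C, ev1_X chart1_good hηm]
  have e2 : (ev1 η).comp (PowerSeries.C : MvPowerSeries (Fin m) (O C) →+* _) = RingHom.id _ :=
    RingHom.ext fun r => ev1_C η r
  have key := congrArg (ev1 η) hc₀
  rw [map_ev1 hg chart1_good _ hz' (by
    rw [e1]; exact Ideal.add_mem _ hCy' (Ideal.mul_mem_left _ _ hηm)), e1, chart1_map_map, e2,
    PowerSeries.map_id, id] at key
  simp only [map_add, map_mul, map_pow, ev1_C, ev1_X chart1_good hηm] at key hη hu hv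
  refine ⟨MvPowerSeries.C y + MvPowerSeries.C β * η, by simp [hη0], ?_⟩
  rw [key]
  linear_combination hu + MvPowerSeries.C β * η * hv + MvPowerSeries.C β ^ 2 * hη

variable [IsAlgClosed C] (p : ℕ) [Fact p.Prime] [CharP C p] [CharP κ p]

theorem chart1_sys {h : ℕ} {H : FormalGroup (MvPowerSeries (Fin m) κ)}
    {V : PowerSeries (MvPowerSeries (Fin m) κ)}
    (hV : mulSeries H p =
      V.subst (PowerSeries.X ^ p ^ h : PowerSeries (MvPowerSeries (Fin m) κ)))
    (x : MvPowerSeries (Fin m) κ →+* O C) {z : ℕ → O C} (hz : IsSys p (H.map x) z) (t : ℕ) :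
    ev1 (z (t + 1) ^ (p ^ h) ^ (t + 1))
      (V.map (x.comp (iterateFrobenius (MvPowerSeries (Fin m) κ) p (h * t)))) =
      z t ^ (p ^ h) ^ t := by
  have hp : 0 < p := (Fact.out : p.Prime).pos
  have e := hz.2 t
  have e0 : PowerSeries.map x (V.subst (PowerSeries.X ^ p ^ h : PowerSeries _)) =
      (V.map x).subst (PowerSeries.map x (PowerSeries.X ^ p ^ h)) :=
    PowerSeries.map_subst (PowerSeries.HasSubst.X_pow (by positivity)) V
  rw [mulSeries_map, hV, e0, map_pow, PowerSeries.map_X, ev1_subst good_mO (hz.1 _)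
    (by rw [map_pow, PowerSeries.constantCoeff_X, zero_pow (by positivity)]), map_pow,
    ev1_X good_mO (hz.1 _)] at e
  have hm := Ideal.pow_mem_of_mem _ (hz.1 (t + 1)) (p ^ h) (by positivity)
  have e' := congrArg (iterateFrobenius (O C) p (h * t)) e
  rw [map_ev1 good_mO good_mO _ hm (Ideal.pow_mem_of_mem _ hm _ (by positivity)), chart1_map_map,
    ← RingHom.iterateFrobenius_comm, iterateFrobenius_def, iterateFrobenius_def, pow_mul p,
    ← pow_mul (z (t + 1)), ← pow_succ'] at e'
  exact e'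

/-- towers of formal roots over the points `y i t = z i t ^ d ^ t`, which satisfy
`V^(d ^ t) (y i (t + 1)) = y i t` (induction on `s`, finitely many rescalings; the twists of `V` are
homomorphisms with nonzero linear coefficient, `nm_derivative_hom`) -/
theorem exists_tower {h : ℕ} (hh : 1 ≤ h) (H : FormalGroup (MvPowerSeries (Fin m) κ)) [H.IsComm]
    (V : PowerSeries (MvPowerSeries (Fin m) κ))
    (hV : mulSeries H p =
      V.subst (PowerSeries.X ^ p ^ h : PowerSeries (MvPowerSeries (Fin m) κ)))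
    (x : MvPowerSeries (Fin m) κ →+* O C) (hx : ∀ i, x (X i) ∈ mO C)
    (h1 : x (PowerSeries.coeff 1 V) ≠ 0) (z : Fin m → ℕ → O C)
    (hz : ∀ i, IsSys p (H.map x) (z i)) (hz0 : ∀ i, z i 0 = 0) (s : ℕ) :
    ∃ c : O C, c ≠ 0 ∧ ∃ Y : Fin m → ℕ → MvPowerSeries (Fin m) (O C),
      (∀ i, Y i 0 = 0) ∧ (∀ i t, t ≤ s → constantCoeff (Y i t) = z i t ^ (p ^ h) ^ t) ∧
      ∀ i t, t < s → ev1 (Y i (t + 1))
        (V.map ((tau x c).comp (iterateFrobenius (MvPowerSeries (Fin m) κ) p (h * t)))) = Y i t := by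
  have hp0 : 0 < p := (Fact.out : p.Prime).pos
  have hVhom : IsFGHom (H.map (iterateFrobenius _ p h)) H V :=
    isFGHom_of_subst_X_pow p (hV ▸ isFGHom_mulSeries p)
  have hzm : ∀ i t, z i t ^ (p ^ h) ^ t ∈ mO C := fun i t =>
    Ideal.pow_mem_of_mem _ ((hz i).1 t) _ (by positivity)
  have hτ : ∀ (c c' : O C) (k : ℕ),
      (V.map ((tau x c).comp (iterateFrobenius (MvPowerSeries (Fin m) κ) p k))).map
        (rescale fun _ => c') =
      V.map ((tau x (c * c')).comp (iterateFrobenius (MvPowerSeries (Fin m) κ) p k)) :=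
    fun c c' k => by
      rw [chart1_map_map]
      exact congrArg (fun φ => PowerSeries.map φ V) (RingHom.ext fun g => (tau_mul hx c c' _).symm)
  induction s with
  | zero =>
    refine ⟨1, one_ne_zero, fun _ _ => 0, fun _ => rfl, fun i t ht => ?_,
      fun _ _ ht => absurd ht (Nat.not_lt_zero _)⟩
    rw [Nat.le_zero.1 ht, hz0, pow_zero, pow_one, map_zero]
  | succ s ih =>
    obtain ⟨c, hc, Y, hY0, hYc, hYt⟩ := ih
    have hcc : (V.map ((tau x c).comp (iterateFrobenius (MvPowerSeries (Fin m) κ) p (h * s)))).map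
        (constantCoeff : MvPowerSeries (Fin m) (O C) →+* O C) =
        V.map (x.comp (iterateFrobenius (MvPowerSeries (Fin m) κ) p (h * s))) := by
      rw [chart1_map_map]
      exact congrArg (fun φ => PowerSeries.map φ V)
        (RingHom.ext fun g => constantCoeff_tau hx c _)
    choose c' hc' Y' hY'c hY' using fun i => exists_family_root
      (V.map ((tau x c).comp (iterateFrobenius (MvPowerSeries (Fin m) κ) p (h * s)))) (Y i s)
      (hzm i (s + 1)) (by rw [hcc, chart1_sys p hV x (hz i), hYc i s le_rfl]) fun h0 => by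
        have := nm_derivative_hom (isFGHom_map hVhom
          (x.comp (iterateFrobenius (MvPowerSeries (Fin m) κ) p (h * s)))) (hzm i (s + 1))
        rw [← hcc, h0, hcc, PowerSeries.coeff_map, nm_eq_zero.2 rfl, RingHom.comp_apply,
          iterateFrobenius_def, map_pow] at this
        exact pow_ne_zero _ h1 (nm_eq_zero.1 this.symm)
    refine ⟨c * ∏ i, c' i, mul_ne_zero hc (Finset.prod_ne_zero_iff.2 fun i _ => hc' i),
      fun i t => if t = s + 1 then rescale (fun _ => ∏ j ∈ Finset.univ.erase i, c' j) (Y' i)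
        else rescale (fun _ => ∏ i, c' i) (Y i t), fun i => ?_, fun i t ht => ?_,
      fun i t ht => ?_⟩
    · simp [hY0]
    · by_cases hts : t = s + 1
      · simp only [hts, if_true, chart1_cc_rescale, hY'c]
      · simp only [hts, if_false, chart1_cc_rescale]
        exact hYc i t (by omega)
    · have ht' : t ≠ s + 1 := ht.ne
      by_cases hts : t = s
      · subst hts
        simp only [ht', if_true, if_false]
        rw [← Finset.mul_prod_erase _ _ (Finset.mem_univ i), ← mul_assoc, ← hτ, ← hτ,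
          ← chart1_rescale_ev1 _ (by rw [hY'c]; exact hzm _ _), hY', rescale_rescale]
        rfl
      · have hts' : t + 1 ≠ s + 1 := by omega
        simp only [ht', hts', if_false]
        rw [← hτ, ← chart1_rescale_ev1 _ (by rw [hYc i _ (by omega)]; exact hzm _ _),
          hYt i t (by omega)]

end Crest.Agent.R227.K
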