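import Crest.Agent.R227.K.Compare1

/-! Row 227, task `R227/K/Compare`: Lazard's comparison lemma over finite fields. -/

set_option autoImplicit false

namespace Crest.Agent.R227.K

open Crest.LubinTate
open scoped BigOperators

section aux

open MvPowerSeries

variable {R B : Type*} [CommRing R] [CommRing B] {N : Ideal B}

theorem compare_liftI_bot (σ : Type*) [Finite σ] :
    liftI σ (⊥ : Ideal R) = Ideal.span (Set.range (X : σ → MvPowerSeries σ R)) := by
  apply le_antisymm
  · intro f hf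
    have h := mem_span_X_pow (f := f) (j := 1) fun d hd => by
      have : d = 0 := by
        rw [← Finsupp.degree_eq_zero_iff]
        omega
      rw [this, coeff_zero_eq_constantCoeff_apply]
      exact mem_liftI.1 hf
    rwa [pow_one] at h
  · rw [Ideal.span_le]
    rintro _ ⟨i, rfl⟩
    exact mem_liftI.2 (by simp)

theorem compare_mem_pow_iff {σ : Type*} [Finite σ] {f : MvPowerSeries σ R} {j : ℕ} :
    f ∈ liftI σ (⊥ : Ideal R) ^ j ↔ ∀ d : σ →₀ ℕ, d.degree < j → coeff d f = 0 := by
  rw [compare_liftI_bot]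
  exact ⟨fun h _ hd => coeff_eq_zero_of_mem_span_X_pow h hd, mem_span_X_pow⟩

theorem compare_mem_bot {σ : Type*} {f : MvPowerSeries σ R} :
    f ∈ liftI σ (⊥ : Ideal R) ↔ constantCoeff f = 0 := Iff.rfl

theorem compare_X_mem {σ : Type*} (i : σ) : (X i : MvPowerSeries σ R) ∈ liftI σ (⊥ : Ideal R) :=
  compare_mem_bot.2 (by simp)

theorem compare_vec {a b : B} {J : Ideal B} (ha : a ∈ J) (hb : b ∈ J) : ∀ i, ![a, b] i ∈ J := by
  intro i
  fin_cases i
  · exact ha
  · exact hb

theorem compare_self {J : Ideal B} (x : B) : x - x ∈ J := by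
  rw [sub_self]
  exact J.zero_mem

theorem compare_low (F : FormalGroup R) (d : Fin 2 →₀ ℕ) (hd : d.degree < 2) :
    coeff d F.toPowerSeries = coeff d (X 0 + X 1 : MvPowerSeries (Fin 2) R) := by
  classical
  have h : d = 0 ∨ d = Finsupp.single 0 1 ∨ d = Finsupp.single 1 1 := by
    rw [Finsupp.degree_eq_sum, Fin.sum_univ_two] at hd
    have e : ∀ d' : Fin 2 →₀ ℕ, d 0 = d' 0 → d 1 = d' 1 → d = d' := fun d' h0 h1 => by
      ext i
      fin_cases i
      · exact h0
      · exact h1
    rcases Nat.eq_zero_or_pos (d 0) with h0 | h0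
    · rcases Nat.eq_zero_or_pos (d 1) with h1 | h1
      · exact Or.inl (e _ h0 h1)
      · exact Or.inr (Or.inr (e _ (by simpa using h0) (by simp; omega)))
    · exact Or.inr (Or.inl (e _ (by simp; omega) (by simp; omega)))
  rcases h with rfl | rfl | rfl
  · simp [F.zero_constantCoeff]
  · simp [F.lin_coeff_X, coeff_index_single_X]
  · simp [F.lin_coeff_Y, coeff_index_single_X]

theorem compare_mem (hN : Good N) (φ : R →+* B) (F : FormalGroup R) {a b : B} (ha : a ∈ N)
    (hb : b ∈ N) : ev φ ![a, b] F.toPowerSeries ∈ N :=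
  ev_mem hN φ (compare_vec ha hb) (by rw [F.zero_constantCoeff, map_zero]; exact N.zero_mem)

theorem compare_two (hN : Good N) (φ : R →+* B) (F : FormalGroup R) {a b : B} (ha : a ∈ N)
    (hb : b ∈ N) : ev φ ![a, b] F.toPowerSeries - (a + b) ∈ N ^ 2 := by
  have h := ev_mem_pow hN φ (compare_vec ha hb) (compare_vec ha hb)
    (f := F.toPowerSeries - (X 0 + X 1)) (j := 2) fun d hd => by
      rw [map_sub, compare_low F d hd, sub_self]
  rwa [map_sub, map_add, ev_X hN φ (compare_vec ha hb), ev_X hN φ (compare_vec ha hb)] at h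

theorem compare_lin (hN : Good N) (φ : R →+* B) (F : FormalGroup R) {a b a' b' : B} (ha : a ∈ N)
    (hb : b ∈ N) (ha' : a' ∈ N) (hb' : b' ∈ N) {j : ℕ} (hj : 1 ≤ j) (h1 : a' - a ∈ N ^ j)
    (h2 : b' - b ∈ N ^ j) :
    ev φ ![a', b'] F.toPowerSeries - ev φ ![a, b] F.toPowerSeries - (a' - a) - (b' - b) ∈
      N ^ (j + 1) := by
  have h := ev_taylor hN φ (compare_vec ha hb) (compare_vec ha' hb') (J := N ^ j)
    (fun i => by fin_cases i; exacts [h1, h2]) F.toPowerSeries
  have h' := Ideal.pow_le_pow_right (I := N) (show j + 1 ≤ j * 2 by omega) (by rwa [pow_mul])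
  have hd : ∀ i, ev φ ![a, b] (pderiv R i F.toPowerSeries) - 1 ∈ N := by
    intro i
    have := ev_sub_const_mem hN φ (compare_vec ha hb) (compare_vec ha hb)
      (pderiv R i F.toPowerSeries)
    have e : constantCoeff (pderiv R i F.toPowerSeries) = 1 := by
      rw [← coeff_zero_eq_constantCoeff_apply, coeff_pderiv]
      fin_cases i
      · simp [F.lin_coeff_X]
      · simp [F.lin_coeff_Y]
    rwa [e, map_one] at this
  rw [Fin.sum_univ_two] at h'
  have a1 := Ideal.mul_mem_mul h1 (hd 0)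
  have a2 := Ideal.mul_mem_mul h2 (hd 1)
  rw [← pow_succ] at a1 a2
  have := add_mem (add_mem h' a1) a2
  convert this using 1
  simp only [Matrix.cons_val_zero, Matrix.cons_val_one]
  ring

theorem compare_rel_mul {x x' y y' : B} {m n : ℕ} (h : x ∈ N ^ m ∧ x' - x ∈ N ^ (m + 1))
    (h' : y ∈ N ^ n ∧ y' - y ∈ N ^ (n + 1)) :
    x * y ∈ N ^ (m + n) ∧ x' * y' - x * y ∈ N ^ (m + n + 1) := by
  refine ⟨by rw [pow_add]; exact Ideal.mul_mem_mul h.1 h'.1, ?_⟩
  have h1 : y' ∈ N ^ n := by
    have := add_mem h'.1 (Ideal.pow_le_pow_right (Nat.le_succ n) h'.2)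
    rwa [add_sub_cancel] at this
  have a1 := Ideal.mul_mem_mul h.2 h1
  have a2 := Ideal.mul_mem_mul h.1 h'.2
  rw [← pow_add] at a1 a2
  rw [show m + 1 + n = m + n + 1 by ring] at a1
  convert add_mem a1 a2 using 1
  ring

theorem compare_rel_pow {x x' : B} (h : x ∈ N) (h' : x' - x ∈ N ^ 2) (m : ℕ) :
    x ^ m ∈ N ^ m ∧ x' ^ m - x ^ m ∈ N ^ (m + 1) := by
  induction m with
  | zero => simp
  | succ m ih =>
    rw [pow_succ x, pow_succ x']
    exact compare_rel_mul (n := 1) ih ⟨by rwa [pow_one], h'⟩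

theorem compare_hom (φ : R →+* B) {c : MvPolynomial (Fin 2) R} {j : ℕ} (hc : c.IsHomogeneous j)
    {a b a' b' : B} (ha : a ∈ N) (hb : b ∈ N) (h1 : a' - a ∈ N ^ 2) (h2 : b' - b ∈ N ^ 2) :
    MvPolynomial.eval₂ φ ![a, b] c ∈ N ^ j ∧
      MvPolynomial.eval₂ φ ![a', b'] c - MvPolynomial.eval₂ φ ![a, b] c ∈ N ^ (j + 1) := by
  obtain ⟨e, rfl⟩ := compare1_form c hc
  simp only [MvPolynomial.eval₂_sum, MvPolynomial.eval₂_mul, MvPolynomial.eval₂_pow,
    MvPolynomial.eval₂_C, MvPolynomial.eval₂_X, Matrix.cons_val_zero, Matrix.cons_val_one,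
    ← Finset.sum_sub_distrib]
  have key : ∀ i ∈ Finset.range (j + 1), a ^ i * b ^ (j - i) ∈ N ^ j ∧
      a' ^ i * b' ^ (j - i) - a ^ i * b ^ (j - i) ∈ N ^ (j + 1) := by
    intro i hi
    have := compare_rel_mul (compare_rel_pow ha h1 i) (compare_rel_pow hb h2 (j - i))
    rwa [Nat.add_sub_cancel' (Nat.lt_succ_iff.1 (Finset.mem_range.1 hi))] at this
  refine ⟨Ideal.sum_mem _ fun i hi => ?_, Ideal.sum_mem _ fun i hi => ?_⟩
  · rw [mul_assoc]
    exact Ideal.mul_mem_left _ _ (key i hi).1
  · rw [mul_assoc, mul_assoc, ← mul_sub]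
    exact Ideal.mul_mem_left _ _ (key i hi).2

theorem compare_scale (φ : R →+* B) {c : MvPolynomial (Fin 2) R} {j : ℕ} (hc : c.IsHomogeneous j)
    (t : R) (x : B) :
    MvPolynomial.eval₂ φ ![φ t * x, x] c = φ (MvPolynomial.eval ![t, 1] c) * x ^ j := by
  obtain ⟨e, rfl⟩ := compare1_form c hc
  simp only [MvPolynomial.eval₂_sum, MvPolynomial.eval₂_mul, MvPolynomial.eval₂_pow,
    MvPolynomial.eval₂_C, MvPolynomial.eval₂_X, Matrix.cons_val_zero, Matrix.cons_val_one,
    map_sum, map_mul, map_pow, MvPolynomial.eval_C, MvPolynomial.eval_X, one_pow, mul_one,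
    Finset.sum_mul]
  refine Finset.sum_congr rfl fun i hi => ?_
  have : x ^ j = x ^ i * x ^ (j - i) := by
    rw [← pow_add, Nat.add_sub_cancel' (Nat.lt_succ_iff.1 (Finset.mem_range.1 hi))]
  rw [this]
  ring

theorem compare_poly_zero {σ : Type*} [Finite σ] {P : MvPolynomial σ R} {j : ℕ}
    (hP : P.IsHomogeneous j) (h : (P : MvPowerSeries σ R) ∈ liftI σ (⊥ : Ideal R) ^ (j + 1)) :
    P = 0 := by
  ext d
  by_cases hd : d.degree = j
  · exact compare_mem_pow_iff.1 h d (by omega)
  · exact hP.coeff_eq_zero hd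

theorem compare_coe_aeval {σ τ : Type*} (g : σ → MvPolynomial τ R) (c : MvPolynomial σ R) :
    ((MvPolynomial.aeval g c : MvPolynomial τ R) : MvPowerSeries τ R) =
      MvPolynomial.eval₂ C (fun i => (g i : MvPowerSeries τ R)) c := by
  induction c using MvPolynomial.induction_on with
  | C r => simp
  | add P Q h1 h2 => rw [map_add, MvPolynomial.coe_add, h1, h2, MvPolynomial.eval₂_add]
  | mul_X P i h =>
    rw [map_mul, MvPolynomial.coe_mul, h, MvPolynomial.eval₂_mul, MvPolynomial.aeval_X,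
      MvPolynomial.eval₂_X]

theorem compare_coe_aeval2 {τ : Type*} (u v : MvPolynomial τ R) (c : MvPolynomial (Fin 2) R) :
    ((MvPolynomial.aeval ![u, v] c : MvPolynomial τ R) : MvPowerSeries τ R) =
      MvPolynomial.eval₂ C ![(u : MvPowerSeries τ R), (v : MvPowerSeries τ R)] c := by
  rw [compare_coe_aeval]
  congr 1
  funext i
  fin_cases i <;> rfl

theorem compare_coe_sub {σ : Type*} (P Q : MvPolynomial σ R) :
    ((P - Q : MvPolynomial σ R) : MvPowerSeries σ R) = P - Q :=
  map_sub (MvPolynomial.coeToMvPowerSeries.ringHom (σ := σ) (R := R)) P Q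

theorem compare_ev_fadd (hN : Good N) (φ : R →+* B) (F : FormalGroup R) {a b : B} (ha : a ∈ N)
    (hb : b ∈ N) : fadd (F.map φ) a b = ev φ ![a, b] F.toPowerSeries := by
  rw [fadd, FormalGroup.map_toPowerSeries, ev_map hN _ _ (compare_vec ha hb), RingHom.id_comp]

theorem compare_assoc (hN : Good N) (φ : R →+* B) (F : FormalGroup R) {a b c : B} (ha : a ∈ N)
    (hb : b ∈ N) (hc : c ∈ N) :
    ev φ ![ev φ ![a, b] F.toPowerSeries, c] F.toPowerSeries =
      ev φ ![a, ev φ ![b, c] F.toPowerSeries] F.toPowerSeries := by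
  rw [← compare_ev_fadd hN φ F (compare_mem hN φ F ha hb) hc,
    ← compare_ev_fadd hN φ F ha (compare_mem hN φ F hb hc), ← compare_ev_fadd hN φ F ha hb,
    ← compare_ev_fadd hN φ F hb hc]
  exact fadd_assoc hN ha hb hc

theorem compare_comm (hN : Good N) (φ : R →+* B) (F : FormalGroup R) [F.IsComm] {a b : B}
    (ha : a ∈ N) (hb : b ∈ N) :
    ev φ ![a, b] F.toPowerSeries = ev φ ![b, a] F.toPowerSeries := by
  rw [← compare_ev_fadd hN φ F ha hb, ← compare_ev_fadd hN φ F hb ha]
  exact fadd_comm hN ha hb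

theorem compare_subst2 {τ : Type*} [Finite τ] {u v : MvPowerSeries τ R}
    (hu : u ∈ liftI τ (⊥ : Ideal R)) (hv : v ∈ liftI τ (⊥ : Ideal R))
    (f : MvPowerSeries (Fin 2) R) : f.subst ![u, v] = ev C ![u, v] f :=
  subst_eq_ev (compare_vec hu hv) f

theorem compare_ev_self (f : MvPowerSeries (Fin 2) R) : ev C ![X 0, X 1] f = f := by
  have h := eq_ev (good_liftI_bot (R := R) (σ := Fin 2)) (RingHom.id _) C ![X 0, X 1]
    (compare_vec (compare_X_mem 0) (compare_X_mem 1)) (fun _ => rfl)
    (fun i => by fin_cases i <;> rfl)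
  rw [← h]
  rfl

end aux

/-- one step: two laws with the same `p`-series that agree below degree `j ≥ 2` differ in degree `j`
by a coboundary.  The degree `j` part `c` of `F - G` is a symmetric cocycle (associativity of both
laws modulo degree `j + 1`), and `[t]_F - [t]_G ≡ (∑ s < t, c (s, 1)) X ^ j` modulo degree `j + 1`. -/
theorem compare_step {κ : Type*} [Field κ] (p : ℕ) [Fact p.Prime] [CharP κ p]
    (F G : FormalGroup κ) [F.IsComm] [G.IsComm] (hp : mulSeries F p = mulSeries G p) {j : ℕ}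
    (hj : 2 ≤ j)
    (h : ∀ d : Fin 2 →₀ ℕ, d.degree < j →
      MvPowerSeries.coeff d F.toPowerSeries = MvPowerSeries.coeff d G.toPowerSeries) :
    ∃ a : κ, ∀ d : Fin 2 →₀ ℕ, d.degree = j →
      MvPowerSeries.coeff d F.toPowerSeries - MvPowerSeries.coeff d G.toPowerSeries =
        a * MvPowerSeries.coeff d
          ((MvPowerSeries.X 0 + MvPowerSeries.X 1) ^ j - MvPowerSeries.X 0 ^ j -
            MvPowerSeries.X 1 ^ j : MvPowerSeries (Fin 2) κ) := by
  classical
  set c := MvPolynomial.homogeneousComponent j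
    ((F.toPowerSeries - G.toPowerSeries).truncTotal (j + 1)) with hcdef
  have hc : c.IsHomogeneous j := MvPolynomial.homogeneousComponent_isHomogeneous _ _
  have hcc : ∀ d : Fin 2 →₀ ℕ, d.degree = j → c.coeff d =
      MvPowerSeries.coeff d F.toPowerSeries - MvPowerSeries.coeff d G.toPowerSeries := by
    intro d hd
    rw [hcdef, MvPolynomial.coeff_homogeneousComponent, if_pos hd,
      MvPowerSeries.coeff_truncTotal _ (by omega), map_sub]
  have hD : ∀ (τ : Type) [Finite τ] {a b : MvPowerSeries τ κ}, a ∈ liftI τ (⊥ : Ideal κ) →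
      b ∈ liftI τ (⊥ : Ideal κ) → ev MvPowerSeries.C ![a, b] F.toPowerSeries -
        ev MvPowerSeries.C ![a, b] G.toPowerSeries -
        MvPolynomial.eval₂ MvPowerSeries.C ![a, b] c ∈ liftI τ (⊥ : Ideal κ) ^ (j + 1) := by
    intro τ _ a b ha hb
    have := ev_mem_pow good_liftI_bot MvPowerSeries.C (compare_vec ha hb) (compare_vec ha hb)
      (f := F.toPowerSeries - G.toPowerSeries - (c : MvPowerSeries (Fin 2) κ)) (j := j + 1)
      fun d hd => by
        rw [map_sub, map_sub, MvPolynomial.coeff_coe]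
        rcases eq_or_ne d.degree j with e | e
        · rw [hcc d e, sub_self]
        · rw [hc.coeff_eq_zero e, h d (by omega), sub_self, sub_self]
    rwa [map_sub, map_sub, ev_coe good_liftI_bot _ (compare_vec ha hb)] at this
  have hD' : ∀ (τ : Type) [Finite τ] {a b : MvPowerSeries τ κ}, a ∈ liftI τ (⊥ : Ideal κ) →
      b ∈ liftI τ (⊥ : Ideal κ) → ev MvPowerSeries.C ![a, b] F.toPowerSeries -
        ev MvPowerSeries.C ![a, b] G.toPowerSeries ∈ liftI τ (⊥ : Ideal κ) ^ j := by
    intro τ _ a b ha hb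
    have h1 := Ideal.pow_le_pow_right (Nat.le_succ j) (hD τ ha hb)
    have h2 := (compare_hom (N := liftI τ (⊥ : Ideal κ)) MvPowerSeries.C hc ha hb
      (compare_self a) (compare_self b)).1
    convert add_mem h1 h2 using 1
    ring
  have hX : ∀ {τ : Type} (i : τ), (MvPolynomial.X i : MvPolynomial τ κ).IsHomogeneous 1 :=
    fun i => MvPolynomial.isHomogeneous_X _ i
  have hae : ∀ {τ : Type} {u v : MvPolynomial τ κ}, u.IsHomogeneous 1 → v.IsHomogeneous 1 →
      (MvPolynomial.aeval ![u, v] c).IsHomogeneous j := by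
    intro τ u v hu hv
    have := hc.aeval ![u, v] (n := 1) fun i => by fin_cases i; exacts [hu, hv]
    rwa [one_mul] at this
  obtain ⟨a, ha⟩ := cocycle_lemma p (by omega : 1 ≤ j) c hc (by
      have e : MvPolynomial.rename (Equiv.swap (0 : Fin 2) 1) c =
          MvPolynomial.aeval ![MvPolynomial.X 1, MvPolynomial.X 0] c := by
        rw [MvPolynomial.rename_eq_aeval]
        congr 2
        funext i
        fin_cases i <;> rfl
      have e' : c = MvPolynomial.aeval ![MvPolynomial.X 0, MvPolynomial.X 1] c := by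
        have : ![(MvPolynomial.X 0 : MvPolynomial (Fin 2) κ), MvPolynomial.X 1] =
            MvPolynomial.X := by
          funext i
          fin_cases i <;> rfl
        rw [this, MvPolynomial.aeval_X_left_apply]
      rw [e, ← sub_eq_zero]
      apply compare_poly_zero ((hae (hX 1) (hX 0)).sub hc)
      nth_rw 2 [e']
      rw [compare_coe_sub, compare_coe_aeval2, compare_coe_aeval2, MvPolynomial.coe_X,
        MvPolynomial.coe_X]
      have h1 := hD (Fin 2) (compare_X_mem 0) (compare_X_mem 1)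
      have h2 := hD (Fin 2) (compare_X_mem 1) (compare_X_mem 0)
      rw [compare_comm good_liftI_bot _ F (compare_X_mem 1) (compare_X_mem 0),
        compare_comm good_liftI_bot _ G (compare_X_mem 1) (compare_X_mem 0)] at h2
      convert sub_mem h1 h2 using 1
      ring) (by
      rw [← sub_eq_zero]
      apply compare_poly_zero (((hae (hX 1) (hX 2)).add (hae (hX 0) ((hX 1).add (hX 2)))).sub
        ((hae ((hX 0).add (hX 1)) (hX 2)).add (hae (hX 0) (hX 1))))
      simp only [compare_coe_sub, MvPolynomial.coe_add, compare_coe_aeval2, MvPolynomial.coe_X]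
      have hN := good_liftI_bot (R := κ) (σ := Fin 3)
      have x0 := compare_X_mem (R := κ) (0 : Fin 3)
      have x1 := compare_X_mem (R := κ) (1 : Fin 3)
      have x2 := compare_X_mem (R := κ) (2 : Fin 3)
      have f01 := compare_mem hN MvPowerSeries.C F x0 x1
      have f12 := compare_mem hN MvPowerSeries.C F x1 x2
      have g01 := compare_mem hN MvPowerSeries.C G x0 x1
      have g12 := compare_mem hN MvPowerSeries.C G x1 x2
      have a1 := hD (Fin 3) f01 x2
      have a2 := compare_lin hN MvPowerSeries.C G g01 x2 f01 x2 (by omega : 1 ≤ j)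
        (hD' (Fin 3) x0 x1) (compare_self _)
      have a3 := hD (Fin 3) x0 x1
      have a4 := (compare_hom MvPowerSeries.C hc (add_mem x0 x1) x2
        (compare_two hN MvPowerSeries.C F x0 x1) (compare_self _)).2
      have b1 := hD (Fin 3) x0 f12
      have b2 := compare_lin hN MvPowerSeries.C G x0 g12 x0 f12 (by omega : 1 ≤ j)
        (compare_self _) (hD' (Fin 3) x1 x2)
      have b3 := hD (Fin 3) x1 x2
      have b4 := (compare_hom MvPowerSeries.C hc x0 (add_mem x1 x2)
        (compare_self _) (compare_two hN MvPowerSeries.C F x1 x2)).2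
      rw [compare_assoc hN _ F x0 x1 x2] at a1
      rw [compare_assoc hN _ G x0 x1 x2] at a2
      convert sub_mem (add_mem (add_mem (add_mem a1 a2) a3) a4)
        (add_mem (add_mem (add_mem b1 b2) b3) b4) using 1
      ring) (by
      have hN := good_liftI_bot (R := κ) (σ := Unit)
      have x0 : (PowerSeries.X : PowerSeries κ) ∈ liftI Unit (⊥ : Ideal κ) := compare_X_mem ()
      have xj := Ideal.pow_mem_pow x0 j
      have key : ∀ t : ℕ, mulSeries F t - MvPowerSeries.C (t : κ) * PowerSeries.X ∈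
          liftI Unit (⊥ : Ideal κ) ^ 2 ∧ mulSeries F t - mulSeries G t -
            MvPowerSeries.C (∑ s ∈ Finset.range t, MvPolynomial.eval ![(s : κ), 1] c) *
              PowerSeries.X ^ j ∈ liftI Unit (⊥ : Ideal κ) ^ (j + 1) := by
        intro t
        induction t with
        | zero =>
          simp only [mulSeries, Nat.cast_zero, map_zero, zero_mul, Finset.range_zero,
            Finset.sum_empty, sub_self]
          exact ⟨Ideal.zero_mem _, Ideal.zero_mem _⟩
        | succ t ih =>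
          have mF : mulSeries F t ∈ liftI Unit (⊥ : Ideal κ) := constantCoeff_mulSeries F t
          have mG : mulSeries G t ∈ liftI Unit (⊥ : Ideal κ) := constantCoeff_mulSeries G t
          rw [mulSeries, mulSeries, compare_subst2 mF x0, compare_subst2 mG x0]
          constructor
          · convert add_mem (compare_two hN MvPowerSeries.C F mF x0) ih.1 using 1
            rw [Nat.cast_succ, map_add, map_one]
            ring
          · have a1 := hD Unit mF x0
            have a2 := compare_lin hN MvPowerSeries.C G mG x0 mF x0 (by omega : 1 ≤ j)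
              (by
                have := add_mem (Ideal.pow_le_pow_right (Nat.le_succ j) ih.2)
                  (Ideal.mul_mem_left _ (MvPowerSeries.C
                    (∑ s ∈ Finset.range t, MvPolynomial.eval ![(s : κ), 1] c)) xj)
                rwa [sub_add_cancel] at this) (compare_self _)
            have a3 := (compare_hom MvPowerSeries.C hc (Ideal.mul_mem_left _ _ x0) x0 ih.1
              (compare_self _)).2
            rw [compare_scale _ hc] at a3
            convert add_mem (add_mem (add_mem a1 a2) a3) ih.2 using 1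
            rw [Finset.sum_range_succ, map_add]
            ring
      have h1 := (key p).2
      rw [hp, sub_self, zero_sub, neg_mem_iff] at h1
      have h2 := compare_mem_pow_iff.1 h1 (Finsupp.single () j) (by simp)
      rw [MvPowerSeries.coeff_C_mul] at h2
      have h3 : MvPowerSeries.coeff (Finsupp.single () j) (PowerSeries.X ^ j : PowerSeries κ) = 1 :=
        PowerSeries.coeff_X_pow_self j
      rwa [h3, mul_one] at h2)
  refine ⟨a, fun d hd => ?_⟩
  rw [← hcc d hd, ha, MvPolynomial.coeff_C_mul, ← MvPolynomial.coeff_coe]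
  simp only [compare_coe_sub, MvPolynomial.coe_add, MvPolynomial.coe_pow, MvPolynomial.coe_X]

theorem compare_subst_f {R : Type*} [CommRing R] {τ : Type*} {b : MvPowerSeries τ R}
    (hb : PowerSeries.HasSubst b) (a : R) (j : ℕ) :
    (PowerSeries.X - PowerSeries.C a * PowerSeries.X ^ j : PowerSeries R).subst b =
      b - MvPowerSeries.C a * b ^ j := by
  rw [PowerSeries.subst_sub hb, PowerSeries.subst_mul hb, PowerSeries.subst_pow hb,
    PowerSeries.subst_X hb, PowerSeries.subst_C]

theorem compare_psubst_mem {R : Type*} [CommRing R] {τ : Type*} [Finite τ] {b : MvPowerSeries τ R}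
    (hb : b ∈ liftI τ (⊥ : Ideal R)) {f : PowerSeries R} {j : ℕ}
    (hf : ∀ n < j, PowerSeries.coeff n f = 0) : f.subst b ∈ liftI τ (⊥ : Ideal R) ^ j := by
  have e : f.subst b = ev MvPowerSeries.C (fun _ : Unit => b) f :=
    subst_eq_ev (σ := Unit) (b := fun _ => b) (fun _ => hb) f
  rw [e]
  refine ev_mem_pow good_liftI_bot _ (fun _ => hb) (fun _ => hb) fun d hd => ?_
  have h1 : d = Finsupp.single () (d ()) := Finsupp.unique_single d
  rw [h1] at hd ⊢
  exact hf _ (by simpa using hd)

theorem compare_next {κ : Type*} [Field κ] (p : ℕ) [Fact p.Prime] [CharP κ p] {h : ℕ}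
    (hκ : ∀ c : κ, c ^ p ^ h = c) (F G : FormalGroup κ) [F.IsComm] [G.IsComm]
    (hF : mulSeries F p = PowerSeries.X ^ p ^ h) (hG : mulSeries G p = PowerSeries.X ^ p ^ h)
    {j : ℕ} (hj : 2 ≤ j)
    (hFG : ∀ d : Fin 2 →₀ ℕ, d.degree < j →
      MvPowerSeries.coeff d F.toPowerSeries = MvPowerSeries.coeff d G.toPowerSeries) :
    ∃ (a : κ) (F' : FormalGroup κ), F'.IsComm ∧
      IsFGHom F F' (PowerSeries.X - PowerSeries.C a * PowerSeries.X ^ j) ∧
      mulSeries F' p = PowerSeries.X ^ p ^ h ∧ ∀ d : Fin 2 →₀ ℕ, d.degree < j + 1 →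
        MvPowerSeries.coeff d F'.toPowerSeries = MvPowerSeries.coeff d G.toPowerSeries := by
  obtain ⟨a, ha⟩ := compare_step p F G (hF.trans hG.symm) hj hFG
  set f : PowerSeries κ := PowerSeries.X - PowerSeries.C a * PowerSeries.X ^ j with hf
  have h0 : PowerSeries.constantCoeff f = 0 := by
    simp [hf, show j ≠ 0 by omega]
  have h1 : IsUnit (PowerSeries.coeff 1 f) := by
    simp [hf, PowerSeries.coeff_X_pow, show 1 ≠ j by omega]
  obtain ⟨F', hc, hF'⟩ := exists_transport F h0 h1
  refine ⟨a, F', hc, hF', ?_, ?_⟩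
  · obtain ⟨g, g0, -, hfg, -⟩ := exists_substInv h0 h1
    have hq : p ^ h ≠ 0 := pow_ne_zero _ (Fact.out : p.Prime).ne_zero
    have sf := PowerSeries.HasSubst.of_constantCoeff_zero' h0
    have sg := PowerSeries.HasSubst.of_constantCoeff_zero' g0
    have e1 := subst_mulSeries hF' p
    have e2 : f.subst (PowerSeries.X ^ p ^ h : PowerSeries κ) =
        (PowerSeries.X ^ p ^ h : PowerSeries κ).subst f := by
      have : CharP (PowerSeries κ) p := mvPowerSeries_charP p
      rw [PowerSeries.subst_pow sf, PowerSeries.subst_X sf, hf,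
        compare_subst_f (PowerSeries.HasSubst.X_pow hq), sub_pow_char_pow, mul_pow, ← map_pow, hκ,
        ← pow_mul, ← pow_mul, mul_comm j]
      rfl
    rw [hF, e2] at e1
    have e3 := congrArg (PowerSeries.subst g) e1
    rw [PowerSeries.subst_comp_subst_apply sf sg, PowerSeries.subst_comp_subst_apply sf sg, hfg,
      PowerSeries.X_subst, PowerSeries.X_subst] at e3
    exact e3.symm
  · have hN := good_liftI_bot (R := κ) (σ := Fin 2)
    have x0 := compare_X_mem (R := κ) (0 : Fin 2)
    have x1 := compare_X_mem (R := κ) (1 : Fin 2)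
    have hF0 : F.toPowerSeries ∈ liftI (Fin 2) (⊥ : Ideal κ) := F.zero_constantCoeff
    have y : ∀ {x : MvPowerSeries (Fin 2) κ}, x ∈ liftI (Fin 2) (⊥ : Ideal κ) →
        x - MvPowerSeries.C a * x ^ j - x ∈ liftI (Fin 2) (⊥ : Ideal κ) ^ j := fun {x} hx => by
      rw [sub_sub_cancel_left]
      exact neg_mem (Ideal.mul_mem_left _ _ (Ideal.pow_mem_pow hx j))
    have y' : ∀ {x : MvPowerSeries (Fin 2) κ}, x ∈ liftI (Fin 2) (⊥ : Ideal κ) →
        x - MvPowerSeries.C a * x ^ j ∈ liftI (Fin 2) (⊥ : Ideal κ) := fun {x} hx =>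
      sub_mem hx (Ideal.mul_mem_left _ _ (Ideal.pow_mem_of_mem _ hx j (by omega)))
    have e := hF'.2
    rw [hf, compare_subst_f (PowerSeries.HasSubst.of_constantCoeff_zero F.zero_constantCoeff),
      compare_subst_f (PowerSeries.HasSubst.X 0), compare_subst_f (PowerSeries.HasSubst.X 1),
      compare_subst2 (y' x0) (y' x1)] at e
    have a1 := compare_lin hN MvPowerSeries.C F' x0 x1 (y' x0) (y' x1) (by omega : 1 ≤ j)
      (y x0) (y x1)
    rw [← e, compare_ev_self] at a1
    have a2 := compare_two hN MvPowerSeries.C F x0 x1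
    rw [compare_ev_self] at a2
    have a3 := Ideal.mul_mem_left _ (MvPowerSeries.C a) (compare_rel_pow (add_mem x0 x1) a2 j).2
    have a4 : F.toPowerSeries - G.toPowerSeries - MvPowerSeries.C a *
        ((MvPowerSeries.X 0 + MvPowerSeries.X 1) ^ j - MvPowerSeries.X 0 ^ j -
          MvPowerSeries.X 1 ^ j) ∈ liftI (Fin 2) (⊥ : Ideal κ) ^ (j + 1) := by
      refine compare_mem_pow_iff.2 fun d hd => ?_
      rw [map_sub, map_sub, MvPowerSeries.coeff_C_mul]
      rcases eq_or_ne d.degree j with e | e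
      · rw [ha d e, sub_self]
      · rw [hFG d (by omega), sub_self, compare_mem_pow_iff.1 (sub_mem (sub_mem
          (Ideal.pow_mem_pow (add_mem x0 x1) j) (Ideal.pow_mem_pow x0 j))
          (Ideal.pow_mem_pow x1 j)) d (by omega), mul_zero, sub_self]
    have a5 : F'.toPowerSeries - G.toPowerSeries ∈ liftI (Fin 2) (⊥ : Ideal κ) ^ (j + 1) := by
      convert sub_mem (sub_mem a4 a1) a3 using 1
      ring
    intro d hd
    have := compare_mem_pow_iff.1 a5 d hd
    rwa [map_sub, sub_eq_zero] at this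

/-- comparison: transport `F` along `X - a X ^ j` successively (`exists_transport`); every series over
`κ` commutes with `X ^ p ^ h`, so the `p`-series does not change; the composites converge
coefficientwise. -/
theorem exists_compare {κ : Type*} [Field κ] (p : ℕ) [Fact p.Prime] [CharP κ p] {h : ℕ}
    (hκ : ∀ c : κ, c ^ p ^ h = c) (F G : FormalGroup κ) [F.IsComm] [G.IsComm]
    (hF : mulSeries F p = PowerSeries.X ^ p ^ h) (hG : mulSeries G p = PowerSeries.X ^ p ^ h) :
    ∃ ι : PowerSeries κ, IsFGHom F G ι ∧ PowerSeries.coeff 1 ι = 1 := by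
  let P : ℕ → FormalGroup κ × PowerSeries κ → Prop := fun j x =>
    x.1.IsComm ∧ IsFGHom F x.1 x.2 ∧ PowerSeries.coeff 1 x.2 = 1 ∧
      mulSeries x.1 p = PowerSeries.X ^ p ^ h ∧ ∀ d : Fin 2 →₀ ℕ, d.degree < j + 2 →
        MvPowerSeries.coeff d x.1.toPowerSeries = MvPowerSeries.coeff d G.toPowerSeries
  have h0 : P 0 (F, PowerSeries.X) := ⟨inferInstance, isFGHom_X F, by simp, hF,
    fun d hd => by rw [compare_low F d hd, compare_low G d hd]⟩
  have hstep : ∀ j (x : {x // P j x}), ∃ y : {x // P (j + 1) x},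
      ∀ n < j + 2, PowerSeries.coeff n y.1.2 = PowerSeries.coeff n x.1.2 := by
    rintro j ⟨⟨F₁, ι⟩, hc, hι, h1, hp, hd⟩
    obtain ⟨a, F₂, hc₂, hf, hp₂, hd₂⟩ := compare_next p hκ F₁ G hp hG (Nat.le_add_left 2 j) hd
    have key : ∀ n < j + 2, PowerSeries.coeff n
        ((PowerSeries.X - PowerSeries.C a * PowerSeries.X ^ (j + 2) : PowerSeries κ).subst ι :
          PowerSeries κ) = PowerSeries.coeff n ι := by
      intro n hn
      rw [compare_subst_f (PowerSeries.HasSubst.of_constantCoeff_zero' hι.1), map_sub]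
      have h2 : (PowerSeries.X : PowerSeries κ) ^ (j + 2) ∣ MvPowerSeries.C a * ι ^ (j + 2) :=
        Dvd.dvd.mul_left (pow_dvd_pow_of_dvd (PowerSeries.X_dvd_iff.2 hι.1) _) _
      rw [PowerSeries.X_pow_dvd_iff.1 h2 n hn, sub_zero]
    exact ⟨⟨(F₂, _), hc₂, isFGHom_comp hι hf, (key 1 (by omega)).trans h1, hp₂, hd₂⟩, key⟩
  choose step hstep using hstep
  let s : ∀ j, {x // P j x} := fun j => Nat.rec ⟨_, h0⟩ step j
  have hs : ∀ j k n, n < j + 2 →
      PowerSeries.coeff n (s (j + k)).1.2 = PowerSeries.coeff n (s j).1.2 := by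
    intro j k n hn
    induction k with
    | zero => rfl
    | succ k ih => exact (hstep (j + k) (s (j + k)) n (by omega)).trans ih
  set ι : PowerSeries κ := PowerSeries.mk fun n => PowerSeries.coeff n (s n).1.2 with hι
  have hlim : ∀ j, ∀ n < j + 2, PowerSeries.coeff n (ι - (s j).1.2) = 0 := by
    intro j n hn
    rw [map_sub, hι, PowerSeries.coeff_mk, ← hs n j n (by omega), ← hs j n n hn, add_comm, sub_self]
  have hι0 : PowerSeries.constantCoeff ι = 0 := by
    rw [← PowerSeries.coeff_zero_eq_constantCoeff_apply, hι, PowerSeries.coeff_mk,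
      PowerSeries.coeff_zero_eq_constantCoeff_apply]
    exact (s 0).2.2.1.1
  refine ⟨ι, ⟨hι0, ?_⟩, by rw [hι, PowerSeries.coeff_mk]; exact (s 1).2.2.2.1⟩
  ext d
  obtain ⟨-, hh, -, -, hd⟩ := (s d.degree).2
  have hl := hlim d.degree
  generalize (s d.degree).1.1 = F₁ at hh hd
  generalize (s d.degree).1.2 = ι₁ at hh hl
  have hN := good_liftI_bot (R := κ) (σ := Fin 2)
  have x0 := compare_X_mem (R := κ) (0 : Fin 2)
  have x1 := compare_X_mem (R := κ) (1 : Fin 2)
  have hF0 : F.toPowerSeries ∈ liftI (Fin 2) (⊥ : Ideal κ) := F.zero_constantCoeff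
  have m1 : ∀ {f : PowerSeries κ}, PowerSeries.constantCoeff f = 0 →
      ∀ {b : MvPowerSeries (Fin 2) κ}, b ∈ liftI (Fin 2) (⊥ : Ideal κ) →
        f.subst b ∈ liftI (Fin 2) (⊥ : Ideal κ) := by
    intro f hf b hb
    have := compare_psubst_mem hb (f := f) (j := 1) fun n hn => by
      rw [show n = 0 by omega, PowerSeries.coeff_zero_eq_constantCoeff_apply, hf]
    rwa [pow_one] at this
  have m2 : ∀ {b : MvPowerSeries (Fin 2) κ}, b ∈ liftI (Fin 2) (⊥ : Ideal κ) →
      ι.subst b - ι₁.subst b ∈ liftI (Fin 2) (⊥ : Ideal κ) ^ (d.degree + 2) := by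
    intro b hb
    rw [← PowerSeries.subst_sub (PowerSeries.HasSubst.of_constantCoeff_zero hb)]
    exact compare_psubst_mem hb hl
  have a1 := m2 hF0
  rw [hh.2, compare_subst2 (m1 hh.1 x0) (m1 hh.1 x1)] at a1
  have a2 := ev_mem_pow hN MvPowerSeries.C (compare_vec (m1 hh.1 x0) (m1 hh.1 x1))
    (compare_vec (m1 hh.1 x0) (m1 hh.1 x1)) (f := F₁.toPowerSeries - G.toPowerSeries)
    (j := d.degree + 2) fun e he => by rw [map_sub, hd e he, sub_self]
  rw [map_sub] at a2
  have a3 := ev_sub_mem hN MvPowerSeries.C (compare_vec (m1 hh.1 x0) (m1 hh.1 x1))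
    (compare_vec (m1 hι0 x0) (m1 hι0 x1)) (J := liftI (Fin 2) (⊥ : Ideal κ) ^ (d.degree + 2))
    (fun i => by fin_cases i; exacts [m2 x0, m2 x1]) G.toPowerSeries
  rw [compare_subst2 (m1 hι0 x0) (m1 hι0 x1), ← sub_eq_zero, ← map_sub]
  refine (compare_mem_pow_iff (j := d.degree + 2)).1 ?_ d (by omega)
  convert sub_mem (add_mem a1 a2) a3 using 1
  ring

end Crest.Agent.R227.K
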