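import Crest.Agent.R227.K.FG2

/-! Row 227, task `R227/K/Compare1`: Lazard's comparison lemma over finite fields. -/

set_option autoImplicit false

namespace Crest.Agent.R227.K

open Crest.LubinTate
open scoped BigOperators

theorem compare1_sum_pow {κ : Type*} [Field κ] (p : ℕ) [hp : Fact p.Prime] [CharP κ p] {i : ℕ}
    (hi : i < p - 1) : ∑ t ∈ Finset.range p, (t : κ) ^ i = 0 := by
  have h := FiniteField.sum_pow_lt_card_sub_one (K := ZMod p) i (by rwa [ZMod.card])
  have h2 : ∑ x : ZMod p, x ^ i = ∑ t ∈ Finset.range p, (t : ZMod p) ^ i := by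
    refine Finset.sum_nbij' (fun x => x.val) (fun t => (t : ZMod p)) ?_ ?_ ?_ ?_ ?_
    · intro x _
      exact Finset.mem_range.2 (ZMod.val_lt x)
    · intro t _
      exact Finset.mem_univ _
    · intro x _
      simp
    · intro t ht
      exact ZMod.val_cast_of_lt (Finset.mem_range.1 ht)
    · intro x _
      simp
  have h3 := congrArg (ZMod.castHom (dvd_refl p) κ) (h2.symm.trans h)
  simpa only [map_sum, map_pow, map_natCast, map_zero] using h3

theorem compare1_natCast_pow {κ : Type*} [Field κ] (p : ℕ) [hp : Fact p.Prime] [CharP κ p] (t : ℕ) :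
    (t : κ) ^ p = t := by
  simpa only [frobenius_def] using map_natCast (frobenius κ p) t

theorem compare1_sum_pow' {κ : Type*} [Field κ] (p : ℕ) [hp : Fact p.Prime] [CharP κ p] :
    ∑ t ∈ Finset.range p, (t : κ) ^ (p - 1) = -1 := by
  obtain ⟨m, hm⟩ : ∃ m, p = m + 1 := ⟨p - 1, by have := hp.out.pos; omega⟩
  have h2 := hp.out.two_le
  have h1 : ∀ t ∈ Finset.range m, ((t + 1 : ℕ) : κ) ^ (p - 1) = 1 := by
    intro t ht
    have h0 : ((t + 1 : ℕ) : κ) ≠ 0 := by
      rw [Ne, CharP.cast_eq_zero_iff κ p]
      intro h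
      have := Nat.le_of_dvd (Nat.succ_pos t) h
      have := Finset.mem_range.1 ht
      omega
    apply mul_left_cancel₀ h0
    rw [← pow_succ', Nat.sub_add_cancel hp.out.pos, compare1_natCast_pow p, mul_one]
  have h3 : ((m : κ) + 1) = 0 := by
    have := CharP.cast_eq_zero κ p
    rw [hm] at this
    exact_mod_cast this
  have h4 : Finset.range p = Finset.range (m + 1) := by rw [← hm]
  rw [h4, Finset.sum_range_succ', Finset.sum_congr rfl h1, Nat.cast_zero,
    zero_pow (by omega), add_zero, Finset.sum_const, Finset.card_range, nsmul_one]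
  linear_combination h3

theorem compare1_sum_mul {M : Type*} [AddCommMonoid M] {p : ℕ} (hp : 0 < p) (m : ℕ) (g : ℕ → M)
    (hg : ∀ i, i ≤ p * m → ¬ p ∣ i → g i = 0) :
    ∑ i ∈ Finset.range (p * m + 1), g i = ∑ i ∈ Finset.range (m + 1), g (p * i) := by
  rw [← Finset.sum_image (s := Finset.range (m + 1)) (g := fun i => p * i) (f := g)
    (fun a _ b _ h => Nat.eq_of_mul_eq_mul_left hp h)]
  symm
  refine Finset.sum_subset ?_ ?_
  · intro x hx
    obtain ⟨i, hi, rfl⟩ := Finset.mem_image.1 hx
    have := Nat.mul_le_mul_left p (Nat.lt_succ_iff.1 (Finset.mem_range.1 hi))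
    exact Finset.mem_range.2 (by omega)
  · intro x hx hx'
    have hx1 : x ≤ p * m := Nat.lt_succ_iff.1 (Finset.mem_range.1 hx)
    refine hg x hx1 ?_
    rintro ⟨i, rfl⟩
    exact hx' (Finset.mem_image.2 ⟨i, Finset.mem_range.2
      (Nat.lt_succ_of_le (Nat.le_of_mul_le_mul_left hx1 hp)), rfl⟩)

/-- the cocycle lemma in terms of coefficients -/
theorem compare1_coeff {κ : Type*} [Field κ] (p : ℕ) [hp : Fact p.Prime] [CharP κ p] (j : ℕ) :
    1 ≤ j → ∀ a : ℕ → κ, a 0 = 0 → (∀ i, i ≤ j → a i = a (j - i)) →
      (∀ r s, 1 ≤ r → r + s < j → a r * ((j - r).choose s : κ) = a (r + s) * ((r + s).choose r : κ)) →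
      ∑ t ∈ Finset.range p, ∑ i ∈ Finset.range (j + 1), a i * (t : κ) ^ i = 0 →
      ∃ α : κ, ∀ i, 0 < i → i < j → a i = α * (j.choose i : κ) := by
  induction j using Nat.strong_induction_on with
  | _ j ih =>
  intro hj a h0 hS hR hT
  have hp2 := hp.out.two_le
  have hcast : ∀ m n : ℕ, m ≡ n [MOD p] → (m : κ) = n := fun m n h =>
    (CharP.natCast_eq_natCast κ p).2 h
  have h1 : ∀ i, 0 < i → i < j → a 1 * ((j - 1).choose (i - 1) : κ) = a i * i := by
    intro i hi hij
    have := hR 1 (i - 1) le_rfl (by omega)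
    rwa [show 1 + (i - 1) = i by omega, Nat.choose_one_right] at this
  have h2 : ∀ i, 0 < i → (j : κ) * ((j - 1).choose (i - 1) : κ) = (j.choose i : κ) * i := by
    intro i hi
    have := Nat.add_one_mul_choose_eq (j - 1) (i - 1)
    rw [Nat.sub_add_cancel hj, Nat.sub_add_cancel hi] at this
    exact_mod_cast congrArg (Nat.cast : ℕ → κ) this
  have hnz : ∀ i : ℕ, ¬ p ∣ i → (i : κ) ≠ 0 := fun i hi h =>
    hi ((CharP.cast_eq_zero_iff κ p i).1 h)
  by_cases hpj : p ∣ j
  swap
  · have hj0 := hnz j hpj
    have key : ∀ i, 0 < i → i < j → ¬ p ∣ i → a i = a 1 / j * (j.choose i : κ) := by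
      intro i hi hij hpi
      apply mul_right_cancel₀ (hnz i hpi)
      rw [← h1 i hi hij, mul_assoc, ← h2 i hi]
      field_simp
    refine ⟨a 1 / j, fun i hi hij => ?_⟩
    by_cases hpi : p ∣ i
    · rw [hS i hij.le, key (j - i) (by omega) (by omega) fun h => hpj ?_, Nat.choose_symm hij.le]
      have := Nat.dvd_add h hpi
      rwa [Nat.sub_add_cancel hij.le] at this
    · exact key i hi hij hpi
  obtain ⟨m, rfl⟩ := hpj
  have hm : 1 ≤ m := by
    rcases Nat.eq_zero_or_pos m with rfl | h
    · simp at hj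
    · exact h
  have hj0 : a (p * m) = 0 := by rw [hS _ le_rfl, Nat.sub_self, h0]
  have ha1 : a 1 = 0 := by
    rcases eq_or_lt_of_le hm with rfl | hm1
    · rw [mul_one] at *
      rw [Finset.sum_comm, Finset.sum_eq_single (p - 1)] at hT
      · rw [← Finset.mul_sum, compare1_sum_pow' p, mul_neg_one, neg_eq_zero] at hT
        rw [hS 1 hj, hT]
      · intro i hi hne
        rw [← Finset.mul_sum]
        have hi' := Finset.mem_range.1 hi
        rcases eq_or_ne i p with rfl | hip
        · rw [hj0, zero_mul]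
        · rw [compare1_sum_pow p (by omega), mul_zero]
      · intro h
        exact absurd (Finset.mem_range.2 (by omega)) h
    · have hlt : p < p * m := by nlinarith
      have h3 := h1 p (by omega) hlt
      rw [CharP.cast_eq_zero κ p, mul_zero] at h3
      have h4 : (((p * m - 1).choose (p - 1) : ℕ) : κ) = 1 := by
        have h5 := Choose.choose_modEq_choose_mod_mul_choose_div_nat (n := p * m - 1) (k := p - 1)
          (p := p)
        have e1 : (p * m - 1) % p = p - 1 := by
          obtain ⟨m', rfl⟩ : ∃ m', m = m' + 1 := ⟨m - 1, by omega⟩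
          rw [show p * (m' + 1) - 1 = p - 1 + p * m' by rw [mul_add, mul_one]; omega,
            Nat.add_mul_mod_self_left, Nat.mod_eq_of_lt (by omega)]
        rw [e1, Nat.mod_eq_of_lt (by omega : p - 1 < p), Nat.div_eq_of_lt (by omega : p - 1 < p),
          Nat.choose_self, Nat.choose_zero_right] at h5
        simpa using hcast _ _ h5
      rwa [h4, mul_one] at h3
  have hz : ∀ i, i ≤ p * m → ¬ p ∣ i → a i = 0 := by
    intro i hi hpi
    have hi0 : 0 < i := Nat.pos_of_ne_zero fun h => hpi (h ▸ dvd_zero p)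
    have hi1 : i < p * m := lt_of_le_of_ne hi fun h => hpi (h ▸ dvd_mul_right p m)
    have := h1 i hi0 hi1
    rw [ha1, zero_mul] at this
    exact (mul_eq_zero.1 this.symm).resolve_right (hnz i hpi)
  have hch : ∀ u v : ℕ, (((p * u).choose (p * v) : ℕ) : κ) = (u.choose v : ℕ) := fun u v =>
    hcast _ _ Choose.choose_mul_mul_modEq_choose_nat
  obtain ⟨α, hα⟩ := ih m (by nlinarith) hm (fun i => a (p * i)) (by simpa using h0)
    (fun i hi => by
      show a (p * i) = a (p * (m - i))
      rw [hS _ (Nat.mul_le_mul_left p hi), Nat.mul_sub])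
    (fun r s hr hrs => by
      have := hR (p * r) (p * s) (by nlinarith) (by rw [← mul_add]; nlinarith)
      rwa [← Nat.mul_sub, ← mul_add, hch, hch] at this)
    (by
      rw [← hT]
      refine Finset.sum_congr rfl fun t _ => ?_
      rw [compare1_sum_mul hp.out.pos m _ fun i hi hpi => by rw [hz i hi hpi, zero_mul]]
      refine Finset.sum_congr rfl fun i _ => ?_
      rw [pow_mul, compare1_natCast_pow p])
  refine ⟨α, fun i hi hij => ?_⟩
  by_cases hpi : p ∣ i
  · obtain ⟨i', rfl⟩ := hpi
    rw [hch]
    exact hα i' (Nat.pos_of_mul_pos_left hi) (Nat.lt_of_mul_lt_mul_left hij)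
  · have h3 := h2 i hi
    rw [Nat.cast_mul, CharP.cast_eq_zero κ p, zero_mul, zero_mul] at h3
    rw [hz i hij.le hpi, (mul_eq_zero.1 h3.symm).resolve_right (hnz i hpi), mul_zero]

/-- a binary form is the sum of its monomials -/
theorem compare1_form {κ : Type*} [CommRing κ] {j : ℕ} (c : MvPolynomial (Fin 2) κ)
    (hc : c.IsHomogeneous j) : ∃ a : ℕ → κ, c = ∑ i ∈ Finset.range (j + 1),
      MvPolynomial.C (a i) * MvPolynomial.X 0 ^ i * MvPolynomial.X 1 ^ (j - i) := by
  classical
  refine ⟨fun i => c.coeff (Finsupp.single 0 i + Finsupp.single 1 (j - i)), ?_⟩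
  ext d
  simp only [MvPolynomial.X_pow_eq_monomial, MvPolynomial.C_mul_monomial,
    MvPolynomial.monomial_mul, mul_one, MvPolynomial.coeff_sum, MvPolynomial.coeff_monomial]
  have hd : d.degree = d 0 + d 1 := by rw [Finsupp.degree_eq_sum, Fin.sum_univ_two]
  by_cases h : d.degree = j
  · have e : Finsupp.single 0 (d 0) + Finsupp.single 1 (j - d 0) = d := by
      ext i
      fin_cases i
      · simp
      · simp
        omega
    rw [Finset.sum_eq_single (d 0), if_pos e, e]
    · intro i _ hne
      rw [if_neg]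
      intro h'
      apply hne
      simpa using congrArg (fun x => x 0) h'
    · intro h'
      exact absurd (Finset.mem_range.2 (by omega)) h'
  · rw [hc.coeff_eq_zero h]
    symm
    refine Finset.sum_eq_zero fun i hi => if_neg fun h' => h ?_
    have a0 := congrArg (fun x => x 0) h'
    have a1 := congrArg (fun x => x 1) h'
    have := Finset.mem_range.1 hi
    simp at a0 a1
    omega

/-- symmetric 2-cocycle lemma in characteristic `p`.  Write `c = ∑ a i X ^ i Y ^ (j - i)`; the cocycle
identity and symmetry give `a 0 = a j = 0` (`j ≥ 1`).  The coefficient of `X ^ 1` in the cocycle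
identity says `∂₀ c (Y, Z) = a 1 ((Y + Z) ^ (j - 1) - Y ^ (j - 1))`; if `a 1 = 0` both partial
derivatives vanish, so `c = c' (X ^ p, Y ^ p)` (`c = 0` if `p ∤ j`) with `c'` a cocycle of degree
`j / p`.  Case `p ∤ j`: subtract `(a 1 / j) B j`.  Case `j = p`: `∑ t, c (t, 1) = - a (p - 1) = - a 1`.
Case `p ∣ j`, `j > p`: the coefficient of `Y ^ (p - 1) Z ^ (j - p)` gives
`0 = a 1 * choose (j - 1) (p - 1)`, so `a 1 = 0` (Lucas); induct, using `t ^ p = t` and
`B (j / p) (X ^ p, Y ^ p) = B j`. -/
theorem cocycle_lemma {κ : Type*} [Field κ] (p : ℕ) [Fact p.Prime] [CharP κ p] {j : ℕ}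
    (hj : 1 ≤ j) (c : MvPolynomial (Fin 2) κ) (hc : c.IsHomogeneous j)
    (hsymm : MvPolynomial.rename (Equiv.swap (0 : Fin 2) 1) c = c)
    (hcoc : MvPolynomial.aeval ![(MvPolynomial.X 1 : MvPolynomial (Fin 3) κ), MvPolynomial.X 2] c +
        MvPolynomial.aeval ![(MvPolynomial.X 0 : MvPolynomial (Fin 3) κ),
          MvPolynomial.X 1 + MvPolynomial.X 2] c =
      MvPolynomial.aeval ![(MvPolynomial.X 0 + MvPolynomial.X 1 : MvPolynomial (Fin 3) κ),
          MvPolynomial.X 2] c +
        MvPolynomial.aeval ![(MvPolynomial.X 0 : MvPolynomial (Fin 3) κ), MvPolynomial.X 1] c)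
    (hp : ∑ t ∈ Finset.range p, MvPolynomial.eval ![(t : κ), 1] c = 0) :
    ∃ a : κ, c = MvPolynomial.C a * ((MvPolynomial.X 0 + MvPolynomial.X 1) ^ j -
      MvPolynomial.X 0 ^ j - MvPolynomial.X 1 ^ j) := by
  obtain ⟨a, rfl⟩ := compare1_form c hc
  -- coefficient relations
  have hrel : ∀ r s, r + s ≤ j → (if r = 0 then a s else 0) + a r * ((j - r).choose s : κ) =
      a (r + s) * ((r + s).choose r : κ) + if r + s = j then a r else 0 := by
    intro r s hrs
    have h := congrArg (fun P => Polynomial.coeff (Polynomial.coeff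
      (MvPolynomial.aeval ![(Polynomial.X : Polynomial (Polynomial κ)),
        Polynomial.C Polynomial.X, 1] P) r) s) hcoc
    simp only [map_add, map_sum, map_mul, map_pow, MvPolynomial.aeval_C, MvPolynomial.aeval_X,
      Matrix.cons_val_zero, Matrix.cons_val_one, Matrix.cons_val, MvPolynomial.algebraMap_eq,
      Polynomial.algebraMap_apply, Algebra.algebraMap_self, RingHom.id_apply, one_pow, mul_one,
      Polynomial.coeff_add, Polynomial.finsetSum_coeff] at h
    have e1 : ∑ i ∈ Finset.range (j + 1), ((Polynomial.C (Polynomial.C (a i)) *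
        Polynomial.C (Polynomial.X : Polynomial κ) ^ i).coeff r).coeff s =
        if r = 0 then a s else 0 := by
      simp only [← map_pow, ← map_mul, Polynomial.coeff_C]
      split_ifs
      · simp only [Polynomial.coeff_C_mul_X_pow]
        rw [Finset.sum_ite_eq, if_pos (Finset.mem_range.2 (by omega))]
      · simp
    have e2 : ∑ i ∈ Finset.range (j + 1), ((Polynomial.C (Polynomial.C (a i)) *
        Polynomial.X ^ i * (Polynomial.C (Polynomial.X : Polynomial κ) + 1) ^ (j - i)).coeff r).coeff
          s = a r * ((j - r).choose s : κ) := by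
      simp only [← Polynomial.C_1 (R := Polynomial κ), ← map_add, ← map_pow, Polynomial.coeff_mul_C,
        Polynomial.coeff_C_mul_X_pow]
      rw [Finset.sum_eq_single r, if_pos rfl, Polynomial.coeff_C_mul,
        Polynomial.coeff_X_add_one_pow]
      · intro i _ hne
        rw [if_neg hne.symm, zero_mul, Polynomial.coeff_zero]
      · intro h'
        exact absurd (Finset.mem_range.2 (by omega)) h'
    have e3 : ∑ i ∈ Finset.range (j + 1), ((Polynomial.C (Polynomial.C (a i)) *
        (Polynomial.X + Polynomial.C (Polynomial.X : Polynomial κ)) ^ i).coeff r).coeff s =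
        a (r + s) * ((r + s).choose r : κ) := by
      simp only [Polynomial.coeff_C_mul, Polynomial.coeff_X_add_C_pow, ← Polynomial.C_eq_natCast,
        Polynomial.coeff_mul_C, Polynomial.coeff_X_pow]
      rw [Finset.sum_eq_single (r + s), if_pos (by omega), one_mul]
      · intro i _ hne
        rcases lt_or_ge i r with hi | hi
        · rw [Nat.choose_eq_zero_of_lt hi]
          simp
        · rw [if_neg (by omega)]
          simp
      · intro h'
        exact absurd (Finset.mem_range.2 (by omega)) h'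
    have e4 : ∑ i ∈ Finset.range (j + 1), ((Polynomial.C (Polynomial.C (a i)) *
        Polynomial.X ^ i * Polynomial.C (Polynomial.X : Polynomial κ) ^ (j - i)).coeff r).coeff
          s = if r + s = j then a r else 0 := by
      simp only [← map_pow, Polynomial.coeff_mul_C, Polynomial.coeff_C_mul_X_pow]
      rw [Finset.sum_eq_single r, if_pos rfl, Polynomial.coeff_C_mul_X_pow]
      · exact if_congr (by omega) rfl rfl
      · intro i _ hne
        rw [if_neg hne.symm, zero_mul, Polynomial.coeff_zero]
      · intro h'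
        exact absurd (Finset.mem_range.2 (by omega)) h'
    rw [e1, e2, e3, e4] at h
    exact h
  have h0 : a 0 = 0 := by
    have := hrel 0 0 (Nat.zero_le _)
    rw [if_pos rfl, if_neg (by omega)] at this
    simpa using this
  have hS : ∀ i, i ≤ j → a i = a (j - i) := by
    intro i hi
    have h := congrArg (fun P => Polynomial.coeff
      (MvPolynomial.aeval ![(Polynomial.X : Polynomial κ), 1] P) i) hsymm
    simp only [map_sum, map_mul, map_pow, MvPolynomial.aeval_C, MvPolynomial.aeval_X,
      MvPolynomial.rename_X, MvPolynomial.rename_C, Equiv.swap_apply_left, Equiv.swap_apply_right,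
      Matrix.cons_val_zero, Matrix.cons_val_one,
      Polynomial.algebraMap_apply, Algebra.algebraMap_self, RingHom.id_apply, one_pow, mul_one,
      Polynomial.finsetSum_coeff, Polynomial.coeff_C_mul_X_pow] at h
    rw [Finset.sum_ite_eq, if_pos (Finset.mem_range.2 (by omega)),
      Finset.sum_eq_single (j - i), if_pos (by omega)] at h
    · exact h.symm
    · intro k hk hne
      have := Finset.mem_range.1 hk
      rw [if_neg (by omega)]
    · intro h'
      exact absurd (Finset.mem_range.2 (by omega)) h'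
  obtain ⟨α, hα⟩ := compare1_coeff p j hj a h0 hS
    (fun r s hr hrs => by
      have := hrel r s hrs.le
      rwa [if_neg (by omega), if_neg (by omega), zero_add, add_zero] at this)
    (by simpa using hp)
  refine ⟨α, ?_⟩
  have hj0 : a j = 0 := by rw [hS _ le_rfl, Nat.sub_self, h0]
  obtain ⟨m, rfl⟩ : ∃ m, j = m + 1 := ⟨j - 1, by omega⟩
  rw [add_pow, Finset.sum_range_succ _ (m + 1), Finset.sum_range_succ _ (m + 1),
    Finset.sum_range_succ' _ m, Finset.sum_range_succ' _ m, h0, hj0]
  simp only [map_zero, zero_mul, add_zero, pow_zero, one_mul, mul_one, Nat.sub_zero, Nat.sub_self,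
    Nat.choose_zero_right, Nat.choose_self, Nat.cast_one]
  rw [add_sub_cancel_right, add_sub_cancel_right, Finset.mul_sum]
  refine Finset.sum_congr rfl fun i hi => ?_
  have := Finset.mem_range.1 hi
  rw [hα (i + 1) (by omega) (by omega), map_mul, map_natCast]
  ring

end Crest.Agent.R227.K
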