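import Crest.Agent.R227.K.Ev

/-! Row 227, task `R227/K/Ev2`: Taylor expansion of evaluations. -/

set_option autoImplicit false

namespace Crest.Agent.R227.K

open MvPowerSeries
open scoped BigOperators

variable {R B : Type*} [CommRing R] [CommRing B] {σ : Type*}

/-- if all coefficients go to a finitely generated ideal, so does the value
(write `f.map φ = ∑ C (g k) * f k`) -/
theorem ev_mem_of_coeff_mem [Finite σ] {N : Ideal B} (hN : Good N) (φ : R →+* B) {a : σ → B}
    (ha : ∀ i, a i ∈ N) {J : Ideal B} (hJ : J.FG) {f : MvPowerSeries σ R}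
    (hf : ∀ d, φ (coeff d f) ∈ J) : ev φ a f ∈ J := by
  obtain ⟨I, _, h⟩ := hN.exists_rad ha
  exact R227.ev_mem_of_coeff I φ h hJ hf

/-- first order Taylor formula.  Formal version: in `R⟦σ ⊕ σ⟧` the series
`f (X + E) - f X - ∑ E i * ∂ i f (X)` lies in `(E) ^ 2`; one way: view `R⟦σ ⊕ σ⟧ → (R⟦σ⟧)⟦σ⟧`, i.e.
take `T := ev (C ∘ C) (fun i => C (X i) + X i) : R⟦σ⟧ →+* (R⟦σ⟧)⟦σ⟧`; the constant coefficient of
`T f` is `f` (`hom_ext`) and the coefficient of `single i 1` is `pderiv R i f` (both are derivations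
that agree on polynomials and are continuous; or `hom_ext` into dual numbers / modulo powers of the
variables); then evaluate the outer variables at `a' - a` along `ev φ a`. -/
theorem ev_taylor [Fintype σ] {N : Ideal B} (hN : Good N) (φ : R →+* B) {a a' : σ → B}
    (ha : ∀ i, a i ∈ N) (ha' : ∀ i, a' i ∈ N) {J : Ideal B} (hJ : ∀ i, a' i - a i ∈ J)
    (f : MvPowerSeries σ R) :
    ev φ a' f - ev φ a f - ∑ i, (a' i - a i) * ev φ a (pderiv R i f) ∈ J ^ 2 := by
  obtain ⟨I, _, h, h'⟩ := hN.exists_rad₂ ha ha'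
  simpa only [mul_comm] using R227.ev_sub_taylor_mem I φ h' h hJ f

theorem ev_sub_mem [Finite σ] {N : Ideal B} (hN : Good N) (φ : R →+* B) {a a' : σ → B}
    (ha : ∀ i, a i ∈ N) (ha' : ∀ i, a' i ∈ N) {J : Ideal B} (hJ : ∀ i, a' i - a i ∈ J)
    (f : MvPowerSeries σ R) : ev φ a' f - ev φ a f ∈ J := by
  obtain ⟨I, _, h, h'⟩ := hN.exists_rad₂ ha ha'
  exact R227.ev_sub_ev_mem I φ h' h hJ f

theorem ev1_taylor {N : Ideal B} (hN : Good N) {z z' : B} (hz : z ∈ N) (hz' : z' ∈ N)
    (f : PowerSeries B) :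
    ∃ c : B, ev1 z' f = ev1 z f + (z' - z) * ev1 z (PowerSeries.derivative B f) +
      (z' - z) ^ 2 * c := by
  obtain ⟨I, _, h, h'⟩ := hN.exists_rad2 hz hz'
  have := R227.ev1_sub_taylor_mem I (RingHom.id B) h' h (Ideal.mem_span_singleton_self _) f
  rw [Ideal.span_singleton_pow, Ideal.mem_span_singleton] at this
  obtain ⟨c, hc⟩ := this
  exact ⟨c, by simp only [ev1_eq]; linear_combination hc⟩

/-- factor theorem: divide `f` by `X - C z` (the quotient has coefficients
`ev1 z (shift of f)`, or use `ev1_taylor` in `B⟦X⟧`) -/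
theorem exists_factor {N : Ideal B} (hN : Good N) {z : B} (hz : z ∈ N) (f : PowerSeries B) :
    ∃ g : PowerSeries B,
      f = PowerSeries.C (ev1 z f) + (PowerSeries.X - PowerSeries.C z) * g := by
  obtain ⟨I, _, h⟩ := hN.exists_rad1 hz
  have hC : (PowerSeries.C z : PowerSeries B) ∈ (R227.PI Unit I).radical := R227.C_mem_PI_radical h
  obtain ⟨g, hg⟩ := R227.sub_dvd_ev1_sub (R227.PI Unit I) (PowerSeries.C : B →+* PowerSeries B)
    (x := PowerSeries.X) (R227.X_mem_PI_radical I ()) hC f
  have e := R227.map_ev1 I (R227.PI Unit I) (RingHom.id B) h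
    (PowerSeries.C : B →+* PowerSeries B) hC f
  rw [RingHom.comp_id] at e
  rw [R227.ev1_C_X, ← e] at hg
  exact ⟨g, by rw [ev1_eq]; linear_combination hg⟩

/-- chain rule for a substitution -/
theorem pderiv_psubst {τ : Type*} [Finite τ] (i : τ) {b : MvPowerSeries τ R}
    (hb : constantCoeff b = 0) (f : PowerSeries R) :
    pderiv R i (f.subst b) = (PowerSeries.derivative R f).subst b * pderiv R i b := by
  have := R227.pderiv_subst (b := fun _ : Unit => b) (fun _ => hb) i f
  rw [Fintype.sum_unique] at this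
  exact this

theorem pderiv_subst {τ : Type*} [Fintype σ] [Finite τ] (i : τ) {b : σ → MvPowerSeries τ R}
    (hb : ∀ s, constantCoeff (b s) = 0) (f : MvPowerSeries σ R) :
    pderiv R i (f.subst b) = ∑ s, (pderiv R s f).subst b * pderiv R i (b s) := by
  exact R227.pderiv_subst hb i f

theorem ev2_translate_mem {I : Ideal B} {a : σ → B} (ha : ∀ i, a i ∈ I.radical) (c : B) (i : σ) :
    (C (a i) + C c * X i : MvPowerSeries σ B) ∈ (R227.PI σ I).radical := by
  simpa [R227.mem_PI_radical] using ha i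

theorem ev2_constantCoeff_translate [Finite σ] (I : Ideal B) [IsAdicComplete I B] (φ : R →+* B)
    {a : σ → B} (ha : ∀ i, a i ∈ I.radical) (c : B) (f : MvPowerSeries σ R) :
    constantCoeff (ev ((C : B →+* MvPowerSeries σ B).comp φ) (fun i => C (a i) + C c * X i) f) =
      ev φ a f := by
  rw [R227.map_ev (R227.PI σ I) I _ (ev2_translate_mem ha c) constantCoeff
    (fun i => by simpa using ha i)]
  congr 2
  ext i; simp

/-- linear coefficients of a translated series: the coefficient of `δ_l` in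
`f (a + c δ)` is `c * ∂_l f (a)` -/
theorem coeff_single_ev_translate [Finite σ] {N : Ideal B} (hN : Good N) (φ : R →+* B) {a : σ → B}
    (ha : ∀ i, a i ∈ N) (c : B) (f : MvPowerSeries σ R) (l : σ) :
    coeff (Finsupp.single l 1)
      (ev ((C : B →+* MvPowerSeries σ B).comp φ) (fun i => C (a i) + C c * X i) f) =
      c * ev φ a (pderiv R l f) := by
  classical
  have := Fintype.ofFinite σ
  obtain ⟨I, _, h⟩ := hN.exists_rad ha
  have h1 := R227.der_ev (R227.PI σ I) ((C : B →+* MvPowerSeries σ B).comp φ)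
    (ev2_translate_mem h c) (pderiv B l).toLinearMap.toAddMonoidHom (fun x y => by simp)
    (fun r => by simp) f
  rw [Finset.sum_eq_single l (fun j _ hj => by simp [pderiv_X_of_ne hj]) (by simp)] at h1
  have h2 := congrArg constantCoeff h1
  simp only [LinearMap.toAddMonoidHom_coe, Derivation.coeFn_coe, map_mul,
    ev2_constantCoeff_translate I φ h, R227.constantCoeff_pderiv] at h2
  rw [h2, mul_comm]
  simp [coeff_C, coeff_X]

theorem constantCoeff_ev_translate [Finite σ] {N : Ideal B} (hN : Good N) (φ : R →+* B)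
    {a : σ → B} (ha : ∀ i, a i ∈ N) (c : B) (f : MvPowerSeries σ R) :
    constantCoeff (ev ((C : B →+* MvPowerSeries σ B).comp φ) (fun i => C (a i) + C c * X i) f) =
      ev φ a f := by
  obtain ⟨I, _, h⟩ := hN.exists_rad ha
  exact ev2_constantCoeff_translate I φ h c f

end Crest.Agent.R227.K
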