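import Crest.Agent.R227.K.FG
import Crest.Agent.R227.K.Ev2
import Crest.Agent.R227.Stab

/-! Row 227, task `R227/K/FG2`: derivatives of homomorphisms, Frobenius factorisation, height ideals. -/

set_option autoImplicit false
set_option linter.unusedSectionVars false

namespace Crest.Agent.R227.K

open MvPowerSeries Crest.LubinTate

variable {R S : Type*} [CommRing R] [CommRing S] {F G : FormalGroup R}

/-- the series `∂₀ F (0, X)`; its constant coefficient is `1` -/
noncomputable def invDiff (F : FormalGroup R) : PowerSeries R :=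
  (pderiv R 0 F.toPowerSeries).subst ![0, PowerSeries.X]

theorem fg2_c (i : Fin 2) :
    constantCoeff ((![0, PowerSeries.X] : Fin 2 → PowerSeries R) i) = 0 := by
  fin_cases i
  · exact map_zero _
  · exact PowerSeries.constantCoeff_X

theorem fg2_ev1_invDiff (F : FormalGroup R) (I : Ideal S) [IsAdicComplete I S] (φ : R →+* S)
    {x : S} (hx : x ∈ I.radical) :
    R227.ev1 φ x (invDiff F) = ev φ ![0, x] (pderiv R 0 F.toPowerSeries) := by
  rw [invDiff, R227.ev1_subst I φ hx fg2_c, R227.fun_pair (R227.ev1 φ x), map_zero,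
    R227.ev1_X I φ hx]

theorem fg2_fadd_dual (F : FormalGroup R) (I : Ideal S) [IsAdicComplete I S] (φ : R →+* S) {x : S}
    (hx : x ∈ I.radical) (c : S) :
    R227.fadd F ((R227.dinl S).comp φ) (TrivSqZeroExt.inr c) (TrivSqZeroExt.inl x) =
      TrivSqZeroExt.inl x + TrivSqZeroExt.inr (R227.ev1 φ x (invDiff F) * c) := by
  have ha : ∀ i, (![TrivSqZeroExt.inr c, TrivSqZeroExt.inl x] i : DualNumber S).fst ∈ I.radical :=
    fun i => by fin_cases i <;> simp [hx]
  ext
  · rw [R227.fadd, R227.fst_ev I _ ha, R227.fun_pair (fun z : DualNumber S => z.fst),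
      ← RingHom.comp_assoc, R227.dfst_comp_dinl, RingHom.id_comp]
    simpa [R227.fadd] using R227.zero_fadd F I φ hx
  · rw [R227.fadd, R227.snd_ev I _ ha, Fin.sum_univ_two,
      R227.fun_pair (fun z : DualNumber S => z.fst), fg2_ev1_invDiff F I φ hx]
    simp

theorem constantCoeff_invDiff (F : FormalGroup R) : PowerSeries.constantCoeff (invDiff F) = 1 := by
  rw [invDiff, ← R227.ev_eq_subst fg2_c]
  refine (R227.constantCoeff_ev C fg2_c _).trans ?_
  rw [R227.constantCoeff_pderiv, F.lin_coeff_X]; simp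

theorem invDiff_map (F : FormalGroup R) (φ : R →+* S) : invDiff (F.map φ) = (invDiff F).map φ := by
  have h := map_subst (hasSubst_of_constantCoeff_zero (fg2_c (R := R))) (h := φ)
    (pderiv R 0 F.toPowerSeries)
  refine Eq.trans ?_ h.symm
  rw [invDiff]
  congr 1
  · ext1 i; fin_cases i
    · exact (map_zero _).symm
    · exact (PowerSeries.map_X φ).symm
  · ext d; simp [coeff_pderiv]

/-- differentiate `f (F (X, Y)) = G (f X, f Y)` in `X` at `X = 0` (`pderiv_psubst`, `pderiv_subst`) -/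
theorem derivative_mul_invDiff {f : PowerSeries R} (hf : IsFGHom F G f) :
    PowerSeries.derivative R f * invDiff F =
      PowerSeries.C (PowerSeries.coeff 1 f) * (invDiff G).subst f := by
  have hx : (PowerSeries.X : PowerSeries R) ∈ (R227.XI Unit R).radical := R227.X_mem_XI_unit
  have h1 := R227.ev1_fadd_of_hom hf (R227.DI (R227.XI Unit R))
    ((R227.dinl (PowerSeries R)).comp PowerSeries.C) (x := TrivSqZeroExt.inr 1)
    (y := TrivSqZeroExt.inl PowerSeries.X) (R227.mem_DI_radical.mpr (by simp))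
    (R227.mem_DI_radical.mpr (by simpa using hx))
  have e1 := R227.ev1_dual (R227.XI Unit R) PowerSeries.C hx 0 f
  have e2 := R227.ev1_dual (R227.XI Unit R) PowerSeries.C (Ideal.zero_mem _) 1 f
  simp only [TrivSqZeroExt.inr_zero, add_zero, mul_zero] at e1
  rw [TrivSqZeroExt.inl_zero, zero_add, R227.ev1_zero, R227.ev1_zero, hf.1, map_zero,
    TrivSqZeroExt.inl_zero, zero_add, mul_one] at e2
  rw [fg2_fadd_dual F (R227.XI Unit R) _ hx, R227.ev1_dual (R227.XI Unit R) _ hx, e1, e2,
    fg2_fadd_dual G (R227.XI Unit R) _ (R227.ev1_mem_radical _ _ hx hf.1)] at h1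
  have h2 := congrArg TrivSqZeroExt.snd h1
  simp only [TrivSqZeroExt.snd_add, TrivSqZeroExt.snd_inl, TrivSqZeroExt.snd_inr, zero_add,
    mul_one, R227.ev1_C_X, R227.ev1_eq_subst1 hf.1] at h2
  rw [h2, ← PowerSeries.coeff_zero_eq_constantCoeff_apply, PowerSeries.coeff_derivative, mul_comm]
  simp

variable (p : ℕ) [Fact p.Prime]

/-- the `p ^ t`-th power map is a homomorphism to the Frobenius twist -/
theorem isFGHom_X_pow [CharP R p] (F : FormalGroup R) (t : ℕ) :
    IsFGHom F (F.map (iterateFrobenius R p t)) (PowerSeries.X ^ p ^ t) := by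
  exact R227.isFGHom_frobenius p F t

/-- if a homomorphism factors through `X ^ p ^ t`, the factor is a homomorphism from the twist
(`expand` is injective, `map_iterateFrobenius_expand`) -/
theorem isFGHom_of_subst_X_pow [CharP R p] {t : ℕ} {g : PowerSeries R}
    (hf : IsFGHom F G (g.subst (PowerSeries.X ^ p ^ t : PowerSeries R))) :
    IsFGHom (F.map (iterateFrobenius R p t)) G g := by
  exact R227.isFGHom_of_subst_X_pow p t hf

/-- a homomorphism whose coefficients of `X ^ p ^ j`, `j < t`, vanish factors through `X ^ p ^ t`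
(induction: zero linear coefficient gives zero derivative by `derivative_mul_invDiff`) -/
theorem exists_factor_X_pow [CharP R p] {f : PowerSeries R} (hf : IsFGHom F G f) (t : ℕ)
    (h : ∀ j < t, PowerSeries.coeff (p ^ j) f = 0) :
    ∃ g : PowerSeries R, f = g.subst (PowerSeries.X ^ p ^ t : PowerSeries R) ∧
      IsFGHom (F.map (iterateFrobenius R p t)) G g := by
  exact R227.IsFGHom.exists_frob_factor p hf t h

/-- if `[p] = V (X ^ p ^ h)` then `[p ^ t]` factors through `X ^ p ^ (h * t)` -/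
theorem exists_factor_mulSeries_pow [CharP R p] [F.IsComm] {h : ℕ} {V : PowerSeries R}
    (hV : mulSeries F p = V.subst (PowerSeries.X ^ p ^ h : PowerSeries R)) (t : ℕ) :
    ∃ W : PowerSeries R,
      mulSeries F (p ^ t) = W.subst (PowerSeries.X ^ p ^ (h * t) : PowerSeries R) ∧
        IsFGHom (F.map (iterateFrobenius R p (h * t))) F W := by
  have hp := (Fact.out : p.Prime)
  have hq : p ^ h ≠ 0 := pow_ne_zero _ hp.ne_zero
  have hV0 : PowerSeries.constantCoeff V = 0 := by
    have := constantCoeff_mulSeries F p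
    rwa [hV, R227.constantCoeff_subst1 (by simp [zero_pow hq])] at this
  have h1 : PowerSeries.X ^ p ^ h ∣ mulSeries F p := by
    rw [hV]; exact R227.dvd_subst (by simp [zero_pow hq]) hV0
  have h2 : PowerSeries.X ^ (p ^ h) ^ t ∣ mulSeries F (p ^ t) := by
    induction t with
    | zero => simp [mulSeries_one]
    | succ t ih =>
      obtain ⟨g, hg⟩ := h1
      have hs := PowerSeries.HasSubst.of_constantCoeff_zero' (constantCoeff_mulSeries F (p ^ t))
      rw [pow_succ' p, mulSeries_mul, hg, PowerSeries.subst_mul hs, PowerSeries.subst_pow hs,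
        PowerSeries.subst_X hs, pow_succ (p ^ h), pow_mul]
      exact (pow_dvd_pow_of_dvd ih _).mul_right _
  refine exists_factor_X_pow p (isFGHom_mulSeries _) _ fun j hj => ?_
  rw [← pow_mul] at h2
  exact PowerSeries.X_pow_dvd_iff.mp h2 _ (Nat.pow_lt_pow_right hp.one_lt hj)

theorem mulSeries_pow_of_eq_X_pow [F.IsComm] {n : ℕ}
    (hF : mulSeries F p = PowerSeries.X ^ p ^ n) (t : ℕ) :
    mulSeries F (p ^ t) = PowerSeries.X ^ (p ^ n) ^ t := by
  exact R227.mulSeries_pow_of_eq_X_pow F (pow_ne_zero _ (Fact.out : p.Prime).ne_zero) hF t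

/-- a law with `[p] = X ^ p ^ h` has its coefficients fixed by the `p ^ h`-th power map -/
theorem coeff_pow_of_mulSeries_eq [CharP R p] [F.IsComm] {h : ℕ}
    (hF : mulSeries F p = PowerSeries.X ^ p ^ h) (d : Fin 2 →₀ ℕ) :
    coeff d F.toPowerSeries ^ p ^ h = coeff d F.toPowerSeries := by
  have h1 : IsFGHom F F ((PowerSeries.X : PowerSeries R).subst
      (PowerSeries.X ^ p ^ h : PowerSeries R)) := by
    rw [PowerSeries.subst_X (PowerSeries.HasSubst.X_pow
      (pow_ne_zero _ (Fact.out : p.Prime).ne_zero)), ← hF]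
    exact isFGHom_mulSeries p
  have h2 := R227.eq_of_isFGHom_X (isFGHom_of_subst_X_pow p h1)
  conv_rhs => rw [← h2]
  simp [iterateFrobenius_def]

/-- height ideals over any ring -/
noncomputable def hI (F : FormalGroup R) : ℕ → Ideal R
  | 0 => ⊥
  | h + 1 => hI F h ⊔ Ideal.span {PowerSeries.coeff (p ^ h) (mulSeries F p)}

omit [Fact p.Prime] in
theorem hI_eq_hI (F : FormalGroup R) (h : ℕ) : hI p F h = R227.hI p F h := by
  induction h with
  | zero => rw [R227.hI_zero]; rfl
  | succ h ih => rw [R227.hI_succ, ← ih]; rfl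

theorem heightIdeal_eq (n : ℕ) (H : FormalGroup (LTRing p n)) (h : ℕ) :
    heightIdeal p n H h = hI p H h := by
  rw [hI_eq_hI, R227.heightIdeal_eq_hI]

theorem hI_mono (F : FormalGroup R) {h h' : ℕ} (hh : h ≤ h') : hI p F h ≤ hI p F h' := by
  rw [hI_eq_hI, hI_eq_hI]; exact R227.hI_mono p F hh

theorem hI_eq_span (F : FormalGroup R) (h : ℕ) :
    hI p F h = Ideal.span {a | ∃ j < h, a = PowerSeries.coeff (p ^ j) (mulSeries F p)} := by
  rw [hI_eq_hI, R227.hI]
  congr 1
  ext a
  exact ⟨fun ⟨j, hj, e⟩ => ⟨j, hj, e.symm⟩, fun ⟨j, hj, e⟩ => ⟨j, hj, e.symm⟩⟩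

theorem hI_map (F : FormalGroup R) (φ : R →+* S) (h : ℕ) :
    hI p (F.map φ) h = (hI p F h).map φ := by
  rw [hI_eq_hI, hI_eq_hI]; exact R227.hI_map p F φ h

theorem p_mem_hI (F : FormalGroup R) {h : ℕ} (hh : 1 ≤ h) : (p : R) ∈ hI p F h := by
  rw [hI_eq_hI]; exact R227.p_mem_hI p F hh

/-- modulo the `h`-th height ideal the `p`-series factors through `X ^ p ^ h`
(treat the trivial quotient separately) -/
theorem exists_V_mod [F.IsComm] (h : ℕ) {J : Ideal R} (hJ : hI p F h ≤ J) :
    ∃ V : PowerSeries (R ⧸ J), mulSeries (F.map (Ideal.Quotient.mk J)) p =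
      V.subst (PowerSeries.X ^ p ^ h : PowerSeries (R ⧸ J)) := by
  rw [hI_eq_hI, R227.hI_le_iff] at hJ
  rcases Nat.eq_zero_or_pos h with rfl | hh
  · exact ⟨_, by rw [pow_zero, pow_one, PowerSeries.X_subst]⟩
  by_cases hJ' : J = ⊤
  · have := Ideal.Quotient.subsingleton_iff.mpr hJ'
    exact ⟨0, by ext; exact Subsingleton.elim _ _⟩
  have := Ideal.Quotient.nontrivial_iff.mpr hJ'
  have : CharP (R ⧸ J) p := R227.charP_of_p_eq_zero p (by
    rw [← map_natCast (Ideal.Quotient.mk J), Ideal.Quotient.eq_zero_iff_mem, ← R227.hc_zero p F]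
    exact hJ 0 hh)
  obtain ⟨V, hV, -⟩ := R227.exists_V p (F.map (Ideal.Quotient.mk J)) (h := h) fun j hj => by
    rw [R227.hc_map, Ideal.Quotient.eq_zero_iff_mem]; exact hJ j hj
  exact ⟨V, hV⟩

/-- invariance under isomorphisms: modulo `hI h` both `p`-series have order `≥ p ^ h`; compare the
coefficients of `X ^ p ^ h` in `f ∘ [p]_F = [p]_G ∘ f` -/
theorem hI_iso [F.IsComm] [G.IsComm] {f : PowerSeries R} (hf : IsFGHom F G f)
    (h1 : IsUnit (PowerSeries.coeff 1 f)) (h : ℕ) : hI p F h = hI p G h := by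
  rw [hI_eq_hI, hI_eq_hI]; exact R227.hI_eq_of_iso p hf h1 h

end Crest.Agent.R227.K
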