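import Crest.Agent.R227.K.E0
import Crest.Agent.R227.K.FG2
import Crest.Agent.R227.K.InvFn

/-! Row 227, task `R227/K/Coord`: the height parameters are coordinates modulo `p`. -/

set_option autoImplicit false

namespace Crest.Agent.R227.K

open MvPowerSeries Crest.LubinTate

variable {p : ℕ} [Fact p.Prime] {n : ℕ}

/-- reduce modulo `p` to `k⟦u⟧`; the images of the `a j` (`1 ≤ j ≤ n - 1`) generate the maximal ideal,
so their linear parts form an invertible matrix; by `exists_inverse` some automorphism sends them to
the variables; finally kill the first `h - 1` variables (`killCompl`, or a substitution). -/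
theorem exists_coord (H : FormalGroup (LTRing p n)) (htop : heightIdeal p n H n = mE p n)
    {h m : ℕ} (hh : 1 ≤ h) (hm : h + m = n) :
    ∃ π : LTRing p n →+* MvPowerSeries (Fin m) (GaloisField p n), Function.Surjective π ∧
      RingHom.ker π = heightIdeal p n H h ∧
      (∀ f, constantCoeff (π f) = LTRing.residue p n f) ∧
      (∀ w, π (C w) = C (WittVector.constantCoeff w)) ∧
      ∀ i : Fin m, π (PowerSeries.coeff (p ^ (h + i)) (mulSeries H p)) = X i := by
  obtain rfl : m = n - h := by omega
  rw [R227.heightIdeal_eq_hI, mE_eq] at htop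
  obtain ⟨π, h1, h2, h3, h4⟩ := R227.exists_stratum htop hh (by omega : h ≤ n)
  refine ⟨π, h1, by rw [h2, R227.heightIdeal_eq_hI], fun f => ?_, h3, h4⟩
  have hm : ∀ g ∈ IsLocalRing.maximalIdeal (LTRing p n), constantCoeff (π g) = 0 := by
    have hs : Function.Surjective (constantCoeff.comp π) := fun x => by
      obtain ⟨g, hg⟩ := h1 (C x)
      exact ⟨g, by simp [hg]⟩
    intro g hg
    rwa [← IsLocalRing.eq_maximalIdeal (RingHom.ker_isMaximal_of_surjective _ hs)] at hg
  have h5 := hm (f - C (constantCoeff f)) (by
    rw [R227.maximalIdeal_LT]; exact Ideal.mem_sup_right (R227.sub_C_mem_XI f))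
  rw [map_sub, map_sub, h3, constantCoeff_C, sub_eq_zero] at h5
  exact h5

theorem heightIdeal_isPrime (H : FormalGroup (LTRing p n)) (htop : heightIdeal p n H n = mE p n)
    {h : ℕ} (hh : h ≤ n) : (heightIdeal p n H h).IsPrime := by
  rw [R227.heightIdeal_eq_hI, mE_eq] at htop
  rw [R227.heightIdeal_eq_hI]
  exact R227.hI_isPrime htop hh

end Crest.Agent.R227.K
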