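import Crest.Agent.R227.K.Per
import Crest.Agent.R227.K.Ev2

/-! Row 227, task `R227/K/Core0`: stable primes not containing `p`. -/

set_option autoImplicit false

namespace Crest.Agent.R227.K

open MvPowerSeries Crest.LubinTate
open scoped BigOperators

variable {p : ℕ} [Fact p.Prime] {n : ℕ}

/-- linear algebra: a nonzero `χ` with `χ (a) = 0` and `χ J ∈ {0, c}` -/
theorem exists_chi {K : Type*} [Field K] (hn : 1 ≤ n) (a : Fin n → K)
    (J : Fin n → Fin (n - 1) → K) (c : Fin (n - 1) → K) (hc : c ≠ 0) :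
    ∃ (χ : Fin n → K) (ε : K), χ ≠ 0 ∧ ∑ k, χ k * a k = 0 ∧ ∀ l, ∑ k, χ k * J k l = ε * c l := by
  classical
  let T : ((Fin n → K) × K) →ₗ[K] (K × (Fin (n - 1) → K)) :=
    { toFun := fun z => (∑ k, z.1 k * a k, fun l => ∑ k, z.1 k * J k l - z.2 * c l)
      map_add' := by
        intro z z'
        ext l
        · simp [add_mul, Finset.sum_add_distrib]
        · simp [add_mul, Finset.sum_add_distrib]; ring
      map_smul' := by
        intro r z
        ext l
        · simp [Finset.mul_sum, mul_assoc]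
        · simp [Finset.mul_sum, mul_assoc, mul_sub] }
  have hker : LinearMap.ker T ≠ ⊥ := by
    apply LinearMap.ker_ne_bot_of_finrank_lt
    simp
    omega
  obtain ⟨z, hz, hz0⟩ := Submodule.exists_mem_ne_zero_of_ne_bot hker
  rw [LinearMap.mem_ker] at hz
  have h1 : ∑ k, z.1 k * a k = 0 := congrArg Prod.fst hz
  have h2 : ∀ l, ∑ k, z.1 k * J k l - z.2 * c l = 0 := fun l => congrFun (congrArg Prod.snd hz) l
  refine ⟨z.1, z.2, fun h0 => hz0 ?_, h1, fun l => sub_eq_zero.1 (h2 l)⟩
  obtain ⟨l, hl⟩ := Function.ne_iff.1 hc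
  have h3 := h2 l
  rw [h0] at h3
  simp only [Pi.zero_apply, zero_mul, Finset.sum_const_zero, zero_sub, neg_eq_zero,
    mul_eq_zero] at h3
  exact Prod.ext h0 (h3.resolve_right hl)

theorem aI_map_le {A : Type*} [CommRing A] (x : LTRing p n →+* A) {c : ℕ}
    (hx : (mE p n).map x ^ c ≤ Ideal.span {(p : A)}) (r : ℕ) :
    (aI p n (c + r)).map x ≤ Ideal.span {(p : A) ^ (r + 1)} := by
  induction r with
  | zero =>
    rw [Nat.add_zero, zero_add, pow_one]
    refine le_trans (Ideal.map_mono (aI_le_pow p n c)) ?_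
    rw [Ideal.map_pow]
    exact (Ideal.pow_le_pow_right (Nat.le_succ c)).trans hx
  | succ r ih =>
    rw [← Nat.add_assoc, aI, Ideal.map_sup, Ideal.map_mul, Ideal.map_pow, Ideal.map_span,
      Set.image_singleton, map_natCast]
    refine sup_le ?_ ?_
    · refine (Ideal.mul_mono_right ih).trans ?_
      rw [Ideal.span_singleton_mul_span_singleton, ← pow_succ']
    · refine (Ideal.pow_right_mono ih 2).trans ?_
      rw [Ideal.span_singleton_pow, ← pow_mul]
      exact Ideal.span_singleton_le_span_singleton.2 (pow_dvd_pow _ (by omega))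

section ord

variable {A K : Type*} [CommRing A] [CommRing K] [Algebra A K]

/-- sequences of order `p ^ (s r)` -/
def core0_Ord (π : A) (s : ℕ) (z : ℕ → K) : Prop :=
  ∃ e : ℕ, ∀ r, ∃ y : A, algebraMap A K π ^ e * z r = algebraMap A K π ^ (s * r) * algebraMap A K y

variable {π : A} {s : ℕ} {z z' : ℕ → K}

theorem core0_Ord.add (h : core0_Ord π s z) (h' : core0_Ord π s z') :
    core0_Ord π s (fun r => z r + z' r) := by
  obtain ⟨e, he⟩ := h
  obtain ⟨e', he'⟩ := h'
  refine ⟨e + e', fun r => ?_⟩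
  obtain ⟨y, hy⟩ := he r
  obtain ⟨y', hy'⟩ := he' r
  refine ⟨π ^ e' * y + π ^ e * y', ?_⟩
  simp only [map_add, map_mul, map_pow]
  linear_combination (algebraMap A K π) ^ e' * hy + (algebraMap A K π) ^ e * hy'

theorem core0_Ord.zero : core0_Ord π s (fun _ => (0 : K)) :=
  ⟨0, fun _ => ⟨0, by simp⟩⟩

theorem core0_Ord.sum {ι : Type*} (t : Finset ι) {f : ι → ℕ → K}
    (h : ∀ i ∈ t, core0_Ord π s (f i)) : core0_Ord π s (fun r => ∑ i ∈ t, f i r) := by
  classical
  induction t using Finset.induction_on with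
  | empty => simpa using core0_Ord.zero
  | insert i t hi ih =>
    simp only [Finset.sum_insert hi]
    exact (h i (Finset.mem_insert_self _ _)).add
      (ih fun j hj => h j (Finset.mem_insert_of_mem hj))

theorem core0_Ord.mul {s' : ℕ} (h : core0_Ord π s z) (h' : core0_Ord π s' z') :
    core0_Ord π (s + s') (fun r => z r * z' r) := by
  obtain ⟨e, he⟩ := h
  obtain ⟨e', he'⟩ := h'
  refine ⟨e + e', fun r => ?_⟩
  obtain ⟨y, hy⟩ := he r
  obtain ⟨y', hy'⟩ := he' r
  refine ⟨y * y', ?_⟩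
  rw [map_mul, add_mul, pow_add, pow_add]
  calc _ = ((algebraMap A K π) ^ e * z r) * ((algebraMap A K π) ^ e' * z' r) := by ring
    _ = _ := by rw [hy, hy']; ring

theorem core0_Ord.const [IsLocalization.Away π K] (c : K) : core0_Ord π 0 (fun _ => c) := by
  obtain ⟨e, y, hy⟩ := IsLocalization.Away.surj π c
  exact ⟨e, fun _ => ⟨y, by rw [zero_mul, pow_zero, one_mul, ← hy, mul_comm]⟩⟩

theorem core0_Ord.const_mul [IsLocalization.Away π K] (c : K) (h : core0_Ord π s z) :
    core0_Ord π s (fun r => c * z r) := by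
  simpa using (core0_Ord.const (π := π) c).mul h

theorem core0_Ord.mono {s' : ℕ} (h : core0_Ord π s z) (hs : s' ≤ s) : core0_Ord π s' z := by
  obtain ⟨e, he⟩ := h
  obtain ⟨u, rfl⟩ := Nat.exists_eq_add_of_le hs
  refine ⟨e, fun r => ?_⟩
  obtain ⟨y, hy⟩ := he r
  exact ⟨π ^ (u * r) * y, by rw [hy, map_mul, map_pow, add_mul, pow_add, mul_assoc]⟩

theorem core0_Ord.of_mem {y : ℕ → A} (h : ∀ r, y r ∈ Ideal.span {π ^ (s * r)}) :
    core0_Ord π s (fun r => algebraMap A K (y r)) := by
  refine ⟨0, fun r => ?_⟩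
  obtain ⟨u, hu⟩ := Ideal.mem_span_singleton.1 (h r)
  exact ⟨u, by simp only [pow_zero, one_mul, hu, map_mul, map_pow]⟩

theorem core0_Ord.eq_zero [IsLocalization.Away π K] [IsHausdorff (Ideal.span {π}) A]
    (hinj : Function.Injective (algebraMap A K)) {S : K} {c : ℕ}
    (h : core0_Ord π 2 (fun r => algebraMap A K π ^ (c + r) * S)) : S = 0 := by
  obtain ⟨e, he⟩ := h
  have hu : IsUnit (algebraMap A K π) := IsLocalization.Away.algebraMap_isUnit π
  have h1 : ∀ r, ∃ y : A, algebraMap A K π ^ (e + c) * S = algebraMap A K (π ^ r * y) := by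
    intro r
    obtain ⟨y, hy⟩ := he r
    refine ⟨y, (hu.pow r).mul_left_cancel ?_⟩
    rw [map_mul, map_pow]
    calc _ = (algebraMap A K π) ^ e * ((algebraMap A K π) ^ (c + r) * S) := by ring
      _ = _ := by rw [hy]; ring
  obtain ⟨y₀, hy₀⟩ := h1 0
  have h2 : π ^ 0 * y₀ = 0 := by
    apply R227.haus (Ideal.span {π})
    intro r
    obtain ⟨y, hy⟩ := h1 r
    rw [hinj (hy₀.symm.trans hy), Ideal.span_singleton_pow]
    exact Ideal.mem_span_singleton.2 (Dvd.intro _ rfl)
  rw [h2, map_zero] at hy₀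
  exact ((hu.pow _).mul_right_eq_zero).1 hy₀

end ord

/-- the powers of Frobenius on `𝔽_q` are distinct -/
theorem core0_frob_inj (hn : 1 ≤ n) {c c' : ℕ} (hc : c < n) (hc' : c' < n)
    (h : ∀ β : GaloisField p n, β ^ p ^ c = β ^ p ^ c') : c = c' := by
  classical
  have hp1 : 1 < p := (Fact.out : p.Prime).one_lt
  by_contra hne
  have hcard : Nat.card (GaloisField p n) = p ^ n := GaloisField.card p n (by omega)
  have := Fintype.ofFinite (GaloisField p n)
  rw [Nat.card_eq_fintype_card] at hcard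
  have hne' : p ^ c ≠ p ^ c' := fun h' => hne (Nat.pow_right_injective hp1 h')
  have h0 : (Polynomial.X ^ p ^ c - Polynomial.X ^ p ^ c' : Polynomial (GaloisField p n)) = 0 := by
    apply Polynomial.eq_zero_of_natDegree_lt_card_of_eval_eq_zero' _ Finset.univ
    · intro β _
      simp [h β]
    · rw [Finset.card_univ, hcard]
      refine lt_of_le_of_lt (Polynomial.natDegree_sub_le _ _) ?_
      simp only [Polynomial.natDegree_pow, Polynomial.natDegree_X, mul_one]
      exact max_lt (Nat.pow_lt_pow_right hp1 hc) (Nat.pow_lt_pow_right hp1 hc')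
  have h1 := congrArg (fun P => Polynomial.coeff P (p ^ c)) h0
  simp [Polynomial.coeff_X_pow, hne'] at h1

/-- Dedekind -/
theorem core0_dedekind (hn : 1 ≤ n) {K : Type*} [Field K] (τ : GaloisField p n →* K)
    (hτ : Function.Injective τ) (a : Fin n → K)
    (ha : ∀ β, ∑ c : Fin n, a c * τ β ^ p ^ (c : ℕ) = 0) : a = 0 := by
  classical
  let χ : Fin n → GaloisField p n →* K := fun c => (powMonoidHom (p ^ (c : ℕ))).comp τ
  have hχ : Function.Injective χ := by
    intro c c' h
    refine Fin.ext (core0_frob_inj (p := p) hn c.2 c'.2 fun β => hτ ?_)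
    rw [map_pow, map_pow]
    exact DFunLike.congr_fun h β
  have hli := (linearIndependent_monoidHom (GaloisField p n) K).comp χ hχ
  rw [Fintype.linearIndependent_iff] at hli
  funext c
  refine hli a ?_ c
  funext β
  simpa [χ] using ha β

theorem core0_alg {K ι κ : Type*} [CommRing K] [Fintype ι] [Fintype κ] (χ a a' : ι → K)
    (J : ι → κ → K) (cc δ : κ → K) (ε lam P : K) (t : ι → K) (E : ι → ι → K)
    (hχa : ∑ k, χ k * a k = 0) (hχJ : ∀ l, ∑ k, χ k * J k l = ε * cc l)
    (heq : ∀ k, lam * a k = a' k + P * ∑ c, a' c * t c * E c k) :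
    P * ∑ c, (a c * ∑ k, χ k * E c k) * t c =
      ∑ k, -χ k * (a' k - a k - ∑ l, J k l * δ l) + (-ε * ∑ l, cc l * δ l +
        P * ∑ c, -((∑ k, χ k * E c k) * t c) * (a' c - a c)) := by
  have h2 : ∑ k, χ k * a' k + P * ∑ c, (a' c * ∑ k, χ k * E c k) * t c = 0 := by
    have h3 : ∑ k, χ k * (lam * a k) = 0 := by
      rw [← mul_zero lam, ← hχa, Finset.mul_sum]
      exact Finset.sum_congr rfl fun k _ => by ring
    refine Eq.trans ?_ h3
    simp only [heq, mul_add, Finset.sum_add_distrib, Finset.mul_sum, Finset.sum_mul]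
    congr 1
    rw [Finset.sum_comm]
    exact Finset.sum_congr rfl fun k _ => Finset.sum_congr rfl fun c _ => by ring
  have h4 : ∑ k, χ k * ∑ l, J k l * δ l = ε * ∑ l, cc l * δ l := by
    simp only [Finset.mul_sum]
    rw [Finset.sum_comm]
    refine Finset.sum_congr rfl fun l _ => ?_
    rw [← mul_assoc, ← hχJ, Finset.sum_mul]
    exact Finset.sum_congr rfl fun k _ => by ring
  have h5 : ∑ k, -χ k * (a' k - a k - ∑ l, J k l * δ l) =
      - ∑ k, χ k * a' k + ∑ k, χ k * a k + ∑ k, χ k * ∑ l, J k l * δ l := by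
    rw [← Finset.sum_neg_distrib, ← Finset.sum_add_distrib, ← Finset.sum_add_distrib]
    exact Finset.sum_congr rfl fun k _ => by ring
  have h6 : ∑ c, -((∑ k, χ k * E c k) * t c) * (a' c - a c) =
      ∑ c, (a c * ∑ k, χ k * E c k) * t c - ∑ c, (a' c * ∑ k, χ k * E c k) * t c := by
    rw [← Finset.sum_sub_distrib]
    exact Finset.sum_congr rfl fun c _ => by ring
  rw [h5, h6, h4, hχa]
  linear_combination h2

/-- if `P ≠ ⊥` there are `f ∈ P`, `i` with `∂ i f ∉ P` (`eq_bot_of_pderiv`).  Take `P'` from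
`exists_oneDim` for `a = p * ∂ i f`, `A = E₀ ⧸ P'`, `K = FractionRing A`.  With `c l = x (∂ l f)`,
`δ = x (φ X) - x X ∈ p ^ (r + 1)` for `N = c₀ + r`: `ev_taylor` gives `∑ c l δ l ∈ p ^ (2 r + 2)`;
`per_family`, `per_equiv`, `exists_chi` give `∑ c, a c [β] ^ p ^ c (..) χ ∈ p ^ (r - e')` for all `r`, so it
vanishes; Dedekind (`linearIndependent_monoidHom`) gives `a c * χ k = 0` for all `c`, `k`. -/
theorem core_zero (hn : 1 ≤ n) (H : FormalGroup (LTRing p n)) [H.IsComm]
    (hH : H.map (LTRing.residue p n) = G0 p n (GaloisField p n))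
    (P : Ideal (LTRing p n)) (hP : P.IsPrime) (hp : (p : LTRing p n) ∉ P) (N₀ : ℕ)
    (hact : ∀ N, N₀ ≤ N → ∀ b : PowerSeries (GaloisField p n),
      IsFGHom (G0 p n (GaloisField p n)) (G0 p n (GaloisField p n)) b →
      ∃ φ ψ, Act p n H N b φ ψ ∧ ∀ f ∈ P, φ f ∈ P) : P = ⊥ := by
  classical
  by_contra hne
  obtain ⟨f, hfP, i₀, hi₀⟩ : ∃ f ∈ P, ∃ i, pderiv (WittVector p (GaloisField p n)) i f ∉ P := by
    by_contra h
    push Not at h
    exact hne (eq_bot_of_pderiv p n hP hp h)
  have hpm : (p : LTRing p n) ∈ mE p n := by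
    rw [mem_mE, map_natCast, CharP.cast_eq_zero]
  obtain ⟨P', hP', hPP', haP', hdim⟩ := exists_oneDim hP
    (a := p * pderiv (WittVector p (GaloisField p n)) i₀ f)
    (fun h => (hP.mem_or_mem h).elim hp hi₀) (by rw [← mE_eq]; exact Ideal.mul_mem_right _ _ hpm)
  have hpP' : (p : LTRing p n) ∉ P' := fun h => haP' (Ideal.mul_mem_right _ _ h)
  have hfP' : pderiv (WittVector p (GaloisField p n)) i₀ f ∉ P' :=
    fun h => haP' (Ideal.mul_mem_left _ _ h)
  have hP'm : P' ≤ mE p n := by rw [mE_eq]; exact IsLocalRing.le_maximalIdeal hP'.ne_top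
  let A := LTRing p n ⧸ P'
  let x : LTRing p n →+* A := Ideal.Quotient.mk P'
  have : IsLocalRing A := quot_isLocalRing hP'.ne_top
  have hmA : IsLocalRing.maximalIdeal A = (mE p n).map x := by
    rw [mE_eq]; exact quot_maximalIdeal P'
  have : IsAdicComplete (IsLocalRing.maximalIdeal A) A := quot_isAdicComplete P'
  have hdiv : ∀ t : A, t ≠ 0 → ∃ c, (mE p n).map x ^ c ≤ Ideal.span {t} := by
    intro t ht
    obtain ⟨t, rfl⟩ := Ideal.Quotient.mk_surjective t
    obtain ⟨c, hc⟩ := hdim t (fun h => ht (Ideal.Quotient.eq_zero_iff_mem.2 h))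
    refine ⟨c, ?_⟩
    rw [← Ideal.map_pow, mE_eq]
    refine (Ideal.map_mono hc).trans ?_
    rw [Ideal.map_sup, Ideal.map_quotient_self, bot_sup_eq, Ideal.map_span, Set.image_singleton]
  have hpA : (p : A) ≠ 0 := by
    rw [← map_natCast x]
    exact fun h => hpP' (Ideal.Quotient.eq_zero_iff_mem.1 h)
  have hpmA : (p : A) ∈ (mE p n).map x := by
    rw [← map_natCast x]; exact Ideal.mem_map_of_mem _ hpm
  have hpu : ¬ IsUnit (p : A) := by
    rw [← hmA] at hpmA; exact hpmA
  have : IsAdicComplete (Ideal.span {(p : A)}) A :=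
    isAdicComplete_of_le_of_fg (I := IsLocalRing.maximalIdeal A)
      ((Ideal.span_singleton_le_iff_mem _).2 (by rw [hmA]; exact hpmA))
      (Submodule.fg_span_singleton _)
  let K := FractionRing A
  have hinj : Function.Injective (algebraMap A K) := IsFractionRing.injective A K
  have hpK : algebraMap A K (p : A) = (p : K) := map_natCast _ _
  have hpK0 : (p : K) ≠ 0 := by
    rw [← hpK]; exact fun h => hpA (hinj (h.trans (map_zero _).symm))
  have : IsLocalization.Away (p : A) K := by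
    refine IsLocalization.Away.mk _ (by rw [hpK]; exact hpK0.isUnit) (fun z => ?_)
      (fun a b hab => ⟨0, by rw [hinj hab]⟩)
    obtain ⟨a, t, ht, rfl⟩ := IsFractionRing.div_surjective (A := A) z
    have ht0 : t ≠ 0 := nonZeroDivisors.ne_zero ht
    obtain ⟨c, hc⟩ := hdiv t ht0
    obtain ⟨u, hu⟩ := Ideal.mem_span_singleton.1 (hc (Ideal.pow_mem_pow hpmA c))
    refine ⟨c, a * u, ?_⟩
    have ht' : algebraMap A K t ≠ 0 := fun h => ht0 (hinj (h.trans (map_zero _).symm))
    rw [← map_pow, hu, map_mul, map_mul, ← mul_assoc, div_mul_cancel₀ _ ht']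
  obtain ⟨c₁, hc₁⟩ := hdiv _ hpA
  have hc₀ : (mE p n).map x ^ (c₁ + N₀) ≤ Ideal.span {(p : A)} :=
    (Ideal.pow_le_pow_right (Nat.le_add_right _ _)).trans hc₁
  have haI : ∀ r, (aI p n (c₁ + N₀ + 1 + r)).map x ≤ Ideal.span {(p : A) ^ (r + 2)} := by
    intro r
    rw [show c₁ + N₀ + 1 + r = c₁ + N₀ + (r + 1) by omega]
    exact aI_map_le x hc₀ (r + 1)
  set c₀ := c₁ + N₀ + 1 with hc₀def
  obtain ⟨t, ϑ, hϑ⟩ := exists_versch hn hH x hpu hc₀
  obtain ⟨a, J, e, ha, hfam⟩ := per_family (K := K) hn hinj hc₀ hϑ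
  have ha0 : a ≠ 0 := per_ne_zero hn hH hinj hpu hc₀ hϑ ha
  let cc : Fin (n - 1) → K := fun l => algebraMap A K (x (pderiv (WittVector p (GaloisField p n)) l f))
  have hcc : cc ≠ 0 := by
    intro h
    have h1 : algebraMap A K (x (pderiv (WittVector p (GaloisField p n)) i₀ f)) = 0 := congrFun h i₀
    exact hfP' (Ideal.Quotient.eq_zero_iff_mem.1 (hinj (h1.trans (map_zero _).symm)))
  obtain ⟨χ, ε, hχ0, hχa, hχJ⟩ := exists_chi hn a J cc hcc
  let τ : GaloisField p n →* K :=
    ((algebraMap A K).comp (x.comp C)).toMonoidHom.comp (WittVector.teichmuller p)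
  have hτ : Function.Injective τ := by
    intro β β' h
    have h1 : x (C (WittVector.teichmuller p β)) = x (C (WittVector.teichmuller p β')) := hinj h
    have h2 := hP'm (Ideal.Quotient.eq.1 h1)
    rw [mem_mE, map_sub, residue_C, residue_C] at h2
    simpa [sub_eq_zero] using h2
  have hgood : Good (IsLocalRing.maximalIdeal A) := good_of_isAdicComplete _
  have hxX : ∀ l, x (X l) ∈ IsLocalRing.maximalIdeal A := by
    intro l
    rw [hmA]
    exact Ideal.mem_map_of_mem _ (residue_X p n l)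
  have hxev : x = ev (x.comp C) (fun l => x (X l)) :=
    eq_ev hgood x _ _ hxX (fun _ => rfl) (fun _ => rfl)
  have hcard : ∀ β : GaloisField p n, β ^ p ^ n = β := by
    intro β
    have hc : Nat.card (GaloisField p n) = p ^ n := GaloisField.card p n (by omega)
    have := Fintype.ofFinite (GaloisField p n)
    rw [Nat.card_eq_fintype_card] at hc
    rw [← hc, FiniteField.pow_card]
  let E : Fin n → Fin n → Fin n → K := fun c j k =>
    if (c : ℕ) + j = k then 1 else if (c : ℕ) + j = k + n then (p : K) else 0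
  have key : ∀ (β : GaloisField p n) (j : Fin n),
      ∑ c : Fin n, (a c * ∑ k, χ k * E c j k) * τ β ^ p ^ (c : ℕ) = 0 := by
    intro β j
    have hb := isFGHom_G0_C_mul_X_pow p hn (GaloisField p n) (CharP.cast_eq_zero _ p) (hcard β) j
    choose φ ψ hA hφP using fun r => hact (c₀ + r) (by omega) _ hb
    have hcong : ∀ r g, x (φ r g) - x g ∈ Ideal.span {(p : A) ^ (r + 2)} := by
      intro r g
      rw [← map_sub]
      exact haI r (Ideal.mem_map_of_mem _ ((hA r).cong0 g))
    choose a' ha' hy using fun r => hfam (x.comp (φ r)) (r + 2)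
      (fun w => by rw [RingHom.comp_apply, (hA r).map_C]) (by omega) (fun l => hcong r _)
    let δ : Fin (n - 1) → ℕ → K := fun l r => algebraMap A K (x.comp (φ r) (X l) - x (X l))
    have hδ : ∀ l, core0_Ord (p : A) 1 (δ l) := fun l => core0_Ord.of_mem fun r =>
      Ideal.span_singleton_le_span_singleton.2 (pow_dvd_pow _ (by omega)) (hcong r _)
    have hR : ∀ k, core0_Ord (p : A) 2 (fun r => a' r k - a k - ∑ l, J k l * δ l r) := by
      intro k
      refine ⟨e, fun r => ?_⟩
      obtain ⟨y, hy⟩ := hy r k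
      refine ⟨(p : A) ^ 4 * y, ?_⟩
      rw [hpK, hy, map_mul, map_pow, hpK]
      ring
    have hT : core0_Ord (p : A) 2 (fun r => ∑ l, cc l * δ l r) := by
      have h1 : ∀ r, ∑ l, (x.comp (φ r) (X l) - x (X l)) *
          x (pderiv (WittVector p (GaloisField p n)) l f) ∈ Ideal.span {(p : A) ^ (2 * r)} := by
        intro r
        have hx'X : ∀ l, x.comp (φ r) (X l) ∈ IsLocalRing.maximalIdeal A := by
          intro l
          rw [hmA]
          refine Ideal.mem_map_of_mem _ ?_
          rw [mem_mE, (hA r).res, residue_X]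
        have hx'ev : x.comp (φ r) = ev (x.comp C) (fun l => x.comp (φ r) (X l)) :=
          eq_ev hgood _ _ _ hx'X (fun w => by rw [RingHom.comp_apply, (hA r).map_C]; rfl)
            (fun _ => rfl)
        have h2 := ev_taylor hgood (x.comp C) hxX hx'X (fun l => hcong r _) f
        rw [← hx'ev, ← hxev, show x f = 0 from Ideal.Quotient.eq_zero_iff_mem.2 (hPP' hfP),
          show x.comp (φ r) f = 0 from Ideal.Quotient.eq_zero_iff_mem.2 (hPP' (hφP r f hfP)),
          sub_zero, zero_sub, neg_mem_iff, Ideal.span_singleton_pow, ← pow_mul] at h2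
        exact Ideal.span_singleton_le_span_singleton.2 (pow_dvd_pow _ (by omega)) h2
      have h3 := core0_Ord.of_mem (K := K) h1
      simpa only [map_sum, map_mul, mul_comm] using h3
    have hD : ∀ c, core0_Ord (p : A) 1 (fun r => a' r c - a c) := by
      intro c
      have h1 := ((hR c).mono (show 1 ≤ 2 by norm_num)).add
        (core0_Ord.sum Finset.univ fun l _ => (hδ l).const_mul (J c l))
      simpa only [sub_add_cancel] using h1
    have hpow : core0_Ord (p : A) 1 (fun r => (p : K) ^ (c₀ + r)) := by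
      refine ⟨0, fun r => ⟨(p : A) ^ c₀, ?_⟩⟩
      rw [map_pow, hpK]; ring
    have heq : ∀ r k, algebraMap A K (x (PowerSeries.coeff 1 (ψ r))) * a k =
        a' r k + (p : K) ^ (c₀ + r) * ∑ c : Fin n, a' r c * τ β ^ p ^ (c : ℕ) * E c j k :=
      fun r k => per_equiv hn hH hinj hϑ β j (hA r) (fun g =>
        Ideal.span_singleton_le_span_singleton.2 (dvd_pow_self _ (by omega)) (hcong r g)) ha
        (ha' r) k
    apply core0_Ord.eq_zero (π := (p : A)) hinj (c := c₀)
    have h1 := (core0_Ord.sum Finset.univ fun k _ => (hR k).const_mul (-χ k)).add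
      ((hT.const_mul (-ε)).add (hpow.mul (core0_Ord.sum Finset.univ fun c _ =>
        (hD c).const_mul (-((∑ k, χ k * E c j k) * τ β ^ p ^ (c : ℕ))))))
    convert h1 using 2 with r
    rw [hpK]
    exact core0_alg χ a (a' r) J cc (fun l => δ l r) ε _ _ (fun c => τ β ^ p ^ (c : ℕ))
      (fun c k => E c j k) hχa hχJ (heq r)
  obtain ⟨c, hc⟩ := Function.ne_iff.1 ha0
  apply hχ0
  funext k₀
  have hk := k₀.2
  have hc' := c.2
  have hj : ∃ j : Fin n, (c : ℕ) + j = k₀ ∨ (c : ℕ) + j = k₀ + n := by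
    by_cases h : (c : ℕ) ≤ k₀
    · exact ⟨⟨k₀ - c, by omega⟩, Or.inl (by simp; omega)⟩
    · exact ⟨⟨k₀ + n - c, by omega⟩, Or.inr (by simp; omega)⟩
  obtain ⟨j, hj⟩ := hj
  have h1 : a c * ∑ k, χ k * E c j k = 0 :=
    congrFun (core0_dedekind hn τ hτ (fun c => a c * ∑ k, χ k * E c j k) fun β => key β j) c
  have h2 := (mul_eq_zero.1 h1).resolve_left hc
  rw [Finset.sum_eq_single k₀] at h2
  · refine (mul_eq_zero.1 h2).resolve_right ?_
    simp only [E]
    split_ifs with h3 h4
    · exact one_ne_zero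
    · exact hpK0
    · omega
  · intro k _ hk'
    have := k.2
    have h3 : (k : ℕ) ≠ k₀ := fun h => hk' (Fin.ext h)
    simp only [E]
    rw [if_neg (by omega), if_neg (by omega), mul_zero]
  · intro h
    exact absurd (Finset.mem_univ _) h

end Crest.Agent.R227.K
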