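import Crest.Agent.R227.K.CoreS
import Crest.Agent.R227.K.Coord

/-! Row 227, task `R227/K/CoreP`: stable primes containing `p`. -/

set_option autoImplicit false

namespace Crest.Agent.R227.K

open MvPowerSeries Crest.LubinTate

variable {p : ℕ} [Fact p.Prime] {n : ℕ}

/-- push everything along `π` from `exists_coord` (`φ` preserves `I h` by `hI_iso`, `hI_map`) and
apply `core_S` -/
theorem core_p (H : FormalGroup (LTRing p n)) [H.IsComm]
    (hH : H.map (LTRing.residue p n) = G0 p n (GaloisField p n))
    (htop : heightIdeal p n H n = mE p n) {h : ℕ} (hh : 1 ≤ h) (hhn : h < n)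
    (P : Ideal (LTRing p n)) (hP : P.IsPrime) (hle : heightIdeal p n H h ≤ P)
    (ha : PowerSeries.coeff (p ^ h) (mulSeries H p) ∉ P) (N₀ : ℕ)
    (hact : ∀ N, N₀ ≤ N → ∀ b : PowerSeries (GaloisField p n),
      IsFGHom (G0 p n (GaloisField p n)) (G0 p n (GaloisField p n)) b →
      ∃ φ ψ, Act p n H N b φ ψ ∧ ∀ f ∈ P, φ f ∈ P) : P = heightIdeal p n H h := by
  obtain ⟨m, hm⟩ : ∃ m, h + m = n := ⟨n - h, by omega⟩
  obtain ⟨π, hπ, hker, hres, hC, hX⟩ := exists_coord H htop hh hm
  have hp1 : 1 < p := (Fact.out : p.Prime).one_lt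
  have hph : p ^ h ≠ 0 := pow_ne_zero _ (by omega)
  have hresc : (constantCoeff : MvPowerSeries (Fin m) (GaloisField p n) →+* GaloisField p n).comp
      π = LTRing.residue p n := RingHom.ext hres
  obtain ⟨V, hV, -⟩ := exists_factor_X_pow p (isFGHom_mulSeries (F := H.map π) p) h (by
    intro j hj
    rw [mulSeries_map, PowerSeries.coeff_map, ← RingHom.mem_ker, hker, heightIdeal_eq, hI_eq_span]
    exact Ideal.subset_span ⟨j, hj, rfl⟩)
  have hVc : ∀ i, PowerSeries.coeff (p ^ i) V =
      π (PowerSeries.coeff (p ^ (h + i)) (mulSeries H p)) := by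
    intro i
    rw [← PowerSeries.coeff_map, ← mulSeries_map, hV, ← PowerSeries.expand_apply _ hph, pow_add,
      PowerSeries.coeff_expand_mul]
  have hkP : RingHom.ker π ≤ P := hker ▸ hle
  have hP' : (P.map π).IsPrime := Ideal.map_isPrime_of_surjective hπ hkP
  have hmE : (mE p n).map π ≤
      Ideal.span (Set.range (X : Fin m → MvPowerSeries (Fin m) (GaloisField p n))) := by
    rw [Ideal.map_le_iff_le_comap]
    intro f hf
    rw [Ideal.mem_comap, ← pow_one (Ideal.span _)]
    refine mem_span_X_pow fun d hd => ?_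
    have : d = 0 := by
      rw [Nat.lt_one_iff, Finsupp.degree_eq_zero_iff] at hd
      exact hd
    subst this
    rw [coeff_zero_eq_constantCoeff_apply, hres]
    exact hf
  have key := core_S hh (by omega) hm (H.map π) (by rw [map_map, hresc, hH]) V hV
    (fun i => by rw [hVc, hX]) (P.map π) hP' (by
      have h1 := hVc 0
      rw [pow_zero, add_zero] at h1
      rw [h1, ← Ideal.mem_comap, Ideal.comap_map_of_surjective _ hπ,
        sup_eq_left.2 (show Ideal.comap π ⊥ ≤ P from hkP)]
      exact ha) (max N₀ 1) (by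
      intro N hN b hb
      obtain ⟨φ, ψ, hA, hφP⟩ := hact N (le_trans (le_max_left _ _) hN) b hb
      have hN1 : 1 ≤ N := le_trans (le_max_right _ _) hN
      have hu : IsUnit (PowerSeries.coeff 1 ψ) := by
        by_contra hnu
        have h1 : PowerSeries.coeff 1 ψ ∈ mE p n := by
          rw [mE_eq]
          exact hnu
        rw [mem_mE, ← PowerSeries.coeff_map, hA.lift, gser_coeff hb.1
          (Nat.one_lt_pow (by omega) (Nat.one_lt_pow (by omega) hp1))] at h1
        simp at h1
      have hk : RingHom.ker π ≤ RingHom.ker (π.comp φ) := by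
        intro f hf
        rw [RingHom.mem_ker, RingHom.comp_apply, ← RingHom.mem_ker, hker, heightIdeal_eq,
          hI_iso p hA.hom hu, hI_map]
        rw [hker, heightIdeal_eq] at hf
        exact Ideal.mem_map_of_mem _ hf
      have hφ' : ∀ f, π.liftOfSurjective hπ ⟨π.comp φ, hk⟩ (π f) = π (φ f) := fun f =>
        RingHom.liftOfSurjective_comp_apply π hπ _ f
      refine ⟨π.liftOfSurjective hπ ⟨π.comp φ, hk⟩, ψ.map π, fun c => ?_, fun f => ?_, ?_, ?_,
        fun f d hd => ?_, fun f hf => ?_⟩
      · obtain ⟨w, rfl⟩ := WittVector.constantCoeff_surjective p c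
        rw [← hC, hφ', hA.map_C]
      · obtain ⟨g, rfl⟩ := hπ f
        rw [hφ', hres, hres, hA.res]
      · have h1 := isFGHom_map hA.hom π
        rw [map_map] at h1
        rw [map_map, RingHom.liftOfSurjective_comp]
        exact h1
      · rw [← hA.lift, ← hresc, PowerSeries.map_comp]
        rfl
      · obtain ⟨g, rfl⟩ := hπ f
        rw [hφ', ← map_sub]
        refine coeff_eq_zero_of_mem_span_X_pow ?_ hd
        have h1 := Ideal.mem_map_of_mem π (hA.congh h hh hhn.le g)
        rw [Ideal.map_sup, ← hker, (Ideal.map_eq_bot_iff_le_ker π).2 le_rfl, bot_sup_eq,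
          Ideal.map_pow] at h1
        exact Ideal.pow_right_mono hmE _ h1
      · obtain ⟨g, hg, rfl⟩ := (Ideal.mem_map_iff_of_surjective π hπ).1 hf
        rw [hφ']
        exact Ideal.mem_map_of_mem _ (hφP g hg))
  refine le_antisymm ?_ hle
  rw [← hker]
  exact (Ideal.map_eq_bot_iff_le_ker π).1 key

end Crest.Agent.R227.K
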