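import Crest.Agent.R227.K.Dense1

/-! Row 227, task `R227/K/Dense`: a submonoid of points that is not Zariski dense satisfies a linear
relation. -/

set_option autoImplicit false

namespace Crest.Agent.R227.K

open MvPowerSeries Crest.LubinTate
open scoped BigOperators

variable {C : Type*} [NormedField C] [IsUltrametricDist C] [CompleteSpace C]
  (p : ℕ) [Fact p.Prime] [CharP C p] {h : ℕ}

section formal

variable {κ B : Type*} [CommRing κ] [CommRing B] {ι : Type} [Finite ι] {N : Ideal B}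

/-- the defect of additivity as a formal series in two sets of variables -/
noncomputable def denseDef (p h : ℕ) (Ψ : MvPowerSeries ι κ) : MvPowerSeries ι (MvPowerSeries ι κ) :=
  ev (MvPowerSeries.C.comp MvPowerSeries.C) (fun i => fadd (G0 p h _) (X i) (MvPowerSeries.C (X i))) Ψ -
    fadd (G0 p h _) (ev (MvPowerSeries.C.comp MvPowerSeries.C) (fun i => X i) Ψ)
      (ev (MvPowerSeries.C.comp MvPowerSeries.C) (fun i => MvPowerSeries.C (X i)) Ψ)

theorem dense_ev_def (p h : ℕ) (hN : Good N) (ψ : κ →+* B) {a b : ι → B} (ha : ∀ i, a i ∈ N)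
    (hb : ∀ i, b i ∈ N) {Ψ : MvPowerSeries ι κ} (h0 : constantCoeff Ψ = 0) :
    ev (ev ψ b) a (denseDef p h Ψ) = ev ψ (fun i => fadd (G0 p h B) (a i) (b i)) Ψ -
      fadd (G0 p h B) (ev ψ a Ψ) (ev ψ b Ψ) := by
  have hM : Good (liftI ι (liftI ι (⊥ : Ideal κ))) := good_liftI_bot.liftI
  have hx : ∀ i, (X i : MvPowerSeries ι (MvPowerSeries ι κ)) ∈ liftI ι (liftI ι ⊥) := fun i => by
    simp [mem_liftI]
  have hy : ∀ i, (MvPowerSeries.C (X i) : MvPowerSeries ι (MvPowerSeries ι κ)) ∈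
      liftI ι (liftI ι ⊥) := fun i => by simp [mem_liftI]
  have e1 : ∀ i, ev (ev ψ b) a (X i) = a i := ev_X hN _ ha
  have e2 : ∀ i, ev (ev ψ b) a (MvPowerSeries.C (X i)) = b i := fun i => by
    rw [ev_C, ev_X hN _ hb]
  have e3 : (ev (ev ψ b) a).comp (MvPowerSeries.C.comp MvPowerSeries.C) = ψ := by
    ext r
    simp only [RingHom.comp_apply, ev_C]
  have e4 : ∀ i, ev (ev ψ b) a (fadd (G0 p h _) (X i) (MvPowerSeries.C (X i))) =
      fadd (G0 p h B) (a i) (b i) := fun i => by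
    rw [map_fadd hM hN _ (hx i) (hy i) (e1 i ▸ ha i) (e2 i ▸ hb i), G0_map, e1, e2]
  have e5 := map_ev hM hN (ev (ev ψ b) a) (MvPowerSeries.C.comp MvPowerSeries.C) hx
    (fun i => e1 i ▸ ha i) Ψ
  have e6 := map_ev hM hN (ev (ev ψ b) a) (MvPowerSeries.C.comp MvPowerSeries.C) hy
    (fun i => e2 i ▸ hb i) Ψ
  simp only [e1, e2, e3] at e5 e6
  have m : ψ (constantCoeff Ψ) ∈ N := by rw [h0, map_zero]; exact N.zero_mem
  rw [denseDef, map_sub, map_ev hM hN _ _ (fun i => fadd_mem hM (hx i) (hy i))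
    (fun i => e4 i ▸ fadd_mem hN (ha i) (hb i)),
    map_fadd hM hN _ (ev_mem hM _ hx (by simp [h0])) (ev_mem hM _ hy (by simp [h0]))
      (e5 ▸ ev_mem hN _ ha m) (e6 ▸ ev_mem hN _ hb m), G0_map, e3, e5, e6]
  simp only [e4]

/-- restriction to a coordinate axis -/
noncomputable def denseAx [DecidableEq ι] (Ψ : MvPowerSeries ι κ) (i : ι) : PowerSeries κ :=
  ev (MvPowerSeries.C : κ →+* MvPowerSeries Unit κ) (Pi.single i (X ())) Ψ

omit [Finite ι] in
theorem dense_single_mem [DecidableEq ι] (i : ι) {z : B} (hz : z ∈ N) (j : ι) :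
    (Pi.single i z : ι → B) j ∈ N := by
  by_cases e : j = i
  · rwa [e, Pi.single_eq_same]
  · rw [Pi.single_eq_of_ne e]
    exact N.zero_mem

theorem dense_ev_ax [DecidableEq ι] (hN : Good N) (ψ : κ →+* B) {z : B} (hz : z ∈ N)
    (Ψ : MvPowerSeries ι κ) (i : ι) :
    ev1 z ((denseAx Ψ i).map ψ) = ev ψ (Pi.single i z) Ψ := by
  have e : (fun j => ev ψ (fun _ : Unit => z) ((Pi.single i (X ()) : ι → MvPowerSeries Unit κ) j)) =
      Pi.single i z := by
    funext j
    by_cases e : j = i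
    · rw [e, Pi.single_eq_same, Pi.single_eq_same, ev_X hN ψ fun _ => hz]
    · rw [Pi.single_eq_of_ne e, Pi.single_eq_of_ne e, map_zero]
  refine (ev_map hN (RingHom.id B) ψ (fun _ : Unit => hz) _).trans ?_
  rw [RingHom.id_comp, denseAx, map_ev good_liftI_bot hN _ _
    (dense_single_mem i (by simp [mem_liftI])) fun j => congrFun e j ▸ dense_single_mem i hz j, e]
  congr 2
  ext r
  simp only [RingHom.comp_apply, ev_C]

theorem dense_ax_hom [DecidableEq ι] (p h : ℕ) {Ψ : MvPowerSeries ι κ} (h0 : constantCoeff Ψ = 0)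
    (hΨ : denseDef p h Ψ = 0) (i : ι) : IsFGHom (G0 p h κ) (G0 p h κ) (denseAx Ψ i) := by
  refine ⟨Ideal.mem_bot.1 (mem_liftI.1 (ev_mem good_liftI_bot _
    (dense_single_mem i (by simp [mem_liftI])) (by simp [h0]))), ?_⟩
  have hM : Good (liftI (Fin 2) (⊥ : Ideal κ)) := good_liftI_bot
  have hx : ∀ j, (X j : MvPowerSeries (Fin 2) κ) ∈ liftI (Fin 2) ⊥ := fun j => by simp [mem_liftI]
  have hF : ∀ a b : MvPowerSeries (Fin 2) κ, a ∈ liftI (Fin 2) ⊥ → b ∈ liftI (Fin 2) ⊥ →
      (G0 p h κ).toPowerSeries.subst ![a, b] = fadd (G0 p h _) a b := fun a b ha hb => by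
    have hab : ∀ j, ![a, b] j ∈ liftI (Fin 2) ⊥ := fun j => by fin_cases j <;> assumption
    rw [subst_eq_ev hab, ← G0_map p h (MvPowerSeries.C : κ →+* MvPowerSeries (Fin 2) κ)]
    exact (ev_map hM (RingHom.id _) MvPowerSeries.C hab (G0 p h κ).toPowerSeries).symm
  have h1 := dense_ev_def p h hM MvPowerSeries.C (dense_single_mem i (hx 0))
    (dense_single_mem i (hx 1)) h0
  rw [hΨ, map_zero, eq_comm, sub_eq_zero] at h1
  have m : ∀ j, ev MvPowerSeries.C (Pi.single i (X j : MvPowerSeries (Fin 2) κ)) Ψ ∈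
      liftI (Fin 2) ⊥ := fun j => ev_mem hM _ (dense_single_mem i (hx j)) (by simp [h0])
  rw [psubst_eq_ev1 (G0 p h κ).zero_constantCoeff, psubst_eq_ev1 (hx 0), psubst_eq_ev1 (hx 1),
    dense_ev_ax hM _ (G0 p h κ).zero_constantCoeff, dense_ev_ax hM _ (hx 0),
    dense_ev_ax hM _ (hx 1), hF _ _ (m 0) (m 1), ← h1]
  congr 2
  funext j
  by_cases e : j = i
  · rw [e, Pi.single_eq_same, Pi.single_eq_same, Pi.single_eq_same, ← hF _ _ (hx 0) (hx 1)]
    have : ![X 0, X 1] = (X : Fin 2 → MvPowerSeries (Fin 2) κ) := by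
      funext j
      fin_cases j <;> rfl
    rw [this, subst_self, id]
  · rw [Pi.single_eq_of_ne e, Pi.single_eq_of_ne e, Pi.single_eq_of_ne e,
      fadd_zero hM (Ideal.zero_mem _)]

end formal

/-- `L × L` is dense -/
theorem dense_prod (hh : 1 ≤ h) (φ : GaloisField p h →+* O C) {ι : Type} [Fintype ι]
    (L : AddSubmonoid (ι → Wp C p h))
    (hdense : ∀ G : MvPowerSeries ι (GaloisField p h),
      (∀ ν ∈ L, ev φ (fun i => (ν i).1) G = 0) → G = 0)
    (G : MvPowerSeries ι (MvPowerSeries ι (GaloisField p h)))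
    (hG : ∀ ν ∈ L, ∀ ν' ∈ L, ev (ev φ fun i => (ν' i).1) (fun i => (ν i).1) G = 0) : G = 0 := by
  let _ : Algebra (GaloisField p h) C := ((O C).subtype.comp φ).toAlgebra
  refine MvPowerSeries.ext fun d => hdense _ fun ν' hν' => Subtype.ext ?_
  refine (Module.forall_dual_apply_eq_zero_iff (GaloisField p h) _).1 fun ℓ => ?_
  have h1 := hdense (fun d => ℓ ((coeff d (G.map (ev φ fun i => (ν' i).1)) : O C) : C))
    fun ν hν => ev_proj_eq_zero p hh φ (fun _ => rfl) (G.map (ev φ fun i => (ν' i).1))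
      (fun i => (ν i).2) (fun N => ?_) ℓ _ fun _ => rfl
  · exact congrFun h1 d
  · have h2 := hG _ (L.nsmul_mem hν (p ^ N)) ν' hν'
    simp only [Pi.smul_apply, nsmul_p_pow_val p hh] at h2
    rwa [ev_map good_mO _ _ fun i => nsmul_p_pow_val p hh N (ν i) ▸ (p ^ N • ν i).2,
      RingHom.id_comp]

/-- if `L` is dense and `Ψ` is additive on `L`, then `Ψ` is a sum of endomorphisms: use
`ev_proj_eq_zero` twice to see that `Ψ (F (ν, ν')) = F (Ψ ν, Ψ ν')` as formal series -/
theorem exists_end_of_additive (hh : 1 ≤ h) (φ : GaloisField p h →+* O C) {ι : Type} [Fintype ι]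
    (L : AddSubmonoid (ι → Wp C p h))
    (hdense : ∀ G : MvPowerSeries ι (GaloisField p h),
      (∀ ν ∈ L, ev φ (fun i => (ν i).1) G = 0) → G = 0)
    (Ψ : MvPowerSeries ι (GaloisField p h)) (h0 : constantCoeff Ψ = 0)
    (hadd : ∀ ν ∈ L, ∀ ν' ∈ L, ev φ (fun i => ((ν + ν') i).1) Ψ =
      fadd (G0 p h (O C)) (ev φ (fun i => (ν i).1) Ψ) (ev φ (fun i => (ν' i).1) Ψ)) :
    ∃ (d : ι → PowerSeries (GaloisField p h))
      (hd : ∀ i, IsFGHom (G0 p h (GaloisField p h)) (G0 p h (GaloisField p h)) (d i)),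
      ∀ ν : ι → Wp C p h, ev φ (fun i => (ν i).1) Ψ = (∑ i, act p h φ (d i) (hd i) (ν i)).1 := by
  classical
  have key := fun ν ν' : ι → Wp C p h =>
    dense_ev_def p h good_mO φ (fun i => (ν i).2) (fun i => (ν' i).2) h0
  have hΨ : denseDef p h Ψ = 0 := dense_prod p hh φ L hdense _ fun ν hν ν' hν' => by
    rw [key, sub_eq_zero]
    exact hadd ν hν ν' hν'
  let Θ : (ι → Wp C p h) →+ Wp C p h :=
    { toFun := fun ν => ⟨ev φ (fun i => (ν i).1) Ψ,
        ev_mem good_mO φ (fun i => (ν i).2) (by rw [h0, map_zero]; exact Ideal.zero_mem _)⟩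
      map_zero' := Subtype.ext ((ev_zero φ Ψ).trans (by rw [h0, map_zero]; rfl))
      map_add' := fun ν ν' => Subtype.ext (by
        have := key ν ν'
        rw [hΨ, map_zero, eq_comm, sub_eq_zero] at this
        exact this) }
  refine ⟨denseAx Ψ, dense_ax_hom p h h0 hΨ, fun ν => ?_⟩
  have h1 : Θ ν = ∑ i, Θ (Pi.single i (ν i)) := by rw [← map_sum, Finset.univ_sum_single]
  refine (congrArg Subtype.val h1).trans (congrArg _ (Finset.sum_congr rfl fun i _ => ?_))
  refine Subtype.ext ?_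
  rw [act_val, dense_ev_ax good_mO φ (ν i).2]
  exact congrArg (ev φ · Ψ) (funext (Pi.apply_single (fun _ (y : Wp C p h) => y.1) (fun _ => rfl) i _))

theorem dense_extend (φ : GaloisField p h →+* O C) {ι : Type} [DecidableEq ι] (i₀ : ι)
    (d : {i // i ≠ i₀} → PowerSeries (GaloisField p h))
    (hd : ∀ i, IsFGHom (G0 p h (GaloisField p h)) (G0 p h (GaloisField p h)) (d i)) :
    ∃ (d' : ι → PowerSeries (GaloisField p h))
      (hd' : ∀ i, IsFGHom (G0 p h (GaloisField p h)) (G0 p h (GaloisField p h)) (d' i)),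
      ∀ (S : Finset ι) (T : Finset {i // i ≠ i₀}), (∀ s, s ∈ T ↔ s.1 ∈ S) → ∀ ν : ι → Wp C p h,
        ∑ s ∈ T, act p h φ (d s) (hd s) (ν s) = ∑ i ∈ S, act p h φ (d' i) (hd' i) (ν i) := by
  refine ⟨fun i => if e : i = i₀ then 0 else d ⟨i, e⟩, fun i => ?_, fun S T hST ν => ?_⟩
  · dsimp only
    split_ifs
    · exact isFGHom_zero _ _
    · exact hd _
  · rw [← Finset.sum_subset (s₁ := T.map (Function.Embedding.subtype _)), Finset.sum_map]
    · refine Finset.sum_congr rfl fun s _ => Subtype.ext ?_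
      exact congrArg (fun f => ev1 (ν s).1 (PowerSeries.map φ f))
        (dif_neg (t := fun _ => 0) (e := fun e => d ⟨s, e⟩) s.2).symm
    · intro i hi
      obtain ⟨s, hs, rfl⟩ := Finset.mem_map.1 hi
      exact (hST s).1 hs
    · intro i hi hi'
      have e : i = i₀ := by
        by_contra e
        exact hi' (Finset.mem_map.2 ⟨⟨i, e⟩, (hST _).2 hi, rfl⟩)
      refine Subtype.ext ?_
      simp only [act_val, dif_pos e, map_zero, Pt.zero_val]

/-- induction on the number of coordinates: by `exists_linear_term` and `exists_implicit`,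
`ν i₀ = Ψ (ν')` on `L`; if the projection of `L` is not dense use the induction hypothesis (with
`d i₀ = 0`), otherwise `exists_end_of_additive` -/
theorem exists_relation (hh : 1 ≤ h) (φ : GaloisField p h →+* O C) {ι : Type} [Fintype ι]
    [DecidableEq ι] (L : AddSubmonoid (ι → Wp C p h)) (G : MvPowerSeries ι (GaloisField p h))
    (hG : G ≠ 0) (hL : ∀ ν ∈ L, ev φ (fun i => (ν i).1) G = 0) :
    ∃ (i₀ : ι) (d : ι → PowerSeries (GaloisField p h))
      (hd : ∀ i, IsFGHom (G0 p h (GaloisField p h)) (G0 p h (GaloisField p h)) (d i)),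
      ∀ ν ∈ L, ν i₀ = ∑ i ∈ Finset.univ.erase i₀, act p h φ (d i) (hd i) (ν i) := by
  induction hn : Fintype.card ι using Nat.strong_induction_on generalizing ι with
  | _ n ih =>
  obtain ⟨G', i₀, h1, h2⟩ := exists_linear_term p hh φ L G hG hL
  have h0 : constantCoeff G' = 0 :=
    φ.injective (((ev_zero φ G').symm.trans (h2 0 L.zero_mem)).trans (map_zero φ).symm)
  let e := (Equiv.optionSubtypeNe i₀).symm
  obtain ⟨Ψ, U, hΨ, hU, hE⟩ := exists_implicit (rename e.toEmbedding G')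
    (by rw [constantCoeff_rename, h0]) (by
      have := coeff_embDomain_rename e.toEmbedding G' (Finsupp.single i₀ 1)
      rw [Finsupp.embDomain_single] at this
      have e0 : e.toEmbedding i₀ = none := Equiv.optionSubtypeNe_symm_self i₀
      rw [← e0, this]
      exact h1.isUnit)
  have h3 : ∀ ν ∈ L, (ν i₀).1 = ev φ (fun s : {i // i ≠ i₀} => (ν s).1) Ψ := fun ν hν => by
    have ha : ∀ o, (ν (e.symm o)).1 ∈ mO C := fun o => (ν _).2
    have h4 := eq_ev good_mO ((ev φ fun o => (ν (e.symm o)).1).comp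
      (rename (R := GaloisField p h) e.toEmbedding).toRingHom) φ (fun i => (ν i).1)
      (fun i => (ν i).2) (fun r => by simp) fun i => by simp [ev_X good_mO φ ha]
    have h5 : (ev φ fun o => (ν (e.symm o)).1) (rename e.toEmbedding G') = 0 :=
      (RingHom.congr_fun h4 G').trans (h2 ν hν)
    rw [hE, map_mul, (hU.map _).mul_right_eq_zero, map_sub, sub_eq_zero, ev_X good_mO φ ha,
      ev_subst good_mO φ ha (by simp)] at h5
    simp only [ev_X good_mO φ ha] at h5
    exact h5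
  let π : (ι → Wp C p h) →+ ({i // i ≠ i₀} → Wp C p h) :=
    { toFun := fun ν s => ν s, map_zero' := rfl, map_add' := fun _ _ => rfl }
  by_cases hd : ∀ G : MvPowerSeries {i // i ≠ i₀} (GaloisField p h),
      (∀ ν ∈ L.map π, ev φ (fun i => (ν i).1) G = 0) → G = 0
  · obtain ⟨d, hd, h4⟩ := exists_end_of_additive p hh φ (L.map π) hd Ψ hΨ (by
      rintro _ ⟨ν, hν, rfl⟩ _ ⟨ν', hν', rfl⟩
      exact (h3 _ (L.add_mem hν hν')).symm.trans (congrArg₂ (fadd (G0 p h (O C))) (h3 ν hν) (h3 ν' hν')))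
    obtain ⟨d', hd', h5⟩ := dense_extend p φ i₀ d hd
    refine ⟨i₀, d', hd', fun ν hν => ?_⟩
    rw [← h5 _ Finset.univ fun s => by simp [s.2]]
    exact Subtype.ext ((h3 ν hν).trans (h4 (π ν)))
  · push Not at hd
    obtain ⟨G'', h4, h5⟩ := hd
    obtain ⟨s₀, d, hd, h6⟩ := ih _ (hn ▸ Fintype.card_subtype_lt (x := i₀) (by simp)) (L.map π)
      G'' h5 h4 rfl
    obtain ⟨d', hd', h7⟩ := dense_extend p φ i₀ d hd
    refine ⟨s₀, d', hd', fun ν hν => ?_⟩
    rw [← h7 _ (Finset.univ.erase s₀) fun s => by simp [Subtype.ext_iff]]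
    exact h6 (π ν) ⟨ν, hν, rfl⟩

end Crest.Agent.R227.K
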