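import Crest.Agent.R227.K.Final1

/-! Row 227, task `R227/K/Final`: no linear relation holds on the orbit. -/

set_option autoImplicit false

namespace Crest.Agent.R227.K

open MvPowerSeries Crest.LubinTate
open scoped BigOperators

variable {C : Type} [NormedField C] [IsUltrametricDist C] [IsAlgClosed C] [CompleteSpace C]
  {p : ℕ} [Fact p.Prime] [CharP C p] {n h : ℕ}

theorem final_varpi {ε : ℝ} (hε : ε < 1) (hϖ : ∃ ϖ : O C, ϖ ≠ 0 ∧ nm ϖ < 1) (p : ℕ)
    [Fact p.Prime] [CharP C p] : ∃ ϖ : O C, ϖ ≠ 0 ∧ nm ϖ < 1 ∧ ε ≤ nm ϖ := by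
  obtain ⟨ϖ, h0, h1⟩ := hϖ
  have hb : 0 < nm ϖ := lt_of_le_of_ne (nm_nonneg _) fun h => h0 (nm_eq_zero.1 h.symm)
  have hm : max ε 0 < 1 := max_lt hε one_pos
  obtain ⟨t, ht⟩ := exists_pow_lt_of_lt_one hb hm
  have e := frz_neg_pow p t ϖ
  refine ⟨frz C p (-(t : ℤ)) ϖ, fun h => h0 ?_, mem_mO.1 (frz_mem_mO p _ (mem_mO.2 h1)), ?_⟩
  · rw [← e, h, zero_pow (pow_ne_zero _ (Fact.out : p.Prime).ne_zero)]
  · refine (le_max_left ε 0).trans (le_of_lt (lt_of_pow_lt_pow_left₀ (p ^ t) (nm_nonneg _) ?_))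
    rw [← nm_pow, e]
    exact lt_of_le_of_lt (pow_le_pow_of_le_one (le_max_right _ _) hm.le
      (Nat.lt_pow_self (Fact.out : p.Prime).one_lt).le) ht

theorem final_galois_pow (hn : 1 ≤ n) (β : GaloisField p n) : β ^ p ^ n = β := by
  letI : Fintype (GaloisField p n) := Fintype.ofFinite _
  rw [← GaloisField.card p n (by omega), Nat.card_eq_fintype_card]
  exact FiniteField.pow_card β

theorem final_Lz_mul {K : Type*} [NormedField K] [IsUltrametricDist K] [CompleteSpace K]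
    (s : WittVector p (O C) →+* O K) (hn : 1 ≤ n) (φ : GaloisField p n →+* O C)
    (β : GaloisField p n) (c : ℕ) (Z : O C) :
    Lz s n (frz C p c (φ β * Z)) = (sharp s (φ β) : K) ^ p ^ c * Lz s n (frz C p c Z) := by
  rw [map_mul, frz_natCast p c (φ β), Lz_mul, sharp_pow, SubmonoidClass.coe_pow]
  rw [← pow_mul, mul_comm, pow_mul, ← map_pow, final_galois_pow hn]


/-- choose `ϖ` with `ε ≤ ‖ϖ‖ < 1` and an untilt.  Apply `Lz` to the relation (`Lz_add`, `Lz_act`,
`Lz_theta`, `Lz_mul`); `fourier` in `β` gives `∑ e, A e c * λ e (c + j) = 0` for all `c`, `j`, where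
`λ e κ = ∑ i, w i e * Lz ((Y i) ^ p ^ κ)` (with `w i₀ 0 = - p ^ e₀`, `w i₀ e = 0` otherwise); `Lz_frz`
extends this to all `κ ∈ ℤ`.  Hence `∑ e, λ e κ * Lz (ν ^ p ^ e) = 0` for all small `ν`; `fourier` in
`γ ∈ 𝔽_d` and `exists_Lz_ne_zero` give `λ 0 κ = 0`, contradicting `indep`. -/
theorem no_relation (hh : 1 ≤ h) (hhn : h < n) {H : FormalGroup (O C)} {V θ : PowerSeries (O C)}
    {ε : ℝ} (hε : ε < 1) (hϖ : ∃ ϖ : O C, ϖ ≠ 0 ∧ nm ϖ < 1) (hH : Near p n h H V ε)
    (hθ : IsFGHom H (G0 p h (O C)) θ) {Θ : Wp C p n →+ Wp C p h} (hΘ : IsTheta p n h θ ε Θ)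
    {ρ : ℝ} (hρ : 0 < ρ) (hsurj : ∀ ν : Wp C p h, nm ν.1 ≤ ρ → ∃ Y, Θ Y = ν)
    (φn : GaloisField p n →+* O C) (φ : GaloisField p h →+* O C) {ι : Type} [Fintype ι]
    [DecidableEq ι] (Y : ι → Wp C p n) {w₀ : ℝ} (hw₀ : 0 < w₀)
    (hind : ∀ c : ι → ℕ, (∃ i, ¬ p ∣ c i) → w₀ ≤ nm (∑ i, c i • Y i).1) (i₀ : ι)
    (d : ι → PowerSeries (GaloisField p h))
    (hd : ∀ i, IsFGHom (G0 p h (GaloisField p h)) (G0 p h (GaloisField p h)) (d i))
    (hrel : ∀ (b : PowerSeries (GaloisField p n))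
      (hb : IsFGHom (G0 p n (GaloisField p n)) (G0 p n (GaloisField p n)) b),
      Θ (act p n φn b hb (Y i₀)) =
        ∑ i ∈ Finset.univ.erase i₀, act p h φ (d i) (hd i) (Θ (act p n φn b hb (Y i)))) :
    False := by
  have hn : 1 ≤ n := by omega
  obtain ⟨ϖ, h0, h1, hεϖ⟩ := final_varpi hε hϖ p
  obtain ⟨K, _, _, _, s, hs1, hs2⟩ := exists_untilt p ϖ h0 h1
  have hs : IsUntilt ϖ s := ⟨h0, h1, hs1, hs2⟩
  choose A hA using hs.Lz_theta hn hh hεϖ hH hθ hΘ
  choose e₀ w hw using fun i => hs.Lz_act hh φ (d i) (hd i)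
  set E := ∑ i, e₀ i with hE
  have hEi : ∀ i, e₀ i ≤ E := fun i =>
    Finset.single_le_sum (f := e₀) (fun _ _ => Nat.zero_le _) (Finset.mem_univ i)
  set z : Fin h := ⟨0, hh⟩ with hz
  set w' : ι → Fin h → WittVector p (GaloisField p h) := fun i e =>
    if i = i₀ then (if e = z then -(p : WittVector p (GaloisField p h)) ^ E else 0)
    else (p : WittVector p (GaloisField p h)) ^ (E - e₀ i) * w i e with hw'
  have hpK : (s (WittVector.map φ (p : WittVector p (GaloisField p h))) : K) = p := by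
    rw [map_natCast, map_natCast]
    simp
  have step3 : ∀ ν : ι → Wp C p h,
      ν i₀ = ∑ i ∈ Finset.univ.erase i₀, act p h φ (d i) (hd i) (ν i) →
      ∑ i, ∑ e : Fin h, (s (WittVector.map φ (w' i e)) : K) * Lz s h (frz C p (e : ℕ) (ν i).1)
        = 0 := by
    intro ν hν
    rw [← Finset.add_sum_erase _ _ (Finset.mem_univ i₀)]
    have a1 : ∑ e : Fin h, (s (WittVector.map φ (w' i₀ e)) : K) *
        Lz s h (frz C p (e : ℕ) (ν i₀).1) = -((p : K) ^ E * Lz s h (ν i₀).1) := by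
      rw [Finset.sum_eq_single z]
      · simp only [hw', if_true]
        rw [map_neg, map_neg, map_pow, map_pow, NegMemClass.coe_neg, SubmonoidClass.coe_pow, hpK]
        simp [hz, frz_zero]
      · intro e _ he
        simp [hw', he]
      · simp
    have a2 : ∀ i ∈ Finset.univ.erase i₀, ∑ e : Fin h, (s (WittVector.map φ (w' i e)) : K) *
        Lz s h (frz C p (e : ℕ) (ν i).1) =
        (p : K) ^ E * Lz s h (act p h φ (d i) (hd i) (ν i)).1 := by
      intro i hi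
      have hi' : i ≠ i₀ := Finset.ne_of_mem_erase hi
      obtain ⟨k, hk⟩ := Nat.exists_eq_add_of_le' (hEi i)
      rw [hk, pow_add, mul_assoc, hw i, Finset.mul_sum]
      refine Finset.sum_congr rfl fun e _ => ?_
      simp only [hw', if_neg hi']
      rw [map_mul, map_mul, map_pow, map_pow, MulMemClass.coe_mul, SubmonoidClass.coe_pow, hpK,
        hk, Nat.add_sub_cancel, mul_assoc]
    have a3 := hs.Lz_sum hh 0 (Finset.univ.erase i₀) (fun _ => 1)
      (fun i => act p h φ (d i) (hd i) (ν i))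
    simp only [one_smul, frz_zero, Nat.cast_one, one_mul] at a3
    rw [a1, Finset.sum_congr rfl a2, ← Finset.mul_sum, ← a3, ← hν, neg_add_cancel]
  set lam : Fin h → ℤ → K := fun e κ =>
    ∑ i, (s (WittVector.map φ (w' i e)) : K) * Lz s n (frz C p κ (Y i).1) with hlam
  have step4 : ∀ (j : ℕ) (c : Fin n), ∑ e : Fin h, A e c * lam e ((c : ℕ) + j) = 0 := by
    intro j
    have key := hs.fourier hn φn (fun c : Fin n => ∑ e : Fin h, A e c * lam e ((c : ℕ) + j)) ?_
    · exact fun c => congrFun key c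
    intro β
    have hb := isFGHom_G0_C_mul_X_pow p hn (GaloisField p n) (CharP.cast_eq_zero _ p)
      (final_galois_pow hn β) j
    have hval : ∀ i, (act p n φn _ hb (Y i)).1 = φn β * frz C p j (Y i).1 := by
      intro i
      rw [act_val, frz_natCast]
      simp [ev1_X good_mO (Y i).2]
    have b1 := step3 (fun i => Θ (act p n φn _ hb (Y i))) (hrel _ hb)
    simp only [hA, hval, final_Lz_mul s hn, ← frz_add] at b1
    rw [← b1]
    simp only [hlam, Finset.mul_sum]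
    rw [Finset.sum_comm]
    conv_rhs => rw [Finset.sum_comm]
    refine Finset.sum_congr rfl fun e _ => ?_
    rw [Finset.sum_comm]
    refine Finset.sum_congr rfl fun i _ => Finset.sum_congr rfl fun c _ => by ring
  have step4' : ∀ (κ : ℤ) (c : Fin n), ∑ e : Fin h, A e c * lam e κ = 0 := by
    intro κ c
    obtain ⟨t, j, htj⟩ : ∃ t j : ℕ, ((c : ℕ) : ℤ) + j = n * (t : ℤ) + κ := by
      refine ⟨κ.natAbs + c, (n * ((κ.natAbs + c : ℕ) : ℤ) + κ - c).toNat, ?_⟩
      have h2 : ((κ.natAbs + c : ℕ) : ℤ) ≤ n * ((κ.natAbs + c : ℕ) : ℤ) :=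
        le_mul_of_one_le_left (by positivity) (by exact_mod_cast hn)
      omega
    have b1 := step4 j c
    have b2 : ∀ e, lam e ((c : ℕ) + j) = (p : K) ^ (t : ℤ) * lam e κ := by
      intro e
      simp only [hlam, htj, frz_add, hs.Lz_frz, Finset.mul_sum]
      exact Finset.sum_congr rfl fun i _ => by ring
    apply mul_left_cancel₀ (zpow_ne_zero (t : ℤ) hs.p_ne_zero)
    rw [mul_zero, ← b1, Finset.mul_sum]
    exact Finset.sum_congr rfl fun e _ => by rw [b2]; ring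
  have step5 : ∀ (κ : ℤ) (ν : Wp C p h), nm ν.1 ≤ ρ →
      ∑ e : Fin h, lam e κ * Lz s h (frz C p (e : ℕ) ν.1) = 0 := by
    intro κ ν hν
    obtain ⟨Y', rfl⟩ := hsurj ν hν
    simp only [hA, Finset.mul_sum]
    rw [Finset.sum_comm]
    refine Finset.sum_eq_zero fun c _ => ?_
    calc ∑ e : Fin h, lam e κ * (A e c * Lz s n (frz C p (c : ℕ) Y'.1))
        = (∑ e : Fin h, A e c * lam e κ) * Lz s n (frz C p (c : ℕ) Y'.1) := by
          rw [Finset.sum_mul]
          exact Finset.sum_congr rfl fun e _ => by ring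
      _ = 0 := by rw [step4', zero_mul]
  obtain ⟨ν0, hν0, hne⟩ := hs.exists_Lz_ne_zero hh hρ 0
  have step6 : ∀ κ : ℤ, lam z κ = 0 := by
    intro κ
    have key := hs.fourier hh φ (fun e : Fin h => lam e κ * Lz s h (frz C p (e : ℕ) ν0.1)) ?_
    · exact (mul_eq_zero.1 (congrFun key z)).resolve_right hne
    intro γ
    have b1 := step5 κ ⟨φ γ * ν0.1, Ideal.mul_mem_left _ _ ν0.2⟩ (by
      change nm (φ γ * ν0.1) ≤ ρ
      rw [nm_mul]
      exact (mul_le_of_le_one_left (nm_nonneg _) (nm_le_one _)).trans hν0)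
    simp only [final_Lz_mul s hh] at b1
    rw [← b1]
    exact Finset.sum_congr rfl fun e _ => by ring
  have fin := congrFun (hs.indep hh hhn φ Y hw₀ hind (fun i => w' i z) step6) i₀
  simp only [hw', if_true, Pi.zero_apply, neg_eq_zero] at fin
  exact pow_ne_zero _ (WittVector.p_nonzero p _) fin

end Crest.Agent.R227.K
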