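import Crest.Agent.R227.K.E01
import Crest.Agent.R227.Dim1

/-! Row 227, task `R227/K/E0`: commutative algebra of the Lubin–Tate ring. -/

set_option autoImplicit false

namespace Crest.Agent.R227.K

open MvPowerSeries Crest.LubinTate IsLocalRing

variable (p : ℕ) [Fact p.Prime] (n : ℕ)

section quotient

variable {R : Type*} [CommRing R] [IsLocalRing R] [IsNoetherianRing R]

/-- one-dimensional quotients: take `P'` maximal among the primes over `P` avoiding `a`.  In `R ⧸ P'`
every nonzero prime contains `a`; there are finitely many minimal primes over `a`, so by prime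
avoidance and Krull's principal ideal theorem the only primes are `0` and `𝔪`. -/
theorem exists_oneDim {P : Ideal R} (hP : P.IsPrime) {a : R} (ha : a ∉ P)
    (_ham : a ∈ maximalIdeal R) :
    ∃ P' : Ideal R, P'.IsPrime ∧ P ≤ P' ∧ a ∉ P' ∧
      ∀ t ∉ P', ∃ c : ℕ, maximalIdeal R ^ c ≤ P' ⊔ Ideal.span {t} := by
  exact R227.exists_dim_one_quotient hP ha

end quotient

theorem e0_eq_zero {σ A : Type*} [CommRing A] [IsDomain A] (hA : ∀ m : ℕ, ((m + 1 : ℕ) : A) ≠ 0)
    (Z : Set (MvPowerSeries σ A)) (hZ : ∀ g ∈ Z, ∀ i, pderiv A i g ∈ Z)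
    (h0 : ∀ g ∈ Z, constantCoeff g = 0) {g : MvPowerSeries σ A} (hg : g ∈ Z) : g = 0 := by
  classical
  have key : ∀ (k : ℕ) (d : σ →₀ ℕ), d.degree = k → ∀ g ∈ Z, coeff d g = 0 := by
    intro k
    induction k with
    | zero =>
      intro d hd g hg
      rw [Finsupp.degree_eq_zero_iff] at hd
      rw [hd]; exact h0 g hg
    | succ k ih =>
      intro d hd g hg
      obtain ⟨i, hi⟩ : ∃ i, d i ≠ 0 := by
        by_contra h
        push Not at h
        rw [show d = 0 from Finsupp.ext h] at hd
        simp at hd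
      have hle : Finsupp.single i 1 ≤ d := by rw [Finsupp.single_le_iff]; omega
      obtain ⟨e, rfl⟩ := exists_add_of_le hle
      rw [map_add, Finsupp.degree_single] at hd
      have := ih e (by omega) _ (hZ g hg i)
      rw [coeff_pderiv, mul_eq_zero] at this
      rw [add_comm]
      exact this.resolve_right (by exact_mod_cast hA (e i))
  ext d
  exact key _ d rfl g hg

theorem e0_eq_zero_of_C_mem {P : Ideal (LTRing p n)} (hP : P.IsPrime) (hp : (p : LTRing p n) ∉ P)
    {w : WittVector p (GaloisField p n)} (hw : (C w : LTRing p n) ∈ P) : w = 0 := by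
  by_contra h
  obtain ⟨m, b, rfl⟩ := WittVector.exists_eq_pow_p_mul' w h
  rw [map_mul, Ideal.mul_unit_mem_iff_mem _ (b.isUnit.map _), map_pow, map_natCast] at hw
  exact hp (hP.mem_of_pow_mem _ hw)

theorem e0_natCast_ne_zero (m : ℕ) : ((m + 1 : ℕ) : WittVector p (GaloisField p n)) ≠ 0 := by
  obtain ⟨e, r, hr, h⟩ := Nat.exists_eq_pow_mul_and_not_dvd (Nat.succ_ne_zero m) p
    (Fact.out : p.Prime).ne_one
  rw [← Nat.succ_eq_add_one, h, Nat.cast_mul, Nat.cast_pow]
  refine mul_ne_zero (pow_ne_zero _ (R227.p_ne_zero_WW p n)) fun h0 => hr ?_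
  have := congrArg (WittVector.constantCoeff : _ →+* GaloisField p n) h0
  rwa [map_natCast, map_zero, CharP.cast_eq_zero_iff _ p] at this

/-- an ideal of `E₀` not containing `p`, prime and stable under the partial derivatives is zero:
if `f ≠ 0` lies in `P`, divide by the largest power of `p`, so some coefficient `f_J` is a unit;
the Hasse derivatives (`(t + 1) Δ (t + 1) = ∂ Δ t` coefficientwise, and nonzero integers are not in
`P`) give an element of `P` with constant coefficient `f_J`. -/
theorem eq_bot_of_pderiv {P : Ideal (LTRing p n)} (hP : P.IsPrime) (hp : (p : LTRing p n) ∉ P)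
    (h : ∀ f ∈ P, ∀ i, pderiv (WittVector p (GaloisField p n)) i f ∈ P) : P = ⊥ := by
  let π := Ideal.Quotient.mk P
  have := Ideal.Quotient.nontrivial_iff.mpr hP.ne_top
  have := quot_isLocalRing hP.ne_top
  have := quot_isAdicComplete P
  let I := maximalIdeal (LTRing p n ⧸ P)
  have ha : ∀ i, π (X i) ∈ I.radical := fun i => Ideal.le_radical (by
    rw [show I = _ from quot_maximalIdeal P]
    exact Ideal.mem_map_of_mem _ (R227.X_mem_maximalIdeal p n i))
  have hπ : π = ev (π.comp C) fun i => π (X i) := R227.hom_eq_ev I π ha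
  have hA : ∀ m : ℕ, ((m + 1 : ℕ) : LTRing p n ⧸ P) ≠ 0 := fun m hm =>
    e0_natCast_ne_zero p n m (e0_eq_zero_of_C_mem p n hP hp (by
      rw [← Ideal.Quotient.eq_zero_iff_mem, map_natCast, map_natCast]; exact hm))
  have h1 : ∀ f ∈ P, R227.taylor (π.comp C) (fun i => π (X i)) f = 0 := fun f hf =>
    e0_eq_zero hA (R227.taylor (π.comp C) (fun i => π (X i)) '' P)
      (by
        rintro _ ⟨g, hg, rfl⟩ i
        exact ⟨_, h g hg i, (R227.pderiv_taylor I _ ha i g).symm⟩)
      (by
        rintro _ ⟨g, hg, rfl⟩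
        rw [R227.constantCoeff_taylor I _ ha, ← hπ]
        exact Ideal.Quotient.eq_zero_iff_mem.mpr hg) ⟨f, hf, rfl⟩
  have h2 : ∀ f ∈ P, constantCoeff f = 0 := fun f hf => by
    have := R227.ev_taylor I (π.comp C) ha (δ := fun i => -π (X i)) (fun i => neg_mem (ha i)) f
    rw [h1 f hf, map_zero] at this
    simp only [add_neg_cancel, R227.ev_zero] at this
    exact e0_eq_zero_of_C_mem p n hP hp (Ideal.Quotient.eq_zero_iff_mem.mp this.symm)
  exact eq_bot_iff.mpr fun f hf => e0_eq_zero (e0_natCast_ne_zero p n) P h h2 hf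

end Crest.Agent.R227.K
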