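import Crest.Agent.R227.K.OC
import Crest.Agent.R227.K.E0

/-! Row 227, task `R227/K/Point`: points with values in the unit ball. -/

set_option autoImplicit false

namespace Crest.Agent.R227.K

open MvPowerSeries

/-- a ring map out of `k⟦X⟧` to a domain which does not kill `X` is injective -/
theorem point_injective {k B : Type*} [Field k] [CommRing B] [IsDomain B]
    (ψ : PowerSeries k →+* B) (h : ψ PowerSeries.X ≠ 0) : Function.Injective ψ := by
  rw [injective_iff_map_eq_zero]
  intro f hf
  by_contra h0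
  obtain ⟨n, u, rfl⟩ := IsDiscreteValuationRing.eq_unit_mul_pow_irreducible h0
    (PowerSeries.X_irreducible (R := k))
  rw [map_mul, map_pow] at hf
  rcases mul_eq_zero.1 hf with h1 | h1
  · exact (u.isUnit.map ψ).ne_zero h1
  · exact h (eq_zero_of_pow_eq_zero h1)

/-- topological Nakayama over `k⟦X⟧` -/
theorem point_span {k B ι : Type*} [CommRing k] [CommRing B] (ψ : PowerSeries k →+* B)
    [IsHausdorff (Ideal.span {ψ PowerSeries.X}) B] (T : Finset ι) (e : ι → B)
    (h : ∀ y : B, ∃ (c : ι → k) (y' : B),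
      y = ∑ i ∈ T, ψ (PowerSeries.C (c i)) * e i + ψ PowerSeries.X * y') (y : B) :
    ∃ f : ι → PowerSeries k, y = ∑ i ∈ T, ψ (f i) * e i := by
  choose c y' hc using h
  refine ⟨fun i => PowerSeries.mk fun n => c (y'^[n] y) i, ?_⟩
  have key : ∀ N : ℕ, y - ∑ i ∈ T, ψ (PowerSeries.mk fun n => c (y'^[n] y) i) * e i =
      ψ PowerSeries.X ^ N * (y'^[N] y -
        ∑ i ∈ T, ψ (PowerSeries.mk fun n => c (y'^[n + N] y) i) * e i) := by
    intro N
    induction N with
    | zero => simp
    | succ N ih =>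
      rw [ih, pow_succ, mul_assoc]
      congr 1
      have h1 : ∀ i, (PowerSeries.mk fun n => c (y'^[n + N] y) i) =
          PowerSeries.C (c (y'^[N] y) i) +
            PowerSeries.X * PowerSeries.mk fun n => c (y'^[n + (N + 1)] y) i := by
        intro i
        ext n
        cases n with
        | zero => simp
        | succ n =>
          simp only [PowerSeries.coeff_mk, map_add, PowerSeries.coeff_succ_X_mul,
            PowerSeries.coeff_C, Nat.succ_ne_zero, if_false, zero_add]
          congr 2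
          omega
      simp_rw [h1, map_add, map_mul, add_mul, Finset.sum_add_distrib, mul_assoc, ← Finset.mul_sum]
      rw [Function.iterate_succ_apply']
      linear_combination hc (y'^[N] y)
  refine R227.haus_eq (Ideal.span {ψ PowerSeries.X}) fun N => ?_
  rw [key N, Ideal.span_singleton_pow]
  exact Ideal.mul_mem_right _ _ (Ideal.mem_span_singleton_self _)

/-- roots of monic polynomials with coefficients in the unit ball lie in the unit ball -/
theorem point_norm_le_one {A C : Type*} [CommRing A] [NormedField C] [IsUltrametricDist C]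
    (χ : A →+* C) (hχ : ∀ a, ‖χ a‖ ≤ 1) {P : Polynomial A} (hP : P.Monic) {y : C}
    (hy : P.eval₂ χ y = 0) : ‖y‖ ≤ 1 := by
  by_contra h
  rw [not_le] at h
  rw [hP.as_sum, Polynomial.eval₂_add, Polynomial.eval₂_X_pow, Polynomial.eval₂_finsetSum,
    add_eq_zero_iff_eq_neg] at hy
  rcases Nat.eq_zero_or_pos P.natDegree with hd | hd
  · rw [hd] at hy
    simp at hy
  have h2 : ‖y ^ P.natDegree‖ ≤ ‖y‖ ^ (P.natDegree - 1) := by
    rw [hy, norm_neg]
    refine IsUltrametricDist.norm_sum_le_of_forall_le_of_nonneg (by positivity) fun i hi => ?_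
    rw [Polynomial.eval₂_mul, Polynomial.eval₂_C, Polynomial.eval₂_X_pow, norm_mul, norm_pow]
    refine (mul_le_of_le_one_left (by positivity) (hχ _)).trans (pow_le_pow_right₀ h.le ?_)
    have := Finset.mem_range.1 hi
    omega
  rw [norm_pow] at h2
  exact absurd h2 (pow_lt_pow_right₀ h (by omega)).not_ge

/-- extension of an injective map to the unit ball along an injective finite map of domains -/
theorem point_extend {A B C : Type*} [CommRing A] [IsDomain A] [CommRing B] [IsDomain B]
    [NormedField C] [IsUltrametricDist C] [IsAlgClosed C] (ψ : A →+* B)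
    (hψ : Function.Injective ψ) (hfin : ψ.Finite) (χ : A →+* O C) (hχ : Function.Injective χ) :
    ∃ x : B →+* O C, ∀ a, x (ψ a) = χ a := by
  let : Algebra A B := ψ.toAlgebra
  let : Algebra A C := ((O C).subtype.comp χ).toAlgebra
  have : Module.Finite A B := hfin
  have : Module.IsTorsionFree A B := Module.isTorsionFree_iff_algebraMap_injective.mpr hψ
  have : Module.IsTorsionFree A C :=
    Module.isTorsionFree_iff_algebraMap_injective.mpr ((O C).subtype_injective.comp hχ)
  have : Algebra.IsAlgebraic A B := Algebra.IsAlgebraic.of_finite A B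
  let L : B →ₐ[A] C := IsAlgClosed.lift
  have hL : ∀ b, L.toRingHom b ∈ O C := by
    intro b
    obtain ⟨P, hP, hb⟩ := (Algebra.IsIntegral.isIntegral (R := A) b).map L
    exact point_norm_le_one (algebraMap A C) (fun a => (χ a).2) hP hb
  refine ⟨L.toRingHom.codRestrict (O C) hL, fun a => Subtype.ext ?_⟩
  exact L.commutes a

theorem point_galoisField_hom {C : Type*} [NormedField C] [IsUltrametricDist C]
    [IsAlgClosed C] (p : ℕ) [Fact p.Prime] [CharP C p] (h : ℕ) :
    Nonempty (GaloisField p h →+* O C) := by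
  let : Algebra (ZMod p) C := ZMod.algebra C p
  let L : GaloisField p h →ₐ[ZMod p] C := IsAlgClosed.lift
  have hL : ∀ b, L.toRingHom b ∈ O C := by
    intro b
    rw [mem_O]
    by_cases hb : b = 0
    · simp [hb]
    · have h1 : IsOfFinOrder b := by
        have := isOfFinOrder_of_finite (Units.mk0 b hb)
        exact (Units.coeHom _).isOfFinOrder this
      obtain ⟨N, hN, h2⟩ := h1.exists_pow_eq_one
      have h3 : ‖L.toRingHom b‖ ^ N = 1 := by rw [← norm_pow, ← map_pow, h2, map_one, norm_one]
      exact ((pow_eq_one_iff_of_nonneg (norm_nonneg _) hN.ne').1 h3).le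
  exact ⟨L.toRingHom.codRestrict (O C) hL⟩

/-- let `R' = S ⧸ P'` with `P'` from `exists_oneDim`.  `k⟦t⟧ → R'`, `t ↦ a` (`ev`) is injective and
finite (`R' ⧸ a` is finite dimensional, topological Nakayama); `k⟦t⟧ → O`, `t ↦ ϖ` is injective;
extend by `IsAlgClosed.lift`; integral elements have norm `≤ 1`, and `𝔪 ^ c ≤ (a)`. -/
theorem exists_point {C : Type*} [NontriviallyNormedField C] [IsUltrametricDist C]
    [CompleteSpace C] [IsAlgClosed C] (p : ℕ) [Fact p.Prime] [CharP C p] (n m : ℕ)
    {P : Ideal (MvPowerSeries (Fin m) (GaloisField p n))} (hP : P.IsPrime)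
    {a : MvPowerSeries (Fin m) (GaloisField p n)} (ha : a ∉ P) (ha0 : constantCoeff a = 0) :
    ∃ x : MvPowerSeries (Fin m) (GaloisField p n) →+* O C,
      (∀ f ∈ P, x f = 0) ∧ x a ≠ 0 ∧ ∀ i, x (X i) ∈ mO C := by
  classical
  have hmax : ∀ f : MvPowerSeries (Fin m) (GaloisField p n),
      f ∈ IsLocalRing.maximalIdeal (MvPowerSeries (Fin m) (GaloisField p n)) ↔
        constantCoeff f = 0 := by
    intro f
    rw [IsLocalRing.mem_maximalIdeal, mem_nonunits_iff, isUnit_iff_constantCoeff, isUnit_iff_ne_zero,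
      not_not]
  have hXI : IsLocalRing.maximalIdeal (MvPowerSeries (Fin m) (GaloisField p n)) =
      R227.XI (Fin m) (GaloisField p n) := by
    ext f
    rw [hmax, R227.mem_XI]
  obtain ⟨P', hP', hPP', haP', hc⟩ := exists_oneDim hP ha ((hmax a).2 ha0)
  obtain ⟨c, hc⟩ := hc a haP'
  rw [hXI] at hc
  have hcomp : IsAdicComplete ((R227.XI (Fin m) (GaloisField p n)).map (Ideal.Quotient.mk P'))
      (MvPowerSeries (Fin m) (GaloisField p n) ⧸ P') := by
    refine R227.isAdicComplete_quotient _ _ ?_
    rw [← hXI]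
    exact R227.closedFor_of_isLocalRing P'
  have hrad : Ideal.Quotient.mk P' a ∈
      ((R227.XI (Fin m) (GaloisField p n)).map (Ideal.Quotient.mk P')).radical :=
    Ideal.le_radical (Ideal.mem_map_of_mem _ (R227.mem_XI.2 ha0))
  have hane : Ideal.Quotient.mk P' a ≠ 0 := fun h => haP' (Ideal.Quotient.eq_zero_iff_mem.1 h)
  obtain ⟨ψ, hψC, hψX⟩ : ∃ ψ : PowerSeries (GaloisField p n) →+*
      (MvPowerSeries (Fin m) (GaloisField p n) ⧸ P'),
      (∀ r, ψ (PowerSeries.C r) = Ideal.Quotient.mk P' (MvPowerSeries.C r)) ∧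
        ψ PowerSeries.X = Ideal.Quotient.mk P' a :=
    ⟨R227.ev1 ((Ideal.Quotient.mk P').comp MvPowerSeries.C) (Ideal.Quotient.mk P' a),
      fun r => R227.ev1_C _ _ r, R227.ev1_X _ _ hrad⟩
  have hψinj : Function.Injective ψ := point_injective ψ (hψX ▸ hane)
  have hhaus : IsHausdorff (Ideal.span {ψ PowerSeries.X})
      (MvPowerSeries (Fin m) (GaloisField p n) ⧸ P') := by
    rw [hψX]
    exact (R227.isAdicComplete_span_singleton _ hrad).toIsHausdorff
  have hfin : ψ.Finite := by
    let T : Finset (Fin m →₀ ℕ) := (Finsupp.finite_of_degree_lt c).toFinset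
    let e : (Fin m →₀ ℕ) → (MvPowerSeries (Fin m) (GaloisField p n) ⧸ P') :=
      fun d => Ideal.Quotient.mk P' (monomial d 1)
    have h1 := point_span ψ T e (by
      intro y
      obtain ⟨f, rfl⟩ := Ideal.Quotient.mk_surjective y
      have h2 : f - ∑ d ∈ T, monomial d (coeff d f) ∈ R227.XI (Fin m) (GaloisField p n) ^ c := by
        rw [R227.mem_XI_pow]
        intro d hd
        rw [map_sub, map_sum, Finset.sum_eq_single d, coeff_monomial_same, sub_self]
        · intro d' _ hd'
          exact coeff_monomial_ne hd'.symm _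
        · intro hd'
          exact absurd (by simpa [T] using hd) hd'
      obtain ⟨u, hu, v, hv, huv⟩ := Submodule.mem_sup.1 (hc h2)
      obtain ⟨w, rfl⟩ := Ideal.mem_span_singleton'.1 hv
      refine ⟨fun d => coeff d f, Ideal.Quotient.mk P' w, ?_⟩
      have h3 : f = ∑ d ∈ T, MvPowerSeries.C (coeff d f) * monomial d 1 + a * w + u := by
        have h4 : ∀ d, MvPowerSeries.C (coeff d f) * monomial d (1 : GaloisField p n) =
            monomial d (coeff d f) := fun d => by
          rw [← monomial_zero_eq_C_apply, monomial_mul_monomial, zero_add, mul_one]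
        simp_rw [h4]
        linear_combination -huv
      conv_lhs => rw [h3]
      simp only [map_add, map_sum, map_mul, hψC, hψX, e, Ideal.Quotient.eq_zero_iff_mem.2 hu,
        add_zero])
    let := ψ.toAlgebra
    refine ⟨⟨T.image e, ?_⟩⟩
    rw [eq_top_iff]
    intro y _
    obtain ⟨f, rfl⟩ := h1 y
    refine Submodule.sum_mem _ fun d hd => ?_
    exact Submodule.smul_mem _ (f d)
      (Submodule.subset_span (Finset.mem_coe.2 (Finset.mem_image_of_mem e hd)))
  obtain ⟨φ⟩ := point_galoisField_hom (C := C) p n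
  obtain ⟨ϖ, hϖ0, hϖ1⟩ := NormedField.exists_norm_lt_one C
  let ϖ' : O C := ⟨ϖ, hϖ1.le⟩
  have hϖc : IsAdicComplete (Ideal.span {ϖ'}) (O C) := isAdicComplete_span hϖ1
  have hχX : R227.ev1 φ ϖ' PowerSeries.X = ϖ' :=
    R227.ev1_X (Ideal.span {ϖ'}) φ (Ideal.le_radical (Ideal.mem_span_singleton_self _))
  have hϖne : ϖ' ≠ 0 := fun h => hϖ0.ne' (nm_eq_zero.2 h)
  obtain ⟨x, hx⟩ := point_extend ψ hψinj hfin (R227.ev1 φ ϖ')
    (point_injective _ (by rw [hχX]; exact hϖne))
  have hxa : x (Ideal.Quotient.mk P' a) = ϖ' := by rw [← hψX, hx, hχX]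
  refine ⟨x.comp (Ideal.Quotient.mk P'), fun f hf => ?_, ?_, fun i => ?_⟩
  · rw [RingHom.comp_apply, Ideal.Quotient.eq_zero_iff_mem.2 (hPP' hf), map_zero]
  · rw [RingHom.comp_apply, hxa]
    exact hϖne
  · obtain ⟨u, hu, v, hv, huv⟩ :=
      Submodule.mem_sup.1 (hc (Ideal.pow_mem_pow (R227.X_mem_XI i) c))
    obtain ⟨w, rfl⟩ := Ideal.mem_span_singleton'.1 hv
    have h1 : x (Ideal.Quotient.mk P' (X i)) ^ c = x (Ideal.Quotient.mk P' w) * ϖ' := by
      rw [← map_pow, ← map_pow, ← huv, map_add, Ideal.Quotient.eq_zero_iff_mem.2 hu, zero_add,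
        map_mul, map_mul, hxa]
    have h2 : nm (x (Ideal.Quotient.mk P' (X i))) ^ c < 1 := by
      rw [← nm_pow, h1, nm_mul]
      exact lt_of_le_of_lt (mul_le_of_le_one_left (nm_nonneg _) (nm_le_one _)) hϖ1
    rw [RingHom.comp_apply, mem_mO]
    by_contra h3
    rw [not_lt] at h3
    exact absurd h2 (one_le_pow₀ h3).not_gt

theorem exists_galoisField_hom {C : Type*} [NormedField C] [IsUltrametricDist C]
    [IsAlgClosed C] (p : ℕ) [Fact p.Prime] [CharP C p] (h : ℕ) :
    Nonempty (GaloisField p h →+* O C) := by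
  exact point_galoisField_hom p h

end Crest.Agent.R227.K
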