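import Crest.Agent.R227.K.Chart
import Crest.Agent.R227.K.Basis
import Crest.Agent.R227.K.Dense
import Crest.Agent.R227.K.Final
import Crest.Agent.R227.K.Point
import Crest.Agent.R227.K.Big
import Crest.Agent.R227.K.ActEx

/-! Row 227, task `R227/K/CoreS`: the characteristic `p` strata. -/

set_option autoImplicit false

namespace Crest.Agent.R227.K

open MvPowerSeries Crest.LubinTate
open scoped BigOperators

variable {p : ℕ} [Fact p.Prime]

section aux

variable {C : Type*} [NormedField C] [IsUltrametricDist C] [CompleteSpace C]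

theorem coreS_ev1_map {κ : Type*} [CommRing κ] (φ : κ →+* O C) {y : O C} (hy : y ∈ mO C)
    (b : PowerSeries κ) : ev1 y (b.map φ) = ev φ (fun _ : Unit => y) b := by
  have := ev_map good_mO (RingHom.id (O C)) φ (a := fun _ : Unit => y) (fun _ => hy) b
  rw [RingHom.id_comp] at this
  exact this

theorem coreS_act_add {n : ℕ} {κ : Type*} [CommRing κ] (φ : κ →+* O C) {b b' : PowerSeries κ}
    (hb : IsFGHom (G0 p n κ) (G0 p n κ) b) (hb' : IsFGHom (G0 p n κ) (G0 p n κ) b')
    (Y : Wp C p n) :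
    act p n φ _ (isFGHom_add hb hb') Y = act p n φ b hb Y + act p n φ b' hb' Y := by
  apply Pt.ext
  rw [Pt.add_val, act_val, act_val, act_val, coreS_ev1_map φ Y.2, coreS_ev1_map φ Y.2,
    coreS_ev1_map φ Y.2]
  have := ev_subst_two (τ := Unit) good_mO φ (a := fun _ : Unit => Y.1) (fun _ => Y.2) (G0 p n κ)
    (f := b) (g := b') hb.1 hb'.1
  rw [G0_map] at this
  exact this

theorem coreS_act_zero {n : ℕ} {κ : Type*} [CommRing κ] (φ : κ →+* O C) (Y : Wp C p n) :
    act p n φ 0 (isFGHom_zero _ _) Y = 0 := by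
  apply Pt.ext
  rw [act_val, map_zero, map_zero, Pt.zero_val]

theorem coreS_gser [CharP C p] {n : ℕ} (hn : 1 ≤ n) {κ : Type*} [CommRing κ] (φ : κ →+* O C)
    {b : PowerSeries κ} (hb : IsFGHom (G0 p n κ) (G0 p n κ) b) (N : ℕ) (Y : Wp C p n) :
    ev1 Y.1 ((gser p n N b).map φ) = (Y + p ^ N • act p n φ b hb Y).1 := by
  rw [Pt.add_val, nsmul_p_pow_val p hn, act_val, coreS_ev1_map φ Y.2, coreS_ev1_map φ Y.2]
  have hq : (p ^ n) ^ N ≠ 0 := pow_ne_zero _ (pow_ne_zero _ (Fact.out : p.Prime).ne_zero)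
  have h0 : constantCoeff (b ^ (p ^ n) ^ N : PowerSeries κ) = 0 := by
    have : PowerSeries.constantCoeff (b ^ (p ^ n) ^ N : PowerSeries κ) = 0 := by
      rw [map_pow, hb.1, zero_pow hq]
    exact this
  have := ev_subst_two (τ := Unit) good_mO φ (a := fun _ : Unit => Y.1) (fun _ => Y.2) (G0 p n κ)
    (f := (PowerSeries.X : PowerSeries κ)) (g := b ^ (p ^ n) ^ N) PowerSeries.constantCoeff_X h0
  rw [G0_map, map_pow] at this
  have hX : ev φ (fun _ : Unit => Y.1) (PowerSeries.X : PowerSeries κ) = Y.1 :=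
    ev_X good_mO φ (a := fun _ : Unit => Y.1) (fun _ => Y.2) ()
  rw [hX] at this
  exact this

theorem coreS_eventually_le {a e : ℝ} (ha0 : 0 ≤ a) (ha : a < 1) (he : 0 < e) {q : ℕ}
    (hq : 1 < q) : ∀ᶠ N in Filter.atTop, a ^ q ^ N ≤ e := by
  have h1 : Filter.Tendsto (fun N : ℕ => a ^ q ^ N) Filter.atTop (nhds 0) :=
    (tendsto_pow_atTop_nhds_zero_of_lt_one ha0 ha).comp (tendsto_pow_atTop_atTop_of_one_lt hq)
  exact (h1.eventually (ge_mem_nhds he))

end aux

theorem core_S {n h m : ℕ} (hh : 1 ≤ h) (hm : 1 ≤ m) (hn : h + m = n)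
    (H : FormalGroup (MvPowerSeries (Fin m) (GaloisField p n))) [H.IsComm]
    (hH : H.map (constantCoeff : MvPowerSeries (Fin m) (GaloisField p n) →+* GaloisField p n) =
      G0 p n (GaloisField p n))
    (V : PowerSeries (MvPowerSeries (Fin m) (GaloisField p n)))
    (hV : mulSeries H p =
      V.subst (PowerSeries.X ^ p ^ h : PowerSeries (MvPowerSeries (Fin m) (GaloisField p n))))
    (hcoord : ∀ i : Fin m, PowerSeries.coeff (p ^ (i : ℕ)) V = X i)
    (P : Ideal (MvPowerSeries (Fin m) (GaloisField p n))) (hP : P.IsPrime)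
    (hu : PowerSeries.coeff 1 V ∉ P) (N₀ : ℕ)
    (hact : ∀ N, N₀ ≤ N → ∀ b : PowerSeries (GaloisField p n),
      IsFGHom (G0 p n (GaloisField p n)) (G0 p n (GaloisField p n)) b →
      ∃ (φ : MvPowerSeries (Fin m) (GaloisField p n) →+* MvPowerSeries (Fin m) (GaloisField p n))
        (ψ : PowerSeries (MvPowerSeries (Fin m) (GaloisField p n))),
        (∀ c, φ (C c) = C c) ∧ (∀ f, constantCoeff (φ f) = constantCoeff f) ∧
        IsFGHom H (H.map φ) ψ ∧
        ψ.map (constantCoeff : MvPowerSeries (Fin m) (GaloisField p n) →+* GaloisField p n) =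
          gser p n N b ∧
        (∀ f (d : Fin m →₀ ℕ), d.degree < (p ^ h) ^ N → coeff d (φ f - f) = 0) ∧
        ∀ f ∈ P, φ f ∈ P) : P = ⊥ := by
  classical
  subst hn
  by_contra hne
  obtain ⟨f, hfP, hf⟩ := Submodule.exists_mem_ne_zero_of_ne_bot hne
  have hp1 : 1 < p := (Fact.out : p.Prime).one_lt
  have hn1 : 1 ≤ h + m := le_trans hh (Nat.le_add_right _ _)
  have hhn : h < h + m := by omega
  have hd1 : 1 < p ^ h := Nat.one_lt_pow (by omega) hp1
  have hq1 : 1 < p ^ (h + m) := Nat.one_lt_pow (by omega) hp1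
  obtain ⟨C, _, _, _, _, _⟩ := exists_bigField p
  have huX : PowerSeries.coeff 1 V = X ⟨0, hm⟩ := by simpa using hcoord ⟨0, hm⟩
  obtain ⟨x, hxP, hxu, hx⟩ := exists_point (C := C) p (h + m) m hP hu
    (by rw [huX]; exact constantCoeff_X _)
  obtain ⟨ε, hε0, hε, hxε⟩ := exists_eps x hx
  set φn : GaloisField p (h + m) →+* O C := x.comp MvPowerSeries.C with hφn
  have hclose : ∀ g, nm (x g - φn (constantCoeff g)) ≤ ε := by
    intro g
    have := hxε 1 (g - MvPowerSeries.C (constantCoeff g)) (by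
      intro d hd
      have : d = 0 := by
        rw [Nat.lt_one_iff, Finsupp.degree_eq_zero_iff] at hd; exact hd
      subst this
      simp)
    simpa [hφn] using this
  have hVx : ∀ y : MvPowerSeries (Fin m) (GaloisField p (h + m)) →+* O C,
      mulSeries (H.map y) p = (V.map y).subst (PowerSeries.X ^ p ^ h : PowerSeries (O C)) := by
    intro y
    rw [mulSeries_map, hV]
    refine (PowerSeries.map_subst (h := y)
      (PowerSeries.HasSubst.X_pow (show p ^ h ≠ 0 by omega)) V).trans ?_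
    congr 1
    change PowerSeries.map y _ = _
    rw [map_pow, PowerSeries.map_X]
  have hNear : Near p (h + m) h (H.map x) (V.map x) ε := by
    refine ⟨fun d => ?_, hVx x⟩
    have h1 : coeff d (G0 p (h + m) (O C)).toPowerSeries =
        φn (constantCoeff (coeff d H.toPowerSeries)) := by
      rw [← G0_map p (h + m) φn, ← hH]
      rfl
    rw [h1]
    exact hclose _
  have h1x : PowerSeries.coeff 1 (V.map x) ≠ 0 := by rwa [PowerSeries.coeff_map]
  obtain ⟨θ, hθ, hθ1⟩ := exists_theta p hh (H.map x) (V.map x) (hVx x) h1x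
  obtain ⟨Θ, hΘ⟩ := exists_isTheta hn1 hh hε hNear hθ
  obtain ⟨z, z₁, hz, hz0, hz₁, hdet, hind⟩ :=
    exists_basis p hh H V hV hcoord x hx hε hNear hxu
  choose Y hY using fun i => exists_isX hn1 hε hNear (hz i)
  obtain ⟨w, hw, hwind⟩ := indep_bound hn1 hh hε0 hε hNear z hz hz0 Y hY z₁ hz₁ hind
  obtain ⟨ρ, hρ, hsurj⟩ := theta_surj hn1 hh hε hNear hθ hθ1 hΘ
  obtain ⟨r₀, hchart⟩ := exists_chart p hh H V hV x hx φn.injective hxu θ hθ hθ1 z hz hz0 hdet hf
  obtain ⟨φ⟩ := exists_galoisField_hom (C := C) p h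
  have hΘY : ∀ i, Θ (Y i) = 0 := by
    intro i
    have := theta_sys hn1 hh hε hNear hθ hΘ (η := 0) hε0.le (H' := H.map x) (by simp [nm]) (hz i)
      (hY i) 0
    rw [hz0, ev1_zero, hθ.1] at this
    simp only [pow_zero, pow_one, sub_zero] at this
    exact Pt.ext (nm_eq_zero.1 (le_antisymm this (nm_nonneg _)))
  let L : AddSubmonoid (Fin m → Wp C p h) :=
    { carrier := {ν | ∃ (b : PowerSeries (GaloisField p (h + m)))
        (hb : IsFGHom (G0 p (h + m) _) (G0 p (h + m) _) b),
        ν = fun i => Θ (act p (h + m) φn b hb (Y i))}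
      add_mem' := by
        rintro _ _ ⟨b, hb, rfl⟩ ⟨b', hb', rfl⟩
        refine ⟨_, isFGHom_add hb hb', ?_⟩
        funext i
        rw [coreS_act_add φn hb hb', map_add]
        rfl
      zero_mem' := by
        refine ⟨0, isFGHom_zero _ _, ?_⟩
        funext i
        rw [coreS_act_zero, map_zero]
        rfl }
  obtain ⟨G, hG, hGL⟩ := exists_vanishing p hh φ
    ((fun (ν : Fin m → Wp C p h) i => (ν i).1) '' (L : Set (Fin m → Wp C p h)))
    (by rintro _ ⟨ν, -, rfl⟩ i; exact (ν i).2) (r₀ := r₀) hε0.le hε (by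
      intro j
      obtain ⟨G, hGJ, s, c, η₀, hη₀, hG⟩ := hchart j
      refine ⟨G, hGJ, ?_⟩
      rintro _ ⟨_, ⟨b, hb, rfl⟩, rfl⟩
      refine ⟨c, ?_⟩
      obtain ⟨r, hr⟩ := (coreS_eventually_le hε0.le hε hη₀ hd1).exists
      have hev : ∀ᶠ N in Filter.atTop, ∀ i, nm (act p (h + m) φn b hb (Y i)).1 ^ (p ^ (h + m)) ^ N ≤
          ε ^ (p ^ (h + m)) ^ (s + r) := by
        rw [Filter.eventually_all]
        intro i
        exact coreS_eventually_le (nm_nonneg _) (act p (h + m) φn b hb (Y i)).2 (pow_pos hε0 _) hq1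
      filter_upwards [Filter.eventually_ge_atTop N₀, coreS_eventually_le hε0.le hε hη₀ hd1, hev]
        with N hN hNη hNY
      obtain ⟨σ, ψ, hσC, hσ0, hψ, hψg, hσd, hσP⟩ := hact N hN b hb
      set η : ℝ := ε ^ (p ^ h) ^ N with hη
      have hη0 : 0 ≤ η := pow_nonneg hε0.le _
      have hηε : η ≤ ε := pow_le_of_le_one hε0.le hε.le (pow_ne_zero _ (by omega))
      have hxσ : ∀ g, nm (x.comp σ g - x g) ≤ η := by
        intro g
        have := hxε _ (σ g - g) (hσd g)
        rwa [map_sub] at this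
      have hψx : IsFGHom (H.map x) (H.map (x.comp σ)) (ψ.map x) := by
        have := isFGHom_map hψ x
        rwa [map_map] at this
      have hHH : ∀ j, nm (PowerSeries.coeff j (mulSeries (H.map x) p) -
          PowerSeries.coeff j (mulSeries (H.map (x.comp σ)) p)) ≤ η := by
        intro j
        rw [mulSeries_map, mulSeries_map, PowerSeries.coeff_map, PowerSeries.coeff_map, nm_sub_comm]
        exact hxσ _
      have hsys := fun i => isX_hom (p := p) hn1 hε0.le hψx (g := (gser p (h + m) N b).map φn)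
        (by
          intro j
          rw [PowerSeries.coeff_map, ← map_pow]
          congr 1
          have hc : Nat.card (GaloisField p (h + m)) = p ^ (h + m) :=
            GaloisField.card p (h + m) (by omega)
          have := Fintype.ofFinite (GaloisField p (h + m))
          rw [Nat.card_eq_fintype_card] at hc
          rw [← hc, FiniteField.pow_card])
        (by
          intro j
          rw [PowerSeries.coeff_map, PowerSeries.coeff_map, ← hψg, PowerSeries.coeff_map]
          exact hclose _) (hz i) (Y i).2 (hY i)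
      have key := hG (x.comp σ) (fun i t => ev1 (z i t) (ψ.map x))
        (fun i => (Θ (act p (h + m) φn b hb (Y i))).1 ^ (p ^ h) ^ N) η
        (fun r => by rw [RingHom.comp_apply, hσC]) (hxP _ (hσP f hfP)) (fun i => (hsys i).1)
        (fun i => by rw [hz0, ev1_zero, hψx.1]) hη0 hNη (fun l => hxσ _)
        (by
          intro i t ht
          rw [nm_sub_comm]
          refine (sys_close hh hε hNear hHH (hz i) (hsys i).1 (hY i) (hsys i).2 t r ?_).trans
            (max_le hNη hr)
          rw [coreS_gser hn1 φn hb, nm_sub_comm, Pt.add_val]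
          refine (nm_fadd_sub_le _ (Y i).2 (Subtype.prop _)).trans ?_
          rw [nsmul_p_pow_val p hn1, nm_pow]
          refine (hNY i).trans (pow_le_pow_of_le_one hε0.le hε.le ?_)
          exact Nat.pow_le_pow_right (by omega) (by omega))
        (by
          intro i
          have hX := (hsys i).2
          rw [coreS_gser hn1 φn hb] at hX
          have := theta_sys hn1 hh hε hNear hθ hΘ hηε hHH (hsys i).1 hX s
          rwa [map_add, hΘY, zero_add, map_nsmul, nsmul_p_pow_val p hh] at this)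
      have e1 : η ^ (j + 1) = (ε ^ (j + 1)) ^ (p ^ h) ^ N := by
        rw [hη]; exact pow_right_comm _ _ _
      rw [e1] at key
      simpa using key)
  obtain ⟨i₀, d, hd, hrel⟩ := exists_relation p hh φ L G hG (fun ν hν => hGL _ ⟨ν, hν, rfl⟩)
  exact no_relation hh hhn hε ⟨_, hxu, by rw [huX]; exact hx _⟩ hNear hθ hΘ hρ hsurj φn φ Y hw
    hwind i₀ d hd (fun b hb => hrel _ ⟨b, hb, rfl⟩)

end Crest.Agent.R227.K
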