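import Crest.Agent.R227.K.Elong
import Crest.Agent.R227.K.InvFn

/-! Row 227, task `R227/K/Dense1`: a submonoid of points that is not Zariski dense satisfies a linear
relation.  Definitions: DO NOT CHANGE (owner helper98). -/

set_option autoImplicit false

namespace Crest.Agent.R227.K

open MvPowerSeries Crest.LubinTate
open scoped BigOperators

variable {C : Type*} [NormedField C] [IsUltrametricDist C] [CompleteSpace C]

/-- endomorphisms of Honda's law over `κ` act on points -/
noncomputable def act (p n : ℕ) {κ : Type*} [CommRing κ] (φ : κ →+* O C) (d : PowerSeries κ)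
    (hd : IsFGHom (G0 p n κ) (G0 p n κ) d) : Wp C p n →+ Wp C p n :=
  Pt.hom (d.map φ) (by simpa only [G0_map] using isFGHom_map hd φ)

theorem act_val (p n : ℕ) {κ : Type*} [CommRing κ] (φ : κ →+* O C) (d : PowerSeries κ)
    (hd : IsFGHom (G0 p n κ) (G0 p n κ) d) (Y : Wp C p n) :
    (act p n φ d hd Y).1 = ev1 Y.1 (d.map φ) := rfl

variable (p : ℕ) [Fact p.Prime] [CharP C p] {h : ℕ}

theorem nsmul_p_pow_val (hh : 1 ≤ h) (N : ℕ) (Y : Wp C p h) :
    (p ^ N • Y).1 = Y.1 ^ (p ^ h) ^ N := by
  rw [Pt.nsmul_val, mulSeries_pow_of_eq_X_pow p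
    (mulSeries_G0 p hh (O C) (CharP.cast_eq_zero (O C) p)) N, map_pow, ev1_X good_mO Y.2]

theorem dense1_coeff_euler {ι R : Type*} [CommRing R] (i : ι) (G : MvPowerSeries ι R)
    (d : ι →₀ ℕ) : coeff d (X i * pderiv R i G) = (d i : R) * coeff d G := by
  classical
  rw [X_def, coeff_monomial_mul]
  split_ifs with hle
  · have h1 : 1 ≤ d i := Finsupp.single_le_iff.mp hle
    rw [one_mul, coeff_pderiv, tsub_add_cancel_of_le hle, mul_comm]
    congr 1
    rw [Finsupp.tsub_apply, Finsupp.single_eq_same, Nat.cast_sub h1]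
    simp
  · have h1 : d i = 0 := by
      by_contra h0
      exact hle (Finsupp.single_le_iff.mpr (Nat.one_le_iff_ne_zero.mpr h0))
    simp [h1]

theorem dense1_euler_mem {ι R : Type*} [CommRing R] (I : Ideal (MvPowerSeries ι R))
    (hd : ∀ G ∈ I, ∀ i, pderiv R i G ∈ I) (i : ι) (k : ℕ) {G : MvPowerSeries ι R} (hG : G ∈ I) :
    ∃ G' ∈ I, ∀ d, coeff d G' = (d i : R) ^ k * coeff d G := by
  induction k with
  | zero => exact ⟨G, hG, fun d => by simp⟩
  | succ k ih =>
    obtain ⟨G', hG', h'⟩ := ih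
    refine ⟨X i * pderiv R i G', I.mul_mem_left _ (hd _ hG' i), fun d => ?_⟩
    rw [dense1_coeff_euler, h', pow_succ]
    ring

theorem dense1_natCast_pow {R : Type*} [CommRing R] [CharP R p] {m : ℕ} (hm : ¬ p ∣ m) :
    (m : R) ^ (p - 1) = 1 := by
  have h0 : (m : ZMod p) ≠ 0 := by
    rwa [Ne, ZMod.natCast_eq_zero_iff]
  have h1 := congrArg (ZMod.castHom (dvd_refl p) R) (ZMod.pow_card_sub_one_eq_one h0)
  rwa [map_pow, map_natCast, map_one] at h1

theorem dense1_proj_mem {ι R : Type*} [CommRing R] [CharP R p] (I : Ideal (MvPowerSeries ι R))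
    (hd : ∀ G ∈ I, ∀ i, pderiv R i G ∈ I) (s : Finset ι) {G : MvPowerSeries ι R} (hG : G ∈ I) :
    ∃ G' ∈ I, ∀ d : ι →₀ ℕ, ((∀ i ∈ s, p ∣ d i) → coeff d G' = coeff d G) ∧
      ((∃ i ∈ s, ¬ p ∣ d i) → coeff d G' = 0) := by
  classical
  induction s using Finset.induction_on with
  | empty => exact ⟨G, hG, fun d => ⟨fun _ => rfl, fun ⟨i, hi, _⟩ => absurd hi (by simp)⟩⟩
  | insert j s hj ih =>
    obtain ⟨G', hG', h'⟩ := ih
    obtain ⟨G'', hG'', h''⟩ := dense1_euler_mem I hd j (p - 1) hG'
    refine ⟨G' - G'', I.sub_mem hG' hG'', fun d => ⟨fun hs => ?_, fun ⟨i, hi, hpi⟩ => ?_⟩⟩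
    · have hdj : (d j : R) = 0 :=
        (CharP.cast_eq_zero_iff R p _).mpr (hs j (Finset.mem_insert_self _ _))
      have hp1 : p - 1 ≠ 0 := by
        have := (Fact.out : p.Prime).two_le
        omega
      rw [map_sub, h'', hdj, zero_pow hp1, zero_mul, sub_zero]
      exact (h' d).1 fun i hi => hs i (Finset.mem_insert_of_mem hi)
    · rw [map_sub, h'']
      rcases Finset.mem_insert.mp hi with rfl | hi
      · rw [dense1_natCast_pow p hpi, one_mul, sub_self]
      · rw [(h' d).2 ⟨i, hi, hpi⟩, mul_zero, sub_zero]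

theorem dense1_eq_bot {ι R : Type*} [Finite ι] [Field R] [CharP R p] [PerfectRing R p]
    (I : Ideal (MvPowerSeries ι R)) (hI : I.IsRadical) (htop : I ≠ ⊤)
    (hd : ∀ G ∈ I, ∀ i, pderiv R i G ∈ I) : I = ⊥ := by
  classical
  have hp : p.Prime := Fact.out
  have := Fintype.ofFinite ι
  have key : ∀ r : ℕ, ∀ G ∈ I, ∀ d : ι →₀ ℕ, d.degree = r → coeff d G = 0 := by
    intro r
    induction r using Nat.strong_induction_on with
    | _ r ih =>
      intro G hG d hdr
      by_cases hd0 : d = 0
      · subst hd0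
        by_contra h0
        refine htop (I.eq_top_of_isUnit_mem hG (isUnit_iff_constantCoeff.mpr ?_))
        exact (Ne.isUnit h0 :)
      by_cases hall : ∀ i, p ∣ d i
      · obtain ⟨G', hG', h'⟩ := dense1_proj_mem p I hd Finset.univ hG
        let H : MvPowerSeries ι R := fun e => (frobeniusEquiv R p).symm (coeff (p • e) G)
        have hH : ∀ e, coeff e H = (frobeniusEquiv R p).symm (coeff (p • e) G) := fun e => rfl
        have hdiv : ∀ m : ι →₀ ℕ, (∀ i, p ∣ m i) → ∃ e : ι →₀ ℕ, m = p • e := by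
          intro m hm
          refine ⟨m.mapRange (fun x => x / p) (by simp), ?_⟩
          ext i
          simp [Nat.mul_div_cancel' (hm i)]
        have hHp : H ^ p = G' := by
          rw [← map_frobenius_expand p hp.ne_zero]
          ext m
          rw [coeff_map]
          by_cases hm : ∀ i, p ∣ m i
          · obtain ⟨e, rfl⟩ := hdiv m hm
            rw [coeff_expand_smul, hH, (h' _).1 fun i _ => hm i]
            exact frobenius_apply_frobeniusEquiv_symm R p _
          · push Not at hm
            obtain ⟨i, hi⟩ := hm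
            rw [coeff_expand_of_not_dvd p hp.ne_zero H hi, map_zero,
              (h' _).2 ⟨i, Finset.mem_univ _, hi⟩]
        have hHI : H ∈ I := hI ⟨p, hHp ▸ hG'⟩
        obtain ⟨e, rfl⟩ := hdiv d hall
        have he0 : e.degree ≠ 0 := by
          intro h0
          rw [Finsupp.degree_eq_zero_iff] at h0
          exact hd0 (by rw [h0, smul_zero])
        have hlt : e.degree < r := by
          rw [← hdr, map_nsmul, smul_eq_mul]
          have := hp.two_le
          nlinarith [Nat.pos_of_ne_zero he0]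
        have := ih _ hlt H hHI e rfl
        rw [hH] at this
        simpa using this
      · push Not at hall
        obtain ⟨i, hi⟩ := hall
        have h1 : Finsupp.single i 1 ≤ d := by
          rw [Finsupp.single_le_iff, Nat.one_le_iff_ne_zero]
          intro h0
          exact hi (h0 ▸ dvd_zero p)
        obtain ⟨e, rfl⟩ : ∃ e, d = e + Finsupp.single i 1 :=
          ⟨d - Finsupp.single i 1, (tsub_add_cancel_of_le h1).symm⟩
        have hlt : e.degree < r := by
          rw [← hdr, map_add, Finsupp.degree_single]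
          omega
        have h2 := ih _ hlt _ (hd G hG i) e rfl
        rw [coeff_pderiv] at h2
        refine (mul_eq_zero.mp h2).resolve_right fun h3 => hi ?_
        rw [← CharP.cast_eq_zero_iff R p, Finsupp.add_apply, Finsupp.single_eq_same]
        exact_mod_cast h3
  rw [eq_bot_iff]
  intro G hG
  rw [Ideal.mem_bot]
  ext d
  exact key _ G hG d rfl

/-- a radical ideal of `𝔽⟦ν⟧` (`𝔽` finite) stable under the Euler operators and the partial
derivatives, without units, is zero: take `G ≠ 0` of minimal order `r ≥ 1`; the partial derivatives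
of the leading form vanish; `∏ i (1 - (ν i ∂ i) ^ (p - 1)) G` is a `p`-th power of order `r`. -/
theorem eq_bot_of_pderiv_charP {ι : Type*} [Finite ι]
    (I : Ideal (MvPowerSeries ι (GaloisField p h))) (hI : I.IsRadical) (htop : I ≠ ⊤)
    (hd : ∀ G ∈ I, ∀ i, pderiv (GaloisField p h) i G ∈ I) : I = ⊥ :=
  dense1_eq_bot p I hI htop hd

theorem dense1_coeff_single_X_mul {ι R : Type*} [CommRing R] [DecidableEq ι] (i j : ι)
    (w : MvPowerSeries ι R) :
    coeff (Finsupp.single i 1) (X j * w) = if j = i then constantCoeff w else 0 := by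
  rw [X_def, coeff_monomial_mul]
  by_cases hij : j = i
  · subst hij
    simp
  · rw [if_neg hij, if_neg]
    rw [Finsupp.single_le_iff, Finsupp.single_eq_of_ne hij]
    omega

/-- the translate of a series by a point, along a formal group law -/
noncomputable def dense1_tr {ι κ B : Type*} [CommRing κ] [CommRing B] (φ : κ →+* B)
    (F : FormalGroup B) (a : ι → B) (G : MvPowerSeries ι κ) : MvPowerSeries ι B :=
  ev ((MvPowerSeries.C : B →+* MvPowerSeries ι B).comp φ)
    (fun i => fadd (F.map (MvPowerSeries.C : B →+* MvPowerSeries ι B)) (MvPowerSeries.C (a i))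
      (X i)) G

theorem dense1_C_mem {ι B : Type*} [CommRing B] {N : Ideal B} {a : B} (ha : a ∈ N) :
    (MvPowerSeries.C a : MvPowerSeries ι B) ∈ liftI ι N := by
  simpa [mem_liftI] using ha

theorem dense1_X_mem {ι B : Type*} [CommRing B] (N : Ideal B) (i : ι) :
    (X i : MvPowerSeries ι B) ∈ liftI ι N := by
  simp [mem_liftI]

theorem dense1_ev_tr {ι κ B : Type*} [Finite ι] [CommRing κ] [CommRing B] {N : Ideal B}
    (hN : Good N) (φ : κ →+* B) (F : FormalGroup B) {a b : ι → B} (ha : ∀ i, a i ∈ N)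
    (hb : ∀ i, b i ∈ N) (G : MvPowerSeries ι κ) :
    ev (RingHom.id B) b (dense1_tr φ F a G) = ev φ (fun i => fadd F (a i) (b i)) G := by
  have hC : (ev (RingHom.id B) b).comp (MvPowerSeries.C : B →+* MvPowerSeries ι B) =
      RingHom.id B := by
    ext r
    simp
  have hf : ∀ i, ev (RingHom.id B) b
      (fadd (F.map (MvPowerSeries.C : B →+* MvPowerSeries ι B)) (MvPowerSeries.C (a i)) (X i)) =
      fadd F (a i) (b i) := by
    intro i
    rw [map_fadd hN.liftI hN _ (dense1_C_mem (ha i)) (dense1_X_mem N i)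
      (by simpa using ha i) (by rw [ev_X hN _ hb]; exact hb i), map_map, hC, map_id',
      ev_X hN _ hb, ev_C, RingHom.id_apply]
  unfold dense1_tr
  rw [map_ev hN.liftI hN _ _
    (fun i => fadd_mem hN.liftI (dense1_C_mem (ha i)) (dense1_X_mem N i))
    (fun i => by rw [hf]; exact fadd_mem hN (ha i) (hb i)), ← RingHom.comp_assoc, hC,
    RingHom.id_comp]
  simp only [hf]

theorem dense1_coeff_tr {ι κ B : Type*} [Finite ι] [CommRing κ] [CommRing B] {N : Ideal B}
    (hN : Good N) (φ : κ →+* B) (F : FormalGroup B) {a : ι → B} (ha : ∀ i, a i ∈ N)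
    (G : MvPowerSeries ι κ) (i : ι) :
    ∃ c : B, coeff (Finsupp.single i 1) (dense1_tr φ F a G) =
      (1 + c * a i) * ev φ a (pderiv κ i G) := by
  classical
  have := Fintype.ofFinite ι
  have hc : ∀ j, ∃ c : MvPowerSeries ι B,
      fadd (F.map (MvPowerSeries.C : B →+* MvPowerSeries ι B)) (MvPowerSeries.C (a j)) (X j) -
        MvPowerSeries.C (a j) = X j * (1 + c * MvPowerSeries.C (a j)) := by
    intro j
    obtain ⟨c, hc⟩ := Ideal.mem_span_singleton'.mp
      (fadd_sub_mem (F := F.map (MvPowerSeries.C : B →+* MvPowerSeries ι B)) hN.liftI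
        (dense1_C_mem (ha j)) (dense1_X_mem N j))
    exact ⟨c, by linear_combination -hc⟩
  choose c hc using hc
  have hev : ∀ G : MvPowerSeries ι κ,
      ev ((MvPowerSeries.C : B →+* MvPowerSeries ι B).comp φ) (fun j => MvPowerSeries.C (a j)) G =
        MvPowerSeries.C (ev φ a G) := fun G =>
    (map_ev hN hN.liftI _ φ ha (fun j => dense1_C_mem (ha j)) G).symm
  have ht := ev_taylor hN.liftI ((MvPowerSeries.C : B →+* MvPowerSeries ι B).comp φ)
    (a := fun j => MvPowerSeries.C (a j))
    (a' := fun j => fadd (F.map (MvPowerSeries.C : B →+* MvPowerSeries ι B))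
      (MvPowerSeries.C (a j)) (X j))
    (fun j => dense1_C_mem (ha j))
    (fun j => fadd_mem hN.liftI (dense1_C_mem (ha j)) (dense1_X_mem N j))
    (J := Ideal.span (Set.range (X : ι → MvPowerSeries ι B)))
    (fun j => by
      rw [hc]
      exact Ideal.mul_mem_right _ _ (Ideal.subset_span ⟨j, rfl⟩)) G
  have h0 := coeff_eq_zero_of_mem_span_X_pow ht (d := Finsupp.single i 1)
    (by rw [Finsupp.degree_single]; omega)
  simp only [hc, hev, map_sub, map_sum, mul_assoc, dense1_coeff_single_X_mul,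
    Finset.sum_ite_eq', Finset.mem_univ, if_true] at h0
  rw [coeff_C, if_neg (by simp), sub_zero, sub_eq_zero] at h0
  refine ⟨constantCoeff (c i), ?_⟩
  unfold dense1_tr
  rw [h0]
  simp

/-- step 1: some series vanishing on `L` has a nonzero linear coefficient.  Otherwise, for `G`
vanishing on `L` and `ν₀ ∈ L`, the translate `G (ν₀ + T) ∈ O⟦T⟧` vanishes on `L`, hence so do its
projections (`ev_proj_eq_zero`), so its linear coefficients `∂ i G (ν₀) * unit` vanish. -/
theorem exists_linear_term (hh : 1 ≤ h) (φ : GaloisField p h →+* O C) {ι : Type} [Fintype ι]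
    (L : AddSubmonoid (ι → Wp C p h)) (G : MvPowerSeries ι (GaloisField p h)) (hG : G ≠ 0)
    (hL : ∀ ν ∈ L, ev φ (fun i => (ν i).1) G = 0) :
    ∃ (G' : MvPowerSeries ι (GaloisField p h)) (i : ι), coeff (Finsupp.single i 1) G' ≠ 0 ∧
      ∀ ν ∈ L, ev φ (fun i => (ν i).1) G' = 0 := by
  by_contra hcon
  have hlin : ∀ G' : MvPowerSeries ι (GaloisField p h),
      (∀ ν ∈ L, ev φ (fun i => (ν i).1) G' = 0) → ∀ i, coeff (Finsupp.single i 1) G' = 0 := by
    intro G' hG' i
    by_contra h0
    exact hcon ⟨G', i, h0, hG'⟩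
  let I : Ideal (MvPowerSeries ι (GaloisField p h)) :=
    ⨅ ν ∈ L, RingHom.ker (ev φ (fun i => (ν i).1))
  have hI : ∀ G', G' ∈ I ↔ ∀ ν ∈ L, ev φ (fun i => (ν i).1) G' = 0 := by
    intro G'
    simp only [I, Ideal.mem_iInf, RingHom.mem_ker]
  have hrad : I.IsRadical := by
    rintro G' ⟨k, hk⟩
    rw [hI] at hk ⊢
    intro ν hν
    have := hk ν hν
    rw [map_pow] at this
    exact pow_eq_zero_iff'.mp this |>.1
  have htop : I ≠ ⊤ := by
    rw [Ideal.ne_top_iff_one, hI]
    intro h1
    have := h1 0 L.zero_mem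
    rw [map_one] at this
    exact one_ne_zero this
  let _ : Algebra (GaloisField p h) C := ((O C).subtype.comp φ).toAlgebra
  have hφ : ∀ a, (φ a : C) = algebraMap (GaloisField p h) C a := fun a => rfl
  have hd : ∀ G' ∈ I, ∀ i, pderiv (GaloisField p h) i G' ∈ I := by
    intro G' hG' i
    rw [hI] at hG' ⊢
    intro ν₀ hν₀
    set T := dense1_tr φ (G0 p h (O C)) (fun i => (ν₀ i).1) G' with hT
    have hzero : ((coeff (Finsupp.single i 1) T : O C) : C) = 0 := by
      rw [← Module.forall_dual_apply_eq_zero_iff (GaloisField p h)]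
      intro ℓ
      let G'' : MvPowerSeries ι (GaloisField p h) := fun d => ℓ ((coeff d T : O C) : C)
      refine hlin G'' (fun ν hν => ?_) i
      refine ev_proj_eq_zero p hh φ hφ T (fun i => (ν i).2) (fun N => ?_) ℓ G'' fun d => rfl
      have h1 := hG' (ν₀ + p ^ N • ν) (L.add_mem hν₀ (L.nsmul_mem hν _))
      simp only [Pi.add_apply, Pi.smul_apply, Pt.add_val] at h1
      simp only [← nsmul_p_pow_val p hh N]
      rw [hT, dense1_ev_tr good_mO φ _ (fun i => (ν₀ i).2) (fun i => (p ^ N • ν i).2)]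
      exact h1
    obtain ⟨c, hc⟩ := dense1_coeff_tr good_mO φ (G0 p h (O C)) (fun i => (ν₀ i).2) G' i
    rw [← hT] at hc
    have hzero' : coeff (Finsupp.single i 1) T = 0 := Subtype.ext hzero
    rw [hzero'] at hc
    refine (mul_eq_zero.mp hc.symm).resolve_left fun h1 => ?_
    have h2 : (1 : O C) ∈ mO C := by
      rw [eq_neg_of_add_eq_zero_left h1]
      exact neg_mem (Ideal.mul_mem_left _ _ (ν₀ i).2)
    simp [mem_mO, nm] at h2
  have hbot := eq_bot_of_pderiv_charP p I hrad htop hd
  exact hG (Ideal.mem_bot.mp (hbot ▸ (hI G).mpr hL))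

end Crest.Agent.R227.K
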