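import Crest.Agent.R227.K.Ev
import Crest.Agent.R227.LT

/-! Row 227, task `R227/K/E01`: commutative algebra of the Lubin–Tate ring.
Definitions: DO NOT CHANGE (owner helper98). -/

set_option autoImplicit false
set_option linter.unusedSectionVars false

namespace Crest.Agent.R227.K

open MvPowerSeries Crest.LubinTate IsLocalRing

variable (p : ℕ) [Fact p.Prime] (n : ℕ)

/-- the maximal ideal of the Lubin–Tate ring -/
noncomputable def mE : Ideal (LTRing p n) := RingHom.ker (LTRing.residue p n)

theorem mem_mE {f : LTRing p n} : f ∈ mE p n ↔ LTRing.residue p n f = 0 := Iff.rfl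

theorem residue_C (w : WittVector p (GaloisField p n)) :
    LTRing.residue p n (C w) = WittVector.constantCoeff w := by
  exact R227.residue_C p n w

theorem residue_X (i : Fin (n - 1)) : LTRing.residue p n (X i) = 0 := by
  exact R227.residue_X p n i

theorem algebraMap_eq_C (w : WittVector p (GaloisField p n)) :
    algebraMap (WittVector p (GaloisField p n)) (LTRing p n) w = C w := by
  rfl

theorem residue_surjective : Function.Surjective (LTRing.residue p n) := by
  exact R227.residue_surjective p n

instance E_isLocalRing : IsLocalRing (LTRing p n) := inferInstance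

instance E_isNoetherianRing : IsNoetherianRing (LTRing p n) := inferInstance

instance E_isDomain : IsDomain (LTRing p n) := by
  exact R227.isDomain_mvPowerSeries

theorem mE_eq : mE p n = maximalIdeal (LTRing p n) := by
  exact R227.ker_residue p n

theorem mE_eq_liftI :
    mE p n = liftI (Fin (n - 1)) (Ideal.span {(p : WittVector p (GaloisField p n))}) := by
  rw [mE_eq, R227.maximalIdeal_mvPowerSeries, R227.maximalIdeal_WW]; rfl

theorem mE_eq_span : mE p n = Ideal.span {(p : LTRing p n)} ⊔
    Ideal.span (Set.range (X : Fin (n - 1) → LTRing p n)) := by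
  rw [mE_eq, R227.maximalIdeal_LT]

instance E_isAdicComplete : IsAdicComplete (maximalIdeal (LTRing p n)) (LTRing p n) := by
  exact R227.isAdicComplete_LT p n

theorem good_mE : Good (mE p n) := by
  rw [mE_eq]; exact good_of_isAdicComplete _

theorem p_ne_zero_E : (p : LTRing p n) ≠ 0 := by
  exact R227.p_ne_zero_LT p n

/-- `a ^ q - a` lies in the maximal ideal, and in `(p)` if `a` is a constant -/
theorem C_pow_card_sub_mem (hn : 1 ≤ n) (w : WittVector p (GaloisField p n)) :
    w ^ p ^ n - w ∈ Ideal.span {(p : WittVector p (GaloisField p n))} := by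
  exact R227.pow_q_sub_mem p hn w

section quotient

variable {R : Type*} [CommRing R] [IsLocalRing R] [IsNoetherianRing R]

theorem quot_isLocalRing {J : Ideal R} (hJ : J ≠ ⊤) : IsLocalRing (R ⧸ J) := by
  have := Ideal.Quotient.nontrivial_iff.mpr hJ
  exact IsLocalRing.of_surjective' (Ideal.Quotient.mk J) Ideal.Quotient.mk_surjective

theorem quot_maximalIdeal (J : Ideal R) [IsLocalRing (R ⧸ J)] :
    maximalIdeal (R ⧸ J) = (maximalIdeal R).map (Ideal.Quotient.mk J) := by
  exact (IsLocalRing.map_maximalIdeal_of_surjective _ Ideal.Quotient.mk_surjective).symm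

/-- quotients of complete Noetherian local rings are complete (Krull intersection + lifting of
Cauchy sequences) -/
theorem quot_isAdicComplete [IsAdicComplete (maximalIdeal R) R] (J : Ideal R)
    [IsLocalRing (R ⧸ J)] : IsAdicComplete (maximalIdeal (R ⧸ J)) (R ⧸ J) := by
  rw [quot_maximalIdeal]
  exact R227.isAdicComplete_quotient _ _ (R227.closedFor_of_isLocalRing J)

/-- Krull: an element of `J ⊔ 𝔪 ^ j` for all `j` lies in `J` -/
theorem mem_of_forall_mem_sup_pow {J : Ideal R} {a : R}
    (h : ∀ j : ℕ, a ∈ J ⊔ maximalIdeal R ^ j) : a ∈ J := by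
  exact R227.closedFor_of_isLocalRing J a h

end quotient

end Crest.Agent.R227.K
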