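import Crest.Agent.R227.K.Elong1

/-! Row 227, task `R227/K/Elong`: Moore elongation. -/

set_option autoImplicit false

namespace Crest.Agent.R227.K

open MvPowerSeries Filter
open scoped BigOperators

variable {C : Type*} [NormedField C] [IsUltrametricDist C] (p : ℕ) [Fact p.Prime] [CharP C p]
  {h : ℕ}

theorem elong_exists_rad {ι : Type*} [Finite ι] {ν : ι → O C} (hν : ∀ i, ν i ∈ mO C) :
    ∃ ρ : ℝ, 0 ≤ ρ ∧ ρ < 1 ∧ ∀ i, nm (ν i) ≤ ρ := by
  rcases isEmpty_or_nonempty ι with hι | hι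
  · exact ⟨0, le_rfl, one_pos, fun i => hι.elim i⟩
  · obtain ⟨i, hi⟩ := Finite.exists_max fun i => nm (ν i)
    exact ⟨nm (ν i), nm_nonneg _, hν i, hi⟩

theorem elong_eval₂ {R B ι : Type*} [CommRing R] [CommRing B] (φ : R →+* B) (a : ι → B)
    (P : MvPolynomial ι R) {S : Finset (ι →₀ ℕ)} (hS : P.support ⊆ S) :
    MvPolynomial.eval₂ φ a P = ∑ d ∈ S, φ (P.coeff d) * ∏ i ∈ d.support, a i ^ d i := by
  rw [MvPolynomial.eval₂_eq]
  refine Finset.sum_subset hS fun d _ hd => ?_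
  rw [MvPolynomial.notMem_support_iff.1 hd, map_zero, zero_mul]

theorem elong_eq_zero {x : O C} {ρ σ : ℝ} (hρ0 : 0 ≤ ρ) (hρ : ρ < 1) (hσ0 : 0 ≤ σ) (hσ : σ < 1)
    (hx : ∀ m : ℕ, ∃ y : O C, nm (x - y) ≤ σ ^ m ∧ nm y ≤ ρ ^ m) : x = 0 := by
  refine nm_eq_zero.1 (le_antisymm ?_ (nm_nonneg _))
  have h1 := (tendsto_pow_atTop_nhds_zero_of_lt_one hσ0 hσ).max
    (tendsto_pow_atTop_nhds_zero_of_lt_one hρ0 hρ)
  rw [max_self] at h1
  refine ge_of_tendsto' h1 fun m => ?_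
  obtain ⟨y, h2, h3⟩ := hx m
  have := nm_add_le (x - y) y
  rw [sub_add_cancel] at this
  exact this.trans (max_le_max h2 h3)

variable [CompleteSpace C]

theorem elong_trunc {R ι : Type*} [CommRing R] [Finite ι] (φ : R →+* O C) {a : ι → O C} {ρ : ℝ}
    (hρ : ρ < 1) (hρ0 : 0 ≤ ρ) (ha : ∀ i, nm (a i) ≤ ρ) (f : MvPowerSeries ι R) (j : ℕ) :
    nm (ev φ a f - ∑ d ∈ (Finsupp.finite_of_degree_lt (σ := ι) j).toFinset,
      φ (coeff d f) * ∏ i ∈ d.support, a i ^ d i) ≤ ρ ^ j := by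
  have h1 : ∑ d ∈ (Finsupp.finite_of_degree_lt (σ := ι) j).toFinset,
      φ (coeff d f) * ∏ i ∈ d.support, a i ^ d i = ev φ a (f.truncTotal j : MvPowerSeries ι R) := by
    rw [ev_coe good_mO φ fun i => (ha i).trans_lt hρ,
      elong_eval₂ φ a _ (S := (Finsupp.finite_of_degree_lt (σ := ι) j).toFinset) fun d hd => ?_]
    · refine Finset.sum_congr rfl fun d hd => ?_
      rw [coeff_truncTotal _ (by simpa using hd)]
    · by_contra hcon
      exact MvPolynomial.mem_support_iff.1 hd (coeff_truncTotal_eq_zero _ (by simpa using hcon))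
  rw [h1, ← map_sub]
  refine nm_ev_le_pow φ hρ hρ0 ha fun d hd => ?_
  rw [map_sub, MvPolynomial.coeff_coe, coeff_truncTotal _ hd, sub_self]

/-- Lemma E: apply `elong` to the truncations -/
theorem ev_proj_eq_zero (hh : 1 ≤ h) [Algebra (GaloisField p h) C]
    (φ : GaloisField p h →+* O C) (hφ : ∀ a, (φ a : C) = algebraMap (GaloisField p h) C a)
    {ι : Type*} [Finite ι] (G : MvPowerSeries ι (O C)) {ν : ι → O C} (hν : ∀ i, ν i ∈ mO C)
    (hG : ∀ N : ℕ, ev (RingHom.id (O C)) (fun i => ν i ^ (p ^ h) ^ N) G = 0)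
    (ℓ : C →ₗ[GaloisField p h] GaloisField p h) (G' : MvPowerSeries ι (GaloisField p h))
    (hG' : ∀ d, coeff d G' = ℓ ((coeff d G : O C) : C)) : ev φ ν G' = 0 := by
  obtain ⟨ρ, hρ0, hρ, hνρ⟩ := elong_exists_rad hν
  refine elong_eq_zero hρ0 hρ hρ0 hρ fun j => ⟨_, elong_trunc φ hρ hρ0 hνρ G' j, ?_⟩
  have h1 := elong p hh (Finsupp.finite_of_degree_lt (σ := ι) j).toFinset
    (fun d => ((coeff d G : O C) : C)) (fun d => ∏ i ∈ d.support, (ν i : C) ^ d i)
    (B := ρ ^ j) (c := 1) (by positivity) (Eventually.of_forall fun N => ?_) ℓ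
  · refine le_of_eq_of_le (congrArg norm ?_) h1
    push_cast
    exact Finset.sum_congr rfl fun d _ => by rw [hφ, hG']
  · have hq : (p ^ h) ^ N ≠ 0 := pow_ne_zero _ (pow_ne_zero _ (Fact.out : p.Prime).ne_zero)
    have h2 := elong_trunc (RingHom.id (O C)) (a := fun i => ν i ^ (p ^ h) ^ N) (ρ := ρ ^ (p ^ h) ^ N)
      (pow_lt_one₀ hρ0 hρ hq) (by positivity)
      (fun i => by rw [nm_pow]; exact pow_le_pow_left₀ (nm_nonneg _) (hνρ i) _) G j
    rw [hG N, zero_sub, nm_neg, pow_right_comm ρ] at h2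
    rw [one_mul]
    refine le_of_eq_of_le (congrArg norm ?_) h2
    push_cast
    refine Finset.sum_congr rfl fun d _ => ?_
    rw [id_eq, ← Finset.prod_pow]
    exact congrArg _ (Finset.prod_congr rfl fun i _ => pow_right_comm _ _ _)

/-- `elong` for each `j` with a functional not killing the given coefficient; then an ultralimit
(coefficientwise, `𝔽_d` is finite, finitely many exponents of degree `≤ r₀`) -/
theorem exists_vanishing (hh : 1 ≤ h) (φ : GaloisField p h →+* O C) {ι : Type*} [Finite ι]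
    (L : Set (ι → O C)) (hL : ∀ ν ∈ L, ∀ i, ν i ∈ mO C) {r₀ : ℕ} {ρ : ℝ} (hρ0 : 0 ≤ ρ)
    (hρ : ρ < 1)
    (hG : ∀ j : ℕ, ∃ G : MvPolynomial ι C, (∃ J : ι →₀ ℕ, J.degree ≤ r₀ ∧ G.coeff J ≠ 0) ∧
      ∀ ν ∈ L, ∃ c : ℝ, ∀ᶠ N in atTop,
        ‖MvPolynomial.eval (fun i => (ν i : C) ^ (p ^ h) ^ N) G‖ ≤
          c * (ρ ^ (j + 1)) ^ (p ^ h) ^ N) :
    ∃ G : MvPowerSeries ι (GaloisField p h), G ≠ 0 ∧ ∀ ν ∈ L, ev φ ν G = 0 := by
  classical
  let _ : Algebra (GaloisField p h) C := ((O C).subtype.comp φ).toAlgebra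
  have hφ : ∀ a, (φ a : C) = algebraMap (GaloisField p h) C a := fun _ => rfl
  have key : ∀ j : ℕ, ∃ P : MvPolynomial ι (GaloisField p h),
      (∃ J ∈ {J : ι →₀ ℕ | J.degree ≤ r₀}, P.coeff J ≠ 0) ∧
      ∀ ν ∈ L, nm (ev φ ν (P : MvPowerSeries ι (GaloisField p h))) ≤ ρ ^ (j + 1) := fun j => by
    obtain ⟨G, ⟨J, hJ, hJ0⟩, hGν⟩ := hG j
    obtain ⟨ℓ, hℓ⟩ : ∃ ℓ : C →ₗ[GaloisField p h] GaloisField p h, ℓ (G.coeff J) ≠ 0 := by
      by_contra hcon
      push Not at hcon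
      exact hJ0 ((Module.forall_dual_apply_eq_zero_iff (GaloisField p h) _).1 hcon)
    refine ⟨∑ d ∈ G.support, MvPolynomial.monomial d (ℓ (G.coeff d)), ⟨J, hJ, ?_⟩, fun ν hν => ?_⟩
    · rw [MvPolynomial.coeff_sum, Finset.sum_eq_single_of_mem J (MvPolynomial.mem_support_iff.2 hJ0)
        fun d _ hd => by rw [MvPolynomial.coeff_monomial, if_neg hd]]
      rwa [MvPolynomial.coeff_monomial, if_pos rfl]
    · obtain ⟨c, hc⟩ := hGν ν hν
      have h1 := elong p hh G.support (fun d => G.coeff d) (fun d => ∏ i ∈ d.support, (ν i : C) ^ d i)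
        (B := ρ ^ (j + 1)) (c := c) (by positivity) (hc.mono fun N hN => ?_) ℓ
      · rw [ev_coe good_mO φ (hL ν hν), MvPolynomial.eval₂_sum]
        refine le_of_eq_of_le (congrArg norm ?_) h1
        push_cast
        refine Finset.sum_congr rfl fun d _ => ?_
        rw [MvPolynomial.eval₂_monomial, Finsupp.prod]
        push_cast
        rw [hφ]
      · refine le_of_eq_of_le ?_ hN
        rw [MvPolynomial.eval_eq]
        congr 1
        refine Finset.sum_congr rfl fun d _ => ?_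
        rw [← Finset.prod_pow]
        exact congrArg _ (Finset.prod_congr rfl fun i _ => pow_right_comm _ _ _)
  choose P hP1 hP2 using key
  have hlim : ∀ d : ι →₀ ℕ, ∃ a : GaloisField p h, ∀ᶠ j in hyperfilter ℕ, (P j).coeff d = a :=
    fun d => Ultrafilter.eventually_exists_iff.1 (Eventually.of_forall fun j => ⟨_, rfl⟩)
  choose G hG' using hlim
  refine ⟨G, fun h0 => ?_, fun ν hν => ?_⟩
  · obtain ⟨J, -, hJ⟩ := (Ultrafilter.eventually_exists_mem_iff (f := hyperfilter ℕ)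
      (Finsupp.finite_of_degree_le (σ := ι) r₀)).1 (Eventually.of_forall hP1)
    obtain ⟨j, h1, h2⟩ := (hJ.and (hG' J)).exists
    exact h1 (h2.trans (congrFun h0 J))
  · obtain ⟨σ, hσ0, hσ, hνσ⟩ := elong_exists_rad (hL ν hν)
    refine elong_eq_zero hρ0 hρ hσ0 hσ fun m => ?_
    have h1 := (eventually_all_finite (Finsupp.finite_of_degree_lt (σ := ι) m)).2 fun d _ => hG' d
    obtain ⟨j, h2, h3⟩ := (h1.and (Nat.hyperfilter_le_atTop (eventually_ge_atTop m))).exists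
    refine ⟨_, ?_, (hP2 j ν hν).trans (pow_le_pow_of_le_one hρ0 hρ.le (Nat.le_succ_of_le h3))⟩
    rw [← map_sub]
    refine nm_ev_le_pow φ hσ hσ0 hνσ fun d hd => ?_
    rw [map_sub, MvPolynomial.coeff_coe, h2 d hd]
    exact sub_self _

end Crest.Agent.R227.K
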