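import Crest.Agent.R227.K.OC

/-! Row 227, task `R227/K/Elong1`: Moore elongation. -/

set_option autoImplicit false

namespace Crest.Agent.R227.K

open MvPowerSeries Filter
open scoped BigOperators

variable {C : Type*} [NormedField C] [IsUltrametricDist C] (p : ℕ) [Fact p.Prime] [CharP C p]
  {h : ℕ}

omit [IsUltrametricDist C] [CharP C p] in
theorem elong1_alg_pow (hh : 1 ≤ h) [Algebra (GaloisField p h) C] (a : GaloisField p h) (N : ℕ) :
    algebraMap (GaloisField p h) C a ^ (p ^ h) ^ N = algebraMap (GaloisField p h) C a := by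
  let _ : Fintype (GaloisField p h) := Fintype.ofFinite _
  have hc : Fintype.card (GaloisField p h) = p ^ h := by
    rw [← Nat.card_eq_fintype_card, GaloisField.card p h (by omega)]
  rw [← map_pow, ← hc, FiniteField.pow_card_pow]

omit [IsUltrametricDist C] in
theorem elong1_sum_pow {ι : Type*} (s : Finset ι) (f : ι → C) (N : ℕ) :
    (∑ i ∈ s, f i) ^ (p ^ h) ^ N = ∑ i ∈ s, f i ^ (p ^ h) ^ N := by
  rw [← pow_mul, sum_pow_char_pow]

omit [IsUltrametricDist C] [CharP C p] in
theorem elong1_norm_alg (hh : 1 ≤ h) [Algebra (GaloisField p h) C] (a : GaloisField p h) :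
    ‖algebraMap (GaloisField p h) C a‖ ≤ 1 := by
  have h1 := congrArg norm (elong1_alg_pow (C := C) p hh a 1)
  rw [norm_pow, pow_one] at h1
  by_contra hlt
  rw [not_le] at hlt
  have h2 : 1 < p ^ h := Nat.one_lt_pow (by omega) (Fact.out : p.Prime).one_lt
  have := pow_lt_pow_right₀ hlt h2
  rw [pow_one, h1] at this
  exact lt_irrefl _ this

/-- Moore matrices: a relation between the rows is an additive polynomial of degree `≤ d ^ (r - 1)`
vanishing on the `d ^ r` elements of the span -/
theorem moore_det_ne_zero (hh : 1 ≤ h) [Algebra (GaloisField p h) C] {r : ℕ} (g : Fin r → C)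
    (hg : LinearIndependent (GaloisField p h) g) :
    (Matrix.of fun i l : Fin r => g l ^ (p ^ h) ^ (i : ℕ)).det ≠ 0 := by
  classical
  intro hdet
  obtain ⟨v, hv0, hv⟩ := Matrix.exists_vecMul_eq_zero_iff.2 hdet
  have hd : 1 < p ^ h := Nat.one_lt_pow (by omega) (Fact.out : p.Prime).one_lt
  let _ : Fintype (GaloisField p h) := Fintype.ofFinite _
  have hc : Fintype.card (GaloisField p h) = p ^ h := by
    rw [← Nat.card_eq_fintype_card, GaloisField.card p h (by omega)]
  set P : Polynomial C := ∑ i : Fin r, Polynomial.monomial ((p ^ h) ^ (i : ℕ)) (v i) with hP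
  have hP0 : P = 0 := by
    refine Polynomial.eq_zero_of_natDegree_lt_card_of_eval_eq_zero P
      (f := fun a : Fin r → GaloisField p h => ∑ l, a l • g l) ?_ ?_ ?_
    · exact (linearIndependent_iff_injective_fintypeLinearCombination.1 hg)
    · intro a
      rw [hP, Polynomial.eval_finsetSum]
      simp only [Polynomial.eval_monomial, Algebra.smul_def, elong1_sum_pow, mul_pow,
        elong1_alg_pow p hh, Finset.mul_sum]
      rw [Finset.sum_comm]
      refine Finset.sum_eq_zero fun l _ => ?_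
      have := congrFun hv l
      simp only [Matrix.vecMul, dotProduct, Matrix.of_apply, Pi.zero_apply] at this
      calc ∑ i : Fin r, v i * (algebraMap (GaloisField p h) C (a l) * g l ^ (p ^ h) ^ (i : ℕ))
          = algebraMap (GaloisField p h) C (a l) * ∑ i : Fin r, v i * g l ^ (p ^ h) ^ (i : ℕ) := by
            rw [Finset.mul_sum]; exact Finset.sum_congr rfl fun i _ => by ring
        _ = 0 := by rw [this, mul_zero]
    · rw [Fintype.card_fun, hc, Fintype.card_fin]
      have hpos : 0 < (p ^ h) ^ r := by positivity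
      refine lt_of_le_of_lt (b := (p ^ h) ^ r - 1) ?_ (by omega)
      refine Polynomial.natDegree_sum_le_of_forall_le _ _ fun i _ => ?_
      refine (Polynomial.natDegree_monomial_le _).trans ?_
      have := Nat.pow_lt_pow_right hd i.2
      omega
  apply hv0
  funext i
  have := congrArg (fun Q => Polynomial.coeff Q ((p ^ h) ^ (i : ℕ))) hP0
  simp only [hP, Polynomial.finsetSum_coeff, Polynomial.coeff_monomial, Polynomial.coeff_zero] at this
  rw [Finset.sum_eq_single i] at this
  · simpa using this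
  · intro j _ hj
    rw [if_neg]
    intro hji
    exact hj (Fin.ext (Nat.pow_right_injective hd hji))
  · simp

omit [IsUltrametricDist C] [CharP C p] in
theorem elong1_le_of_pow (hh : 1 ≤ h) {x B c : ℝ} (hB : 0 ≤ B)
    (hx : ∀ᶠ N in atTop, x ^ (p ^ h) ^ N ≤ c * B ^ (p ^ h) ^ N) : x ≤ B := by
  have hd : 1 < p ^ h := Nat.one_lt_pow (by omega) (Fact.out : p.Prime).one_lt
  by_contra hlt
  rw [not_le] at hlt
  rcases hB.eq_or_lt with rfl | hB0
  · obtain ⟨N, hN⟩ := hx.exists
    rw [zero_pow (by positivity), mul_zero] at hN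
    exact absurd hN (not_le.2 (pow_pos hlt _))
  · have h1 : 1 < x / B := by rwa [one_lt_div hB0]
    have h2 : Tendsto (fun N : ℕ => (x / B) ^ (p ^ h) ^ N) atTop atTop :=
      (tendsto_pow_atTop_atTop_of_one_lt h1).comp (tendsto_pow_atTop_atTop_of_one_lt hd)
    obtain ⟨N, hN1, hN2⟩ := (hx.and (h2.eventually_gt_atTop c)).exists
    rw [div_pow, lt_div_iff₀ (pow_pos hB0 _)] at hN2
    linarith

/-- the case of independent `g` -/
theorem elong1_indep (hh : 1 ≤ h) [Algebra (GaloisField p h) C] {r : ℕ} (g e : Fin r → C)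
    (hg : LinearIndependent (GaloisField p h) g) {B c : ℝ} (hB : 0 ≤ B)
    (hE : ∀ᶠ N in atTop, ‖∑ i, g i * e i ^ (p ^ h) ^ N‖ ≤ c * B ^ (p ^ h) ^ N) (l : Fin r) :
    ‖e l‖ ≤ B := by
  classical
  set M : Matrix (Fin r) (Fin r) C := Matrix.of fun i l : Fin r => g l ^ (p ^ h) ^ (i : ℕ) with hM
  have hdet : IsUnit M.det := (moore_det_ne_zero p hh g hg).isUnit
  obtain ⟨N0, hN0⟩ := eventually_atTop.1 hE
  refine elong1_le_of_pow p hh (c := ∑ i : Fin r, ‖M⁻¹ l i‖ * c ^ (p ^ h) ^ (i : ℕ)) hB ?_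
  filter_upwards [eventually_ge_atTop (N0 + r)] with N hN
  have hpow : ∀ i : Fin r, (p ^ h) ^ (N - i) * (p ^ h) ^ (i : ℕ) = (p ^ h) ^ N := fun i => by
    rw [← pow_add, Nat.sub_add_cancel (by have := i.2; omega)]
  have h1 : M.mulVec (fun j => e j ^ (p ^ h) ^ N) =
      fun i : Fin r => (∑ j, g j * e j ^ (p ^ h) ^ (N - i)) ^ (p ^ h) ^ (i : ℕ) := by
    funext i
    rw [elong1_sum_pow]
    simp only [Matrix.mulVec, dotProduct, hM, Matrix.of_apply, mul_pow, ← pow_mul (e _), hpow]
  have h2 : (fun j => e j ^ (p ^ h) ^ N) = M⁻¹.mulVec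
      fun i : Fin r => (∑ j, g j * e j ^ (p ^ h) ^ (N - i)) ^ (p ^ h) ^ (i : ℕ) := by
    rw [← h1, Matrix.mulVec_mulVec, Matrix.nonsing_inv_mul _ hdet, Matrix.one_mulVec]
  have h3 := congrFun h2 l
  rw [← norm_pow, h3, Finset.sum_mul]
  simp only [Matrix.mulVec, dotProduct]
  refine (norm_sum_le _ _).trans (Finset.sum_le_sum fun i _ => ?_)
  rw [norm_mul, mul_assoc, norm_pow]
  refine mul_le_mul_of_nonneg_left ?_ (norm_nonneg _)
  refine (pow_le_pow_left₀ (norm_nonneg _) (hN0 (N - i) (by have := i.2; omega)) _).trans_eq ?_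
  rw [mul_pow, ← pow_mul B, hpow]

/-- reduce to `𝔽_d`-independent `g` (basis of the span); then
`∑ l, g l ^ d ^ i * e l ^ d ^ N = (E (N - i)) ^ d ^ i`, invert the Moore matrix:
`‖e l‖ ^ d ^ N ≤ c' * B ^ d ^ N` for all large `N`, so `‖e l‖ ≤ B` -/
theorem elong (hh : 1 ≤ h) [Algebra (GaloisField p h) C] {ι : Type*} (s : Finset ι) (g e : ι → C)
    {B c : ℝ} (hB : 0 ≤ B)
    (hE : ∀ᶠ N in atTop, ‖∑ i ∈ s, g i * e i ^ (p ^ h) ^ N‖ ≤ c * B ^ (p ^ h) ^ N)
    (ℓ : C →ₗ[GaloisField p h] GaloisField p h) :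
    ‖∑ i ∈ s, algebraMap (GaloisField p h) C (ℓ (g i)) * e i‖ ≤ B := by
  classical
  set V : Submodule (GaloisField p h) C := Submodule.span (GaloisField p h) (g '' (s : Set ι))
    with hV
  have _ : Module.Finite (GaloisField p h) V :=
    Module.Finite.span_of_finite _ ((s.finite_toSet).image g)
  set b := Module.finBasis (GaloisField p h) V with hb
  have hind : LinearIndependent (GaloisField p h) (fun l => (b l : C)) :=
    b.linearIndependent.map' V.subtype (Submodule.ker_subtype V)
  have hrep : ∀ i ∈ s, ∃ a : Fin (Module.finrank (GaloisField p h) V) → GaloisField p h,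
      g i = ∑ l, algebraMap (GaloisField p h) C (a l) * (b l : C) := by
    intro i hi
    have hmem : g i ∈ V := Submodule.subset_span ⟨i, hi, rfl⟩
    refine ⟨fun l => b.repr ⟨g i, hmem⟩ l, ?_⟩
    have := congrArg V.subtype (b.sum_repr ⟨g i, hmem⟩)
    rw [map_sum] at this
    simp only [map_smul, Submodule.subtype_apply, Algebra.smul_def] at this
    exact this.symm
  choose! a ha using hrep
  set e' : Fin (Module.finrank (GaloisField p h) V) → C :=
    fun l => ∑ i ∈ s, algebraMap (GaloisField p h) C (a i l) * e i with he'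
  have hE' : ∀ N : ℕ, ∑ i ∈ s, g i * e i ^ (p ^ h) ^ N = ∑ l, (b l : C) * e' l ^ (p ^ h) ^ N := by
    intro N
    simp only [he', elong1_sum_pow, mul_pow, elong1_alg_pow p hh, Finset.mul_sum]
    rw [Finset.sum_comm]
    refine Finset.sum_congr rfl fun i hi => ?_
    rw [ha i hi, Finset.sum_mul]
    exact Finset.sum_congr rfl fun l _ => by ring
  have hle := elong1_indep p hh (fun l => (b l : C)) e' hind hB (c := c) (by
    simpa only [hE'] using hE)
  have hsum : ∑ i ∈ s, algebraMap (GaloisField p h) C (ℓ (g i)) * e i =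
      ∑ l, algebraMap (GaloisField p h) C (ℓ (b l : C)) * e' l := by
    simp only [he', Finset.mul_sum]
    rw [Finset.sum_comm]
    refine Finset.sum_congr rfl fun i hi => ?_
    rw [ha i hi, map_sum, map_sum, Finset.sum_mul]
    refine Finset.sum_congr rfl fun l _ => ?_
    rw [← Algebra.smul_def (a i l) (b l : C), map_smul, smul_eq_mul, map_mul]
    ring
  rw [hsum]
  refine IsUltrametricDist.norm_sum_le_of_forall_le_of_nonneg hB fun l _ => ?_
  rw [norm_mul]
  exact (mul_le_of_le_one_left (norm_nonneg _) (elong1_norm_alg p hh _)).trans (hle l)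

end Crest.Agent.R227.K
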