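import Crest.Agent.R227.Compl
import Crest.Prelude.Def_LubinTate

/-! Row 227: evaluation of power series in adically complete rings.
The evaluation map `ev` is the one of `Crest.Agent.R227.Ev` (helper51); here it is used with
the predicate `Good N` on the ideal of allowed arguments. -/

set_option autoImplicit false

namespace Crest.Agent.R227.K

open MvPowerSeries

variable {R R' B B' : Type*} [CommRing R] [CommRing R'] [CommRing B] [CommRing B'] {σ τ : Type*}

/-- every finite subset of `N` lies in an ideal `I ≤ N` for which `B` is complete -/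
def Good (N : Ideal B) : Prop :=
  ∀ s : Finset B, (∀ x ∈ s, x ∈ N) → ∃ I : Ideal B, I ≤ N ∧ IsAdicComplete I B ∧ ∀ x ∈ s, x ∈ I

/-- evaluation of a one-variable series over `B` at `z : B` -/
noncomputable def ev1 (z : B) : PowerSeries B →+* B := ev (RingHom.id B) (fun _ : Unit => z)

/-- the ideal of series whose constant coefficient lies in `N` -/
noncomputable def liftI (σ : Type*) (N : Ideal R) : Ideal (MvPowerSeries σ R) :=
  N.comap (constantCoeff : MvPowerSeries σ R →+* R)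

theorem mem_liftI {N : Ideal R} {f : MvPowerSeries σ R} : f ∈ liftI σ N ↔ constantCoeff f ∈ N :=
  Iff.rfl

instance mvPowerSeries_charP (p : ℕ) [CharP R p] : CharP (MvPowerSeries σ R) p :=
  charP_of_injective_ringHom (f := (C : R →+* MvPowerSeries σ R)) (C_injective) p

/-- a series all of whose coefficients of degree `< j` vanish lies in the `j`-th power of the ideal
generated by the variables -/
theorem mem_span_X_pow [Finite σ] {f : MvPowerSeries σ R} {j : ℕ}
    (hf : ∀ d : σ →₀ ℕ, d.degree < j → coeff d f = 0) :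
    f ∈ (Ideal.span (Set.range (X : σ → MvPowerSeries σ R))) ^ j := by
  exact R227.mem_XI_pow.mpr hf

theorem coeff_eq_zero_of_mem_span_X_pow {f : MvPowerSeries σ R} {j : ℕ}
    (hf : f ∈ (Ideal.span (Set.range (X : σ → MvPowerSeries σ R))) ^ j) {d : σ →₀ ℕ}
    (hd : d.degree < j) : coeff d f = 0 := by
  exact coeff_of_lt_order (lt_of_lt_of_le (by exact_mod_cast hd) (R227.le_order_of_mem_XI_pow hf))

theorem exists_ev [Finite σ] (φ : R →+* B) (I : Ideal B) [IsAdicComplete I B] (a : σ → B)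
    (ha : ∀ i, a i ∈ I) :
    ∃ ψ : MvPowerSeries σ R →+* B, (∀ r, ψ (C r) = φ r) ∧ ∀ i, ψ (X i) = a i := by
  exact R227.hasEv I φ fun i => Ideal.le_radical (ha i)

theorem hom_ext_of_isHausdorff [Finite σ] (I : Ideal B) [IsHausdorff I B]
    (ψ₁ ψ₂ : MvPowerSeries σ R →+* B) (hC : ∀ r, ψ₁ (C r) = ψ₂ (C r))
    (hX : ∀ i, ψ₁ (X i) = ψ₂ (X i)) (hm : ∀ i, ψ₁ (X i) ∈ I) : ψ₁ = ψ₂ := by
  exact R227.hom_ext I hC hX fun i => Ideal.le_radical (hm i)

theorem Good.exists_ideal [Finite σ] {N : Ideal B} (hN : Good N) (a : σ → B) (ha : ∀ i, a i ∈ N) :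
    ∃ I : Ideal B, I ≤ N ∧ IsAdicComplete I B ∧ ∀ i, a i ∈ I := by
  classical
  have := Fintype.ofFinite σ
  obtain ⟨I, h1, h2, h3⟩ := hN (Finset.univ.image a) (by simpa using ha)
  exact ⟨I, h1, h2, fun i => h3 _ (by simp)⟩

theorem Good.exists_rad [Finite σ] {N : Ideal B} (hN : Good N) {a : σ → B} (ha : ∀ i, a i ∈ N) :
    ∃ I : Ideal B, IsAdicComplete I B ∧ ∀ i, a i ∈ I.radical := by
  obtain ⟨I, -, h2, h3⟩ := hN.exists_ideal a ha
  exact ⟨I, h2, fun i => Ideal.le_radical (h3 i)⟩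

theorem Good.exists_rad₂ [Finite σ] [Finite τ] {N : Ideal B} (hN : Good N) {a : σ → B}
    {b : τ → B} (ha : ∀ i, a i ∈ N) (hb : ∀ i, b i ∈ N) :
    ∃ I : Ideal B, IsAdicComplete I B ∧ (∀ i, a i ∈ I.radical) ∧ ∀ i, b i ∈ I.radical := by
  obtain ⟨I, h1, h2⟩ := hN.exists_rad (a := Sum.elim a b) (by rintro (i | i) <;> simp [ha, hb])
  exact ⟨I, h1, fun i => h2 (.inl i), fun i => h2 (.inr i)⟩

theorem Good.exists_rad1 {N : Ideal B} (hN : Good N) {z : B} (hz : z ∈ N) :
    ∃ I : Ideal B, IsAdicComplete I B ∧ z ∈ I.radical := by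
  obtain ⟨I, h1, h2⟩ := hN.exists_rad (a := fun _ : Unit => z) fun _ => hz
  exact ⟨I, h1, h2 ()⟩

theorem Good.exists_rad2 {N : Ideal B} (hN : Good N) {y z : B} (hy : y ∈ N) (hz : z ∈ N) :
    ∃ I : Ideal B, IsAdicComplete I B ∧ y ∈ I.radical ∧ z ∈ I.radical := by
  obtain ⟨I, h1, h2, h3⟩ := hN.exists_rad₂ (a := fun _ : Unit => y) (b := fun _ : Unit => z)
    (fun _ => hy) fun _ => hz
  exact ⟨I, h1, h2 (), h3 ()⟩

theorem ev1_eq (z : B) : ev1 z = R227.ev1 (RingHom.id B) z := rfl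

theorem hom_ext [Finite σ] {N : Ideal B} (hN : Good N)
    (ψ₁ ψ₂ : MvPowerSeries σ R →+* B) (hC : ∀ r, ψ₁ (C r) = ψ₂ (C r))
    (hX : ∀ i, ψ₁ (X i) = ψ₂ (X i)) (hm : ∀ i, ψ₁ (X i) ∈ N) : ψ₁ = ψ₂ := by
  obtain ⟨I, _, h⟩ := hN.exists_rad hm
  exact R227.hom_ext I hC hX h

@[simp] theorem ev_C (φ : R →+* B) (a : σ → B) (r : R) : ev φ a (C r) = φ r := by
  exact R227.ev_C φ a r

theorem ev_X [Finite σ] {N : Ideal B} (hN : Good N) (φ : R →+* B) {a : σ → B}
    (ha : ∀ i, a i ∈ N) (i : σ) : ev φ a (X i) = a i := by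
  obtain ⟨I, _, h⟩ := hN.exists_rad ha
  exact R227.ev_X I φ h i

/-- a ring map out of a power series ring is the evaluation at the images of the variables -/
theorem eq_ev [Finite σ] {N : Ideal B} (hN : Good N) (ψ : MvPowerSeries σ R →+* B)
    (φ : R →+* B) (a : σ → B) (ha : ∀ i, a i ∈ N) (hC : ∀ r, ψ (C r) = φ r)
    (hX : ∀ i, ψ (X i) = a i) : ψ = ev φ a := by
  obtain ⟨I, _, h⟩ := hN.exists_rad ha
  exact R227.eq_ev I h ψ hC hX

theorem ev_coe [Finite σ] {N : Ideal B} (hN : Good N) (φ : R →+* B) {a : σ → B}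
    (ha : ∀ i, a i ∈ N) (P : MvPolynomial σ R) :
    ev φ a (P : MvPowerSeries σ R) = MvPolynomial.eval₂ φ a P := by
  obtain ⟨I, _, h⟩ := hN.exists_rad ha
  exact R227.ev_coe I φ h P

theorem ev_mem_pow [Finite σ] {N : Ideal B} (hN : Good N) (φ : R →+* B) {a : σ → B}
    (ha : ∀ i, a i ∈ N) {J : Ideal B} (hJ : ∀ i, a i ∈ J) {f : MvPowerSeries σ R} {j : ℕ}
    (hf : ∀ d : σ →₀ ℕ, d.degree < j → coeff d f = 0) : ev φ a f ∈ J ^ j := by
  obtain ⟨I, _, h⟩ := hN.exists_rad ha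
  exact R227.ev_mem_pow I φ h hJ (R227.mem_XI_pow.mpr hf)

theorem ev_sub_const_mem [Finite σ] {N : Ideal B} (hN : Good N) (φ : R →+* B) {a : σ → B}
    (ha : ∀ i, a i ∈ N) {J : Ideal B} (hJ : ∀ i, a i ∈ J) (f : MvPowerSeries σ R) :
    ev φ a f - φ (constantCoeff f) ∈ J := by
  obtain ⟨I, _, h⟩ := hN.exists_rad ha
  exact R227.ev_sub_const_mem I φ h hJ f

theorem ev_mem [Finite σ] {N : Ideal B} (hN : Good N) (φ : R →+* B) {a : σ → B}
    (ha : ∀ i, a i ∈ N) {f : MvPowerSeries σ R} (hf : φ (constantCoeff f) ∈ N) :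
    ev φ a f ∈ N := by
  simpa using N.add_mem (ev_sub_const_mem hN φ ha ha f) hf

theorem ev_zero [Finite σ] (φ : R →+* B) (f : MvPowerSeries σ R) :
    ev φ (fun _ : σ => (0 : B)) f = φ (constantCoeff f) := by
  exact R227.ev_zero φ f

/-- naturality -/
theorem map_ev [Finite σ] {N : Ideal B} {N' : Ideal B'} (hN : Good N) (hN' : Good N')
    (ρ : B →+* B') (φ : R →+* B) {a : σ → B} (ha : ∀ i, a i ∈ N) (ha' : ∀ i, ρ (a i) ∈ N')
    (f : MvPowerSeries σ R) : ρ (ev φ a f) = ev (ρ.comp φ) (fun i => ρ (a i)) f := by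
  obtain ⟨I, _, h⟩ := hN.exists_rad ha
  obtain ⟨J, _, h'⟩ := hN'.exists_rad ha'
  exact R227.map_ev I J φ h ρ h' f

theorem ev_map [Finite σ] {N : Ideal B} (hN : Good N) (φ : R' →+* B) (ψ : R →+* R') {a : σ → B}
    (ha : ∀ i, a i ∈ N) (f : MvPowerSeries σ R) : ev φ a (f.map ψ) = ev (φ.comp ψ) a f := by
  obtain ⟨I, _, h⟩ := hN.exists_rad ha
  exact R227.ev_map I ψ φ h f

theorem good_of_isAdicComplete (I : Ideal B) [IsAdicComplete I B] : Good I := by
  exact fun s hs => ⟨I, le_rfl, inferInstance, hs⟩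

theorem isAdicComplete_of_le_of_pow_le {I J : Ideal B} [IsAdicComplete J B] (h : J ≤ I) {r : ℕ}
    (hr : I ^ r ≤ J) : IsAdicComplete I B := by
  exact R227.isAdicComplete_of_pow_le J I hr (l := 1) (by rwa [pow_one])

theorem good_radical (I : Ideal B) [IsAdicComplete I B] : Good I.radical := by
  intro s hs
  have h : Ideal.span (s : Set B) ≤ I.radical := Ideal.span_le.mpr hs
  exact ⟨Ideal.span s, h, R227.isAdicComplete_of_fg I _ ⟨s, rfl⟩ h,
    fun x hx => Ideal.subset_span hx⟩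

/-- `R⟦σ⟧` is complete for the ideal of series with constant coefficient in `I`
(`(liftI σ I) ^ j` is squeezed between the sets `{f | ∀ d, coeff d f ∈ I ^ (j - degree d)}`;
if convenient use finitely generated `I`: this is all that is needed below) -/
theorem isAdicComplete_liftI [Finite σ] (I : Ideal R) (_hI : I.FG) [IsAdicComplete I R] :
    IsAdicComplete (liftI σ I) (MvPowerSeries σ R) := by
  exact R227.isAdicComplete_PI I

/-- a complete ring is complete for every finitely generated smaller ideal -/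
theorem isAdicComplete_of_le_of_fg {I J : Ideal B} [IsAdicComplete I B] (h : J ≤ I) (hJ : J.FG) :
    IsAdicComplete J B := by
  exact R227.isAdicComplete_of_fg I J hJ (h.trans Ideal.le_radical)

theorem Good.liftI [Finite σ] {N : Ideal R} (hN : Good N) : Good (liftI σ N) := by
  classical
  intro s hs
  obtain ⟨I, h1, h2, h3⟩ := hN (s.image constantCoeff) (by
    simp only [Finset.mem_image]
    rintro _ ⟨f, hf, rfl⟩
    exact hs f hf)
  exact ⟨K.liftI σ I, Ideal.comap_mono h1, R227.isAdicComplete_PI I,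
    fun f hf => h3 _ (Finset.mem_image_of_mem _ hf)⟩

theorem good_bot : Good (⊥ : Ideal B) := by
  exact good_of_isAdicComplete ⊥

theorem good_liftI_bot [Finite σ] : Good (liftI σ (⊥ : Ideal R)) := good_bot.liftI

/-- substitution is evaluation -/
theorem subst_eq_ev [Finite σ] [Finite τ] {b : σ → MvPowerSeries τ R}
    (hb : ∀ i, constantCoeff (b i) = 0) (f : MvPowerSeries σ R) :
    f.subst b = ev (C : R →+* MvPowerSeries τ R) b f := by
  exact (R227.ev_eq_subst hb f).symm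

theorem ev_subst [Finite σ] [Finite τ] {N : Ideal B} (hN : Good N) (φ : R →+* B) {a : τ → B}
    (ha : ∀ i, a i ∈ N) {b : σ → MvPowerSeries τ R} (hb : ∀ i, constantCoeff (b i) = 0)
    (f : MvPowerSeries σ R) : ev φ a (f.subst b) = ev φ (fun i => ev φ a (b i)) f := by
  obtain ⟨I, _, h⟩ := hN.exists_rad ha
  exact R227.ev_subst I φ h hb f

theorem ev_psubst [Finite τ] {N : Ideal B} (hN : Good N) (φ : R →+* B) {a : τ → B}
    (ha : ∀ i, a i ∈ N) {b : MvPowerSeries τ R} (hb : constantCoeff b = 0)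
    (f : PowerSeries R) : ev φ a (f.subst b) = ev1 (ev φ a b) (f.map φ) := by
  obtain ⟨I, _, h⟩ := hN.exists_rad ha
  rw [R227.ev_subst1 I φ h hb, ev1_eq,
    R227.ev1_map I φ _ (R227.ev_mem_radical I φ h hb), RingHom.id_comp]

@[simp] theorem ev1_C (z r : B) : ev1 z (PowerSeries.C r) = r := by
  exact R227.ev1_C _ z r

theorem ev1_X {N : Ideal B} (hN : Good N) {z : B} (hz : z ∈ N) : ev1 z PowerSeries.X = z := by
  obtain ⟨I, _, h⟩ := hN.exists_rad1 hz
  exact R227.ev1_X I _ h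

theorem ev1_coe {N : Ideal B} (hN : Good N) {z : B} (hz : z ∈ N) (P : Polynomial B) :
    ev1 z (P : PowerSeries B) = P.eval z := by
  obtain ⟨I, _, h⟩ := hN.exists_rad1 hz
  exact R227.ev1_coe I _ h P

theorem ev1_mem {N : Ideal B} (hN : Good N) {z : B} (hz : z ∈ N) {f : PowerSeries B}
    (hf : PowerSeries.constantCoeff f ∈ N) : ev1 z f ∈ N := by
  exact ev_mem hN _ (fun _ => hz) hf

theorem ev1_zero (f : PowerSeries B) : ev1 0 f = PowerSeries.constantCoeff f := by
  exact R227.ev1_zero _ f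

theorem ev1_subst {N : Ideal B} (hN : Good N) {z : B} (hz : z ∈ N) {g : PowerSeries B}
    (hg : PowerSeries.constantCoeff g = 0) (f : PowerSeries B) :
    ev1 z (f.subst g) = ev1 (ev1 z g) f := by
  obtain ⟨I, _, h⟩ := hN.exists_rad1 hz
  exact R227.ev1_subst1 I _ h hg f

theorem map_ev1 {N : Ideal B} {N' : Ideal B'} (hN : Good N) (hN' : Good N')
    (ρ : B →+* B') {z : B} (hz : z ∈ N) (hz' : ρ z ∈ N') (f : PowerSeries B) :
    ρ (ev1 z f) = ev1 (ρ z) (f.map ρ) := by
  obtain ⟨I, _, h⟩ := hN.exists_rad1 hz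
  obtain ⟨J, _, h'⟩ := hN'.exists_rad1 hz'
  rw [ev1_eq, ev1_eq, R227.map_ev1 I J _ h ρ h', R227.ev1_map J ρ _ h']
  rfl

theorem psubst_eq_ev1 [Finite τ] {b : MvPowerSeries τ R} (hb : constantCoeff b = 0)
    (f : PowerSeries R) : f.subst b = ev1 b (f.map (C : R →+* MvPowerSeries τ R)) := by
  exact (R227.ev1_eq_subst hb f).symm.trans (R227.ev1_map (R227.XI τ R) C (RingHom.id _)
    (R227.mem_XI_radical_of_constantCoeff hb) f).symm

end Crest.Agent.R227.K
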