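import Crest.Agent.R227.K.Ev
import Crest.Agent.R227.Hom

/-! Row 227, task `R227/K/FG`: points of formal group laws, calculus of homomorphisms.
Definitions: DO NOT CHANGE (owner helper98). -/

set_option autoImplicit false

namespace Crest.Agent.R227.K

open MvPowerSeries Crest.LubinTate
open scoped BigOperators

variable {R S B B' : Type*} [CommRing R] [CommRing S] [CommRing B] [CommRing B']

/-- the group law on points -/
noncomputable def fadd (F : FormalGroup B) (a b : B) : B :=
  ev (RingHom.id B) ![a, b] F.toPowerSeries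

section points

variable {F G : FormalGroup B} {N : Ideal B}

theorem fadd_eq (a b : B) : fadd F a b = R227.fadd F (RingHom.id B) a b := rfl

theorem fadd_mem (hN : Good N) {a b : B} (ha : a ∈ N) (hb : b ∈ N) : fadd F a b ∈ N := by
  obtain ⟨I, _, h1, h2⟩ := hN.exists_rad2 ha hb
  exact R227.fadd_mem F I _ h1 h2 ha hb

theorem fadd_assoc (hN : Good N) {a b c : B} (ha : a ∈ N) (hb : b ∈ N) (hc : c ∈ N) :
    fadd F (fadd F a b) c = fadd F a (fadd F b c) := by
  obtain ⟨I, _, h⟩ := hN.exists_rad (a := ![a, b, c]) fun i => by fin_cases i <;> assumption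
  exact R227.fadd_assoc F I _ (h 0) (h 1) (h 2)

theorem fadd_comm [F.IsComm] (hN : Good N) {a b : B} (ha : a ∈ N) (hb : b ∈ N) :
    fadd F a b = fadd F b a := by
  obtain ⟨I, _, h1, h2⟩ := hN.exists_rad2 ha hb
  exact R227.fadd_comm F I _ h1 h2

theorem fadd_zero (hN : Good N) {a : B} (ha : a ∈ N) : fadd F a 0 = a := by
  obtain ⟨I, _, h⟩ := hN.exists_rad1 ha
  exact R227.fadd_zero F I _ h

theorem zero_fadd (hN : Good N) {a : B} (ha : a ∈ N) : fadd F 0 a = a := by
  obtain ⟨I, _, h⟩ := hN.exists_rad1 ha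
  exact R227.zero_fadd F I _ h

/-- `F (a, b) = a + b` modulo `a * b` -/
theorem fadd_sub_mem (hN : Good N) {a b : B} (ha : a ∈ N) (hb : b ∈ N) :
    fadd F a b - (a + b) ∈ Ideal.span {a * b} := by
  obtain ⟨I, _, h1, h2⟩ := hN.exists_rad2 ha hb
  rw [← Ideal.span_singleton_mul_span_singleton]
  exact R227.fadd_sub_add_mem F I _ h1 h2 (Ideal.mem_span_singleton_self a)
    (Ideal.mem_span_singleton_self b)

theorem map_fadd {N' : Ideal B'} (hN : Good N) (hN' : Good N') (ρ : B →+* B') {a b : B}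
    (ha : a ∈ N) (hb : b ∈ N) (ha' : ρ a ∈ N') (hb' : ρ b ∈ N') :
    ρ (fadd F a b) = fadd (F.map ρ) (ρ a) (ρ b) := by
  obtain ⟨I, _, h1, h2⟩ := hN.exists_rad2 ha hb
  obtain ⟨J, _, h3, h4⟩ := hN'.exists_rad2 ha' hb'
  rw [fadd_eq, fadd_eq, R227.map_fadd F I J _ h1 h2 ρ h3 h4, R227.fadd_map F J ρ _ h3 h4]
  rfl

theorem ev1_fadd (hN : Good N) {f : PowerSeries B} (hf : IsFGHom F G f) {a b : B} (ha : a ∈ N)
    (hb : b ∈ N) : ev1 (fadd F a b) f = fadd G (ev1 a f) (ev1 b f) := by
  obtain ⟨I, _, h1, h2⟩ := hN.exists_rad2 ha hb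
  exact R227.ev1_fadd_of_hom hf I _ h1 h2

theorem ev_subst_two {τ : Type*} [Finite τ] (hN : Good N) (φ : R →+* B) {a : τ → B}
    (ha : ∀ i, a i ∈ N) (F : FormalGroup R) {f g : MvPowerSeries τ R} (hf : constantCoeff f = 0)
    (hg : constantCoeff g = 0) :
    ev φ a (F.toPowerSeries.subst ![f, g]) = fadd (F.map φ) (ev φ a f) (ev φ a g) := by
  obtain ⟨I, _, h⟩ := hN.exists_rad ha
  rw [R227.ev_subst_pair F I φ h hf hg, fadd_eq, R227.fadd_map F I φ _
    (R227.ev_mem_radical I φ h hf) (R227.ev_mem_radical I φ h hg)]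
  rfl

end points

/-- points of `F` with values in `N` -/
def Pt (_F : FormalGroup B) (N : Ideal B) : Type _ := {x : B // x ∈ N}

namespace Pt

variable {F G : FormalGroup B} {N : Ideal B}

@[ext] theorem ext {x y : Pt F N} (h : x.1 = y.1) : x = y := Subtype.ext h

instance : Zero (Pt F N) := ⟨⟨0, N.zero_mem⟩⟩

noncomputable instance [hN : Fact (Good N)] : Add (Pt F N) :=
  ⟨fun x y => ⟨fadd F x.1 y.1, fadd_mem hN.out x.2 y.2⟩⟩

noncomputable instance [hN : Fact (Good N)] [F.IsComm] : AddCommMonoid (Pt F N) where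
  add_assoc x y z := Subtype.ext (fadd_assoc hN.out x.2 y.2 z.2)
  zero_add x := Subtype.ext (zero_fadd hN.out x.2)
  add_zero x := Subtype.ext (fadd_zero hN.out x.2)
  add_comm x y := Subtype.ext (fadd_comm hN.out x.2 y.2)
  nsmul := nsmulRec

@[simp] theorem zero_val : (0 : Pt F N).1 = 0 := rfl

@[simp] theorem add_val [Fact (Good N)] (x y : Pt F N) : (x + y).1 = fadd F x.1 y.1 := rfl

/-- a homomorphism of laws acts on points -/
noncomputable def hom [hN : Fact (Good N)] [F.IsComm] [G.IsComm] (f : PowerSeries B)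
    (hf : IsFGHom F G f) : Pt F N →+ Pt G N where
  toFun x := ⟨ev1 x.1 f, ev1_mem hN.out x.2 (by rw [hf.1]; exact N.zero_mem)⟩
  map_zero' := Subtype.ext (by
    show ev1 (0 : B) f = 0
    rw [ev1_zero, hf.1])
  map_add' x y := Subtype.ext (ev1_fadd hN.out hf x.2 y.2)

@[simp] theorem hom_val [Fact (Good N)] [F.IsComm] [G.IsComm] (f : PowerSeries B)
    (hf : IsFGHom F G f) (x : Pt F N) : (hom f hf x).1 = ev1 x.1 f := rfl

theorem nsmul_val [Fact (Good N)] [F.IsComm] (m : ℕ) (x : Pt F N) :
    (m • x).1 = ev1 x.1 (mulSeries F m) := by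
  obtain ⟨I, _, h⟩ := (Fact.out : Good N).exists_rad1 x.2
  induction m with
  | zero => simp [mulSeries]
  | succ m ih =>
    rw [succ_nsmul, add_val, ih, R227.mulSeries_succ, ev1_eq, R227.ev1_fadd F I _ h
      (R227.constantCoeff_mulSeries F m) PowerSeries.constantCoeff_X, R227.ev1_X I _ h]
    rfl

end Pt

/-! ### formal calculus -/

section formal

variable {F G K : FormalGroup R}

instance map_isComm [F.IsComm] (φ : R →+* S) : (F.map φ).IsComm := by
  exact R227.isComm_map F φ

theorem map_map {T : Type*} [CommRing T] (φ : R →+* S) (ψ : S →+* T) :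
    (F.map φ).map ψ = F.map (ψ.comp φ) := by
  exact R227.fg_map_map F φ ψ

theorem map_id' : F.map (RingHom.id R) = F := by
  exact R227.fg_map_id F

theorem constantCoeff_mulSeries (F : FormalGroup R) (m : ℕ) :
    PowerSeries.constantCoeff (mulSeries F m) = 0 := by
  exact R227.constantCoeff_mulSeries F m

theorem coeff_one_mulSeries (F : FormalGroup R) (m : ℕ) :
    PowerSeries.coeff 1 (mulSeries F m) = m := by
  exact R227.coeff_one_mulSeries F m

theorem mulSeries_one (F : FormalGroup R) : mulSeries F 1 = PowerSeries.X := by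
  exact R227.mulSeries_one F

theorem mulSeries_map (F : FormalGroup R) (φ : R →+* S) (m : ℕ) :
    mulSeries (F.map φ) m = (mulSeries F m).map φ := by
  exact (R227.map_mulSeries F φ m).symm

theorem mulSeries_mul [F.IsComm] (a b : ℕ) :
    mulSeries F (a * b) = (mulSeries F a).subst (mulSeries F b) := by
  exact R227.mulSeries_mul F a b

theorem isFGHom_X (F : FormalGroup R) : IsFGHom F F PowerSeries.X := by
  exact R227.isFGHom_X F

theorem isFGHom_zero (F G : FormalGroup R) : IsFGHom F G 0 := by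
  exact R227.isFGHom_zero F G

theorem isFGHom_map {f : PowerSeries R} (hf : IsFGHom F G f) (φ : R →+* S) :
    IsFGHom (F.map φ) (G.map φ) (f.map φ) := by
  exact R227.IsFGHom.map hf φ

theorem isFGHom_of_map {f : PowerSeries R} {φ : R →+* S} (hφ : Function.Injective φ)
    (hf : IsFGHom (F.map φ) (G.map φ) (f.map φ)) : IsFGHom F G f := by
  exact R227.IsFGHom.of_map hφ hf

theorem isFGHom_comp {f g : PowerSeries R} (hf : IsFGHom F G f) (hg : IsFGHom G K g) :
    IsFGHom F K (g.subst f) := by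
  exact R227.IsFGHom.comp hg hf

theorem isFGHom_add [G.IsComm] {f g : PowerSeries R} (hf : IsFGHom F G f) (hg : IsFGHom F G g) :
    IsFGHom F G (G.toPowerSeries.subst ![f, g]) := by
  rw [← R227.fadd_eq_subst G hf.1 hg.1]
  exact R227.IsFGHom.add hf hg

theorem isFGHom_mulSeries [F.IsComm] (m : ℕ) : IsFGHom F F (mulSeries F m) := by
  exact R227.isFGHom_mulSeries F m

theorem isFGHom_inv {f g : PowerSeries R} (hf : IsFGHom F G f)
    (hg0 : PowerSeries.constantCoeff g = 0) (hfg : f.subst g = PowerSeries.X)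
    (hgf : g.subst f = PowerSeries.X) : IsFGHom G F g := by
  exact R227.IsFGHom.inv hf hg0 hfg hgf

theorem exists_substInv {f : PowerSeries R} (h0 : PowerSeries.constantCoeff f = 0)
    (h1 : IsUnit (PowerSeries.coeff 1 f)) :
    ∃ g : PowerSeries R, PowerSeries.constantCoeff g = 0 ∧ IsUnit (PowerSeries.coeff 1 g) ∧
      f.subst g = PowerSeries.X ∧ g.subst f = PowerSeries.X := by
  exact ⟨f.substInvOfIsUnit h1, by simp, by simp, f.subst_substInvOfIsUnit_right h0 h1,
    f.subst_substInvOfIsUnit_left h0 h1⟩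

theorem coeff_one_subst {f g : PowerSeries R} (hg : PowerSeries.constantCoeff g = 0) :
    PowerSeries.coeff 1 (f.subst g : PowerSeries R) =
      PowerSeries.coeff 1 f * PowerSeries.coeff 1 g := by
  exact R227.coeff_one_subst hg f

theorem subst_mulSeries {f : PowerSeries R} (hf : IsFGHom F G f) (m : ℕ) :
    f.subst (mulSeries F m) = (mulSeries G m).subst f := by
  exact R227.IsFGHom.subst_mulSeries hf m

/-- transport of structure along an invertible series -/
theorem exists_transport (F : FormalGroup R) [F.IsComm] {f : PowerSeries R}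
    (h0 : PowerSeries.constantCoeff f = 0) (h1 : IsUnit (PowerSeries.coeff 1 f)) :
    ∃ G : FormalGroup R, G.IsComm ∧ IsFGHom F G f := by
  obtain ⟨g, g0, g1, hfg, hgf⟩ := exists_substInv h0 h1
  obtain ⟨G, hG⟩ := R227.exists_transport F g0 g1
  exact ⟨G, R227.isComm_of_isFGHom hG g1, isFGHom_inv hG h0 hgf hfg⟩

theorem exists_transport' (G : FormalGroup R) {f : PowerSeries R}
    (h0 : PowerSeries.constantCoeff f = 0) (h1 : IsUnit (PowerSeries.coeff 1 f)) :
    ∃ F : FormalGroup R, IsFGHom F G f := by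
  exact R227.exists_transport G h0 h1

/-- an invertible series determines the target (and the source) -/
theorem target_unique {G' : FormalGroup R} {f : PowerSeries R} (h1 : IsUnit (PowerSeries.coeff 1 f))
    (hf : IsFGHom F G f) (hf' : IsFGHom F G' f) : G = G' := by
  obtain ⟨g, g0, g1, hfg, hgf⟩ := exists_substInv hf.1 h1
  exact R227.eq_of_isFGHom (isFGHom_inv hf g0 hfg hgf) (isFGHom_inv hf' g0 hfg hgf) g1

theorem source_unique {F' : FormalGroup R} {f : PowerSeries R} (h1 : IsUnit (PowerSeries.coeff 1 f))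
    (hf : IsFGHom F G f) (hf' : IsFGHom F' G f) : F = F' := by
  exact R227.eq_of_isFGHom hf hf' h1

/-- descent of a law to a subring containing its coefficients -/
theorem exists_descend (G : FormalGroup S) [G.IsComm] {φ : R →+* S} (hφ : Function.Injective φ)
    (hG : ∀ d, coeff d G.toPowerSeries ∈ φ.range) :
    ∃ F : FormalGroup R, F.IsComm ∧ F.map φ = G := by
  obtain ⟨F, rfl⟩ := R227.exists_fg_map_eq hφ G hG
  exact ⟨F, R227.isComm_of_map hφ F, rfl⟩

end formal

end Crest.Agent.R227.K
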