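import Mathlib

/-! Row 227, task `R227/K/Final1`: elementary auxiliary lemmas. -/

set_option autoImplicit false

namespace Crest.Agent.R227.K

open scoped BigOperators

variable {p : ℕ} [Fact p.Prime] {n h : ℕ}

/-- an additive polynomial of small degree cannot vanish on `p ^ n` points -/
theorem final1_ded {L : Type*} [CommRing L] [IsDomain L] (hn : 1 ≤ n) (ψ : GaloisField p n → L)
    (hψ : Function.Injective ψ) (a : Fin n → L)
    (ha : ∀ β, ∑ c : Fin n, ψ β ^ p ^ (c : ℕ) * a c = 0) : a = 0 := by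
  classical
  have hp : 1 < p := (Fact.out : p.Prime).one_lt
  letI : Fintype (GaloisField p n) := Fintype.ofFinite _
  have hP : (∑ c : Fin n, Polynomial.monomial (p ^ (c : ℕ)) (a c)) = 0 := by
    refine Polynomial.eq_zero_of_natDegree_lt_card_of_eval_eq_zero _ hψ (fun β => ?_) ?_
    · rw [Polynomial.eval_finsetSum, ← ha β]
      exact Finset.sum_congr rfl fun c _ => by rw [Polynomial.eval_monomial, mul_comm]
    · rw [← Nat.card_eq_fintype_card, GaloisField.card p n (by omega)]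
      have h1 : (∑ c : Fin n, Polynomial.monomial (p ^ (c : ℕ)) (a c)).natDegree ≤ p ^ (n - 1) :=
        Polynomial.natDegree_sum_le_of_forall_le _ _ fun c _ =>
          (Polynomial.natDegree_monomial_le _).trans
            (Nat.pow_le_pow_right hp.le (by have := c.2; omega))
      exact h1.trans_lt (Nat.pow_lt_pow_right hp (by omega))
  funext c0
  have h1 := congrArg (fun P => P.coeff (p ^ (c0 : ℕ))) hP
  simp only [Polynomial.finsetSum_coeff, Polynomial.coeff_monomial, Polynomial.coeff_zero] at h1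
  rw [Finset.sum_eq_single c0] at h1
  · simpa using h1
  · intro c _ hc
    rw [if_neg]
    intro h2
    exact hc (Fin.ext (Nat.pow_right_injective hp h2))
  · simp

theorem final1_basis (p : ℕ) [Fact p.Prime] (hh : 1 ≤ h) : ∃ γ : Fin h → GaloisField p h,
    ∀ β, ∃ c : Fin h → ℕ, β = ∑ a, (c a : GaloisField p h) * γ a := by
  let b := Module.finBasisOfFinrankEq (ZMod p) (GaloisField p h)
    (GaloisField.finrank p (show h ≠ 0 by omega))
  refine ⟨b, fun β => ⟨fun a => (b.repr β a).val, ?_⟩⟩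
  conv_lhs => rw [← b.sum_repr β]
  refine Finset.sum_congr rfl fun a _ => ?_
  rw [Algebra.smul_def]
  congr 1
  conv_lhs => rw [← ZMod.natCast_zmod_val (b.repr β a)]
  rw [map_natCast]

/-- the Moore matrix of a generating family is invertible -/
theorem final1_moore (hh : 1 ≤ h) (γ : Fin h → GaloisField p h)
    (hγ : ∀ β, ∃ c : Fin h → ℕ, β = ∑ a, (c a : GaloisField p h) * γ a) :
    ∃ N : Fin h → Fin h → GaloisField p h, ∀ a a',
      ∑ c : Fin h, N a c * γ a' ^ p ^ (c : ℕ) = if a = a' then 1 else 0 := by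
  classical
  let M : Matrix (Fin h) (Fin h) (GaloisField p h) := Matrix.of fun c a => γ a ^ p ^ (c : ℕ)
  have hM : M.det ≠ 0 := by
    intro h0
    obtain ⟨v, hv0, hv⟩ := Matrix.exists_vecMul_eq_zero_iff.2 h0
    apply hv0
    refine final1_ded hh id Function.injective_id v fun β => ?_
    obtain ⟨c, rfl⟩ := hγ β
    have h1 : ∀ k : Fin h, (∑ a, (c a : GaloisField p h) * γ a) ^ p ^ (k : ℕ) =
        ∑ a, (c a : GaloisField p h) * γ a ^ p ^ (k : ℕ) := by
      intro k
      rw [← iterateFrobenius_def, map_sum]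
      refine Finset.sum_congr rfl fun a _ => ?_
      rw [map_mul, map_natCast, iterateFrobenius_def]
    simp only [id, h1, Finset.sum_mul]
    rw [Finset.sum_comm]
    refine Finset.sum_eq_zero fun a _ => ?_
    have h2 : ∑ k : Fin h, v k * γ a ^ p ^ (k : ℕ) = 0 := congrFun hv a
    calc ∑ k : Fin h, (c a : GaloisField p h) * γ a ^ p ^ (k : ℕ) * v k
        = (c a : GaloisField p h) * ∑ k : Fin h, v k * γ a ^ p ^ (k : ℕ) := by
          rw [Finset.mul_sum]
          exact Finset.sum_congr rfl fun k _ => by ring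
      _ = 0 := by rw [h2, mul_zero]
  refine ⟨fun a c => M⁻¹ a c, fun a a' => ?_⟩
  have h1 := congrFun (congrFun (Matrix.nonsing_inv_mul M hM.isUnit) a) a'
  rw [Matrix.mul_apply, Matrix.one_apply] at h1
  exact h1

section witt

variable {k : Type*} [Field k] [CharP k p] [PerfectRing k p]

theorem final1_p_dvd (x : WittVector p k) : (p : WittVector p k) ∣ x ↔ x.coeff 0 = 0 := by
  rw [← WittVector.mem_span_p_iff_coeff_zero_eq_zero, Ideal.mem_span_singleton]

theorem final1_approx {A : Type*} [Fintype A] (γ : A → k)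
    (hγ : ∀ β, ∃ c : A → ℕ, β = ∑ a, (c a : k) * γ a) (r : ℕ) (x : WittVector p k) :
    ∃ (c : A → ℕ) (y : WittVector p k),
      x = ∑ a, (c a : WittVector p k) * WittVector.teichmuller p (γ a) + (p : WittVector p k) ^ r * y := by
  induction r generalizing x with
  | zero => exact ⟨0, x, by simp⟩
  | succ r ih =>
    obtain ⟨c0, hc0⟩ := hγ (x.coeff 0)
    have h1 : (p : WittVector p k) ∣
        x - ∑ a, (c0 a : WittVector p k) * WittVector.teichmuller p (γ a) := by
      rw [final1_p_dvd, ← WittVector.constantCoeff_apply, map_sub, map_sum,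
        WittVector.constantCoeff_apply, hc0, sub_eq_zero]
      refine Finset.sum_congr rfl fun a _ => ?_
      rw [map_mul, map_natCast, WittVector.constantCoeff_apply, WittVector.teichmuller_coeff_zero]
    obtain ⟨z, hz⟩ := h1
    obtain ⟨c1, y, hy⟩ := ih z
    refine ⟨fun a => c0 a + p * c1 a, y, ?_⟩
    rw [sub_eq_iff_eq_add'] at hz
    have e : ∑ a, ((c0 a + p * c1 a : ℕ) : WittVector p k) * WittVector.teichmuller p (γ a) =
        ∑ a, (c0 a : WittVector p k) * WittVector.teichmuller p (γ a) +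
          (p : WittVector p k) * ∑ a, (c1 a : WittVector p k) * WittVector.teichmuller p (γ a) := by
      rw [Finset.mul_sum, ← Finset.sum_add_distrib]
      refine Finset.sum_congr rfl fun a _ => ?_
      rw [Nat.cast_add, Nat.cast_mul, add_mul, mul_assoc]
    rw [e, add_assoc, pow_succ', mul_assoc, ← mul_add, ← hy]
    exact hz

theorem final1_scale {ι : Type*} (w : ι → WittVector p k) (hw : w ≠ 0) :
    ∃ (j : ℕ) (w' : ι → WittVector p k), (∀ i, w i = (p : WittVector p k) ^ j * w' i) ∧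
      ∃ i, ¬ (p : WittVector p k) ∣ w' i := by
  classical
  have hp0 : (p : WittVector p k) ≠ 0 := WittVector.p_nonzero p k
  have hex : ∃ j : ℕ, ∃ i, ¬ (p : WittVector p k) ^ (j + 1) ∣ w i := by
    obtain ⟨i, hi⟩ := Function.ne_iff.1 hw
    obtain ⟨m, b, hb, hm⟩ := WittVector.exists_eq_pow_p_mul (w i) hi
    refine ⟨m, i, fun hd => hb ?_⟩
    rw [hm, pow_succ, mul_dvd_mul_iff_left (pow_ne_zero _ hp0)] at hd
    exact (final1_p_dvd b).1 hd
  obtain ⟨i0, hi0⟩ := Nat.find_spec hex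
  have hall : ∀ i, (p : WittVector p k) ^ Nat.find hex ∣ w i := by
    intro i
    rcases Nat.eq_zero_or_pos (Nat.find hex) with h0 | h0
    · rw [h0, pow_zero]
      exact one_dvd _
    · have h1 := Nat.find_min hex (show Nat.find hex - 1 < Nat.find hex by omega)
      rw [show Nat.find hex - 1 + 1 = Nat.find hex by omega] at h1
      by_contra h2
      exact h1 ⟨i, h2⟩
  choose w' hw' using hall
  refine ⟨_, w', hw', i0, fun hd => hi0 ?_⟩
  rw [hw' i0, pow_succ]
  exact mul_dvd_mul_left _ hd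

end witt

theorem final1_window (p : ℕ) (hp : 2 ≤ p) (hn : 1 ≤ n) {w₀ M b : ℝ} (hw₀ : 0 < w₀) (hM : M < 1)
    (hb : 0 < b) (hb1 : b < 1) : ∃ k1 k2 : ℤ, ∀ σ : ℝ, w₀ ≤ σ → σ ≤ M → ∃ κ0 : ℤ, k1 ≤ κ0 ∧ κ0 ≤ k2 ∧
      ∀ j : ℕ, j + 2 ≤ n → (σ ^ ((p : ℝ) ^ (κ0 + j))) ^ (p ^ n - 1) < b ∧
        b ^ p ^ n < (σ ^ ((p : ℝ) ^ (κ0 + j))) ^ (p ^ n - 1) := by
  by_cases hwM : w₀ ≤ M
  swap
  · exact ⟨0, 0, fun σ h1 h2 => absurd (h1.trans h2) hwM⟩
  have hp1 : (1 : ℝ) < p := by exact_mod_cast hp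
  have hp0 : (0 : ℝ) < p := by linarith
  have hq : 2 ≤ p ^ n := hp.trans (Nat.le_self_pow (by omega) p)
  set Q : ℝ := ((p ^ n - 1 : ℕ) : ℝ) with hQ
  have hQ0 : 0 < Q := by
    rw [hQ]
    exact_mod_cast (show 0 < p ^ n - 1 by omega)
  have hB : 0 < -Real.log b := neg_pos.2 (Real.log_neg hb hb1)
  have hlog : ∀ σ : ℝ, w₀ ≤ σ → σ ≤ M → 0 < -Real.log σ := fun σ h1 h2 =>
    neg_pos.2 (Real.log_neg (by linarith) (by linarith))
  have ha1 := hlog w₀ le_rfl hwM
  have ha2 := hlog M hwM le_rfl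
  obtain ⟨k1, hk1, -⟩ := exists_mem_Ico_zpow (div_pos hB (mul_pos hQ0 ha1)) hp1
  obtain ⟨k2, -, hk2⟩ := exists_mem_Ico_zpow (div_pos hB (mul_pos hQ0 ha2)) hp1
  refine ⟨k1 + 1, k2 + 1, fun σ h1 h2 => ?_⟩
  have hσ : 0 < σ := by linarith
  have ha := hlog σ h1 h2
  obtain ⟨k, hk, hk'⟩ := exists_mem_Ico_zpow (div_pos hB (mul_pos hQ0 ha)) hp1
  have l1 : -Real.log σ ≤ -Real.log w₀ := neg_le_neg (Real.log_le_log hw₀ h1)
  have l2 : -Real.log M ≤ -Real.log σ := neg_le_neg (Real.log_le_log hσ h2)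
  refine ⟨k + 1, ?_, ?_, fun j hj => ?_⟩
  · have h3 : (p : ℝ) ^ k1 < (p : ℝ) ^ (k + 1) := by
      refine lt_of_le_of_lt (hk1.trans ?_) hk'
      exact div_le_div_of_nonneg_left hB.le (mul_pos hQ0 ha) (mul_le_mul_of_nonneg_left l1 hQ0.le)
    have := (zpow_lt_zpow_iff_right₀ hp1).1 h3
    omega
  · have h3 : (p : ℝ) ^ k < (p : ℝ) ^ (k2 + 1) := by
      refine lt_of_le_of_lt (hk.trans ?_) hk2
      exact div_le_div_of_nonneg_left hB.le (mul_pos hQ0 ha2) (mul_le_mul_of_nonneg_left l2 hQ0.le)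
    have := (zpow_lt_zpow_iff_right₀ hp1).1 h3
    omega
  · have hρ : 0 < (σ ^ ((p : ℝ) ^ (k + 1 + j))) ^ (p ^ n - 1) :=
      pow_pos (Real.rpow_pos_of_pos hσ _) _
    have e : Real.log ((σ ^ ((p : ℝ) ^ (k + 1 + j))) ^ (p ^ n - 1)) =
        -((p : ℝ) ^ (k + 1 + j) * (Q * -Real.log σ)) := by
      rw [Real.log_pow, Real.log_rpow hσ, ← hQ]
      ring
    rw [le_div_iff₀ (mul_pos hQ0 ha)] at hk
    rw [div_lt_iff₀ (mul_pos hQ0 ha)] at hk'
    constructor
    · rw [← Real.log_lt_log_iff hρ hb, e]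
      have h3 : (p : ℝ) ^ (k + 1) ≤ (p : ℝ) ^ (k + 1 + j) :=
        zpow_le_zpow_right₀ hp1.le (by omega)
      have h4 := mul_le_mul_of_nonneg_right h3 (mul_pos hQ0 ha).le
      linarith
    · rw [← Real.log_lt_log_iff (pow_pos hb _) hρ, e, Real.log_pow]
      have h3 : (p : ℝ) ^ (k + 1 + j) = (p : ℝ) ^ (j + 1) * (p : ℝ) ^ k := by
        rw [← zpow_natCast, ← zpow_add₀ hp0.ne']
        congr 1
        push_cast
        ring
      have h4 : (p : ℝ) ^ (j + 1) < (p : ℝ) ^ n := pow_lt_pow_right₀ hp1 (by omega)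
      have h5 := mul_le_mul_of_nonneg_left hk (pow_pos hp0 (j + 1)).le
      have h6 := mul_lt_mul_of_pos_right h4 hB
      rw [h3]
      push_cast
      linarith

theorem final1_sq_lt {b ρ : ℝ} {q : ℕ} (hq : 2 ≤ q) (hb : 0 < b) (hb1 : b < 1) (hρ : 0 ≤ ρ)
    (h : b ^ q < ρ ^ (q - 1)) : b ^ 2 < ρ := by
  by_contra h1
  push Not at h1
  have h2 : ρ ^ (q - 1) ≤ (b ^ 2) ^ (q - 1) := pow_le_pow_left₀ hρ h1 _
  rw [← pow_mul] at h2
  have h3 : b ^ (2 * (q - 1)) ≤ b ^ q := pow_le_pow_of_le_one hb.le hb1.le (by omega)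
  linarith

theorem final1_norm_sum_lt {K : Type*} [NormedField K] [IsUltrametricDist K] {ι : Type*}
    (t : Finset ι) (f : ι → K) {ρ : ℝ} (hρ : 0 < ρ) (hf : ∀ i ∈ t, ‖f i‖ < ρ) :
    ‖∑ i ∈ t, f i‖ < ρ := by
  classical
  induction t using Finset.induction_on with
  | empty => simpa using hρ
  | insert a t ha ih =>
    rw [Finset.sum_insert ha]
    exact (IsUltrametricDist.norm_add_le_max _ _).trans_lt (max_lt
      (hf a (Finset.mem_insert_self _ _)) (ih fun i hi => hf i (Finset.mem_insert_of_mem hi)))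

end Crest.Agent.R227.K
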