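import Crest.Agent.R227.K.OC

/-! Row 227, task `R227/K/Untilt`: an untilt. -/

set_option autoImplicit false

namespace Crest.Agent.R227.K

/-- A real valuation on a ring is induced by a map to a complete nonarchimedean field. -/
theorem untilt_field {A : Type} [CommRing A] (v : Valuation A NNReal) :
    ∃ (K : Type) (_ : NormedField K) (_ : IsUltrametricDist K) (_ : CompleteSpace K)
      (s : A →+* K), ∀ a, ‖s a‖ = v a := by
  let B := A ⧸ v.supp
  let F := FractionRing B
  have hS : nonZeroDivisors B ≤ (v.onQuot le_rfl).supp.primeCompl := fun x hx hx' => by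
    have h : x ∈ (v.onQuot le_rfl).supp := hx'
    rw [Valuation.supp_quot_supp] at h
    exact nonZeroDivisors.ne_zero hx h
  let w : Valuation F NNReal := (v.onQuot le_rfl).extendToLocalization hS F
  let ab : AbsoluteValue F ℝ :=
    { toFun := fun x => w x
      map_mul' := fun x y => by rw [map_mul, NNReal.coe_mul]
      nonneg' := fun x => (w x).2
      eq_zero' := fun x => by rw [NNReal.coe_eq_zero, Valuation.zero_iff]
      add_le' := fun x y => by
        have h : w (x + y) ≤ w x + w y := (w.map_add x y).trans (max_le le_self_add le_add_self)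
        exact_mod_cast h }
  let : NormedField F := ab.toNormedField
  have hn : ∀ x : F, ‖x‖ = w x := fun _ => rfl
  have hu : ∀ x y : F, ‖x + y‖ ≤ max ‖x‖ ‖y‖ := fun x y => by
    rw [hn, hn, hn]
    exact_mod_cast w.map_add x y
  have : IsUltrametricDist F := IsUltrametricDist.isUltrametricDist_of_forall_norm_add_le_max_norm hu
  have hK : IsUltrametricDist (UniformSpace.Completion F) := by
    refine IsUltrametricDist.isUltrametricDist_of_forall_norm_add_le_max_norm fun x y => ?_
    induction x, y using UniformSpace.Completion.induction_on₂ with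
    | hp => exact isClosed_le (by fun_prop) (by fun_prop)
    | ih a b =>
      rw [← UniformSpace.Completion.coe_add, UniformSpace.Completion.norm_coe,
        UniformSpace.Completion.norm_coe, UniformSpace.Completion.norm_coe]
      exact hu a b
  refine ⟨UniformSpace.Completion F, inferInstance, hK, inferInstance,
    (UniformSpace.Completion.coeRingHom.comp (algebraMap B F)).comp (Ideal.Quotient.mk _), fun a => ?_⟩
  change ‖((algebraMap B F (Ideal.Quotient.mk _ a) : F) : UniformSpace.Completion F)‖ = _
  rw [UniformSpace.Completion.norm_coe, hn, Valuation.extendToLocalization_apply_map_apply]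
  rfl

section

open WittVector

variable {C : Type} [NormedField C] [IsUltrametricDist C] [IsAlgClosed C] {p : ℕ} [Fact p.Prime]
  [CharP C p]

omit [IsAlgClosed C] in
theorem untilt_isUnit {w : WittVector p (O C)} (h : IsUnit (w.coeff 0)) : IsUnit w :=
  (WittVector.mkUnit (a := h.unit) (A := w) rfl).isUnit

omit [IsAlgClosed C] in
theorem untilt_isUnit_add {u w : WittVector p (O C)} (hu : IsUnit u) {d : O C} (hd : nm d < 1) :
    IsUnit (u + teichmuller p d * w) := by
  refine untilt_isUnit ?_
  have h1 : IsUnit (u.coeff 0) := hu.map (constantCoeff : WittVector p (O C) →+* O C)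
  rw [add_coeff_zero, mul_coeff_zero, teichmuller_coeff_zero, isUnit_iff_nm]
  rw [isUnit_iff_nm] at h1
  have h2 : nm (d * w.coeff 0) < nm (u.coeff 0) := by
    rw [h1, nm_mul]
    exact (mul_le_of_le_one_right (nm_nonneg _) (nm_le_one _)).trans_lt hd
  rw [← h1]
  exact IsUltrametricDist.norm_add_eq_max_of_norm_ne_norm (x := ((u.coeff 0 : O C) : C))
    (y := ((d * w.coeff 0 : O C) : C)) h2.ne' |>.trans (max_eq_left h2.le)

theorem untilt_p_dvd {w : WittVector p (O C)} (h : w.coeff 0 = 0) : ∃ w', w = p * w' :=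
  Ideal.mem_span_singleton.1 ((mem_span_p_iff_coeff_zero_eq_zero w).2 h)

theorem untilt_split (z : WittVector p (O C)) : ∃ z', z = teichmuller p (z.coeff 0) + p * z' := by
  obtain ⟨z', hz⟩ := untilt_p_dvd (w := z - teichmuller p (z.coeff 0)) (by
    rw [← constantCoeff_apply, map_sub, constantCoeff_apply, constantCoeff_apply,
      teichmuller_coeff_zero, sub_self])
  exact ⟨z', by rw [← hz]; ring⟩

/-- `[c] ∈ (p - [ϖ])` forces `c = 0` -/
theorem untilt_eq_zero {ϖ : O C} (h1 : nm ϖ < 1) {c : O C}
    (h : (p : WittVector p (O C)) - teichmuller p ϖ ∣ teichmuller p c) : c = 0 := by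
  have key : ∀ (r : ℕ) (c : O C), (p : WittVector p (O C)) - teichmuller p ϖ ∣ teichmuller p c →
      nm c ≤ nm ϖ ^ r := by
    intro r
    induction r with
    | zero => intro c _; simpa using nm_le_one c
    | succ r ih =>
      rintro c ⟨a, ha⟩
      have h2 : c = ϖ * -a.coeff 0 := by
        have := congrArg (constantCoeff : WittVector p (O C) →+* O C) ha
        rw [map_mul, map_sub, map_natCast, CharP.cast_eq_zero, constantCoeff_apply,
          constantCoeff_apply, constantCoeff_apply, teichmuller_coeff_zero,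
          teichmuller_coeff_zero] at this
        rw [this]; ring
      have h3 : (a + teichmuller p (-a.coeff 0)).coeff 0 = 0 := by
        rw [add_coeff_zero, teichmuller_coeff_zero, add_neg_cancel]
      obtain ⟨b, hb⟩ := untilt_p_dvd h3
      rw [h2, map_mul] at ha
      have h4 : a = teichmuller p ϖ * b := by
        refine mul_left_cancel₀ (p_nonzero p (O C)) ?_
        linear_combination -ha + teichmuller p ϖ * hb
      have h5 : teichmuller p (-a.coeff 0) = (p - teichmuller p ϖ) * b := by
        linear_combination hb - h4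
      rw [h2, nm_mul, pow_succ']
      exact mul_le_mul_of_nonneg_left (ih _ ⟨b, h5⟩) (nm_nonneg _)
  rw [← nm_eq_zero]
  exact le_antisymm (ge_of_tendsto' (tendsto_pow_atTop_nhds_zero_of_lt_one (nm_nonneg ϖ) h1)
    fun r => key r c h) (nm_nonneg c)

omit [IsAlgClosed C] in
/-- if `[c] ≡ [c'] w` modulo an ideal that contains no nonzero Teichmüller lift then `‖c‖ ≤ ‖c'‖` -/
theorem untilt_le {J : Ideal (WittVector p (O C))} (hJ : ∀ c, teichmuller p c ∈ J → c = 0)
    {c c' : O C} {u w : WittVector p (O C)} (hu : IsUnit u)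
    (h : teichmuller p c * u - teichmuller p c' * w ∈ J) : nm c ≤ nm c' := by
  by_contra hlt
  rw [not_le] at hlt
  obtain ⟨d, rfl⟩ := dvd_of_nm_le hlt.le
  have hc : 0 < nm c := (nm_nonneg _).trans_lt hlt
  have hd : nm d < 1 := by
    rw [nm_mul] at hlt
    exact (mul_lt_iff_lt_one_right hc).1 hlt
  have h2 : teichmuller p c * (u + teichmuller p d * -w) ∈ J := by
    rw [map_mul] at h
    convert h using 1; ring
  rw [Ideal.mul_unit_mem_iff_mem _ (untilt_isUnit_add hu hd)] at h2
  exact hc.ne' (nm_eq_zero.2 (hJ c h2))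

variable (p) in
/-- the closure of the ideal generated by `p - [ϖ]` -/
noncomputable def untiltJ (ϖ : O C) : Ideal (WittVector p (O C)) :=
  ⨅ r : ℕ, Ideal.span {(p : WittVector p (O C)) - teichmuller p ϖ} ⊔
    Ideal.span {teichmuller p (ϖ ^ r)}

theorem untiltJ_eq_zero {ϖ : O C} (h1 : nm ϖ < 1) (c : O C)
    (h : teichmuller p c ∈ untiltJ p ϖ) : c = 0 := by
  rw [← nm_eq_zero]
  refine le_antisymm (ge_of_tendsto' (tendsto_pow_atTop_nhds_zero_of_lt_one (nm_nonneg ϖ) h1)
    fun r => ?_) (nm_nonneg c)
  obtain ⟨x, hx, y, hy, hxy⟩ := Submodule.mem_sup.1 (Ideal.mem_iInf.1 h r)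
  obtain ⟨w, rfl⟩ := Ideal.mem_span_singleton.1 hy
  rw [← nm_pow]
  refine untilt_le (J := Ideal.span {(p : WittVector p (O C)) - teichmuller p ϖ})
    (fun c hc => untilt_eq_zero h1 (Ideal.mem_span_singleton.1 hc)) (w := w) isUnit_one ?_
  rwa [← hxy, mul_one, add_sub_cancel_right]

theorem untilt_exists (ϖ : O C) (z : WittVector p (O C)) :
    ∃ (c : O C) (u : WittVector p (O C)), IsUnit u ∧ z - teichmuller p c * u ∈ untiltJ p ϖ := by
  by_contra hne
  push Not at hne
  refine hne 0 1 isUnit_one ?_
  rw [teichmuller_zero, zero_mul, sub_zero]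
  refine Ideal.mem_iInf.2 fun r => ?_
  have key : ∃ w, z - teichmuller p (ϖ ^ r) * w ∈
      Ideal.span {(p : WittVector p (O C)) - teichmuller p ϖ} := by
    induction r with
    | zero => exact ⟨z, by simp⟩
    | succ r ih =>
      obtain ⟨w, hw⟩ := ih
      obtain ⟨w', hw'⟩ := untilt_split w
      have h2 : z - teichmuller p (ϖ ^ r) * (teichmuller p (w.coeff 0) + teichmuller p ϖ * w') ∈
          Ideal.span {(p : WittVector p (O C)) - teichmuller p ϖ} := by
        have := Ideal.add_mem _ hw (Ideal.mul_mem_left _ (teichmuller p (ϖ ^ r) * w')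
          (Ideal.mem_span_singleton_self ((p : WittVector p (O C)) - teichmuller p ϖ)))
        convert this using 1
        linear_combination (teichmuller p (ϖ ^ r)) * hw'
      rcases le_or_gt (nm (w.coeff 0)) (nm ϖ) with h | h
      · obtain ⟨d, hd⟩ := dvd_of_nm_le h
        refine ⟨teichmuller p d + w', ?_⟩
        rw [hd, map_mul] at h2
        rw [pow_succ, map_mul]
        convert h2 using 1; ring
      · obtain ⟨d, hd⟩ := dvd_of_nm_le h.le
        have hd1 : nm d < 1 := by
          rw [hd, nm_mul] at h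
          exact (mul_lt_iff_lt_one_right ((mul_nonneg (nm_nonneg _) (nm_nonneg _)).trans_lt h)).1 h
        refine absurd (Ideal.mem_iInf.2 fun r' => Ideal.mem_sup_left ?_)
          (hne (ϖ ^ r * w.coeff 0) (1 + teichmuller p d * w') (untilt_isUnit_add isUnit_one hd1))
        have h3 : teichmuller p ϖ = teichmuller p (w.coeff 0) * teichmuller p d := by
          rw [← map_mul, ← hd]
        rw [map_mul]
        convert h2 using 1
        rw [h3]; ring
  obtain ⟨w, hw⟩ := key
  have := Ideal.add_mem _ (Ideal.mem_sup_left (T := Ideal.span {teichmuller p (ϖ ^ r)}) hw)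
    (Ideal.mem_sup_right (Ideal.mul_mem_right w _ (Ideal.mem_span_singleton_self _)))
  rwa [sub_add_cancel] at this

theorem untilt_valuation {ϖ : O C} (h1 : nm ϖ < 1) :
    ∃ v : Valuation (WittVector p (O C)) NNReal, ∀ (z : WittVector p (O C)) (c : O C)
      (u : WittVector p (O C)), IsUnit u → z - teichmuller p c * u ∈ untiltJ p ϖ →
        (v z : ℝ) = nm c := by
  choose c u hu hz using untilt_exists (p := p) ϖ
  have key : ∀ (z : WittVector p (O C)) (c' : O C) (u' : WittVector p (O C)), IsUnit u' →
      z - teichmuller p c' * u' ∈ untiltJ p ϖ → nm (c z) = nm c' := fun z c' u' hu' h =>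
    le_antisymm
      (untilt_le (untiltJ_eq_zero h1) (w := u') (hu z) (by
        convert Ideal.sub_mem _ h (hz z) using 1; ring))
      (untilt_le (untiltJ_eq_zero h1) (w := u z) hu' (by
        convert Ideal.sub_mem _ (hz z) h using 1; ring))
  have add : ∀ x y : WittVector p (O C), nm (c y) ≤ nm (c x) → nm (c (x + y)) ≤ nm (c x) := by
    intro x y h
    obtain ⟨d, hd⟩ := dvd_of_nm_le h
    refine untilt_le (untiltJ_eq_zero h1) (w := u x + teichmuller p d * u y) (hu (x + y)) ?_
    have h2 := hz y
    rw [hd, map_mul] at h2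
    convert Ideal.sub_mem _ (Ideal.add_mem _ (hz x) h2) (hz (x + y)) using 1; ring
  refine ⟨{ toFun := fun z => ‖(c z : C)‖₊
            map_zero' := NNReal.eq ((key 0 0 1 isUnit_one (by simp)).trans (nm_eq_zero.2 rfl))
            map_one' := NNReal.eq ((key 1 1 1 isUnit_one (by simp)).trans (by simp [nm]))
            map_mul' := fun x y => NNReal.eq
              ((key (x * y) (c x * c y) (u x * u y) ((hu x).mul (hu y)) ?_).trans (nm_mul _ _))
            map_add_le_max' := fun x y => ?_ }, key⟩
  · rw [map_mul]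
    convert Ideal.add_mem _ (Ideal.mul_mem_right y _ (hz x))
      (Ideal.mul_mem_left _ (teichmuller p (c x) * u x) (hz y)) using 1
    ring
  · rcases le_total (nm (c y)) (nm (c x)) with h | h
    · exact le_max_of_le_left (add x y h)
    · rw [add_comm]; exact le_max_of_le_right (add y x h)

end

/-- `A = W (O) ⧸ (p - [ϖ])` is `p`-torsion free, `p`-adically separated (`ξ = p - [ϖ]` is a nonzero
divisor modulo `p ^ r`, so the cofactors converge) and complete, `A ⧸ p = O ⧸ ϖ`.  Every nonzero
`z` is `p ^ r z'` with `z' = c♯ + p w`, `‖c‖ > ‖ϖ‖`, so `z = (ϖ ^ r c)♯ * unit`; `c♯ ∣ c'♯ ↔ c ∣ c'`.  So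
`A` is a domain and `‖c♯ * unit‖ := ‖c‖` is a multiplicative ultrametric norm; take the completion
of the fraction field (or show that it is complete). -/
theorem exists_untilt {C : Type} [NormedField C] [IsUltrametricDist C] [CompleteSpace C]
    [IsAlgClosed C] (p : ℕ) [Fact p.Prime] [CharP C p] (ϖ : O C) (h0 : ϖ ≠ 0) (h1 : nm ϖ < 1) :
    ∃ (K : Type) (_ : NormedField K) (_ : IsUltrametricDist K) (_ : CompleteSpace K)
      (s : WittVector p (O C) →+* O K),
      ‖(p : K)‖ = nm ϖ ∧ ∀ x, nm (s (WittVector.teichmuller p x)) = nm x := by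
  obtain ⟨v, hv⟩ := untilt_valuation (p := p) h1
  obtain ⟨K, _, _, _, s, hs⟩ := untilt_field v
  have hle : ∀ z, s z ∈ O K := fun z => by
    obtain ⟨c, u, hu, hz⟩ := untilt_exists (p := p) ϖ z
    rw [mem_O, hs, hv z c u hu hz]
    exact nm_le_one c
  refine ⟨K, inferInstance, inferInstance, inferInstance, s.codRestrict (O K) hle, ?_, fun x => ?_⟩
  · rw [← map_natCast s, hs]
    refine hv _ ϖ 1 isUnit_one (Ideal.mem_iInf.2 fun r => Ideal.mem_sup_left ?_)
    rw [mul_one]
    exact Ideal.mem_span_singleton_self _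
  · exact (hs _).trans (hv _ x 1 isUnit_one (by simp))

end Crest.Agent.R227.K
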