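import Crest.Agent.R227.K.Lz2
import Crest.Agent.R227.K.Untilt
import Crest.Agent.R227.K.Final1Aux

/-! Row 227, task `R227/K/Final1`: no linear relation holds on the orbit. -/

set_option autoImplicit false

namespace Crest.Agent.R227.K

open MvPowerSeries Crest.LubinTate
open scoped BigOperators

variable {C : Type} [NormedField C] [IsUltrametricDist C] [IsAlgClosed C] [CompleteSpace C]
  {p : ℕ} [Fact p.Prime] [CharP C p] {n h : ℕ}

section untilt

variable {K : Type*} [NormedField K] [IsUltrametricDist K] [CompleteSpace K] {ϖ : O C}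
  {s : WittVector p (O C) →+* O K}

omit [CompleteSpace C] [CompleteSpace K] in
theorem final1_sharp_inj (hs : IsUntilt ϖ s) {F : Type*} [Field F] (φ : F →+* O C) :
    Function.Injective fun β => (sharp s (φ β) : K) := by
  intro β β' hβ
  by_contra hne
  have h1 : nm (φ (β - β')) = 1 :=
    isUnit_iff_nm.1 ((Ne.isUnit (sub_ne_zero.2 hne)).map φ)
  have h2 := hs.nm_sub_sharp (WittVector.teichmuller p (φ β) - WittVector.teichmuller p (φ β'))
  have h3 : s (WittVector.teichmuller p (φ β) - WittVector.teichmuller p (φ β')) = 0 := by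
    rw [map_sub, sub_eq_zero]
    exact Subtype.ext hβ
  rw [h3, zero_sub, nm_neg, hs.nm_sharp, map_sub, WittVector.constantCoeff_apply,
    WittVector.constantCoeff_apply, WittVector.teichmuller_coeff_zero,
    WittVector.teichmuller_coeff_zero, ← map_sub, h1] at h2
  exact absurd hs.lt (not_lt.2 h2)

omit [IsAlgClosed C] [CharP C p] in
theorem final1_nm_sum {ι : Type*} (t : Finset ι) (c : ι → ℕ) (Y : ι → Wp C p n) {M : ℝ}
    (hM : 0 ≤ M) (hY : ∀ i, nm (Y i).1 ≤ M) : nm (∑ i ∈ t, c i • Y i).1 ≤ M := by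
  have hadd : ∀ x y : Wp C p n, nm x.1 ≤ M → nm y.1 ≤ M → nm (x + y).1 ≤ M := fun x y hx hy =>
    (nm_fadd_le _ x.2 y.2).trans (max_le hx hy)
  have h0 : nm (0 : Wp C p n).1 ≤ M := by simpa [nm] using hM
  refine Finset.sum_induction _ (fun x : Wp C p n => nm x.1 ≤ M) hadd h0 fun i _ => ?_
  induction c i with
  | zero => rw [zero_smul]; exact h0
  | succ m ih => rw [succ_nsmul]; exact hadd _ _ ih (hY i)

omit [CompleteSpace C] in
/-- for one of `h` consecutive exponents there is no cancellation -/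
theorem final1_nocancel (hh : 1 ≤ h) (φ : GaloisField p h →+* O C) (γ : Fin h → GaloisField p h)
    (hγ : ∀ β, ∃ c : Fin h → ℕ, β = ∑ a, (c a : GaloisField p h) * γ a) (T : Fin h → O C)
    (a0 : Fin h) (h0 : 0 < nm (T a0)) (κ0 : ℤ) : ∃ j : ℕ, j < h ∧
      nm (T a0) ^ ((p : ℝ) ^ (κ0 + j)) ≤ nm (∑ a, φ (γ a) * frz C p (κ0 + j) (T a)) := by
  by_contra hc
  push Not at hc
  have hp0 : (0 : ℝ) < p := by exact_mod_cast (Fact.out : p.Prime).pos
  obtain ⟨N, hN⟩ := final1_moore hh γ hγ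
  set U : Fin h → O C := fun a => frz C p (κ0 + (h - 1 : ℕ)) (T a) with hU
  have h1 : ∀ c : Fin h, nm (∑ a, φ (γ a) ^ p ^ (c : ℕ) * U a) < nm (U a0) := by
    intro c
    have hc' := c.2
    have e : κ0 + (h - 1 : ℕ) = (c : ℕ) + (κ0 + (h - 1 - c : ℕ)) := by omega
    have e1 : ∑ a, φ (γ a) ^ p ^ (c : ℕ) * U a =
        frz C p (c : ℕ) (∑ a, φ (γ a) * frz C p (κ0 + (h - 1 - c : ℕ)) (T a)) := by
      rw [map_sum]
      refine Finset.sum_congr rfl fun a _ => ?_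
      rw [map_mul, ← frz_add, ← e, frz_natCast]
    have e2 : U a0 = frz C p (c : ℕ) (frz C p (κ0 + (h - 1 - c : ℕ)) (T a0)) := by
      rw [← frz_add, ← e]
    rw [e1, e2, frz_natCast, frz_natCast, nm_pow, nm_pow, nm_frz]
    exact pow_lt_pow_left₀ (hc _ (by omega)) (nm_nonneg _) (pow_ne_zero _ (Fact.out : p.Prime).ne_zero)
  have h2 : U a0 = ∑ c : Fin h, φ (N a0 c) * ∑ a, φ (γ a) ^ p ^ (c : ℕ) * U a := by
    simp only [Finset.mul_sum]
    rw [Finset.sum_comm]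
    have h3 : ∀ a, ∑ c : Fin h, φ (N a0 c) * (φ (γ a) ^ p ^ (c : ℕ) * U a) =
        if a0 = a then U a else 0 := by
      intro a
      calc ∑ c : Fin h, φ (N a0 c) * (φ (γ a) ^ p ^ (c : ℕ) * U a)
          = φ (∑ c : Fin h, N a0 c * γ a ^ p ^ (c : ℕ)) * U a := by
            rw [map_sum, Finset.sum_mul]
            exact Finset.sum_congr rfl fun c _ => by rw [map_mul, map_pow, mul_assoc]
        _ = _ := by
            rw [hN]
            split_ifs <;> simp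
    simp only [h3, Finset.sum_ite_eq, Finset.mem_univ, if_true]
  have h4 : 0 < nm (U a0) := by
    rw [hU]
    simp only [nm_frz]
    exact Real.rpow_pos_of_pos h0 _
  have h5 : ‖∑ c : Fin h, ((φ (N a0 c) * ∑ a, φ (γ a) ^ p ^ (c : ℕ) * U a : O C) : C)‖ <
      nm (U a0) := by
    refine final1_norm_sum_lt _ _ h4 fun c _ => ?_
    refine lt_of_le_of_lt ?_ (h1 c)
    change nm _ ≤ _
    rw [nm_mul]
    exact mul_le_of_le_one_left (nm_nonneg _) (nm_le_one _)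
  rw [← AddSubmonoidClass.coe_finsetSum, ← h2] at h5
  exact lt_irrefl _ h5

omit [CompleteSpace C] in
/-- the leading term of a combination of logarithms -/
theorem final1_lower (hs : IsUntilt ϖ s) (hn : 1 ≤ n) {A : Type*} [Fintype A] (g Z : A → O C)
    {ρ : ℝ} (hρ : 0 < ρ) (h1 : ρ ^ (p ^ n - 1) < nm ϖ) (h2 : nm ϖ ^ p ^ n < ρ ^ (p ^ n - 1))
    (hZ : ∀ a, nm (Z a) ≤ ρ) (hsum : ρ ≤ nm (∑ a, g a * Z a)) :
    ρ ≤ ‖∑ a, (sharp s (g a) : K) * Lz s n (Z a)‖ := by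
  by_contra hlt
  push Not at hlt
  have e1 := hs.nm_sharp_sum Finset.univ (fun a => g a * Z a) hρ.le fun a _ => by
    rw [nm_mul]
    exact (mul_le_of_le_one_left (nm_nonneg _) (nm_le_one _)).trans (hZ a)
  have e2 : ‖((sharp s (∑ a, g a * Z a) - ∑ a, sharp s (g a * Z a) : O K) : K)‖ < ρ :=
    e1.trans_lt (mul_lt_of_lt_one_left hρ hs.lt)
  have e3 : ‖∑ a, (sharp s (g a) : K) * ((sharp s (Z a) : K) - Lz s n (Z a))‖ < ρ := by
    refine final1_norm_sum_lt _ _ hρ fun a _ => ?_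
    rw [norm_mul, norm_sub_rev]
    exact (mul_le_of_le_one_left (norm_nonneg _) (nm_le_one _)).trans_lt
      (hs.lead hn hρ h1 h2 (hZ a))
  have e4 : (sharp s (∑ a, g a * Z a) : K) =
      ((sharp s (∑ a, g a * Z a) - ∑ a, sharp s (g a * Z a) : O K) : K) +
        (∑ a, (sharp s (g a) : K) * ((sharp s (Z a) : K) - Lz s n (Z a)) +
          ∑ a, (sharp s (g a) : K) * Lz s n (Z a)) := by
    rw [← Finset.sum_add_distrib, AddSubgroupClass.coe_sub, AddSubmonoidClass.coe_finsetSum,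
      sub_add, eq_comm, sub_eq_self, sub_eq_zero]
    refine Finset.sum_congr rfl fun a _ => ?_
    rw [sharp_mul, MulMemClass.coe_mul]
    ring
  have e5 : ‖(sharp s (∑ a, g a * Z a) : K)‖ < ρ := by
    rw [e4]
    exact (IsUltrametricDist.norm_add_le_max _ _).trans_lt (max_lt e2
      ((IsUltrametricDist.norm_add_le_max _ _).trans_lt (max_lt e3 hlt)))
  exact absurd (hs.nm_sharp _ ▸ e5) (not_lt.2 hsum)


/-- Dedekind: the characters `β ↦ (β♯) ^ p ^ c` (`c < n`) of `𝔽_q` are distinct -/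
theorem IsUntilt.fourier (hs : IsUntilt ϖ s) (hn : 1 ≤ n) (φ : GaloisField p n →+* O C)
    (a : Fin n → K) (ha : ∀ β, ∑ c : Fin n, (sharp s (φ β) : K) ^ p ^ (c : ℕ) * a c = 0) :
    a = 0 := by
  exact final1_ded hn _ (final1_sharp_inj hs φ) a ha

/-- independence over `W (𝔽_d) [1 / p]`.  Divide by `p` until some `w i` is a unit.  Let `γ a` be a
basis of `𝔽_d` over `𝔽_p`; modulo `p ^ r`, `w i ≡ ∑ a, c i a * [γ a]` with `c i a : ℕ`, not all
divisible by `p`; `T a = ∑ i, c i a • Y i`, `σ = max ‖T a‖ ∈ [w₀, max ‖Y i‖]`.  The window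
`‖ϖ‖ ^ q < ρ ^ (q - 1) < ‖ϖ‖` contains `ρ = σ ^ (p ^ κ)` for at least `n - 1 ≥ h` consecutive `κ`
in a range independent of `r`; since the matrix `(γ a ^ p ^ (-κ))` is invertible over `𝔽_d`, for one
such `κ` we have `‖∑ a, γ a * (T a) ^ p ^ κ‖ = ρ`; by `lead`, `nm_sharp_sum`, `Lz_sum` the norm of
`∑ a, (γ a)♯ * Lz ((T a) ^ p ^ κ)` is `ρ ≥ ‖ϖ‖ ^ 2`, but it is `O (‖p‖ ^ r)`. -/
theorem IsUntilt.indep (hs : IsUntilt ϖ s) (hh : 1 ≤ h) (hhn : h < n)
    (φ : GaloisField p h →+* O C) {ι : Type} [Fintype ι] (Y : ι → Wp C p n) {w₀ : ℝ}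
    (hw₀ : 0 < w₀) (hind : ∀ c : ι → ℕ, (∃ i, ¬ p ∣ c i) → w₀ ≤ nm (∑ i, c i • Y i).1)
    (w : ι → WittVector p (GaloisField p h))
    (hw : ∀ κ : ℤ, ∑ i, (s (WittVector.map φ (w i)) : K) * Lz s n (frz C p κ (Y i).1) = 0) :
    w = 0 := by
  classical
  by_contra hne
  have hn : 1 ≤ n := by omega
  have hb : 0 < nm ϖ := lt_of_le_of_ne (nm_nonneg _) fun h0 => hs.ne (nm_eq_zero.1 h0.symm)
  have hp2 : 2 ≤ p := (Fact.out : p.Prime).two_le
  obtain ⟨j0, w', hw', i0, hi0⟩ := final1_scale w hne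
  have hpK : (s (WittVector.map φ (p : WittVector p (GaloisField p h))) : K) = p := by
    rw [map_natCast, map_natCast]
    simp
  have hw2 : ∀ κ : ℤ,
      ∑ i, (s (WittVector.map φ (w' i)) : K) * Lz s n (frz C p κ (Y i).1) = 0 := by
    intro κ
    apply mul_left_cancel₀ (pow_ne_zero j0 hs.p_ne_zero)
    rw [mul_zero, ← hw κ, Finset.mul_sum]
    refine Finset.sum_congr rfl fun i _ => ?_
    rw [hw' i, map_mul, map_mul, map_pow, map_pow, MulMemClass.coe_mul, SubmonoidClass.coe_pow, hpK,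
      mul_assoc]
  obtain ⟨γ, hγ⟩ := final1_basis p hh
  obtain ⟨iM, -, hiM⟩ := Finset.exists_max_image Finset.univ (fun i => nm (Y i).1)
    ⟨i0, Finset.mem_univ _⟩
  obtain ⟨k1, k2, hwin⟩ := final1_window p hp2 hn hw₀ (mem_mO.1 (Y iM).2) hb hs.lt
  set B : ℝ := ∑ κ ∈ Finset.Icc k1 (k2 + h), ∑ i, ‖Lz s n (frz C p κ (Y i).1)‖ with hB
  have hB0 : 0 ≤ B := Finset.sum_nonneg fun _ _ => Finset.sum_nonneg fun _ _ => norm_nonneg _
  obtain ⟨r, hr⟩ := exists_pow_lt_of_lt_one (show 0 < nm ϖ ^ 2 / (B + 1) by positivity) hs.lt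
  choose c y hc using fun i => final1_approx γ hγ (r + 1) (w' i)
  have hnd : ∃ a, ¬ p ∣ c i0 a := by
    by_contra hall
    push Not at hall
    apply hi0
    rw [hc i0]
    refine dvd_add (Finset.dvd_sum fun a _ => Dvd.dvd.mul_right ?_ _) ?_
    · exact Nat.cast_dvd_cast (hall a)
    · exact Dvd.dvd.mul_right (dvd_pow_self _ (by omega)) _
  obtain ⟨a1, ha1⟩ := hnd
  set T : Fin h → Wp C p n := fun a => ∑ i, c i a • Y i with hT
  obtain ⟨a0, -, ha0⟩ := Finset.exists_max_image Finset.univ (fun a => nm (T a).1)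
    ⟨a1, Finset.mem_univ _⟩
  have hσ1 : w₀ ≤ nm (T a0).1 := (hind _ ⟨i0, ha1⟩).trans (ha0 a1 (Finset.mem_univ _))
  have hσ2 : nm (T a0).1 ≤ nm (Y iM).1 :=
    final1_nm_sum _ _ _ (nm_nonneg _) fun i => hiM i (Finset.mem_univ _)
  have hσ0 : 0 < nm (T a0).1 := hw₀.trans_le hσ1
  obtain ⟨κ0, hk1, hk2, hκ⟩ := hwin _ hσ1 hσ2
  obtain ⟨j, hj, hlow⟩ := final1_nocancel hh φ γ hγ (fun a => (T a).1) a0 hσ0 κ0
  obtain ⟨hw1, hw3⟩ := hκ j (by omega)
  have hρ : 0 < nm (T a0).1 ^ ((p : ℝ) ^ (κ0 + j)) := Real.rpow_pos_of_pos hσ0 _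
  have hL := final1_lower hs hn (fun a => φ (γ a)) (fun a => frz C p (κ0 + j) (T a).1) hρ hw1 hw3
    (fun a => by
      rw [nm_frz]
      exact Real.rpow_le_rpow (nm_nonneg _) (ha0 a (Finset.mem_univ _)) (by positivity)) hlow
  have hsq := final1_sq_lt (hp2.trans (Nat.le_self_pow (by omega) p)) hb hs.lt hρ.le hw3
  have e : ∑ a, (sharp s (φ (γ a)) : K) * Lz s n (frz C p (κ0 + j) (T a).1) =
      -((p : K) ^ (r + 1) *
        ∑ i, (s (WittVector.map φ (y i)) : K) * Lz s n (frz C p (κ0 + j) (Y i).1)) := by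
    rw [eq_neg_iff_add_eq_zero, ← hw2 (κ0 + j)]
    simp only [hT, hs.Lz_sum hn, Finset.mul_sum]
    rw [Finset.sum_comm, ← Finset.sum_add_distrib]
    refine Finset.sum_congr rfl fun i _ => ?_
    rw [hc i, map_add, map_add, map_mul, map_mul, map_pow, map_pow, map_sum, map_sum,
      AddMemClass.coe_add, MulMemClass.coe_mul, SubmonoidClass.coe_pow, hpK,
      AddSubmonoidClass.coe_finsetSum, add_mul, Finset.sum_mul, mul_assoc]
    congr 1
    refine Finset.sum_congr rfl fun a _ => ?_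
    rw [map_mul, map_mul, map_natCast, map_natCast, WittVector.map_teichmuller,
      MulMemClass.coe_mul, SubringClass.coe_natCast]
    simp only [sharp]
    ring
  have hup : ‖∑ i, (s (WittVector.map φ (y i)) : K) * Lz s n (frz C p (κ0 + j) (Y i).1)‖ ≤ B := by
    refine (norm_sum_le _ _).trans (le_trans ?_ (Finset.single_le_sum
      (f := fun κ : ℤ => ∑ i, ‖Lz s n (frz C p κ (Y i).1)‖)
      (fun _ _ => Finset.sum_nonneg fun _ _ => norm_nonneg _)
      (show κ0 + j ∈ Finset.Icc k1 (k2 + h) from Finset.mem_Icc.2 ⟨by omega, by omega⟩)))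
    refine Finset.sum_le_sum fun i _ => ?_
    rw [norm_mul]
    exact mul_le_of_le_one_left (norm_nonneg _) (nm_le_one _)
  rw [e, norm_neg, norm_mul, norm_pow, hs.norm_p] at hL
  rw [lt_div_iff₀ (by positivity)] at hr
  have h1 : nm ϖ ^ (r + 1) ≤ nm ϖ ^ r := pow_le_pow_of_le_one hb.le hs.lt.le (by omega)
  have h2 : nm ϖ ^ (r + 1) *
      ‖∑ i, (s (WittVector.map φ (y i)) : K) * Lz s n (frz C p (κ0 + j) (Y i).1)‖ ≤
      nm ϖ ^ r * (B + 1) := mul_le_mul h1 (by linarith) (norm_nonneg _) (by positivity)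
  linarith

/-- a nonzero value: take `ν` with `‖ν ^ (p ^ e)‖ ^ (2 (d - 1)) = ‖ϖ‖ ^ (3 d ^ t)`, use `Lz_frz`
and `lead` -/
theorem IsUntilt.exists_Lz_ne_zero (hs : IsUntilt ϖ s) (hh : 1 ≤ h) {ρ : ℝ} (hρ : 0 < ρ) (e : ℕ) :
    ∃ ν : Wp C p h, nm ν.1 ≤ ρ ∧ Lz s h (frz C p e ν.1) ≠ 0 := by
  have hb : 0 < nm ϖ := lt_of_le_of_ne (nm_nonneg _) fun h0 => hs.ne (nm_eq_zero.1 h0.symm)
  have hb1 := hs.lt
  have hp2 : 2 ≤ p := (Fact.out : p.Prime).two_le
  have hd : 2 ≤ p ^ h := hp2.trans (Nat.le_self_pow (by omega) p)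
  obtain ⟨z, hz⟩ := IsAlgClosed.exists_pow_nat_eq ((ϖ : C) ^ 3) (show 0 < (p ^ h - 1) * 2 by omega)
  have hz1 : (‖z‖ ^ (p ^ h - 1)) ^ 2 = nm ϖ ^ 3 := by
    rw [← pow_mul, ← norm_pow, hz, norm_pow]
  have h1 : ‖z‖ ^ (p ^ h - 1) < nm ϖ := by
    refine lt_of_pow_lt_pow_left₀ 2 hb.le ?_
    rw [hz1]
    exact pow_lt_pow_right_of_lt_one₀ hb hb1 (by norm_num)
  have h2 : nm ϖ ^ p ^ h < ‖z‖ ^ (p ^ h - 1) := by
    refine lt_of_pow_lt_pow_left₀ 2 (by positivity) ?_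
    rw [hz1, ← pow_mul]
    exact pow_lt_pow_right_of_lt_one₀ hb hb1 (by omega)
  have hz2 : ‖z‖ < 1 := by
    by_contra h3
    have := one_le_pow₀ (n := p ^ h - 1) (not_lt.1 h3)
    linarith
  have hz0 : 0 < ‖z‖ := by
    refine lt_of_le_of_ne (norm_nonneg _) fun h0 => ?_
    rw [← h0, zero_pow (by omega)] at h2
    exact absurd h2 (not_lt.2 (by positivity))
  let μ : O C := ⟨z, hz2.le⟩
  have hμ : Lz s h μ ≠ 0 := by
    intro h0
    have h3 := hs.lead hh hz0 h1 h2 (Y := μ) le_rfl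
    rw [h0, zero_sub, norm_neg] at h3
    exact h3.ne (hs.nm_sharp μ)
  obtain ⟨k0, hk0⟩ := exists_pow_lt_of_lt_one hρ hz2
  obtain ⟨k, hk, hkk⟩ : ∃ k : ℕ, e + k = h * (e + k0) ∧ k0 ≤ k :=
    ⟨h * (e + k0) - e, by have := Nat.le_mul_of_pos_left (e + k0) hh; omega,
      by have := Nat.le_mul_of_pos_left (e + k0) hh; omega⟩
  refine ⟨⟨frz C p k μ, frz_mem_mO p k (mem_mO.2 hz2)⟩, ?_, ?_⟩
  · change nm (frz C p k μ) ≤ ρ
    rw [frz_natCast, nm_pow]
    refine le_trans (pow_le_pow_of_le_one hz0.le hz2.le ?_) hk0.le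
    exact hkk.trans (Nat.lt_pow_self (by omega)).le
  · change Lz s h (frz C p e (frz C p k μ)) ≠ 0
    rw [← frz_add, show (e : ℤ) + k = h * ((e + k0 : ℕ) : ℤ) by exact_mod_cast hk, hs.Lz_frz]
    exact mul_ne_zero (zpow_ne_zero _ hs.p_ne_zero) hμ

end untilt

end Crest.Agent.R227.K
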