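import Crest.Agent.R227.K.HLog1

/-! Row 227, task `R227/K/HLog`: logarithms of formal group laws, integrality, the key congruence. -/

set_option autoImplicit false

namespace Crest.Agent.R227.K

open MvPowerSeries Crest.LubinTate
open scoped BigOperators

section integral

variable {A K : Type*} [CommRing A] [CommRing K] [Algebra A K] {σ τ : Type*} {I J : Ideal A}

theorem CoeffIn.add {f g : MvPowerSeries σ K} (hf : CoeffIn I f) (hg : CoeffIn I g) :
    CoeffIn I (f + g) := by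
  intro d
  obtain ⟨a, ha, h1⟩ := hf d
  obtain ⟨b, hb, h2⟩ := hg d
  exact ⟨a + b, I.add_mem ha hb, by rw [map_add, map_add, h1, h2]⟩

theorem CoeffIn.neg {f : MvPowerSeries σ K} (hf : CoeffIn I f) : CoeffIn I (-f) := by
  intro d
  obtain ⟨a, ha, h1⟩ := hf d
  exact ⟨-a, I.neg_mem ha, by rw [map_neg, map_neg, h1]⟩

theorem CoeffIn.sub {f g : MvPowerSeries σ K} (hf : CoeffIn I f) (hg : CoeffIn I g) :
    CoeffIn I (f - g) := by
  rw [sub_eq_add_neg]
  exact hf.add hg.neg

theorem CoeffIn.zero : CoeffIn I (0 : MvPowerSeries σ K) := by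
  exact fun d => ⟨0, I.zero_mem, by rw [map_zero, map_zero]⟩

theorem CoeffIn.sum {ι : Type*} (s : Finset ι) {f : ι → MvPowerSeries σ K}
    (hf : ∀ i ∈ s, CoeffIn I (f i)) : CoeffIn I (∑ i ∈ s, f i) := by
  exact Finset.sum_induction f (CoeffIn I) (fun _ _ => CoeffIn.add) CoeffIn.zero hf

theorem CoeffIn.mono {f : MvPowerSeries σ K} (hf : CoeffIn I f) (h : I ≤ J) : CoeffIn J f := by
  intro d
  obtain ⟨a, ha, h1⟩ := hf d
  exact ⟨a, h ha, h1⟩

theorem CoeffIn.mul {f g : MvPowerSeries σ K} (hf : CoeffIn I f) (hg : CoeffIn J g) :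
    CoeffIn (I * J) (f * g) := by
  classical
  choose a ha h1 using hf
  choose b hb h2 using hg
  intro d
  refine ⟨∑ x ∈ Finset.HasAntidiagonal.antidiagonal d, a x.1 * b x.2,
    Ideal.sum_mem _ fun x _ => Ideal.mul_mem_mul (ha _) (hb _), ?_⟩
  rw [coeff_mul, map_sum]
  exact Finset.sum_congr rfl fun x _ => by rw [map_mul, h1, h2]

theorem coeffIn_iff {f : MvPowerSeries σ K} :
    CoeffIn I f ↔ ∃ g : MvPowerSeries σ A, (∀ d, coeff d g ∈ I) ∧ g.map (algebraMap A K) = f := by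
  constructor
  · intro hf
    choose a ha h1 using hf
    exact ⟨a, ha, MvPowerSeries.ext fun d => h1 d⟩
  · rintro ⟨g, hg, rfl⟩ d
    exact ⟨coeff d g, hg d, (coeff_map _ _ _).symm⟩

theorem coeffIn_map (g : MvPowerSeries σ A) : CoeffIn (⊤ : Ideal A) (g.map (algebraMap A K)) := by
  exact coeffIn_iff.2 ⟨g, fun _ => Submodule.mem_top, rfl⟩

theorem CoeffIn.subst [Finite σ] {f : MvPowerSeries σ K} (hf : CoeffIn I f)
    {b : σ → MvPowerSeries τ A} (hb : ∀ i, constantCoeff (b i) = 0) :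
    CoeffIn I (f.subst fun i => (b i).map (algebraMap A K)) := by
  obtain ⟨g, hg, rfl⟩ := coeffIn_iff.1 hf
  have hs := hasSubst_of_constantCoeff_zero hb
  refine coeffIn_iff.2 ⟨g.subst b, fun e => ?_, map_subst hs g⟩
  rw [coeff_subst hs]
  exact finsum_induction (· ∈ I) I.zero_mem (fun _ _ => I.add_mem) fun d =>
    I.mul_mem_right _ (hg d)

theorem CoeffIn.psubst {f : PowerSeries K} (hf : CoeffIn I f)
    {b : MvPowerSeries τ A} (hb : constantCoeff b = 0) :
    CoeffIn I (f.subst (b.map (algebraMap A K))) := by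
  exact CoeffIn.subst (σ := Unit) hf (b := fun _ => b) fun _ => hb

theorem logLike_hlog (p n : ℕ) (hn : 1 ≤ n) (hp : IsUnit (p : K)) : LogLike A (hlog K p n) := by
  intro j
  rw [hlog, PowerSeries.coeff_mk]
  split_ifs with h
  · obtain ⟨m, rfl⟩ : ∃ m, n = m + 1 := ⟨n - 1, by omega⟩
    generalize Nat.log (p ^ (m + 1)) j = r at h
    refine ⟨((p : A) ^ m) ^ r, ?_⟩
    rw [h]
    push_cast
    rw [← mul_pow, pow_succ, mul_assoc, Ring.mul_inverse_cancel _ hp, mul_one]
  · exact ⟨0, by rw [map_zero, mul_zero]⟩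

theorem IsLog.logLike {G : FormalGroup A} {ℓ : PowerSeries K}
    (h : IsLog (G.map (algebraMap A K)) ℓ) : LogLike A ℓ := by
  have h1 := h.derivative
  rw [invDiff_map] at h1
  obtain ⟨u, hu⟩ := (PowerSeries.isUnit_iff_constantCoeff.2
    (by rw [constantCoeff_invDiff G]; exact isUnit_one)).exists_right_inv
  have h2 : PowerSeries.derivative K ℓ = u.map (algebraMap A K) := by
    rw [← mul_one (PowerSeries.derivative K ℓ), ← map_one (PowerSeries.map (algebraMap A K)), ← hu,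
      map_mul, ← mul_assoc, h1, one_mul]
  intro j
  cases j with
  | zero => exact ⟨0, by simp⟩
  | succ j =>
    refine ⟨PowerSeries.coeff j u, ?_⟩
    rw [← PowerSeries.coeff_map, ← h2, PowerSeries.coeff_derivative, mul_comm]
    push_cast
    rfl

theorem hlog_gen (p : ℕ) {ℓ : PowerSeries K}
    (hℓ : ∀ j : ℕ, j ≠ 0 → ∃ s, p ^ s ∣ j ∧
      ∃ c : A, algebraMap A K c = (p : K) ^ s * PowerSeries.coeff j ℓ)
    {a b : MvPowerSeries σ A} (ha : constantCoeff a = 0) (hb : constantCoeff b = 0)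
    (hab : ∀ d, coeff d a - coeff d b ∈ Ideal.span {(p : A)}) :
    CoeffIn (Ideal.span {(p : A)})
      (ℓ.subst (a.map (algebraMap A K)) - ℓ.subst (b.map (algebraMap A K))) := by
  have hdvd : (p : MvPowerSeries σ A) ∣ a - b := by
    choose c hc using fun d => Ideal.mem_span_singleton.1 (hab d)
    refine ⟨c, MvPowerSeries.ext fun d => ?_⟩
    rw [map_sub, hc, ← map_natCast (C : A →+* MvPowerSeries σ A)]
    exact (coeff_C_mul d c (p : A)).symm
  have hsa : PowerSeries.HasSubst (a.map (algebraMap A K)) :=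
    .of_constantCoeff_zero (by rw [constantCoeff_map, ha, map_zero])
  have hsb : PowerSeries.HasSubst (b.map (algebraMap A K)) :=
    .of_constantCoeff_zero (by rw [constantCoeff_map, hb, map_zero])
  intro e
  rw [map_sub, PowerSeries.coeff_subst hsa, PowerSeries.coeff_subst hsb,
    ← finsum_sub_distrib (PowerSeries.coeff_subst_finite hsa ℓ e)
      (PowerSeries.coeff_subst_finite hsb ℓ e)]
  refine finsum_induction (fun x => ∃ y ∈ Ideal.span {(p : A)}, algebraMap A K y = x)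
    ⟨0, Ideal.zero_mem _, map_zero _⟩ ?_ fun j => ?_
  · rintro _ _ ⟨x, hx, rfl⟩ ⟨y, hy, rfl⟩
    exact ⟨x + y, Ideal.add_mem _ hx hy, map_add _ _ _⟩
  rcases eq_or_ne j 0 with rfl | hj
  · exact ⟨0, Ideal.zero_mem _, by simp⟩
  obtain ⟨s, ⟨j', rfl⟩, c, hc⟩ := hℓ j hj
  obtain ⟨w, hw⟩ := (dvd_sub_pow_of_dvd_sub hdvd s).trans (sub_dvd_pow_sub_pow _ _ j')
  rw [← pow_mul, ← pow_mul, ← map_natCast (C : A →+* MvPowerSeries σ A), ← map_pow] at hw
  have h1 := congrArg (coeff e) hw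
  rw [map_sub, coeff_C_mul] at h1
  refine ⟨p * (c * coeff e w), Ideal.mul_mem_right _ _ (Ideal.mem_span_singleton_self _), ?_⟩
  rw [← smul_sub, ← map_pow, ← map_pow, coeff_map, coeff_map, ← map_sub, h1, smul_eq_mul, map_mul,
    map_mul, map_mul, hc, map_pow, map_natCast]
  ring

/-- THE KEY CONGRUENCE: `a ≡ b mod p` implies `ℓ (a) ≡ ℓ (b) mod p`.  For `j = p ^ s * j'`,
`p ∤ j'`: `p ^ (s + 1) ∣ a ^ j - b ^ j` (`dvd_sub_pow_of_dvd_sub`) and `p ^ s * coeff j ℓ` is
integral as `j'` is a unit of `A`; then `PowerSeries.coeff_subst` (finite sums). -/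
theorem LogLike.subst_congr (p : ℕ) [Fact p.Prime]
    (hu : ∀ j : ℕ, ¬ p ∣ j → IsUnit (j : A)) {ℓ : PowerSeries K} (hℓ : LogLike A ℓ)
    {a b : MvPowerSeries σ A} (ha : constantCoeff a = 0) (hb : constantCoeff b = 0)
    (hab : ∀ d, coeff d a - coeff d b ∈ Ideal.span {(p : A)}) :
    CoeffIn (Ideal.span {(p : A)})
      (ℓ.subst (a.map (algebraMap A K)) - ℓ.subst (b.map (algebraMap A K))) := by
  refine hlog_gen p (fun j hj => ?_) ha hb hab
  obtain ⟨s, j', hj', rfl⟩ := Nat.exists_eq_pow_mul_and_not_dvd hj p (Fact.out : p.Prime).ne_one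
  obtain ⟨c, hc⟩ := hℓ (p ^ s * j')
  obtain ⟨u, hu'⟩ := (hu j' hj').exists_left_inv
  refine ⟨s, dvd_mul_right _ _, u * c, ?_⟩
  have h1 := congrArg (algebraMap A K) hu'
  rw [map_mul, map_natCast, map_one] at h1
  rw [map_mul, hc]
  push_cast
  linear_combination ((p : K) ^ s * PowerSeries.coeff (p ^ s * j') ℓ) * h1

/-- the same for Honda's logarithm, over any ring (only `j = q ^ r` occurs) -/
theorem hlog_subst_congr (p : ℕ) [Fact p.Prime] (n : ℕ) (hn : 1 ≤ n) (hp : IsUnit (p : K))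
    {a b : MvPowerSeries σ A} (ha : constantCoeff a = 0) (hb : constantCoeff b = 0)
    (hab : ∀ d, coeff d a - coeff d b ∈ Ideal.span {(p : A)}) :
    CoeffIn (Ideal.span {(p : A)})
      ((hlog K p n).subst (a.map (algebraMap A K)) -
        (hlog K p n).subst (b.map (algebraMap A K))) := by
  refine hlog_gen p (fun j _ => ?_) ha hb hab
  rw [hlog, PowerSeries.coeff_mk]
  split_ifs with h
  · refine ⟨Nat.log (p ^ n) j, ?_, 1, ?_⟩
    · conv_rhs => rw [h]
      exact pow_dvd_pow_of_dvd (dvd_pow_self p (by omega)) _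
    · rw [← mul_pow, Ring.mul_inverse_cancel _ hp, one_pow, map_one]
  · exact ⟨0, by simp, 0, by simp⟩

theorem isUnit_natCast_of_isAdicComplete (p : ℕ) [Fact p.Prime]
    [IsAdicComplete (Ideal.span {(p : A)}) A] (j : ℕ) (hj : ¬ p ∣ j) : IsUnit (j : A) := by
  have h1 : (p : A) ∈ (⊥ : Ideal A).jacobson :=
    IsAdicComplete.le_jacobson_bot (Ideal.span {(p : A)}) (Ideal.mem_span_singleton_self _)
  obtain ⟨u, v, huv⟩ : IsCoprime (p : A) (j : A) :=
    ((Fact.out : p.Prime).coprime_iff_not_dvd.2 hj).cast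
  have h2 := Ideal.mem_jacobson_bot.1 h1 (-u)
  have h3 : (p : A) * -u + 1 = v * j := by linear_combination -huv
  rw [h3] at h2
  exact isUnit_of_mul_isUnit_right h2

end integral

end Crest.Agent.R227.K
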