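import Crest.Agent.R227.K.FG2

/-! Row 227, task `R227/K/HLog1`: logarithms of formal group laws, integrality, the key congruence.
Definitions: DO NOT CHANGE (owner helper98). -/

set_option autoImplicit false

namespace Crest.Agent.R227.K

open MvPowerSeries Crest.LubinTate
open scoped BigOperators

/-- Honda's logarithm `∑ X ^ (q ^ r) / p ^ r`, `q = p ^ n` -/
noncomputable def hlog (K : Type*) [CommRing K] (p n : ℕ) : PowerSeries K :=
  PowerSeries.mk fun j =>
    if j = (p ^ n) ^ Nat.log (p ^ n) j then Ring.inverse (p : K) ^ Nat.log (p ^ n) j else 0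

/-- `ℓ` is a logarithm of the law `G` -/
def IsLog {K : Type*} [CommRing K] (G : FormalGroup K) (ℓ : PowerSeries K) : Prop :=
  PowerSeries.constantCoeff ℓ = 0 ∧ PowerSeries.coeff 1 ℓ = 1 ∧
    ℓ.subst G.toPowerSeries =
      ℓ.subst (X 0 : MvPowerSeries (Fin 2) K) + ℓ.subst (X 1 : MvPowerSeries (Fin 2) K)

/-- all coefficients of `f` lie in (the image of) the ideal `I` of `A` -/
def CoeffIn {A K σ : Type*} [CommRing A] [CommRing K] [Algebra A K] (I : Ideal A)
    (f : MvPowerSeries σ K) : Prop :=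
  ∀ d, ∃ a ∈ I, algebraMap A K a = coeff d f

/-- `j * coeff j ℓ` is integral for all `j` -/
def LogLike (A : Type*) {K : Type*} [CommRing A] [CommRing K] [Algebra A K] (ℓ : PowerSeries K) :
    Prop :=
  ∀ j : ℕ, ∃ a : A, algebraMap A K a = (j : K) * PowerSeries.coeff j ℓ

section basic

variable {K K' : Type*} [CommRing K] [CommRing K'] {p n : ℕ}

theorem hlog1_has2 {σ : Type*} {a b : MvPowerSeries σ K} (ha : constantCoeff a = 0)
    (hb : constantCoeff b = 0) : HasSubst ![a, b] :=
  hasSubst_of_constantCoeff_zero fun s => by fin_cases s <;> simpa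

theorem hlog1_subst_psubst {σ τ : Type*} {a : MvPowerSeries σ K} (ha : constantCoeff a = 0)
    {b : σ → MvPowerSeries τ K} (hb : HasSubst b) (f : PowerSeries K) :
    (f.subst a).subst b = f.subst (a.subst b) :=
  subst_comp_subst_apply (PowerSeries.HasSubst.of_constantCoeff_zero ha).const hb f

theorem hlog1_subst_two {σ τ : Type*} {a a' : MvPowerSeries σ K} (ha : constantCoeff a = 0)
    (ha' : constantCoeff a' = 0) {b : σ → MvPowerSeries τ K} (hb : HasSubst b)
    (F : MvPowerSeries (Fin 2) K) :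
    (F.subst ![a, a']).subst b = F.subst ![a.subst b, a'.subst b] := by
  rw [subst_comp_subst_apply (hlog1_has2 ha ha') hb]
  congr 1
  funext s
  fin_cases s <;> rfl

theorem hlog1_cc_two {σ : Type*} (G : FormalGroup K) {a b : MvPowerSeries σ K}
    (ha : constantCoeff a = 0) (hb : constantCoeff b = 0) :
    constantCoeff (G.toPowerSeries.subst ![a, b]) = 0 :=
  constantCoeff_subst_eq_zero (hlog1_has2 ha hb) (fun s => by fin_cases s <;> simpa)
    G.zero_constantCoeff

theorem hlog1_invDiff_subst {σ : Type*} (G : FormalGroup K) {a : MvPowerSeries σ K}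
    (ha : constantCoeff a = 0) :
    (invDiff G).subst a = (pderiv K 0 G.toPowerSeries).subst ![0, a] := by
  have h := PowerSeries.HasSubst.of_constantCoeff_zero ha
  rw [invDiff, PowerSeries.subst_def,
    hlog1_subst_two (map_zero _) (a' := PowerSeries.X) PowerSeries.constantCoeff_X h.const]
  congr 2
  · rw [← coe_substAlgHom h.const, map_zero]
  · rw [← PowerSeries.subst_def, PowerSeries.subst_X h]

theorem hlog1_invDiff_Ga : invDiff (FormalGroup.𝔾ₐ (R := K)) = 1 := by
  have h : HasSubst ![(0 : PowerSeries K), PowerSeries.X] :=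
    hlog1_has2 (map_zero _) PowerSeries.constantCoeff_X
  rw [invDiff, FormalGroup.𝔾ₐ_toPowerSeries, map_add, pderiv_X_self,
    pderiv_X_of_ne (by decide), add_zero, ← coe_substAlgHom h, map_one]

theorem hlog1_isFGHom_iff {G : FormalGroup K} {ℓ : PowerSeries K}
    (h0 : PowerSeries.constantCoeff ℓ = 0) :
    IsFGHom G FormalGroup.𝔾ₐ ℓ ↔ ℓ.subst G.toPowerSeries =
      ℓ.subst (X 0 : MvPowerSeries (Fin 2) K) + ℓ.subst (X 1 : MvPowerSeries (Fin 2) K) := by
  have h : HasSubst ![ℓ.subst (X 0 : MvPowerSeries (Fin 2) K),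
      ℓ.subst (X 1 : MvPowerSeries (Fin 2) K)] :=
    hlog1_has2 (PowerSeries.constantCoeff_subst_eq_zero (constantCoeff_X _) _ h0)
      (PowerSeries.constantCoeff_subst_eq_zero (constantCoeff_X _) _ h0)
  rw [IsFGHom, FormalGroup.𝔾ₐ_toPowerSeries, subst_add h, subst_X h, subst_X h]
  simp [h0]

theorem hlog1_deriv_hom {G : FormalGroup K} {f : PowerSeries K}
    (hf : IsFGHom G FormalGroup.𝔾ₐ f) :
    PowerSeries.derivative K f * invDiff G = PowerSeries.C (PowerSeries.coeff 1 f) := by
  rw [derivative_mul_invDiff hf, hlog1_invDiff_Ga,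
    ← PowerSeries.coe_substAlgHom (PowerSeries.HasSubst.of_constantCoeff_zero' hf.1), map_one,
    mul_one]

theorem hlog1_isUnit_invDiff (G : FormalGroup K) : IsUnit (invDiff G) := by
  rw [PowerSeries.isUnit_iff_constantCoeff, constantCoeff_invDiff]
  exact isUnit_one

theorem hlog1_key (G : FormalGroup K) :
    pderiv K 0 G.toPowerSeries * (invDiff G).subst (X 0 : MvPowerSeries (Fin 2) K) =
      (invDiff G).subst G.toPowerSeries := by
  have hX : ∀ i : Fin 3, constantCoeff (X i : MvPowerSeries (Fin 3) K) = 0 := constantCoeff_X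
  have h2 : ∀ {a b : MvPowerSeries (Fin 3) K}, constantCoeff a = 0 → constantCoeff b = 0 →
      pderiv K 0 (G.toPowerSeries.subst ![a, b]) =
        (pderiv K 0 G.toPowerSeries).subst ![a, b] * pderiv K 0 a +
          (pderiv K 1 G.toPowerSeries).subst ![a, b] * pderiv K 0 b := by
    intro a b ha hb
    rw [pderiv_subst 0 (fun s => by fin_cases s <;> simpa), Fin.sum_univ_two]
    rfl
  have h := congrArg (pderiv K 0) (G.assoc' (PowerSeries.HasSubst.X (0 : Fin 3))
    (PowerSeries.HasSubst.X 1) (PowerSeries.HasSubst.X 2))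
  rw [h2 (hlog1_cc_two G (hX 0) (hX 1)) (hX 2), h2 (hX 0) (hX 1),
    h2 (hX 0) (hlog1_cc_two G (hX 1) (hX 2)), h2 (hX 1) (hX 2), pderiv_X_self,
    pderiv_X_of_ne (by decide), pderiv_X_of_ne (by decide)] at h
  simp only [mul_one, mul_zero, add_zero] at h
  have hb : HasSubst ![(0 : MvPowerSeries (Fin 2) K), X 0, X 1] :=
    hasSubst_of_constantCoeff_zero fun s => by fin_cases s <;> simp
  have h' := congrArg (subst ![(0 : MvPowerSeries (Fin 2) K), X 0, X 1]) h
  rw [subst_mul hb, hlog1_subst_two (hlog1_cc_two G (hX 0) (hX 1)) (hX 2) hb,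
    hlog1_subst_two (hX 0) (hX 1) hb, hlog1_subst_two (hX 0) (hX 1) hb,
    hlog1_subst_two (hX 0) (hlog1_cc_two G (hX 1) (hX 2)) hb, hlog1_subst_two (hX 1) (hX 2) hb,
    subst_X hb, subst_X hb, subst_X hb] at h'
  have e : ![(X 0 : MvPowerSeries (Fin 2) K), X 1] = X := by
    funext s; fin_cases s <;> rfl
  simp only [Matrix.cons_val_zero, Matrix.cons_val_one, Matrix.cons_val] at h'
  rw [G.zero_add (PowerSeries.HasSubst.X 0), e, subst_self] at h'
  rw [hlog1_invDiff_subst G (constantCoeff_X _), hlog1_invDiff_subst G G.zero_constantCoeff]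
  exact h'

theorem coeff_hlog_pow (hq : 1 < p ^ n) (r : ℕ) :
    PowerSeries.coeff ((p ^ n) ^ r) (hlog K p n) = Ring.inverse (p : K) ^ r := by
  rw [hlog, PowerSeries.coeff_mk, Nat.log_pow hq, if_pos rfl]

theorem coeff_hlog_of_ne {j : ℕ} (hj : ∀ r, j ≠ (p ^ n) ^ r) :
    PowerSeries.coeff j (hlog K p n) = 0 := by
  rw [hlog, PowerSeries.coeff_mk, if_neg (hj _)]

theorem constantCoeff_hlog : PowerSeries.constantCoeff (hlog K p n) = 0 := by
  rw [← PowerSeries.coeff_zero_eq_constantCoeff_apply, hlog, PowerSeries.coeff_mk]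
  simp

theorem coeff_one_hlog : PowerSeries.coeff 1 (hlog K p n) = 1 := by
  rw [hlog, PowerSeries.coeff_mk]
  simp

theorem hlog_map (hp : IsUnit (p : K)) (φ : K →+* K') : (hlog K p n).map φ = hlog K' p n := by
  ext j
  have : φ (Ring.inverse (p : K)) = Ring.inverse (p : K') := by
    have h1 : IsUnit (p : K') := by simpa using hp.map φ
    rw [← mul_one (φ _), ← Ring.mul_inverse_cancel _ h1, ← mul_assoc, ← map_natCast φ p, ← map_mul,
      Ring.inverse_mul_cancel _ hp, map_one, one_mul]
  rw [PowerSeries.coeff_map, hlog, hlog, PowerSeries.coeff_mk, PowerSeries.coeff_mk]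
  split_ifs
  · rw [map_pow, this]
  · rw [map_zero]

/-- the functional equation `p L (X) = p X + L (X ^ q)` -/
theorem hlog_eq (hq : 1 < p ^ n) (hp : IsUnit (p : K)) :
    (p : PowerSeries K) * hlog K p n =
      (p : PowerSeries K) * PowerSeries.X +
        (hlog K p n).subst (PowerSeries.X ^ p ^ n : PowerSeries K) := by
  ext j
  have hq0 : p ^ n ≠ 0 := by omega
  rw [map_add, ← map_natCast (PowerSeries.C (R := K)) p, PowerSeries.coeff_C_mul,
    PowerSeries.coeff_C_mul, PowerSeries.coeff_subst_X_pow hq0, PowerSeries.coeff_X]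
  by_cases hj : ∃ r, j = (p ^ n) ^ r
  · obtain ⟨r, rfl⟩ := hj
    rw [coeff_hlog_pow hq]
    rcases r with _ | r
    · rw [pow_zero, pow_zero, if_pos rfl, if_neg (fun h => by have := Nat.le_of_dvd one_pos h; omega),
        add_zero]
    · rw [if_neg (Nat.one_lt_pow (by omega) hq).ne', if_pos (dvd_pow_self _ (by omega)), mul_zero,
        zero_add, pow_succ (p ^ n), Nat.mul_div_cancel _ (by omega), coeff_hlog_pow hq, pow_succ',
        ← mul_assoc, Ring.mul_inverse_cancel _ hp, one_mul]
      rfl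
  · push Not at hj
    rw [coeff_hlog_of_ne hj, if_neg (by simpa using hj 0), mul_zero, zero_add]
    split_ifs with h
    · obtain ⟨m, rfl⟩ := h
      rw [Nat.mul_div_cancel_left _ (by omega), coeff_hlog_of_ne, map_zero]
      rintro r rfl
      exact hj (r + 1) (pow_succ' _ _).symm
    · rfl

/-- `L (β Z) = β L (Z)` if `β ^ q = β` -/
theorem hlog_subst_C_mul {σ : Type*} [Finite σ] (hq : 1 < p ^ n) {β : K} (hβ : β ^ p ^ n = β)
    {a : MvPowerSeries σ K} (ha : constantCoeff a = 0) :
    (hlog K p n).subst (C β * a) = C β * (hlog K p n).subst a := by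
  have h1 := PowerSeries.HasSubst.of_constantCoeff_zero ha
  have h2 : PowerSeries.HasSubst (C β * a) :=
    PowerSeries.HasSubst.of_constantCoeff_zero (by rw [map_mul, ha, mul_zero])
  have hr : ∀ r : ℕ, β ^ (p ^ n) ^ r = β := by
    intro r
    induction r with
    | zero => simp
    | succ r ih => rw [pow_succ, pow_mul, ih, hβ]
  have e1 : PowerSeries.rescale β (hlog K p n) = PowerSeries.C β * hlog K p n := by
    ext j
    rw [PowerSeries.coeff_rescale, PowerSeries.coeff_C_mul]
    by_cases hj : ∃ r, j = (p ^ n) ^ r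
    · obtain ⟨r, rfl⟩ := hj
      rw [hr]
    · push Not at hj
      rw [coeff_hlog_of_ne hj, mul_zero, mul_zero]
  have e2 : (β • PowerSeries.X : PowerSeries K).subst a = C β * a := by
    rw [PowerSeries.subst_smul h1, PowerSeries.subst_X h1, smul_eq_C_mul]
  rw [← e2, ← PowerSeries.subst_comp_subst_apply (PowerSeries.HasSubst.smul_X' β) h1,
    ← PowerSeries.rescale_eq_subst, e1, PowerSeries.subst_mul h1, PowerSeries.subst_C]

theorem IsLog.map {G : FormalGroup K} {ℓ : PowerSeries K} (h : IsLog G ℓ) (φ : K →+* K') :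
    IsLog (G.map φ) (ℓ.map φ) := by
  refine ⟨?_, by rw [PowerSeries.coeff_map, h.2.1, map_one], ?_⟩
  · rw [← PowerSeries.coeff_zero_eq_constantCoeff_apply, PowerSeries.coeff_map,
      PowerSeries.coeff_zero_eq_constantCoeff_apply, h.1, map_zero]
  · have := congrArg (MvPowerSeries.map φ) h.2.2
    rw [map_add, PowerSeries.map_subst (.of_constantCoeff_zero G.zero_constantCoeff),
      PowerSeries.map_subst (.X 0), PowerSeries.map_subst (.X 1), map_X, map_X] at this
    exact this

theorem IsLog.subst_add {G : FormalGroup K} {ℓ : PowerSeries K} (h : IsLog G ℓ) {σ : Type*}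
    [Finite σ] {a b : MvPowerSeries σ K} (ha : constantCoeff a = 0) (hb : constantCoeff b = 0) :
    ℓ.subst (G.toPowerSeries.subst ![a, b]) = ℓ.subst a + ℓ.subst b := by
  have hab := hlog1_has2 ha hb
  have := congrArg (subst ![a, b]) h.2.2
  rw [MvPowerSeries.subst_add hab, hlog1_subst_psubst G.zero_constantCoeff hab,
    hlog1_subst_psubst (constantCoeff_X _) hab, hlog1_subst_psubst (constantCoeff_X _) hab,
    subst_X hab, subst_X hab] at this
  exact this

theorem IsLog.subst_mulSeries {G : FormalGroup K} {ℓ : PowerSeries K} (h : IsLog G ℓ) (m : ℕ) :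
    ℓ.subst (mulSeries G m) = (m : PowerSeries K) * ℓ := by
  induction m with
  | zero => rw [mulSeries, Nat.cast_zero, zero_mul, PowerSeries.subst_zero_of_constantCoeff_zero h.1]
  | succ m ih =>
    rw [mulSeries, h.subst_add (a := mulSeries G m) (b := PowerSeries.X)
      (constantCoeff_mulSeries G m) PowerSeries.constantCoeff_X, ih, PowerSeries.X_subst]
    push_cast
    ring

/-- differentiate the defining identity: `ℓ' * invDiff G = 1` -/
theorem IsLog.derivative {G : FormalGroup K} {ℓ : PowerSeries K} (h : IsLog G ℓ) :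
    PowerSeries.derivative K ℓ * invDiff G = 1 := by
  rw [hlog1_deriv_hom ((hlog1_isFGHom_iff h.1).2 h.2.2), h.2.1, map_one]

/-- a homomorphism multiplies the logarithm by its linear coefficient (compare derivatives) -/
theorem IsLog.subst_hom [IsAddTorsionFree K] {F G : FormalGroup K} {ℓ ℓ' f : PowerSeries K}
    (hF : IsLog F ℓ) (hG : IsLog G ℓ') (hf : IsFGHom F G f) :
    ℓ'.subst f = PowerSeries.C (PowerSeries.coeff 1 f) * ℓ := by
  have h1 := isFGHom_comp hf ((hlog1_isFGHom_iff hG.1).2 hG.2.2)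
  have h2 := hlog1_deriv_hom h1
  rw [coeff_one_subst hf.1, hG.2.1, one_mul] at h2
  refine PowerSeries.derivative.ext ?_ (by rw [map_mul, hF.1, mul_zero]; exact h1.1)
  refine (hlog1_isUnit_invDiff F).mul_right_cancel ?_
  rw [h2, Derivation.leibniz, PowerSeries.derivative_C, smul_zero, add_zero, smul_eq_mul, mul_assoc,
    hF.derivative, mul_one]

theorem IsLog.unique [IsAddTorsionFree K] {G : FormalGroup K} {ℓ ℓ' : PowerSeries K}
    (h : IsLog G ℓ) (h' : IsLog G ℓ') : ℓ = ℓ' := by
  have := h.subst_hom h' (isFGHom_X G)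
  rw [PowerSeries.X_subst, PowerSeries.coeff_one_X, map_one, one_mul] at this
  exact this.symm

/-- existence: `ℓ = ∫ (invDiff G)⁻¹`.  With `ω = invDiff G`, associativity differentiated in the first
variable at `0` gives `∂₀ G (Y, Z) * ω (Y) = ω (G (Y, Z))`, so `ℓ (G (Y, Z)) - ℓ Y - ℓ Z` has zero
`∂₀`, by commutativity zero `∂₁`, and zero constant term (`pderiv.ext`). -/
theorem exists_isLog (hK : ∀ j : ℕ, j ≠ 0 → IsUnit (j : K)) (G : FormalGroup K) [G.IsComm] :
    ∃ ℓ : PowerSeries K, IsLog G ℓ := by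
  have htf : IsAddTorsionFree K := by
    refine ⟨fun j hj a b hab => ?_⟩
    simp only [nsmul_eq_mul] at hab
    exact (hK j hj).mul_left_cancel hab
  obtain ⟨u, hu⟩ := (hlog1_isUnit_invDiff G).exists_left_inv
  set ℓ : PowerSeries K := PowerSeries.mk fun j =>
    if j = 0 then 0 else PowerSeries.coeff (j - 1) u * Ring.inverse (j : K) with hℓ
  have h0 : PowerSeries.constantCoeff ℓ = 0 := by
    rw [← PowerSeries.coeff_zero_eq_constantCoeff_apply, hℓ, PowerSeries.coeff_mk, if_pos rfl]
  have hd : PowerSeries.derivative K ℓ = u := by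
    ext j
    rw [PowerSeries.coeff_derivative, hℓ, PowerSeries.coeff_mk, if_neg (by omega),
      Nat.add_sub_cancel, mul_assoc, ← Nat.cast_succ,
      Ring.inverse_mul_cancel _ (hK _ (by omega)), mul_one]
  have h1 : PowerSeries.coeff 1 ℓ = 1 := by
    have e := congrArg PowerSeries.constantCoeff hu
    rw [map_mul, constantCoeff_invDiff, mul_one, map_one] at e
    rw [hℓ, PowerSeries.coeff_mk, if_neg one_ne_zero]
    simp [e]
  refine ⟨ℓ, h0, h1, ?_⟩
  have hG := PowerSeries.HasSubst.of_constantCoeff_zero G.zero_constantCoeff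
  have hsub : ∀ {a : MvPowerSeries (Fin 2) K}, constantCoeff a = 0 →
      u.subst a * (invDiff G).subst a = 1 := fun {a} ha => by
    have h := PowerSeries.HasSubst.of_constantCoeff_zero ha
    rw [← PowerSeries.subst_mul h, hu, ← PowerSeries.coe_substAlgHom h, map_one]
  have k0 : u.subst G.toPowerSeries * pderiv K 0 G.toPowerSeries =
      u.subst (X 0 : MvPowerSeries (Fin 2) K) := by
    rw [← mul_one (_ * _), ← hsub (constantCoeff_X 0), mul_comm (u.subst (X 0)), ← mul_assoc,
      mul_assoc (u.subst G.toPowerSeries), hlog1_key, hsub G.zero_constantCoeff, one_mul]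
  have hsw : HasSubst ![(X 1 : MvPowerSeries (Fin 2) K), X 0] := HasSubst.X_X
  have hc : G.toPowerSeries.subst ![(X 1 : MvPowerSeries (Fin 2) K), X 0] = G.toPowerSeries :=
    (FormalGroup.IsComm.comm (F := G)).symm
  have k1 : u.subst G.toPowerSeries * pderiv K 1 G.toPowerSeries =
      u.subst (X 1 : MvPowerSeries (Fin 2) K) := by
    have e := congrArg (subst ![(X 1 : MvPowerSeries (Fin 2) K), X 0]) k0
    rw [subst_mul hsw, hlog1_subst_psubst G.zero_constantCoeff hsw, hc,
      hlog1_subst_psubst (constantCoeff_X _) hsw, subst_X hsw] at e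
    have e2 := congrArg (pderiv K 1) hc
    rw [pderiv_subst 1 (fun s => by fin_cases s <;> simp), Fin.sum_univ_two] at e2
    simp only [Matrix.cons_val_zero, Matrix.cons_val_one, pderiv_X_self, mul_one] at e2 e
    rw [pderiv_X_of_ne (by decide), mul_zero, add_zero] at e2
    rw [← e2, e]
  refine pderiv.ext (fun i => ?_) ?_
  · rw [map_add, pderiv_psubst i G.zero_constantCoeff, pderiv_psubst i (constantCoeff_X _),
      pderiv_psubst i (constantCoeff_X _), hd]
    fin_cases i
    · simp only [Fin.zero_eta]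
      rw [k0, pderiv_X_self, pderiv_X_of_ne (by decide), mul_one, mul_zero, add_zero]
    · simp only [Fin.mk_one]
      rw [k1, pderiv_X_self, pderiv_X_of_ne (by decide), mul_one, mul_zero, zero_add]
  · rw [map_add, PowerSeries.constantCoeff_subst_eq_zero G.zero_constantCoeff _ h0,
      PowerSeries.constantCoeff_subst_eq_zero (constantCoeff_X _) _ h0,
      PowerSeries.constantCoeff_subst_eq_zero (constantCoeff_X _) _ h0, add_zero]

end basic

end Crest.Agent.R227.K
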