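import Crest.Agent.R227.K.Honda1

/-! Row 227, task `R227/K/Honda`: Honda's formal group law of height `n` over `ℤ`. -/

set_option autoImplicit false

namespace Crest.Agent.R227.K

open MvPowerSeries Crest.LubinTate

open Classical in
/-- Honda's law over `ℤ` (junk for `n = 0` or `p` not prime) -/
noncomputable def honda (p n : ℕ) : FormalGroup ℤ :=
  if h : ∃ F : FormalGroup ℤ, F.IsComm ∧ IsLog (F.map (Int.castRingHom ℚ)) (hlog ℚ p n) then
    h.choose else FormalGroup.𝔾ₐ

instance honda_isComm (p n : ℕ) : (honda p n).IsComm := by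
  unfold honda
  split_ifs with h
  · exact h.choose_spec.1
  · infer_instance

/-- Honda's law over any ring -/
noncomputable def G0 (p n : ℕ) (B : Type*) [CommRing B] : FormalGroup B :=
  (honda p n).map (Int.castRingHom B)

instance G0_isComm (p n : ℕ) (B : Type*) [CommRing B] : (G0 p n B).IsComm :=
  map_isComm _

theorem G0_map (p n : ℕ) {B B' : Type*} [CommRing B] [CommRing B'] (φ : B →+* B') :
    (G0 p n B).map φ = G0 p n B' := by
  unfold G0
  rw [map_map, Subsingleton.elim (φ.comp (Int.castRingHom B)) (Int.castRingHom B')]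

variable (p : ℕ) [Fact p.Prime] {n : ℕ}

theorem honda_isLog (hn : 1 ≤ n) : IsLog (G0 p n ℚ) (hlog ℚ p n) := by
  unfold G0 honda
  rw [dif_pos (exists_honda p n hn)]
  exact (exists_honda p n hn).choose_spec.2

theorem honda_map_inj {σ A B : Type*} [CommRing A] [CommRing B] {φ : A →+* B}
    (hφ : Function.Injective φ) {f g : MvPowerSeries σ A} (h : f.map φ = g.map φ) : f = g := by
  ext d
  apply hφ
  rw [← coeff_map, ← coeff_map, h]

theorem honda_one_lt (hn : 1 ≤ n) : 1 < p ^ n :=
  Nat.one_lt_pow (by omega) (Fact.out : p.Prime).one_lt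

/-- the coefficient of the first degree where `a` and `a'` differ is unchanged by `ℓ` -/
theorem honda_coeff_subst {K : Type*} [CommRing K] {ℓ a a' : PowerSeries K}
    (h1 : PowerSeries.coeff 1 ℓ = 1) (ha : PowerSeries.constantCoeff a = 0)
    (ha' : PowerSeries.constantCoeff a' = 0) {j : ℕ}
    (h : ∀ m < j, PowerSeries.coeff m a = PowerSeries.coeff m a') :
    PowerSeries.coeff j (ℓ.subst a : PowerSeries K) - PowerSeries.coeff j (ℓ.subst a' : PowerSeries K) =
      PowerSeries.coeff j a - PowerSeries.coeff j a' := by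
  have s1 := PowerSeries.HasSubst.of_constantCoeff_zero' ha
  have s2 := PowerSeries.HasSubst.of_constantCoeff_zero' ha'
  rw [PowerSeries.coeff_subst' s1, PowerSeries.coeff_subst' s2,
    ← finsum_sub_distrib (PowerSeries.coeff_subst_finite' s1 ℓ j)
      (PowerSeries.coeff_subst_finite' s2 ℓ j), finsum_eq_single _ 1]
  · simp [h1]
  · rintro (_ | _ | e) he
    · simp
    · exact absurd rfl he
    · have d1 : (PowerSeries.X : PowerSeries K) ^ j ∣ a - a' :=
        PowerSeries.X_pow_dvd_iff.2 fun m hm => by rw [map_sub, h m hm, sub_self]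
      have d2 : (PowerSeries.X : PowerSeries K) ∣ a := PowerSeries.X_dvd_iff.2 ha
      have d3 : (PowerSeries.X : PowerSeries K) ∣ a' := PowerSeries.X_dvd_iff.2 ha'
      have d4 : (PowerSeries.X : PowerSeries K) ^ (j + 1) ∣ a ^ (e + 1 + 1) - a' ^ (e + 1 + 1) := by
        have e1 : a ^ (e + 1 + 1) - a' ^ (e + 1 + 1) =
            (a ^ (e + 1) - a' ^ (e + 1)) * a + (a - a') * a' ^ (e + 1) := by ring
        rw [e1, pow_succ]
        exact dvd_add (mul_dvd_mul (d1.trans (sub_dvd_pow_sub_pow _ _ _)) d2)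
          (mul_dvd_mul d1 (d3.trans (dvd_pow_self _ (Nat.succ_ne_zero _))))
      have := PowerSeries.X_pow_dvd_iff.1 d4 j (Nat.lt_succ_self j)
      rw [map_sub, sub_eq_zero] at this
      rw [this, sub_self]

/-- `L a ≡ L b mod p` implies `a ≡ b mod p` -/
theorem honda_congr (hn : 1 ≤ n) {a b : PowerSeries ℤ} (ha : PowerSeries.constantCoeff a = 0)
    (hb : PowerSeries.constantCoeff b = 0)
    (h : CoeffIn (σ := Unit) (Ideal.span {(p : ℤ)})
      ((hlog ℚ p n).subst (a.map (algebraMap ℤ ℚ)) - (hlog ℚ p n).subst (b.map (algebraMap ℤ ℚ))))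
    (j : ℕ) : PowerSeries.coeff j a - PowerSeries.coeff j b ∈ Ideal.span {(p : ℤ)} := by
  induction j using Nat.strong_induction_on with
  | _ j ih =>
    let a' : PowerSeries ℤ := PowerSeries.mk fun m =>
      if m < j then PowerSeries.coeff m a else PowerSeries.coeff m b
    have ha' : PowerSeries.constantCoeff a' = 0 := by
      rw [← PowerSeries.coeff_zero_eq_constantCoeff_apply, PowerSeries.coeff_mk]
      split_ifs
      · simpa using ha
      · simpa using hb
    have hp : IsUnit (p : ℚ) := by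
      rw [isUnit_iff_ne_zero]
      exact_mod_cast (Fact.out : p.Prime).ne_zero
    have h1 : CoeffIn (σ := Unit) (Ideal.span {(p : ℤ)})
        ((hlog ℚ p n).subst (a'.map (algebraMap ℤ ℚ)) - (hlog ℚ p n).subst (b.map (algebraMap ℤ ℚ))) :=
      hlog_subst_congr (A := ℤ) (K := ℚ) (σ := Unit) p n hn hp (a := a') (b := b) ha' hb
      (fun d => by
        rw [← PowerSeries.coeff_def (s := d) rfl, PowerSeries.coeff_mk]
        split_ifs with hd
        · exact ih _ hd
        · rw [sub_self]; exact Ideal.zero_mem _)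
    have h2 := h.sub h1
    rw [sub_sub_sub_cancel_right] at h2
    obtain ⟨c, hc, hc'⟩ := h2 (Finsupp.single () j)
    have h3 := honda_coeff_subst (ℓ := hlog ℚ p n) (a := a.map (algebraMap ℤ ℚ))
      (a' := a'.map (algebraMap ℤ ℚ)) coeff_one_hlog
      (by rw [← PowerSeries.coeff_zero_eq_constantCoeff_apply, PowerSeries.coeff_map,
        PowerSeries.coeff_zero_eq_constantCoeff_apply, ha, map_zero])
      (by rw [← PowerSeries.coeff_zero_eq_constantCoeff_apply, PowerSeries.coeff_map,
        PowerSeries.coeff_zero_eq_constantCoeff_apply, ha', map_zero]) (j := j)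
      (fun m hm => by
        rw [PowerSeries.coeff_map, PowerSeries.coeff_map, PowerSeries.coeff_mk, if_pos hm])
    rw [PowerSeries.coeff_map, PowerSeries.coeff_map, PowerSeries.coeff_mk, if_neg (lt_irrefl j),
      ← map_sub, ← map_sub] at h3
    have h4 : c = PowerSeries.coeff j a - PowerSeries.coeff j b :=
      (algebraMap ℤ ℚ).injective_int (hc'.trans h3)
    rwa [← h4]

theorem honda_subst_inj {K σ : Type*} [CommRing K] {ℓ : PowerSeries K}
    (h0 : PowerSeries.constantCoeff ℓ = 0) (h1 : PowerSeries.coeff 1 ℓ = 1)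
    {a b : MvPowerSeries σ K} (ha : constantCoeff a = 0) (hb : constantCoeff b = 0)
    (h : ℓ.subst a = ℓ.subst b) : a = b := by
  obtain ⟨g, -, -, -, hg⟩ := exists_substInv h0 (by rw [h1]; exact isUnit_one)
  have s0 := PowerSeries.HasSubst.of_constantCoeff_zero' h0
  have s1 := PowerSeries.HasSubst.of_constantCoeff_zero ha
  have s2 := PowerSeries.HasSubst.of_constantCoeff_zero hb
  rw [← PowerSeries.subst_X (R := K) s1, ← PowerSeries.subst_X (R := K) s2, ← hg,
    PowerSeries.subst_comp_subst_apply s0 s1, PowerSeries.subst_comp_subst_apply s0 s2, h]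

theorem honda_C_mul_X {K σ : Type*} [CommRing K] (β : K) {a : MvPowerSeries σ K}
    (ha : constantCoeff a = 0) : (PowerSeries.C β * PowerSeries.X : PowerSeries K).subst a = C β * a := by
  have s1 := PowerSeries.HasSubst.of_constantCoeff_zero ha
  rw [PowerSeries.subst_mul s1, PowerSeries.subst_C, PowerSeries.subst_X s1]

/-- pass through `Localization.Away (p : ℤ)`, which injects into `ℚ` and maps to `K` -/
theorem G0_isLog (hn : 1 ≤ n) (K : Type*) [CommRing K] (hp : IsUnit (p : K)) :
    IsLog (G0 p n K) (hlog K p n) := by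
  have hp0 : (p : ℤ) ≠ 0 := by exact_mod_cast (Fact.out : p.Prime).ne_zero
  let R := Localization.Away (p : ℤ)
  have hu : IsUnit (Int.castRingHom ℚ (p : ℤ)) := by
    rw [isUnit_iff_ne_zero]
    simpa using hp0
  have hu' : IsUnit (Int.castRingHom K (p : ℤ)) := by simpa using hp
  let ι : R →+* ℚ := IsLocalization.Away.lift (p : ℤ) hu
  let φ : R →+* K := IsLocalization.Away.lift (p : ℤ) hu'
  have hι : Function.Injective ι := by
    refine (IsLocalization.lift_injective_iff _).2 fun x y => ?_
    rw [(IsLocalization.injective R (powers_le_nonZeroDivisors_of_noZeroDivisors hp0)).eq_iff,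
      (Int.castRingHom ℚ).injective_int.eq_iff]
  have hpR : IsUnit (p : R) := by
    simpa using IsLocalization.Away.algebraMap_isUnit (S := R) (p : ℤ)
  have hR : IsLog (G0 p n R) (hlog R p n) := by
    refine ⟨constantCoeff_hlog, coeff_one_hlog, honda_map_inj hι ?_⟩
    have h := (honda_isLog p hn).2.2
    rw [← G0_map p n ι, ← hlog_map hpR ι] at h
    rw [map_add, PowerSeries.map_subst (PowerSeries.HasSubst.X _),
      PowerSeries.map_subst (PowerSeries.HasSubst.X _), PowerSeries.map_subst
        (PowerSeries.HasSubst.of_constantCoeff_zero (G0 p n R).zero_constantCoeff), map_X, map_X]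
    exact h
  have h := hR.map φ
  rwa [G0_map, hlog_map hpR] at h

/-- `L ([p] X) = p L (X) = p X + L (X ^ q) ≡ L (X ^ q) mod p`, and `L a ≡ L b mod p` implies
`a ≡ b mod p` for integral `a`, `b` (induction on the degree with `hlog_subst_congr`) -/
theorem mulSeries_G0 (hn : 1 ≤ n) (B : Type*) [CommRing B] (hB : (p : B) = 0) :
    mulSeries (G0 p n B) p = PowerSeries.X ^ p ^ n := by
  have hq := honda_one_lt p hn
  have hp : IsUnit (p : ℚ) := by
    rw [isUnit_iff_ne_zero]
    exact_mod_cast (Fact.out : p.Prime).ne_zero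
  have key := honda_congr p hn (a := mulSeries (honda p n) p) (b := PowerSeries.X ^ p ^ n)
    (constantCoeff_mulSeries _ _) (by rw [map_pow, PowerSeries.constantCoeff_X, zero_pow (by omega)]) (by
      have e1 : (mulSeries (honda p n) p).map (algebraMap ℤ ℚ) = mulSeries (G0 p n ℚ) p :=
        (mulSeries_map _ _ _).symm
      rw [e1, (honda_isLog p hn).subst_mulSeries, map_pow, PowerSeries.map_X, hlog_eq hq hp,
        add_sub_cancel_right]
      refine coeffIn_iff.2 ⟨((p : PowerSeries ℤ) * PowerSeries.X : PowerSeries ℤ), fun d => ?_, ?_⟩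
      · rw [← PowerSeries.coeff_def (s := d) rfl, ← map_natCast (PowerSeries.C (R := ℤ)) p,
          PowerSeries.coeff_C_mul]
        exact Ideal.mul_mem_right _ _ (Ideal.mem_span_singleton_self _)
      · change PowerSeries.map (algebraMap ℤ ℚ) _ = _
        rw [map_mul, map_natCast, PowerSeries.map_X])
  have e2 : (PowerSeries.X ^ p ^ n : PowerSeries B) =
      (PowerSeries.X ^ p ^ n : PowerSeries ℤ).map (Int.castRingHom B) := by
    rw [map_pow, PowerSeries.map_X]
  unfold G0
  rw [mulSeries_map, e2]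
  ext j
  rw [PowerSeries.coeff_map, PowerSeries.coeff_map, ← sub_eq_zero, ← map_sub]
  obtain ⟨c, hc⟩ := Ideal.mem_span_singleton.1 (key j)
  rw [hc, map_mul, map_natCast, hB, zero_mul]

theorem isFGHom_G0_X_pow (B : Type*) [CommRing B] (hB : (p : B) = 0) (j : ℕ) :
    IsFGHom (G0 p n B) (G0 p n B) (PowerSeries.X ^ p ^ j) := by
  have h := isFGHom_X_pow p (G0 p n (ZMod p)) j
  rw [G0_map] at h
  have h2 := isFGHom_map h (ZMod.castHom (ringChar.dvd hB) B)
  rwa [G0_map, map_pow, PowerSeries.map_X] at h2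

/-- over `ℚ(ζ)` or `ℂ` with a primitive `(q - 1)`-th root of unity `hlog_subst_C_mul` shows that only
monomials of degree `≡ 1 mod (q - 1)` occur in the law -/
theorem isFGHom_G0_C_mul (hn : 1 ≤ n) (B : Type*) [CommRing B] {β : B} (hβ : β ^ p ^ n = β) :
    IsFGHom (G0 p n B) (G0 p n B) (PowerSeries.C β * PowerSeries.X) := by
  have hq := honda_one_lt p hn
  have key : ∀ (K : Type) [CommRing K], IsUnit (p : K) → ∀ β : K, β ^ p ^ n = β →
      IsFGHom (G0 p n K) (G0 p n K) (PowerSeries.C β * PowerSeries.X) := by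
    intro K _ hp β hβ
    have hL := G0_isLog p hn K hp
    have hF := (G0 p n K).zero_constantCoeff
    have hX : ∀ i : Fin 2, constantCoeff (X i : MvPowerSeries (Fin 2) K) = 0 := fun i => by simp
    have hCX : ∀ i : Fin 2, constantCoeff (C β * X i : MvPowerSeries (Fin 2) K) = 0 := fun i => by simp
    refine ⟨by simp, ?_⟩
    rw [honda_C_mul_X β hF, honda_C_mul_X β (hX 0), honda_C_mul_X β (hX 1)]
    have hs : ∀ i : Fin 2, constantCoeff ((![C β * X 0, C β * X 1] :
        Fin 2 → MvPowerSeries (Fin 2) K) i) = 0 := fun i => by fin_cases i <;> simp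
    refine honda_subst_inj hL.1 hL.2.1 (by simp [hF])
      (constantCoeff_subst_eq_zero (hasSubst_of_constantCoeff_zero hs) hs hF) ?_
    rw [hL.subst_add (hCX 0) (hCX 1), hlog_subst_C_mul hq hβ hF, hlog_subst_C_mul hq hβ (hX 0),
      hlog_subst_C_mul hq hβ (hX 1), hL.2.2, mul_add]
  let g : Polynomial ℤ := Polynomial.X ^ p ^ n - Polynomial.X
  have hg : g.Monic := Polynomial.monic_X_pow_sub (by
    rw [Polynomial.degree_X]
    exact_mod_cast hq)
  have hfree : Module.Free ℤ (AdjoinRoot g) := Module.Free.of_basis (AdjoinRoot.powerBasis' hg).basis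
  have hp0 : (p : ℤ) ≠ 0 := by exact_mod_cast (Fact.out : p.Prime).ne_zero
  have hnz : (p : AdjoinRoot g) ∈ nonZeroDivisors (AdjoinRoot g) := by
    refine mem_nonZeroDivisors_iff_left.2 fun x hx => ?_
    have h1 : (p : ℤ) • x = 0 := by rwa [zsmul_eq_mul, Int.cast_natCast]
    exact (smul_eq_zero.1 h1).resolve_left hp0
  let K := Localization.Away (p : AdjoinRoot g)
  have hinj : Function.Injective (algebraMap (AdjoinRoot g) K) :=
    IsLocalization.injective K (Submonoid.powers_le.2 hnz)
  have hpK : IsUnit (p : K) := by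
    simpa using IsLocalization.Away.algebraMap_isUnit (S := K) (p : AdjoinRoot g)
  have hr : AdjoinRoot.root g ^ p ^ n = AdjoinRoot.root g := by
    have := AdjoinRoot.eval₂_root g
    simpa [g, sub_eq_zero] using this
  have h1 : IsFGHom (G0 p n (AdjoinRoot g)) (G0 p n (AdjoinRoot g))
      (PowerSeries.C (AdjoinRoot.root g) * PowerSeries.X) := by
    refine isFGHom_of_map hinj ?_
    rw [G0_map, map_mul, PowerSeries.map_C, PowerSeries.map_X]
    exact key K hpK _ (by rw [← map_pow, hr])
  have h2 := isFGHom_map h1 (AdjoinRoot.lift (Int.castRingHom B) β (by simp [g, hβ]))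
  rwa [G0_map, map_mul, PowerSeries.map_C, PowerSeries.map_X, AdjoinRoot.lift_root] at h2

theorem isFGHom_G0_C_mul_X_pow (hn : 1 ≤ n) (B : Type*) [CommRing B] (hB : (p : B) = 0) {β : B}
    (hβ : β ^ p ^ n = β) (j : ℕ) :
    IsFGHom (G0 p n B) (G0 p n B) (PowerSeries.C β * PowerSeries.X ^ p ^ j) := by
  have h := isFGHom_comp (isFGHom_G0_X_pow p (n := n) B hB j) (isFGHom_G0_C_mul p hn B hβ)
  have h0 : constantCoeff (σ := Unit) (PowerSeries.X ^ p ^ j : PowerSeries B) = 0 :=
    (isFGHom_G0_X_pow p (n := n) B hB j).1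
  rw [honda_C_mul_X β h0] at h
  exact h

/-- `F (a, b) ^ p ^ c ≡ F (a ^ p ^ c, b ^ p ^ c) mod p` -/
theorem G0_subst_pow_congr (A : Type*) [CommRing A] {σ : Type*} [Finite σ]
    {a b : MvPowerSeries σ A} (ha : constantCoeff a = 0) (hb : constantCoeff b = 0) (c : ℕ)
    (d : σ →₀ ℕ) :
    coeff d ((G0 p n A).toPowerSeries.subst ![a, b] ^ p ^ c) -
      coeff d ((G0 p n A).toPowerSeries.subst ![a ^ p ^ c, b ^ p ^ c]) ∈ Ideal.span {(p : A)} := by
  set φ := Ideal.Quotient.mk (Ideal.span {(p : A)}) with hφ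
  have hB : (p : A ⧸ Ideal.span {(p : A)}) = 0 := by
    rw [← map_natCast φ, Ideal.Quotient.eq_zero_iff_mem]
    exact Ideal.mem_span_singleton_self _
  have hc : p ^ c ≠ 0 := pow_ne_zero _ (Fact.out : p.Prime).ne_zero
  have hmap : ∀ {u v : MvPowerSeries σ A}, constantCoeff u = 0 → constantCoeff v = 0 →
      ((G0 p n A).toPowerSeries.subst ![u, v]).map φ =
        (G0 p n (A ⧸ Ideal.span {(p : A)})).toPowerSeries.subst ![u.map φ, v.map φ] := by
    intro u v hu hv
    rw [map_subst (hasSubst_of_constantCoeff_zero fun i => by fin_cases i <;> simpa), ← G0_map p n φ]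
    congr 1
    funext i
    fin_cases i <;> rfl
  rw [← Ideal.Quotient.eq, ← hφ, ← coeff_map, ← coeff_map, map_pow, hmap ha hb,
    hmap (by rw [map_pow, ha, zero_pow hc]) (by rw [map_pow, hb, zero_pow hc]),
    map_pow _ a, map_pow _ b]
  congr 1
  have ha' : constantCoeff (a.map φ) = 0 := by rw [constantCoeff_map, ha, map_zero]
  have hb' : constantCoeff (b.map φ) = 0 := by rw [constantCoeff_map, hb, map_zero]
  generalize a.map φ = a' at ha'
  generalize b.map φ = b' at hb'
  have h := (isFGHom_G0_X_pow p (n := n) _ hB c).2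
  have s0 := PowerSeries.HasSubst.of_constantCoeff_zero
    (G0 p n (A ⧸ Ideal.span {(p : A)})).zero_constantCoeff
  rw [PowerSeries.subst_pow s0, PowerSeries.subst_X s0,
    PowerSeries.subst_pow (PowerSeries.HasSubst.X _), PowerSeries.subst_X (PowerSeries.HasSubst.X _),
    PowerSeries.subst_pow (PowerSeries.HasSubst.X _),
    PowerSeries.subst_X (PowerSeries.HasSubst.X _)] at h
  have s1 : HasSubst ![a', b'] := hasSubst_of_constantCoeff_zero fun i => by fin_cases i <;> simpa
  rw [← subst_pow s1, h, subst_comp_subst_apply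
    (hasSubst_of_constantCoeff_zero fun i => by fin_cases i <;> simp [zero_pow hc]) s1]
  congr 1
  funext i
  fin_cases i
  · simp [subst_pow s1, subst_X s1]
  · simp [subst_pow s1, subst_X s1]

end Crest.Agent.R227.K
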