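import Crest.Agent.R227.K.HLog

/-! Row 227, task `R227/K/Honda1`: Honda's formal group law of height `n` over `ℤ`.
Definitions: DO NOT CHANGE (owner helper98). -/

set_option autoImplicit false

namespace Crest.Agent.R227.K

open MvPowerSeries Crest.LubinTate

section aux

variable {σ R : Type*} [CommRing R]

theorem honda1_order_subst (L : PowerSeries R) {a b : MvPowerSeries σ R}
    (ha : constantCoeff a = 0) (hb : constantCoeff b = 0) {J : ℕ} (h : (J : ℕ∞) ≤ (a - b).order) :
    (J : ℕ∞) ≤ (L.subst a - L.subst b).order := by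
  refine nat_le_order fun d hd => ?_
  rw [map_sub, PowerSeries.coeff_subst (.of_constantCoeff_zero ha),
    PowerSeries.coeff_subst (.of_constantCoeff_zero hb), sub_eq_zero]
  refine finsum_congr fun j => ?_
  congr 1
  obtain ⟨c, hc⟩ := sub_dvd_pow_sub_pow a b j
  rw [← sub_eq_zero, ← map_sub, hc]
  refine coeff_of_lt_order (lt_of_lt_of_le (b := (J : ℕ∞)) (by exact_mod_cast hd) ?_)
  exact h.trans (le_self_add.trans le_order_mul)

theorem honda1_order_pow {a b : MvPowerSeries σ R}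
    (ha : constantCoeff a = 0) (hb : constantCoeff b = 0) {J q : ℕ} (hq : 1 < q)
    (h : (J : ℕ∞) ≤ (a - b).order) : ((J + 1 : ℕ) : ℕ∞) ≤ (a ^ q - b ^ q).order := by
  rw [← geom_sum₂_mul a b q]
  refine le_trans ?_ le_order_mul
  have h1 : (1 : ℕ∞) ≤ (∑ i ∈ Finset.range q, a ^ i * b ^ (q - 1 - i)).order := by
    rw [one_le_order_iff_constCoeff_eq_zero, map_sum]
    refine Finset.sum_eq_zero fun i _ => ?_
    rw [map_mul, map_pow, map_pow, ha, hb]
    by_cases hi : i = 0
    · rw [zero_pow (by omega : q - 1 - i ≠ 0), mul_zero]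
    · rw [zero_pow hi, zero_mul]
  rw [Nat.cast_add, Nat.cast_one, add_comm]
  exact add_le_add h1 h

theorem honda1_order_expand {f : MvPowerSeries σ R} {J q : ℕ} (hq : 1 < q) (hq0 : q ≠ 0)
    (hJ : 1 ≤ J) (h : (J : ℕ∞) ≤ f.order) : ((J + 1 : ℕ) : ℕ∞) ≤ (expand q hq0 f).order := by
  rw [order_expand]
  refine le_trans ?_ (nsmul_le_nsmul_right h q)
  rw [nsmul_eq_mul]
  have : J + 1 ≤ q * J := by nlinarith
  exact_mod_cast this

theorem honda1_hlog_subst {p n : ℕ} (hq : 1 < p ^ n) (hp : IsUnit (p : R))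
    {a : MvPowerSeries σ R} (ha : constantCoeff a = 0) :
    (p : MvPowerSeries σ R) * (hlog R p n).subst a =
      (p : MvPowerSeries σ R) * a + (hlog R p n).subst (a ^ p ^ n) := by
  have hs : PowerSeries.HasSubst a := .of_constantCoeff_zero ha
  have hX : PowerSeries.HasSubst (PowerSeries.X ^ p ^ n : PowerSeries R) :=
    PowerSeries.HasSubst.X_pow (by omega)
  have := congrArg (PowerSeries.substAlgHom (R := R) hs) (hlog_eq hq hp)
  rw [map_add, map_mul, map_mul, map_natCast, PowerSeries.coe_substAlgHom,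
    PowerSeries.subst_X hs, PowerSeries.subst_comp_subst_apply hX hs, PowerSeries.subst_pow hs,
    PowerSeries.subst_X hs] at this
  exact this

theorem honda1_frob (p : ℕ) [Fact p.Prime] (n : ℕ) (f : MvPowerSeries σ ℤ) (d : σ →₀ ℕ) :
    coeff d (expand (p ^ n) (pow_ne_zero n (Fact.out : p.Prime).ne_zero) f) -
      coeff d (f ^ p ^ n) ∈ Ideal.span {((p : ℕ) : ℤ)} := by
  have h := map_iterateFrobenius_expand p (Fact.out : p.Prime).ne_zero
    (f.map (Int.castRingHom (ZMod p))) n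
  have e : iterateFrobenius (ZMod p) p n = RingHom.id _ := RingHom.ext_zmod _ _
  rw [e, map_id, RingHom.id_apply, ← map_expand, ← map_pow] at h
  have h2 := congrArg (coeff d) h
  rw [coeff_map, coeff_map] at h2
  rw [Ideal.mem_span_singleton, ← ZMod.intCast_zmod_eq_zero_iff_dvd, Int.cast_sub, sub_eq_zero]
  exact h2

end aux

/-- functional equation lemma (Hazewinkel) for `ℤ ⊂ ℚ`: if `L (ι) = ℓ` and
`p ℓ - ℓ (X ^ q)` is `≡ 0 mod p`, then `ι` is integral.  Induction on the total degree `J`: let `ι°`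
be the integral truncation below degree `J`; `p L (ι) = p ι + L (ι ^ q)` (`hlog_eq`), and up to
degree `J`: `ι ^ q = ι° ^ q ≡ expand q ι° mod p`, `L (expand q ι°) = expand q (L ι°) = expand q ℓ`;
by `hlog_subst_congr` the coefficients of `p ι` in degree `J` are `≡ 0 mod p`. -/
theorem fe_lemma {σ : Type*} [Finite σ] (p : ℕ) [Fact p.Prime] (n : ℕ) (hn : 1 ≤ n)
    (ι : MvPowerSeries σ ℚ) (h0 : constantCoeff ι = 0)
    (h : CoeffIn (Ideal.span {(p : ℤ)})
      ((p : MvPowerSeries σ ℚ) * (hlog ℚ p n).subst ι -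
        expand (p ^ n) (pow_ne_zero n (Fact.out : p.Prime).ne_zero) ((hlog ℚ p n).subst ι))) :
    CoeffIn (⊤ : Ideal ℤ) ι := by
  classical
  have hp : p.Prime := Fact.out
  have hq : 1 < p ^ n := Nat.one_lt_pow (by omega) hp.one_lt
  have hp0 : (p : ℚ) ≠ 0 := Nat.cast_ne_zero.2 hp.ne_zero
  have hpu : IsUnit (p : ℚ) := hp0.isUnit
  have key : ∀ J : ℕ, ∀ d : σ →₀ ℕ, d.degree < J + 1 → ∃ a : ℤ, (a : ℚ) = coeff d ι := by
    intro J
    induction J with
    | zero =>
      intro d hd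
      have : d = 0 := (Finsupp.degree_eq_zero_iff d).1 (by omega)
      refine ⟨0, ?_⟩
      rw [this, coeff_zero_eq_constantCoeff_apply, h0, Int.cast_zero]
    | succ J ih =>
      intro d hd
      choose! a ha using ih
      let ι₀ : MvPowerSeries σ ℤ := fun e => if e.degree < J + 1 then a e else 0
      have hι₀ : ∀ e : σ →₀ ℕ, e.degree < J + 1 → coeff e ι₀ = a e := fun e he => if_pos he
      set ι₁ : MvPowerSeries σ ℚ := ι₀.map (algebraMap ℤ ℚ) with hι₁
      have hc₁ : ∀ e : σ →₀ ℕ, e.degree < J + 1 → coeff e ι₁ = coeff e ι := fun e he => by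
        rw [hι₁, coeff_map, hι₀ e he, ← ha e he]
        rfl
      have h1 : constantCoeff ι₁ = 0 := by
        rw [← coeff_zero_eq_constantCoeff_apply, hc₁ 0 (by simp), coeff_zero_eq_constantCoeff_apply,
          h0]
      have h00 : constantCoeff ι₀ = 0 := by
        rw [hι₁, constantCoeff_map] at h1
        exact (algebraMap ℤ ℚ).injective_int (by rw [h1, map_zero])
      have hord : ((J + 1 : ℕ) : ℕ∞) ≤ (ι - ι₁).order :=
        nat_le_order fun e he => by rw [map_sub, hc₁ e he, sub_self]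
      have hd' : (d.degree : ℕ∞) < ((J + 1 + 1 : ℕ) : ℕ∞) := by exact_mod_cast hd
      -- the two error terms vanish in degree `d`
      have e1 := coeff_of_lt_order (lt_of_lt_of_le hd' (honda1_order_expand hq
        (pow_ne_zero n hp.ne_zero) (by omega) (honda1_order_subst (hlog ℚ p n) h0 h1 hord)))
      have e2 := coeff_of_lt_order (lt_of_lt_of_le hd' (honda1_order_subst (hlog ℚ p n)
        (a := ι ^ p ^ n) (b := ι₁ ^ p ^ n) (by rw [map_pow, h0, zero_pow (by omega)])
        (by rw [map_pow, h1, zero_pow (by omega)]) (honda1_order_pow h0 h1 hq hord)))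
      have e3 := hlog_subst_congr (A := ℤ) (K := ℚ) p n hn hpu
        (a := expand (p ^ n) (pow_ne_zero n hp.ne_zero) ι₀) (b := ι₀ ^ p ^ n)
        (by rw [constantCoeff_expand, h00]) (by rw [map_pow, h00, zero_pow (by omega)])
        (honda1_frob p n ι₀)
      rw [map_expand, map_pow, ← hι₁,
        ← PowerSeries.expand_subst _ _ (PowerSeries.HasSubst.of_constantCoeff_zero h1)] at e3
      obtain ⟨x, hx, ex⟩ := (h.add e3) d
      obtain ⟨y, rfl⟩ := Ideal.mem_span_singleton'.1 hx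
      refine ⟨y, mul_right_cancel₀ hp0 ?_⟩
      have e4 : coeff d ((p : MvPowerSeries σ ℚ) * ι) = coeff d ι * p := by
        rw [← map_natCast (C : ℚ →+* MvPowerSeries σ ℚ), coeff_C_mul, mul_comm]
      rw [honda1_hlog_subst hq hpu h0] at ex
      simp only [map_sub, map_add] at ex e1 e2
      rw [e4] at ex
      have e5 : (algebraMap ℤ ℚ) (y * (p : ℤ)) = (y : ℚ) * p := by simp
      rw [e5] at ex
      linarith
  intro d
  obtain ⟨a, ha⟩ := key d.degree d (Nat.lt_succ_self _)
  exact ⟨a, Submodule.mem_top, ha⟩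

/-- `L⁻¹ (L X + L Y)` is integral (`fe_lemma`, `exists_transport'` from `𝔾ₐ`, `exists_descend`) -/
theorem exists_honda (p : ℕ) [Fact p.Prime] (n : ℕ) (hn : 1 ≤ n) :
    ∃ F : FormalGroup ℤ, F.IsComm ∧ IsLog (F.map (Int.castRingHom ℚ)) (hlog ℚ p n) := by
  have hp : p.Prime := Fact.out
  have hq : 1 < p ^ n := Nat.one_lt_pow (by omega) hp.one_lt
  have hp0 : (p : ℚ) ≠ 0 := Nat.cast_ne_zero.2 hp.ne_zero
  have hpu : IsUnit (p : ℚ) := hp0.isUnit
  obtain ⟨g, g0, g1, hLg, hgL⟩ := exists_substInv (f := hlog ℚ p n) constantCoeff_hlog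
    (by rw [coeff_one_hlog]; exact isUnit_one)
  obtain ⟨G, hGc, hG⟩ := exists_transport (FormalGroup.𝔾ₐ (R := ℚ)) g0 g1
  have hL := (isFGHom_inv hG constantCoeff_hlog hgL hLg).2
  have hX : ∀ i : Fin 2, constantCoeff ((hlog ℚ p n).subst (X i : MvPowerSeries (Fin 2) ℚ)) = 0 :=
    fun i => PowerSeries.constantCoeff_subst_eq_zero (constantCoeff_X i) _ constantCoeff_hlog
  have hs : HasSubst ![(hlog ℚ p n).subst (X 0 : MvPowerSeries (Fin 2) ℚ),
      (hlog ℚ p n).subst (X 1 : MvPowerSeries (Fin 2) ℚ)] :=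
    hasSubst_of_constantCoeff_zero fun i => by fin_cases i <;> simp [hX]
  rw [FormalGroup.𝔾ₐ_toPowerSeries, subst_add hs, subst_X hs, subst_X hs] at hL
  simp only [Matrix.cons_val_zero, Matrix.cons_val_one] at hL
  have hint := fe_lemma p n hn G.toPowerSeries G.zero_constantCoeff (by
    rw [hL, map_add, mul_add, honda1_hlog_subst hq hpu (constantCoeff_X 0),
      honda1_hlog_subst hq hpu (constantCoeff_X 1),
      PowerSeries.expand_subst _ _ (PowerSeries.HasSubst.X 0),
      PowerSeries.expand_subst _ _ (PowerSeries.HasSubst.X 1), expand_X, expand_X]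
    intro d
    refine ⟨(p : ℤ) * coeff d (X 0 + X 1 : MvPowerSeries (Fin 2) ℤ),
      Ideal.mul_mem_right _ _ (Ideal.mem_span_singleton_self _), ?_⟩
    have e : ((p : MvPowerSeries (Fin 2) ℚ) * X 0 + (hlog ℚ p n).subst (X 0 ^ p ^ n) +
        ((p : MvPowerSeries (Fin 2) ℚ) * X 1 + (hlog ℚ p n).subst (X 1 ^ p ^ n)) -
        ((hlog ℚ p n).subst (X 0 ^ p ^ n) + (hlog ℚ p n).subst (X 1 ^ p ^ n)) :
          MvPowerSeries (Fin 2) ℚ) =
        (C (p : ℤ) * (X 0 + X 1 : MvPowerSeries (Fin 2) ℤ)).map (algebraMap ℤ ℚ) := by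
      simp only [map_mul, map_add, map_X, map_natCast]
      ring
    rw [e, coeff_map, coeff_C_mul])
  obtain ⟨F, hFc, hF⟩ := exists_descend G (φ := Int.castRingHom ℚ) (RingHom.injective_int _)
    fun d => by
      obtain ⟨a, -, ha⟩ := hint d
      exact ⟨a, ha⟩
  refine ⟨F, hFc, ?_⟩
  rw [hF]
  exact ⟨constantCoeff_hlog, coeff_one_hlog, hL⟩

end Crest.Agent.R227.K
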