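import Crest.Agent.R227.K.Lz1

/-! Row 227, task `R227/K/Lz`: the two-sided logarithm with values in an untilt. -/

set_option autoImplicit false

namespace Crest.Agent.R227.K

open MvPowerSeries Crest.LubinTate
open scoped BigOperators

variable {C : Type*} [NormedField C] [IsUltrametricDist C] [IsAlgClosed C]
  {p : ℕ} [Fact p.Prime] [CharP C p] {K : Type*} [NormedField K] [IsUltrametricDist K]
  {ϖ : O C} {s : WittVector p (O C) →+* O K} {n : ℕ} [CompleteSpace K]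

theorem lz_tendsto {ρ π : ℝ} (hρ0 : 0 ≤ ρ) (hρ : ρ < 1) (hπ : 0 < π) :
    Filter.Tendsto (fun r : ℕ => ρ ^ 2 ^ r * π⁻¹ ^ r) Filter.atTop (nhds 0) := by
  obtain ⟨M, hM⟩ := exists_pow_lt_of_lt_one (half_pos hπ) hρ
  have h1 : ∀ᶠ r : ℕ in Filter.atTop, M * r ≤ 2 ^ r := by
    have h2 := (tendsto_pow_const_div_const_pow_of_one_lt 1 (r := 2) one_lt_two).const_mul (M : ℝ)
    rw [mul_zero] at h2
    filter_upwards [h2.eventually (ge_mem_nhds one_pos)] with r hr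
    rw [pow_one, ← mul_div_assoc, div_le_one (by positivity)] at hr
    exact_mod_cast hr
  refine squeeze_zero' (Filter.Eventually.of_forall fun r => by positivity) ?_
    (tendsto_pow_atTop_nhds_zero_of_lt_one (r := 1 / 2) (by norm_num) (by norm_num))
  filter_upwards [h1] with r hr
  calc ρ ^ 2 ^ r * π⁻¹ ^ r ≤ ρ ^ (M * r) * π⁻¹ ^ r :=
        mul_le_mul_of_nonneg_right (pow_le_pow_of_le_one hρ0 hρ.le hr) (by positivity)
    _ = (ρ ^ M * π⁻¹) ^ r := by rw [mul_pow, pow_mul]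
    _ ≤ (1 / 2) ^ r := by
        refine pow_le_pow_left₀ (by positivity) ?_ r
        rw [mul_inv_le_iff₀ hπ]
        linarith

theorem lz_two_pow_le (p : ℕ) [Fact p.Prime] {h : ℕ} (hh : 1 ≤ h) (r : ℕ) : 2 ^ r ≤ (p ^ h) ^ r :=
  Nat.pow_le_pow_left (Nat.one_lt_pow (by omega) (Fact.out : p.Prime).one_lt) r

variable (p) in
/-- the value of Honda's logarithm at a point of the open ball -/
noncomputable def lzL (h : ℕ) (z : K) : K := ∑' r : ℕ, (p : K)⁻¹ ^ r * z ^ (p ^ h) ^ r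

theorem lzL_summable (hp : (p : K) ≠ 0) {h : ℕ} (hh : 1 ≤ h) {z : K} (hz : ‖z‖ < 1) :
    Summable fun r : ℕ => (p : K)⁻¹ ^ r * z ^ (p ^ h) ^ r := by
  rw [NonarchimedeanAddGroup.summable_iff_tendsto_cofinite_zero, Nat.cofinite_eq_atTop,
    tendsto_zero_iff_norm_tendsto_zero]
  refine squeeze_zero (fun _ => norm_nonneg _) (fun r => ?_)
    (lz_tendsto (norm_nonneg z) hz (norm_pos_iff.2 hp))
  rw [norm_mul, norm_pow, norm_pow, norm_inv, mul_comm]
  exact mul_le_mul_of_nonneg_right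
    (pow_le_pow_of_le_one (norm_nonneg _) hz.le (lz_two_pow_le p hh r)) (by positivity)

theorem lzL_congr (hp : (p : K) ≠ 0) {h : ℕ} (hh : 1 ≤ h) {z z' : O K} (hz : z ∈ mO K)
    (hz' : z' ∈ mO K) (hzz : nm (z - z') ≤ ‖(p : K)‖) :
    ‖lzL p h (z : K) - lzL p h (z' : K)‖ ≤ 1 := by
  rw [lzL, lzL, ← (lzL_summable hp hh hz).tsum_sub (lzL_summable hp hh hz')]
  refine IsUltrametricDist.norm_tsum_le_of_forall_le fun r => ?_
  have h1 : (p : O K) ∣ z - z' := dvd_of_nm_le (by simpa [nm] using hzz)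
  obtain ⟨w, hw⟩ := (pow_dvd_pow (p : O K) (show r ≤ h * r + 1 by nlinarith)).trans
    (dvd_sub_pow_of_dvd_sub h1 (h * r))
  have h2 : (z : K) ^ (p ^ h) ^ r - (z' : K) ^ (p ^ h) ^ r = (p : K) ^ r * w := by
    have := congrArg (Subtype.val : O K → K) hw
    rw [← pow_mul]
    simpa using this
  rw [← mul_sub, h2, ← mul_assoc, ← mul_pow, inv_mul_cancel₀ hp, one_pow, one_mul]
  exact w.2

omit [CompleteSpace K] [IsUltrametricDist K] in
theorem lz_trunc {h : ℕ} (hh : 1 ≤ h) {σ : Type*} [Finite σ] {b : MvPowerSeries σ K}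
    (hb : constantCoeff b = 0) (R : ℕ) :
    (hlog K p h).subst b - ∑ r ∈ Finset.range R, MvPowerSeries.C ((p : K)⁻¹ ^ r) * b ^ (p ^ h) ^ r ∈
      XI σ K ^ 2 ^ R := by
  have hq : 1 < p ^ h := Nat.one_lt_pow (by omega) (Fact.out : p.Prime).one_lt
  have hs := PowerSeries.HasSubst.of_constantCoeff_zero hb
  have h1 : (PowerSeries.X : PowerSeries K) ^ (p ^ h) ^ R ∣ hlog K p h -
      ∑ r ∈ Finset.range R, PowerSeries.C ((p : K)⁻¹ ^ r) * PowerSeries.X ^ (p ^ h) ^ r := by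
    rw [PowerSeries.X_pow_dvd_iff]
    intro j hj
    rw [map_sub, map_sum, sub_eq_zero]
    simp only [PowerSeries.coeff_C_mul, PowerSeries.coeff_X_pow]
    by_cases hex : ∃ r, j = (p ^ h) ^ r
    · obtain ⟨r, rfl⟩ := hex
      rw [coeff_hlog_pow hq, Ring.inverse_eq_inv', Finset.sum_eq_single r]
      · simp
      · intro r' _ hr'
        rw [if_neg fun h' => hr' (Nat.pow_right_injective hq h').symm, mul_zero]
      · intro hr
        exact absurd (Finset.mem_range.2 ((Nat.pow_lt_pow_iff_right hq).1 hj)) hr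
    · push Not at hex
      rw [coeff_hlog_of_ne hex]
      exact (Finset.sum_eq_zero fun r _ => by rw [if_neg (hex r), mul_zero]).symm
  obtain ⟨g, hg⟩ := h1
  have h2 := congrArg (PowerSeries.substAlgHom (R := K) hs) hg
  simp only [map_sub, map_sum, map_mul, map_pow, PowerSeries.coe_substAlgHom,
    PowerSeries.subst_X hs, PowerSeries.subst_C] at h2
  simp only [map_pow]
  rw [h2]
  exact Ideal.mul_mem_right _ _ (Ideal.pow_le_pow_right (lz_two_pow_le p hh R)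
    (Ideal.pow_mem_pow (mem_XI.2 hb) _))

/-- the truncated identity with denominators cleared -/
noncomputable def lzE (h n : ℕ) {σ τ : Type*} [Fintype τ] (Φ β : MvPowerSeries σ (O K)) (v : τ → σ)
    (c : τ → ℕ) {a : τ → K} (e : ℕ) (he : ∀ k, ‖(p : K) ^ e * a k‖ ≤ 1) (R : ℕ) :
    MvPowerSeries σ (O K) :=
  ∑ r ∈ Finset.range R, MvPowerSeries.C ((p : O K) ^ (R - r + e)) * Φ ^ (p ^ h) ^ r -
    ∑ k, ∑ r ∈ Finset.range R, MvPowerSeries.C ((p : O K) ^ (R - r) * ⟨_, he k⟩) *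
      (X (v k) ^ p ^ c k) ^ (p ^ n) ^ r - MvPowerSeries.C ((p : O K) ^ (R + e)) * β

omit [Fact p.Prime] [CompleteSpace K] in
theorem lzE_map (hp : (p : K) ≠ 0) (h n : ℕ) {σ τ : Type*} [Fintype τ] (Φ β : MvPowerSeries σ (O K))
    (v : τ → σ) (c : τ → ℕ) {a : τ → K} (e : ℕ) (he : ∀ k, ‖(p : K) ^ e * a k‖ ≤ 1) {T : Type*}
    [CommRing T] (ι : K →+* T) (ψ : MvPowerSeries σ (O K) →+* T)
    (hψ : ∀ x, ψ (MvPowerSeries.C x) = ι x) (R : ℕ) :
    ψ (lzE h n Φ β v c e he R) = ι ((p : K) ^ (R + e)) *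
      (∑ r ∈ Finset.range R, ι ((p : K)⁻¹ ^ r) * ψ Φ ^ (p ^ h) ^ r -
        ∑ k, ι (a k) * ∑ r ∈ Finset.range R, ι ((p : K)⁻¹ ^ r) *
          (ψ (X (v k)) ^ p ^ c k) ^ (p ^ n) ^ r - ψ β) := by
  have h1 : ∀ r ∈ Finset.range R, (p : K) ^ (R - r) = (p : K) ^ R * (p : K)⁻¹ ^ r := by
    intro r hr
    rw [pow_sub₀ _ hp (Finset.mem_range.1 hr).le, inv_pow]
  simp only [lzE, map_sub, map_sum, mul_sub, Finset.mul_sum]
  congr 1
  congr 1
  · refine Finset.sum_congr rfl fun r hr => ?_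
    rw [map_mul, hψ, map_pow ψ, ← mul_assoc, ← map_mul]
    congr 2
    push_cast
    rw [pow_add, pow_add, h1 r hr]; ring
  · refine Finset.sum_congr rfl fun k _ => Finset.sum_congr rfl fun r hr => ?_
    rw [map_mul, hψ, map_pow ψ, map_pow ψ, ← mul_assoc, ← mul_assoc, ← map_mul, ← map_mul]
    congr 2
    push_cast
    rw [pow_add, h1 r hr]; ring
  · rw [map_mul, hψ]
    congr 2

/-- evaluation of a formal identity between logarithms -/
theorem lzL_ev (hp : (p : K) ≠ 0) (hp1 : ‖(p : K)‖ < 1) (hn : 1 ≤ n) {h : ℕ} (hh : 1 ≤ h)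
    {σ τ : Type*} [Finite σ] [Fintype τ] (Φ : MvPowerSeries σ (O K)) (h0 : constantCoeff Φ = 0)
    (v : τ → σ) (c : τ → ℕ) (a : τ → K)
    (hΦ : CoeffIn (⊤ : Ideal (O K)) ((hlog K p h).subst (Φ.map (algebraMap (O K) K)) -
      ∑ k, MvPowerSeries.C (a k) * (hlog K p n).subst (X (v k) ^ p ^ c k : MvPowerSeries σ K)))
    {y : σ → O K} (hy : ∀ i, y i ∈ mO K) :
    ‖lzL p h (ev (RingHom.id (O K)) y Φ : K) - ∑ k, a k * lzL p n ((y (v k) : K) ^ p ^ c k)‖ ≤ 1 := by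
  obtain ⟨β, -, hβ⟩ := coeffIn_iff.1 hΦ
  have hp0 : 0 < ‖(p : K)‖ := norm_pos_iff.2 hp
  have hpc : ∀ k, p ^ c k ≠ 0 := fun k => pow_ne_zero _ (Fact.out : p.Prime).ne_zero
  -- common denominator
  obtain ⟨e, he⟩ : ∃ e : ℕ, ∀ k, ‖(p : K) ^ e * a k‖ ≤ 1 := by
    have : ∀ k, ∀ᶠ e : ℕ in Filter.atTop, ‖(p : K) ^ e * a k‖ ≤ 1 := fun k => by
      have h1 := (tendsto_pow_atTop_nhds_zero_of_lt_one hp0.le hp1).mul_const ‖a k‖
      rw [zero_mul] at h1
      filter_upwards [h1.eventually (ge_mem_nhds one_pos)] with e he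
      rwa [norm_mul, norm_pow]
    exact (Filter.eventually_all.2 this).exists
  -- radius
  obtain ⟨ρ, hρ0, hρ1, hρ⟩ : ∃ ρ : ℝ, 0 ≤ ρ ∧ ρ < 1 ∧ ∀ i, nm (y i) ≤ ρ := by
    have : ∀ i, ∀ᶠ ρ : ℝ in nhdsWithin 1 (Set.Iio 1), nm (y i) ≤ ρ := fun i =>
      nhdsWithin_le_nhds (le_mem_nhds (hy i))
    have h4 : ∀ᶠ ρ : ℝ in nhdsWithin 1 (Set.Iio 1), 0 ≤ ρ :=
      nhdsWithin_le_nhds (le_mem_nhds one_pos)
    obtain ⟨ρ, h1, h2, h3⟩ := ((Filter.eventually_all.2 this).and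
      (h4.and self_mem_nhdsWithin)).exists
    exact ⟨ρ, h2, h3, h1⟩
  let E := lzE h n Φ β v c e he
  have hE0 : ∀ R (d : σ →₀ ℕ), d.degree < 2 ^ R → coeff d (E R) = 0 := by
    intro R d hd
    have h1 := lzE_map hp h n Φ β v c e he (MvPowerSeries.C : K →+* MvPowerSeries σ K)
      (MvPowerSeries.map (algebraMap (O K) K)) (fun x => map_C _ _) R
    have h2 : MvPowerSeries.map (algebraMap (O K) K) (E R) ∈ XI σ K ^ 2 ^ R := by
      rw [h1, hβ]
      refine Ideal.mul_mem_left _ _ ?_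
      have h3 := lz_trunc (p := p) hh (b := Φ.map (algebraMap (O K) K))
        (by rw [constantCoeff_map, h0, map_zero]) R
      have h4 := Ideal.sum_mem _ (t := Finset.univ) fun k _ =>
        Ideal.mul_mem_left _ (MvPowerSeries.C (a k)) (lz_trunc (p := p) hn
          (b := (X (v k) ^ p ^ c k : MvPowerSeries σ K)) (by rw [map_pow, constantCoeff_X, zero_pow (hpc k)]) R)
      convert Ideal.sub_mem _ h4 h3 using 1
      simp only [map_X, mul_sub, Finset.sum_sub_distrib]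
      ring
    have h5 := mem_XI_pow.1 h2 d hd
    rw [coeff_map] at h5
    exact Subtype.ext h5
  have hz : ev (RingHom.id (O K)) y Φ ∈ mO K :=
    ev_mem good_mO _ hy (by rw [h0, map_zero]; exact zero_mem _)
  have hlim1 : Filter.Tendsto (fun R =>
      ∑ r ∈ Finset.range R, (p : K)⁻¹ ^ r * (ev (RingHom.id (O K)) y Φ : K) ^ (p ^ h) ^ r -
        ∑ k, a k * ∑ r ∈ Finset.range R, (p : K)⁻¹ ^ r * ((y (v k) : K) ^ p ^ c k) ^ (p ^ n) ^ r -
          (ev (RingHom.id (O K)) y β : K)) Filter.atTop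
      (nhds (lzL p h (ev (RingHom.id (O K)) y Φ : K) -
        ∑ k, a k * lzL p n ((y (v k) : K) ^ p ^ c k) - (ev (RingHom.id (O K)) y β : K))) := by
    refine ((lzL_summable hp hh hz).hasSum.tendsto_sum_nat.sub
      (tendsto_finsetSum _ fun k _ => ?_)).sub_const _
    refine (lzL_summable hp hn ?_).hasSum.tendsto_sum_nat.const_mul _
    rw [norm_pow]
    exact pow_lt_one₀ (norm_nonneg _) (hy _) (hpc k)
  have hlim2 : Filter.Tendsto (fun R =>
      ∑ r ∈ Finset.range R, (p : K)⁻¹ ^ r * (ev (RingHom.id (O K)) y Φ : K) ^ (p ^ h) ^ r -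
        ∑ k, a k * ∑ r ∈ Finset.range R, (p : K)⁻¹ ^ r * ((y (v k) : K) ^ p ^ c k) ^ (p ^ n) ^ r -
          (ev (RingHom.id (O K)) y β : K)) Filter.atTop (nhds 0) := by
    rw [tendsto_zero_iff_norm_tendsto_zero]
    have h1 := (lz_tendsto hρ0 hρ1 hp0).mul_const (‖(p : K)‖⁻¹ ^ e)
    rw [zero_mul] at h1
    refine squeeze_zero (fun _ => norm_nonneg _) (fun R => ?_) h1
    have h2 := lzE_map hp h n Φ β v c e he (RingHom.id K) ((O K).subtype.comp (ev (RingHom.id (O K)) y))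
      (fun x => by simp) R
    have h3 : ‖((O K).subtype.comp (ev (RingHom.id (O K)) y)) (E R)‖ ≤ ρ ^ 2 ^ R :=
      nm_ev_le_pow _ hρ1 hρ0 hρ (hE0 R)
    rw [h2, norm_mul] at h3
    simp only [RingHom.id_apply, RingHom.comp_apply, Subring.subtype_apply, ev_X good_mO _ hy,
      norm_pow] at h3
    rw [mul_assoc, ← pow_add, inv_pow ‖(p : K)‖, le_mul_inv_iff₀ (by positivity), mul_comm]
    exact h3
  rw [sub_eq_zero.1 (tendsto_nhds_unique hlim1 hlim2)]
  exact Subtype.prop (ev (RingHom.id (O K)) y β)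

theorem IsUntilt.lzL_tendsto (hs : IsUntilt ϖ s) (hn : 1 ≤ n) {Y : O C} (hY : Y ∈ mO C) :
    Filter.Tendsto (fun t : ℕ => (p : K) ^ t * lzL p n (sharp s (frz C p (-(n * t : ℕ)) Y) : K))
      Filter.atTop (nhds (Lz s n Y)) := by
  have hp := hs.p_ne_zero
  set f : ℤ → K := fun r => (sharp s (frz C p (n * r) Y) : K) * (p : K) ^ (-r) with hf
  have hsum : Summable f := hs.summable hn hY
  have h1 : ∀ t : ℕ, (p : K) ^ t * lzL p n (sharp s (frz C p (-(n * t : ℕ)) Y) : K) =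
      Lz s n Y - ∑' r : ℕ, f (-((r + t : ℕ) + 1)) := by
    intro t
    have h2 : Summable fun r : ℤ => f (r - t) := hsum.comp_injective (i := fun r : ℤ => r - t) sub_left_injective
    have h3 := tsum_of_nat_of_neg_add_one (f := fun r : ℤ => f (r - t))
      (h2.comp_injective Nat.cast_injective)
      (h2.comp_injective (i := fun r : ℕ => -((r : ℤ) + 1)) fun a b hab => by simpa using hab)
    have h4 : ∑' r : ℤ, f (r - t) = Lz s n Y := (Equiv.subRight (t : ℤ)).tsum_eq f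
    rw [eq_sub_iff_add_eq, ← h4, h3, lzL, ← tsum_mul_left]
    congr 1
    · refine tsum_congr fun r => ?_
      simp only [hf]
      rw [← pow_mul p, ← SubmonoidClass.coe_pow, ← sharp_pow, ← frz_natCast, ← frz_add,
        neg_sub, zpow_sub₀ hp, zpow_natCast, zpow_natCast, inv_pow]
      rw [show ((n * r : ℕ) : ℤ) + -((n * t : ℕ) : ℤ) = n * ((r : ℤ) - t) by push_cast; ring]
      ring
    · refine tsum_congr fun r => ?_
      congr 1
      push_cast
      ring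
  simp only [h1]
  have h5 := (tendsto_sum_nat_add fun r : ℕ => f (-((r : ℤ) + 1))).const_sub (Lz s n Y)
  rwa [sub_zero] at h5

/-- LINEARISATION.  For `z` in the open ball of `K` let `L z = ∑_{r ≥ 0} z ^ q ^ r / p ^ r`.
(i) `Lz Y = lim_t p ^ t L ((Y ^ (1 / q ^ t))♯)`; (ii) `z ≡ z' mod p` implies `L z ≡ L z' mod p`;
(iii) the formal identity can be evaluated: replace the logarithms by their truncations `r ≤ R`; the
difference series, multiplied by a power `p ^ (R + e)`, is integral and agrees with `p ^ (R + e) β`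
below degree `min (p ^ h, p ^ n) ^ (R + 1)`, so the error is at most
`ρ ^ (2 ^ (R + 1)) / ‖p‖ ^ (R + e) → 0` (`nm_ev_le_pow`). -/
theorem IsUntilt.lin (hs : IsUntilt ϖ s) (hn : 1 ≤ n) {h : ℕ} (hh : 1 ≤ h) {σ τ : Type*}
    [Finite σ] [Fintype τ] (Φ : MvPowerSeries σ (O K)) (h0 : constantCoeff Φ = 0) (v : τ → σ)
    (c : τ → ℕ) (a : τ → K)
    (hΦ : CoeffIn (⊤ : Ideal (O K)) ((hlog K p h).subst (Φ.map (algebraMap (O K) K)) -
      ∑ k, MvPowerSeries.C (a k) * (hlog K p n).subst (X (v k) ^ p ^ c k : MvPowerSeries σ K)))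
    {Y : σ → O C} (hY : ∀ i, Y i ∈ mO C) {ν : O C} (hν : ν ∈ mO C)
    (hcong : ∀ t : ℕ, nm (sharp s (frz C p (-(h * t : ℕ)) ν) -
      ev (RingHom.id (O K)) (fun i => sharp s (frz C p (-(n * t : ℕ)) (Y i))) Φ) ≤ nm ϖ) :
    Lz s h ν = ∑ k, a k * Lz s n (frz C p (c k) (Y (v k))) := by
  have hp := hs.p_ne_zero
  have hp1 : ‖(p : K)‖ < 1 := hs.norm_p.trans_lt hs.lt
  have hm : ∀ {x : O C}, x ∈ mO C → sharp s x ∈ mO K := fun hx => by
    rw [mem_mO, hs.nm_sharp]; exact hx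
  have h1 := (hs.lzL_tendsto hh hν).sub (tendsto_finsetSum Finset.univ fun k _ =>
    (hs.lzL_tendsto hn (frz_mem_mO p (c k) (hY (v k)))).const_mul (a k))
  refine sub_eq_zero.1 (tendsto_nhds_unique h1 ?_)
  rw [tendsto_zero_iff_norm_tendsto_zero]
  refine squeeze_zero (fun _ => norm_nonneg _) (fun t => ?_)
    (tendsto_pow_atTop_nhds_zero_of_lt_one (norm_nonneg _) hp1)
  have hy : ∀ i, sharp s (frz C p (-(n * t : ℕ)) (Y i)) ∈ mO K := fun i =>
    hm (frz_mem_mO p _ (hY i))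
  have h2 := lzL_ev hp hp1 hn hh Φ h0 v c a hΦ hy
  have h3 := lzL_congr hp hh (hm (frz_mem_mO p _ hν))
    (ev_mem good_mO _ hy (by rw [h0, map_zero]; exact zero_mem _)) ((hcong t).trans hs.norm_p.ge)
  have h4 := (IsUltrametricDist.norm_add_le_max _ _).trans (max_le h3 h2)
  rw [sub_add_sub_cancel] at h4
  have h5 : ∀ k, ((sharp s (frz C p (-(n * t : ℕ)) (Y (v k))) : O K) : K) ^ p ^ c k =
      sharp s (frz C p (-(n * t : ℕ)) (frz C p (c k) (Y (v k)))) := fun k => by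
    rw [← SubmonoidClass.coe_pow, ← sharp_pow, ← frz_natCast, ← frz_add, ← frz_add, add_comm]
  simp only [h5] at h4
  simp only [mul_left_comm (a _), ← Finset.mul_sum, ← mul_sub]
  rw [norm_mul, norm_pow]
  exact mul_le_of_le_one_right (by positivity) h4

end Crest.Agent.R227.K
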