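import Crest.Agent.R227.K.QLog1

/-! Row 227, task `R227/K/QLog`: quasi-logarithms of Honda's law. -/

set_option autoImplicit false

namespace Crest.Agent.R227.K

open MvPowerSeries Crest.LubinTate
open scoped BigOperators

variable (p : ℕ) [Fact p.Prime] {n : ℕ} {A K : Type*} [CommRing A] [CommRing K] [Algebra A K]

/-- the coboundary -/
noncomputable def qlCob (G : FormalGroup K) (f : PowerSeries K) : MvPowerSeries (Fin 2) K :=
  f.subst G.toPowerSeries - f.subst (X 0 : MvPowerSeries (Fin 2) K) -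
    f.subst (X 1 : MvPowerSeries (Fin 2) K)

theorem qlCob_sub (G : FormalGroup K) (f g : PowerSeries K) :
    qlCob G (f - g) = qlCob G f - qlCob G g := by
  simp only [qlCob, PowerSeries.subst_sub (PowerSeries.HasSubst.X _),
    PowerSeries.subst_sub (PowerSeries.HasSubst.of_constantCoeff_zero G.zero_constantCoeff)]
  ring

theorem qlCob_C_mul (G : FormalGroup K) (y : K) (f : PowerSeries K) :
    qlCob G (PowerSeries.C y * f) = C y * qlCob G f := by
  simp only [qlCob, PowerSeries.subst_mul (PowerSeries.HasSubst.X _), PowerSeries.subst_C,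
    PowerSeries.subst_mul (PowerSeries.HasSubst.of_constantCoeff_zero G.zero_constantCoeff)]
  ring

theorem qlCob_map (G : FormalGroup A) (g : PowerSeries A) :
    CoeffIn (⊤ : Ideal A) (qlCob (G.map (algebraMap A K)) (g.map (algebraMap A K))) := by
  have h : CoeffIn (⊤ : Ideal A) (g.map (algebraMap A K)) := coeffIn_map _
  have h0 := h.psubst (constantCoeff_X (0 : Fin 2))
  have h1 := h.psubst (constantCoeff_X (1 : Fin 2))
  rw [map_X] at h0 h1
  exact ((h.psubst G.zero_constantCoeff).sub h0).sub h1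

theorem ql_pow_sub (G : FormalGroup K) (j : ℕ) : G.toPowerSeries ^ j - (X 0 + X 1) ^ j ∈
    Ideal.span (Set.range (X : Fin 2 → MvPowerSeries (Fin 2) K)) ^ (j + 1) := by
  set m := Ideal.span (Set.range (X : Fin 2 → MvPowerSeries (Fin 2) K)) with hm
  have hS : (X 0 + X 1 : MvPowerSeries (Fin 2) K) ∈ m :=
    add_mem (Ideal.subset_span ⟨0, rfl⟩) (Ideal.subset_span ⟨1, rfl⟩)
  have h2 : G.toPowerSeries - (X 0 + X 1) ∈ m ^ 2 := mem_span_X_pow fun d hd => by
    rw [Finsupp.degree_eq_sum, Fin.sum_univ_two] at hd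
    have : d = 0 ∨ d = Finsupp.single 0 1 ∨ d = Finsupp.single 1 1 := by
      simp only [Finsupp.ext_iff, Fin.forall_fin_two, Finsupp.coe_zero, Pi.zero_apply,
        Finsupp.single_eq_same, ne_eq, one_ne_zero, zero_ne_one, not_false_eq_true,
        Finsupp.single_eq_of_ne]
      omega
    rcases this with rfl | rfl | rfl
    · simp [G.zero_constantCoeff]
    · simp [G.lin_coeff_X, coeff_X, Finsupp.single_eq_single_iff]
    · simp [G.lin_coeff_Y, coeff_X, Finsupp.single_eq_single_iff]
  have hG : G.toPowerSeries ∈ m := by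
    simpa using add_mem (Ideal.pow_le_self two_ne_zero h2) hS
  induction j with
  | zero => simp
  | succ j ih =>
    have e : G.toPowerSeries ^ (j + 1) - (X 0 + X 1) ^ (j + 1) =
        (G.toPowerSeries ^ j - (X 0 + X 1) ^ j) * G.toPowerSeries +
          (X 0 + X 1) ^ j * (G.toPowerSeries - (X 0 + X 1)) := by ring
    rw [e]
    refine add_mem (pow_succ m (j + 1) ▸ Ideal.mul_mem_mul ih hG) ?_
    rw [add_assoc, pow_add]
    exact Ideal.mul_mem_mul (Ideal.pow_mem_pow hS j) h2

theorem ql_coeff_subst (G : FormalGroup K) {f : PowerSeries K} (d : Fin 2 →₀ ℕ)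
    (hf : ∀ j < d 0 + d 1, PowerSeries.coeff j f = 0) : coeff d (f.subst G.toPowerSeries) =
      (d 0 + d 1).choose (d 0) * PowerSeries.coeff (d 0 + d 1) f := by
  rw [← PowerSeries.coeff_subst_X_zero_add_X_one,
    PowerSeries.coeff_subst (PowerSeries.HasSubst.of_constantCoeff_zero G.zero_constantCoeff),
    PowerSeries.coeff_subst (PowerSeries.HasSubst.of_constantCoeff_zero (by simp))]
  refine finsum_congr fun j => ?_
  rcases lt_or_ge j (d 0 + d 1) with h | h
  · rw [hf j h, zero_smul, zero_smul]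
  · congr 1
    rw [← sub_eq_zero, ← map_sub]
    refine coeff_eq_zero_of_mem_span_X_pow (ql_pow_sub G j) ?_
    rw [Finsupp.degree_eq_sum, Fin.sum_univ_two]
    omega

/-- the first non-integral coefficient -/
theorem ql_first (G : FormalGroup A) {f : PowerSeries K} {J : ℕ}
    (h1 : CoeffIn (⊤ : Ideal A) (qlCob (G.map (algebraMap A K)) f))
    (h2 : ∀ j < J, PowerSeries.coeff j f ∈ (algebraMap A K).range) :
    (J = 0 → PowerSeries.coeff J f ∈ (algebraMap A K).range) ∧
      ∀ i ∈ Finset.Icc 1 (J - 1), J.choose i * PowerSeries.coeff J f ∈ (algebraMap A K).range := by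
  choose! g hg using h2
  set f' := f - (PowerSeries.mk fun j => if j < J then g j else 0).map (algebraMap A K) with hf'
  have h3 : ∀ j < J, PowerSeries.coeff j f' = 0 := fun j hj => by
    simp [hf', hj, hg j hj]
  have h4 : PowerSeries.coeff J f' = PowerSeries.coeff J f := by simp [hf']
  have h5 : CoeffIn (⊤ : Ideal A) (qlCob (G.map (algebraMap A K)) f') := by
    rw [hf', qlCob_sub]
    exact h1.sub (qlCob_map G _)
  refine ⟨?_, fun i hi => ?_⟩
  · rintro rfl
    obtain ⟨y, -, hy⟩ := h5 0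
    rw [qlCob, map_sub, map_sub, ql_coeff_subst _ _ (by simp), PowerSeries.coeff_subst_single,
      PowerSeries.coeff_subst_single] at hy
    refine ⟨-y, ?_⟩
    rw [map_neg, hy, ← h4]
    simp
  · rw [Finset.mem_Icc] at hi
    set d : Fin 2 →₀ ℕ := Finsupp.single 0 i + Finsupp.single 1 (J - i) with hd
    have d0 : d 0 = i := by simp [hd]
    have d1 : d 1 = J - i := by simp [hd]
    have dJ : d 0 + d 1 = J := by omega
    obtain ⟨y, -, hy⟩ := h5 d
    rw [qlCob, map_sub, map_sub, ql_coeff_subst _ _ (dJ.symm ▸ h3), PowerSeries.coeff_subst_single,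
      PowerSeries.coeff_subst_single, if_neg fun e => ?_, if_neg fun e => ?_, sub_zero, sub_zero,
      dJ, d0, h4] at hy
    · exact ⟨y, hy⟩
    · have := DFunLike.congr_fun e 0
      simp only [d0, ne_eq, zero_ne_one, not_false_eq_true, Finsupp.single_eq_of_ne] at this
      omega
    · have := DFunLike.congr_fun e 1
      simp only [d1, ne_eq, one_ne_zero, not_false_eq_true, Finsupp.single_eq_of_ne] at this
      omega

theorem ql_unit [IsAdicComplete (Ideal.span {(p : A)}) A] {m : ℕ} (hm : ¬ p ∣ m) {y : K}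
    (h : m * y ∈ (algebraMap A K).range) : y ∈ (algebraMap A K).range := by
  obtain ⟨u, hu⟩ := (isUnit_natCast_of_isAdicComplete (A := A) p m hm).exists_left_inv
  have := mul_mem (RingHom.mem_range_self (algebraMap A K) u) h
  rwa [← mul_assoc, ← map_natCast (algebraMap A K), ← map_mul, hu, map_one, one_mul] at this

theorem ql_step [IsLocalization.Away (p : A) K] [IsAdicComplete (Ideal.span {(p : A)}) A]
    (hn : 1 ≤ n) {f : PowerSeries K} {J : ℕ} (h1 : CoeffIn (⊤ : Ideal A) (qlCob (G0 p n K) f))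
    (h2 : ∀ j < J, PowerSeries.coeff j f ∈ (algebraMap A K).range) :
    ∃ (c : Fin n) (y : K), CoeffIn (⊤ : Ideal A) (qlCob (G0 p n K)
      (f - PowerSeries.C y * Lc K p n c)) ∧ ∀ j < J + 1,
        PowerSeries.coeff j (f - PowerSeries.C y * Lc K p n c) ∈ (algebraMap A K).range := by
  have hp := ql_isUnit (K := K) p A
  have hpp : p.Prime := Fact.out
  obtain ⟨h3, h4⟩ := ql_first (G0 p n A) (by rwa [G0_map]) h2
  by_cases hJ : PowerSeries.coeff J f ∈ (algebraMap A K).range
  · refine ⟨⟨0, hn⟩, 0, by simpa using h1, fun j hj => ?_⟩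
    rw [map_zero, zero_mul, sub_zero]
    rcases Nat.lt_succ_iff_lt_or_eq.1 hj with h | rfl
    exacts [h2 j h, hJ]
  have hs := Choose.eq_pow_multiplicity_of_choose_modEq_zero_nat (p := p)
    (Nat.pos_of_ne_zero fun h => hJ (h3 h)) fun i hi => by
      by_contra h
      exact hJ (ql_unit p (fun h' => h (Nat.modEq_zero_iff_dvd.2 h')) (h4 i hi))
  generalize multiplicity p J = s at hs
  obtain ⟨c, r, rfl⟩ : ∃ (c : Fin n) (r : ℕ), s = c + n * r :=
    ⟨⟨s % n, Nat.mod_lt _ hn⟩, s / n, (Nat.mod_add_div s n).symm⟩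
  set y := PowerSeries.coeff J f with hy
  have h5 : (c : ℕ) + n * r ≠ 0 → p * y ∈ (algebraMap A K).range := fun h => by
    have hJ' : IsPrimePow J := hs ▸ (hpp.isPrimePow).pow h
    have h6 := Choose.minFac_sq_ndvd_gcd_choose_of_isPrimePow hJ'
    rw [show J.minFac = p from hs ▸ hpp.pow_minFac h, Finset.dvd_gcd_iff] at h6
    push Not at h6
    obtain ⟨i, hi, h7⟩ := h6
    by_cases h8 : p ∣ J.choose i
    · obtain ⟨m, hm⟩ := h8
      refine ql_unit p (m := m) (fun h9 => h7 ?_) ?_
      · rw [hm, sq]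
        exact mul_dvd_mul_left p h9
      · have := h4 i hi
        rwa [hm, Nat.cast_mul, mul_comm (p : K), mul_assoc] at this
    · exact absurd (ql_unit p h8 (h4 i hi)) hJ
  refine ⟨c, y * p ^ r, ?_, fun j hj => ?_⟩
  · rw [qlCob_sub, qlCob_C_mul]
    refine h1.sub fun d => ?_
    rw [coeff_C_mul]
    by_cases h : (c : ℕ) + n * r = 0
    · have e : qlCob (G0 p n K) (Lc K p n c) = 0 := by
        rw [Lc, show (c : ℕ) = 0 by omega, pow_zero, pow_one, PowerSeries.X_subst, qlCob,
          (G0_isLog p hn K hp).2.2]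
        ring
      exact ⟨0, trivial, by rw [e, map_zero, map_zero, mul_zero]⟩
    · obtain ⟨z, hz⟩ := h5 h
      obtain ⟨w, hw, hw'⟩ := Lc_coboundary (A := A) p hn hp c d
      obtain ⟨w, rfl⟩ := Ideal.mem_span_singleton'.1 hw
      refine ⟨z * p ^ r * w, trivial, ?_⟩
      rw [qlCob, ← hw']
      simp only [map_mul, map_pow, map_natCast, hz]
      ring
  · rw [map_sub, PowerSeries.coeff_C_mul]
    rcases Nat.lt_succ_iff_lt_or_eq.1 hj with h | rfl
    · refine sub_mem (h2 j h) ?_
      by_cases h6 : ∃ r', j = p ^ (c + n * r')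
      · obtain ⟨r', rfl⟩ := h6
        rw [hs, Nat.pow_lt_pow_iff_right hpp.one_lt] at h
        obtain ⟨t, rfl⟩ := Nat.exists_eq_add_of_lt (Nat.lt_of_mul_lt_mul_left
          (Nat.lt_of_add_lt_add_left h))
        obtain ⟨z, hz⟩ := h5 (by omega)
        refine ⟨z * p ^ t, ?_⟩
        rw [coeff_Lc p hn, map_mul, map_pow, map_natCast, hz]
        linear_combination (-(p : K) * y * p ^ t) * ql_pow_inv p hp r'
      · push Not at h6
        rw [coeff_Lc_of_ne p h6, mul_zero]
        exact zero_mem _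
    · have e : PowerSeries.coeff j (Lc K p n c) = Ring.inverse (p : K) ^ r := by
        rw [hs, coeff_Lc p hn]
      rw [e, mul_assoc, ql_pow_inv p hp, mul_one, ← hy, sub_self]
      exact zero_mem _

/-- QUASI-LOGARITHM THEOREM.  Induction on the degree `J`: there is `a⁽ᴶ⁾` with
`ℓ - ∑ a⁽ᴶ⁾ c • Lc c` integral below degree `J` and with integral coboundary.  Subtract the integral
truncation; the coboundary then starts with `ℓ_J ((X + Y) ^ J - X ^ J - Y ^ J)`, so
`ℓ_J * choose J i` is integral for `0 < i < J`.  If `J` is not a power of `p` some `choose J i` is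
prime to `p`, so `ℓ_J` is integral.  If `J = p ^ (c + n r) > 1` then `p ℓ_J` is integral
(`choose J (J / p) = p * unit`); add `ℓ_J p ^ r ∈ p ^ (r - 1) A` to `a c`.  For `J = 1` add `ℓ_1`.
The `a⁽ᴶ⁾` converge `p`-adically. -/
theorem qlog [IsLocalization.Away (p : A) K] [IsAdicComplete (Ideal.span {(p : A)}) A]
    (hinj : Function.Injective (algebraMap A K)) (hn : 1 ≤ n) (ℓ : PowerSeries K)
    (hℓ : CoeffIn (⊤ : Ideal A) (ℓ.subst (G0 p n K).toPowerSeries -
      ℓ.subst (X 0 : MvPowerSeries (Fin 2) K) - ℓ.subst (X 1 : MvPowerSeries (Fin 2) K))) :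
    ∃ a : Fin n → K, CoeffIn (⊤ : Ideal A) (ℓ - ∑ c, PowerSeries.C (a c) * Lc K p n c) := by
  have hp := ql_isUnit (K := K) p A
  have hpp : p.Prime := Fact.out
  have step : ∀ J, ∃ a : Fin n → K, CoeffIn (⊤ : Ideal A) (qlCob (G0 p n K)
      (ℓ - ∑ c, PowerSeries.C (a c) * Lc K p n c)) ∧ ∀ j < J, PowerSeries.coeff j
        (ℓ - ∑ c, PowerSeries.C (a c) * Lc K p n c) ∈ (algebraMap A K).range := by
    intro J
    induction J with
    | zero => exact ⟨0, by simpa [qlCob] using hℓ, by simp⟩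
    | succ J ih =>
      obtain ⟨a, h1, h2⟩ := ih
      obtain ⟨c, y, h3⟩ := ql_step p hn h1 h2
      refine ⟨a + Pi.single c y, ?_⟩
      have e : ∑ c', PowerSeries.C ((a + Pi.single c y : Fin n → K) c') * Lc K p n c' =
          ∑ c', PowerSeries.C (a c') * Lc K p n c' + PowerSeries.C y * Lc K p n c := by
        simp only [Pi.add_apply, map_add, add_mul, Finset.sum_add_distrib]
        congr 1
        rw [Finset.sum_eq_single c (fun c' _ h => by rw [Pi.single_eq_of_ne h, map_zero, zero_mul])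
          (by simp), Pi.single_eq_same]
      rwa [e, ← sub_sub]
  choose a _ ha using fun r => step (p ^ (n * (r + 1)))
  have h1 : ∀ (c : Fin n) (r r' : ℕ), r ≤ r' →
      ∃ z : A, algebraMap A K (p ^ r * z) = a r' c - a r c := fun c r r' h => by
    have h2 : ∀ t, r ≤ t → p ^ (c + n * r) < p ^ (n * (t + 1)) := fun t ht =>
      Nat.pow_lt_pow_right hpp.one_lt (by nlinarith [c.2])
    obtain ⟨z, hz⟩ := sub_mem (ha r _ (h2 r le_rfl)) (ha r' _ (h2 r' h))
    rw [map_sub, map_sub, ql_coeff_sum p hn, ql_coeff_sum p hn] at hz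
    refine ⟨z, ?_⟩
    rw [map_mul, map_pow, map_natCast, hz]
    linear_combination (a r' c - a r c) * ql_pow_inv p hp r
  choose z hz using fun c r => h1 c 0 r (Nat.zero_le r)
  simp only [pow_zero, one_mul] at hz
  have h2 : ∀ c, ∃ L : A, ∀ r, z c r ≡ L [SMOD (Ideal.span {(p : A)} ^ r • ⊤ : Ideal A)] :=
    fun c => IsPrecomplete.prec inferInstance fun {r r'} h => by
      obtain ⟨w, hw⟩ := h1 c r r' h
      rw [SModEq.comm, SModEq.sub_mem, smul_eq_mul, Ideal.mul_top, Ideal.span_singleton_pow,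
        show z c r' - z c r = p ^ r * w from hinj (by rw [map_sub, hz, hz, hw]; ring)]
      exact Ideal.mul_mem_right _ _ (Ideal.mem_span_singleton_self _)
  choose L hL using h2
  refine ⟨fun c => a 0 c + algebraMap A K (L c), fun d => ?_⟩
  obtain ⟨j, rfl⟩ : ∃ j, d = Finsupp.single () j := ⟨d (), Finsupp.unique_single d⟩
  have h3 := ha j j ((Nat.lt_pow_self hpp.one_lt).trans_le
    (Nat.pow_le_pow_right hpp.pos (by nlinarith)))
  have h4 : ∀ c : Fin n, (a j c - (a 0 c + algebraMap A K (L c))) *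
      PowerSeries.coeff j (Lc K p n c) ∈ (algebraMap A K).range := fun c => by
    by_cases h5 : ∃ r, j = p ^ (c + n * r)
    · obtain ⟨r, hr⟩ := h5
      have h6 := hL c j
      rw [SModEq.sub_mem, smul_eq_mul, Ideal.mul_top, Ideal.span_singleton_pow] at h6
      obtain ⟨w, hw⟩ := Ideal.mem_span_singleton'.1 h6
      have h7 : r ≤ j := by
        have := Nat.lt_pow_self (n := c + n * r) hpp.one_lt
        nlinarith
      obtain ⟨t, ht⟩ := Nat.exists_eq_add_of_le h7
      have e : PowerSeries.coeff j (Lc K p n c) = Ring.inverse (p : K) ^ r := by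
        rw [hr, coeff_Lc p hn]
      have h8 := congrArg (algebraMap A K) hw
      rw [map_sub, hz, map_mul, map_pow, map_natCast] at h8
      refine ⟨w * p ^ t, ?_⟩
      rw [e, ← sub_sub, ← h8, map_mul, map_pow, map_natCast, ht]
      linear_combination (-algebraMap A K w * (p : K) ^ t) * ql_pow_inv p hp r
    · push Not at h5
      rw [coeff_Lc_of_ne p h5, mul_zero]
      exact zero_mem _
  obtain ⟨y, hy⟩ := add_mem h3 (sum_mem fun c (_ : c ∈ Finset.univ) => h4 c)
  refine ⟨y, trivial, hy.trans ?_⟩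
  change _ = PowerSeries.coeff j _
  simp only [map_sub, map_sum, PowerSeries.coeff_C_mul, sub_mul, Finset.sum_sub_distrib]
  ring

/-- the logarithm of a lift of a homomorphism modulo `p` is a quasi-logarithm
(`LogLike.subst_congr`, `IsLog.subst_add`) -/
theorem qlog_hom [IsLocalization.Away (p : A) K] [IsAdicComplete (Ideal.span {(p : A)}) A]
    (hinj : Function.Injective (algebraMap A K)) (hn : 1 ≤ n) (G : FormalGroup A)
    {ℓ : PowerSeries K} (hℓ : IsLog (G.map (algebraMap A K)) ℓ) (ϑ : PowerSeries A)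
    (h0 : PowerSeries.constantCoeff ϑ = 0)
    (hϑ : IsFGHom (G0 p n (A ⧸ Ideal.span {(p : A)}))
      (G.map (Ideal.Quotient.mk (Ideal.span {(p : A)})))
      (ϑ.map (Ideal.Quotient.mk (Ideal.span {(p : A)})))) :
    ∃ a : Fin n → K, CoeffIn (⊤ : Ideal A)
      ((ℓ.subst (ϑ.map (algebraMap A K)) : PowerSeries K) -
        ∑ c, PowerSeries.C (a c) * Lc K p n c) := by
  refine qlog p hinj hn _ ?_
  have hs : ∀ {B : Type _} [CommRing B] (φ : A →+* B) {b : MvPowerSeries (Fin 2) A},
      constantCoeff b = 0 → MvPowerSeries.map φ (ϑ.subst b) = (ϑ.map φ).subst (b.map φ) :=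
    fun φ _ hb => PowerSeries.map_subst (PowerSeries.HasSubst.of_constantCoeff_zero hb) ϑ
  have hK : ∀ {b : MvPowerSeries (Fin 2) A}, constantCoeff b = 0 → MvPowerSeries.map
      (algebraMap A K) (ϑ.subst b) = (ϑ.map (algebraMap A K)).subst (b.map (algebraMap A K)) :=
    fun hb => PowerSeries.map_subst (PowerSeries.HasSubst.of_constantCoeff_zero hb) ϑ
  have hX : ∀ i : Fin 2, constantCoeff (ϑ.subst (X i : MvPowerSeries (Fin 2) A)) = 0 := fun i =>
    PowerSeries.constantCoeff_subst_eq_zero (constantCoeff_X i) ϑ h0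
  have hv : ∀ i, constantCoeff (![ϑ.subst (X 0 : MvPowerSeries (Fin 2) A),
      ϑ.subst (X 1 : MvPowerSeries (Fin 2) A)] i) = 0 := Fin.forall_fin_two.2 ⟨hX 0, hX 1⟩
  have h0K : PowerSeries.constantCoeff (ϑ.map (algebraMap A K)) = 0 := by
    rw [← PowerSeries.coeff_zero_eq_constantCoeff_apply, PowerSeries.coeff_map,
      PowerSeries.coeff_zero_eq_constantCoeff_apply, h0, map_zero]
  have hXK : ∀ i : Fin 2, constantCoeff ((ϑ.map (algebraMap A K)).subst
      (X i : MvPowerSeries (Fin 2) K)) = 0 := fun i =>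
    PowerSeries.constantCoeff_subst_eq_zero (constantCoeff_X i) _ h0K
  have e0 : MvPowerSeries.map (Ideal.Quotient.mk (Ideal.span {(p : A)}))
      (ϑ.subst (G0 p n A).toPowerSeries) = MvPowerSeries.map (Ideal.Quotient.mk _)
        (G.toPowerSeries.subst ![ϑ.subst (X 0 : MvPowerSeries (Fin 2) A),
          ϑ.subst (X 1 : MvPowerSeries (Fin 2) A)]) := by
    rw [hs _ (G0 p n A).zero_constantCoeff, map_subst (hasSubst_of_constantCoeff_zero hv)]
    have e := hϑ.2
    rw [← G0_map p n (Ideal.Quotient.mk (Ideal.span {(p : A)}))] at e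
    refine e.trans (congrArg (fun v => MvPowerSeries.subst v (MvPowerSeries.map
      (Ideal.Quotient.mk (Ideal.span {(p : A)})) G.toPowerSeries)) ?_)
    funext i
    fin_cases i <;> simp [hs _ (constantCoeff_X _)]
  have h1 := hℓ.logLike.subst_congr p (isUnit_natCast_of_isAdicComplete p)
    (PowerSeries.constantCoeff_subst_eq_zero (G0 p n A).zero_constantCoeff ϑ h0)
    (constantCoeff_subst_eq_zero (hasSubst_of_constantCoeff_zero hv) hv G.zero_constantCoeff)
    fun d => Ideal.Quotient.eq.1 (congrArg (coeff d) e0)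
  have e1 : MvPowerSeries.map (algebraMap A K) (G0 p n A).toPowerSeries =
      (G0 p n K).toPowerSeries := congrArg FormalGroup.toPowerSeries (G0_map p n _)
  have e2 : (fun i => MvPowerSeries.map (algebraMap A K) (![ϑ.subst (X 0 : MvPowerSeries (Fin 2) A),
      ϑ.subst (X 1 : MvPowerSeries (Fin 2) A)] i)) =
      ![(ϑ.map (algebraMap A K)).subst (X 0 : MvPowerSeries (Fin 2) K),
        (ϑ.map (algebraMap A K)).subst (X 1 : MvPowerSeries (Fin 2) K)] := by
    funext i
    fin_cases i <;> simp [hK (constantCoeff_X _)]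
  have e3 := hℓ.subst_add (hXK 0) (hXK 1)
  rw [hK (G0 p n A).zero_constantCoeff, e1, map_subst (hasSubst_of_constantCoeff_zero hv), e2] at h1
  have hh := PowerSeries.HasSubst.of_constantCoeff_zero' h0K
  rw [PowerSeries.subst_comp_subst_apply hh (PowerSeries.HasSubst.X _),
    PowerSeries.subst_comp_subst_apply hh (PowerSeries.HasSubst.X _),
    PowerSeries.subst_comp_subst_apply hh
      (PowerSeries.HasSubst.of_constantCoeff_zero (G0 p n K).zero_constantCoeff), sub_sub, ← e3]
  exact h1.mono le_top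

end Crest.Agent.R227.K
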