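import Crest.Agent.R227.K.OC
import Crest.Agent.R227.K.QLog

/-! Row 227, task `R227/K/Lz1`: the two-sided logarithm with values in an untilt.
Definitions: DO NOT CHANGE (owner helper98). -/

set_option autoImplicit false

namespace Crest.Agent.R227.K

open MvPowerSeries Crest.LubinTate
open scoped BigOperators

variable {C : Type*} [NormedField C] [IsUltrametricDist C] [IsAlgClosed C]
  {p : ℕ} [Fact p.Prime] [CharP C p] {K : Type*} [NormedField K] [IsUltrametricDist K]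

/-- `x ↦ x♯` -/
noncomputable def sharp (s : WittVector p (O C) →+* O K) (x : O C) : O K :=
  s (WittVector.teichmuller p x)

/-- the output of `exists_untilt` -/
structure IsUntilt (ϖ : O C) (s : WittVector p (O C) →+* O K) : Prop where
  ne : ϖ ≠ 0
  lt : nm ϖ < 1
  norm_p : ‖(p : K)‖ = nm ϖ
  nm_sharp : ∀ x, nm (sharp s x) = nm x

/-- `∑_{r ∈ ℤ} (Y ^ q ^ r)♯ / p ^ r` -/
noncomputable def Lz (s : WittVector p (O C) →+* O K) (n : ℕ) (Y : O C) : K :=
  ∑' r : ℤ, (sharp s (frz C p (n * r) Y) : K) * (p : K) ^ (-r)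

variable {ϖ : O C} {s : WittVector p (O C) →+* O K} {n : ℕ}

theorem IsUntilt.lz1_nm_p (hs : IsUntilt ϖ s) : nm (p : O K) = nm ϖ := by
  rw [← hs.norm_p, nm, Subring.coe_natCast]

theorem IsUntilt.lz1_pos (hs : IsUntilt ϖ s) : 0 < nm ϖ :=
  (nm_nonneg _).lt_of_ne' fun h => hs.ne (nm_eq_zero.1 h)

theorem lz1_mul_le {m j : ℕ} (hj : 2 * (m + 1) ≤ j) : m * j ≤ 2 ^ j := by
  obtain ⟨i, rfl⟩ : ∃ i, j = m + 1 + i := ⟨j - (m + 1), by omega⟩
  have h1 : m ≤ 2 ^ m := Nat.lt_two_pow_self.le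
  have h2 : i ≤ 2 ^ i := Nat.lt_two_pow_self.le
  calc m * (m + 1 + i) ≤ m * (2 * i) := Nat.mul_le_mul_left _ (by omega)
    _ ≤ 2 ^ m * (2 * 2 ^ i) := Nat.mul_le_mul h1 (Nat.mul_le_mul_left _ h2)
    _ = 2 ^ (m + 1 + i) := by ring

theorem lz1_real {ρ y q c : ℝ} (hρ : 0 < ρ) (hρ1 : ρ ≤ 1) (hy0 : 0 ≤ y) (hy : y ≤ ρ) (hq : 0 < q)
    (hc : 0 ≤ c) (h : ρ ^ (q - 1) * c ≤ 1) {j : ℕ} (hj : j ≠ 0) :
    y ^ (q ^ j) * c ^ j ≤ ρ * (ρ ^ (q - 1) * c) := by
  have h1 : 1 + (j : ℝ) * (q - 1) ≤ q ^ j := by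
    have := one_add_mul_le_pow (a := q - 1) (by linarith) j
    rwa [add_sub_cancel] at this
  have h2 : y ^ (q ^ j) ≤ ρ * (ρ ^ (q - 1)) ^ j := by
    refine (Real.rpow_le_rpow hy0 hy (pow_pos hq j).le).trans
      ((Real.rpow_le_rpow_of_exponent_ge hρ hρ1 h1).trans (le_of_eq ?_))
    rw [Real.rpow_add hρ, Real.rpow_one, mul_comm (j : ℝ), Real.rpow_mul hρ.le, Real.rpow_natCast]
  refine (mul_le_mul_of_nonneg_right h2 (pow_nonneg hc j)).trans ?_
  rw [mul_assoc, ← mul_pow]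
  exact mul_le_mul_of_nonneg_left (pow_le_of_le_one (by positivity) h hj) hρ.le

theorem sharp_mul (x y : O C) : sharp s (x * y) = sharp s x * sharp s y := by
  simp only [sharp, map_mul]

theorem sharp_pow (x : O C) (j : ℕ) : sharp s (x ^ j) = sharp s x ^ j := by
  simp only [sharp, map_pow]

theorem sharp_zero : sharp s 0 = 0 := by
  simp only [sharp, WittVector.teichmuller_zero, map_zero]

/-- `s w ≡ (w.coeff 0)♯` modulo `p` -/
theorem IsUntilt.nm_sub_sharp (hs : IsUntilt ϖ s) (w : WittVector p (O C)) :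
    nm (s w - sharp s (WittVector.constantCoeff w)) ≤ nm ϖ := by
  have h : w - WittVector.teichmuller p (WittVector.constantCoeff w) ∈
      Ideal.span {(p : WittVector p (O C))} := by
    rw [WittVector.mem_span_p_iff_coeff_zero_eq_zero, ← WittVector.constantCoeff_apply, map_sub,
      WittVector.constantCoeff_apply (WittVector.teichmuller p _),
      WittVector.teichmuller_coeff_zero, sub_self]
  obtain ⟨u, hu⟩ := Ideal.mem_span_singleton'.1 h
  rw [sharp, ← map_sub, ← hu, map_mul, map_natCast, nm_mul, hs.lz1_nm_p]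
  exact mul_le_of_le_one_left (nm_nonneg _) (nm_le_one _)

/-- reduction: `x ↦ x♯ mod p` is the ring map induced by `s` -/
theorem IsUntilt.exists_red (hs : IsUntilt ϖ s) :
    ∃ red : O C →+* O K ⧸ Ideal.span {(p : O K)},
      (∀ x, red x = Ideal.Quotient.mk _ (sharp s x)) ∧ ∀ x, nm x ≤ nm ϖ → red x = 0 := by
  refine ⟨{ toFun := fun x => Ideal.Quotient.mk _ (sharp s x)
            map_one' := by simp only [sharp, map_one]
            map_mul' := fun x y => by rw [sharp_mul, map_mul]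
            map_zero' := by rw [sharp_zero, map_zero]
            map_add' := fun x y => ?_ }, fun _ => rfl, fun x hx => ?_⟩
  · have h := hs.nm_sub_sharp (WittVector.teichmuller p x + WittVector.teichmuller p y)
    rw [map_add, map_add, WittVector.constantCoeff_apply, WittVector.constantCoeff_apply,
      WittVector.teichmuller_coeff_zero, WittVector.teichmuller_coeff_zero, nm_sub_comm,
      ← hs.lz1_nm_p] at h
    rw [← map_add, Ideal.Quotient.eq, mem_span_iff]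
    exact h
  · change Ideal.Quotient.mk _ (sharp s x) = 0
    rw [Ideal.Quotient.eq_zero_iff_mem, mem_span_iff, hs.nm_sharp, hs.lz1_nm_p]
    exact hx

theorem IsUntilt.nm_sharp_sub (hs : IsUntilt ϖ s) {x y : O C} (h : nm (x - y) ≤ nm ϖ) :
    nm (sharp s x - sharp s y) ≤ nm ϖ := by
  obtain ⟨red, h1, h2⟩ := hs.exists_red
  have h3 := h2 _ h
  rwa [map_sub, sub_eq_zero, h1, h1, Ideal.Quotient.eq, mem_span_iff, hs.lz1_nm_p] at h3

/-- homogeneity: factor out an element of maximal norm -/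
theorem IsUntilt.nm_sharp_sum (hs : IsUntilt ϖ s) {ι : Type*} (t : Finset ι) (x : ι → O C) {ρ : ℝ}
    (hρ : 0 ≤ ρ) (hx : ∀ i ∈ t, nm (x i) ≤ ρ) :
    nm (sharp s (∑ i ∈ t, x i) - ∑ i ∈ t, sharp s (x i)) ≤ nm ϖ * ρ := by
  rcases t.eq_empty_or_nonempty with rfl | hne
  · rw [Finset.sum_empty, Finset.sum_empty, sharp_zero, sub_zero, nm_eq_zero.2 rfl]
    exact mul_nonneg (nm_nonneg _) hρ
  obtain ⟨i0, hi0, hmax⟩ := t.exists_max_image (fun i => nm (x i)) hne
  have hd : ∀ i, ∃ y : O C, i ∈ t → x i = x i0 * y := fun i => by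
    by_cases hi : i ∈ t
    · obtain ⟨y, hy⟩ := dvd_of_nm_le (hmax i hi)
      exact ⟨y, fun _ => hy⟩
    · exact ⟨0, fun h => absurd h hi⟩
  choose y hy using hd
  obtain ⟨red, h1, -⟩ := hs.exists_red
  have h2 : nm (sharp s (∑ i ∈ t, y i) - ∑ i ∈ t, sharp s (y i)) ≤ nm ϖ := by
    rw [← hs.lz1_nm_p, ← mem_span_iff, ← Ideal.Quotient.eq, ← h1, map_sum, map_sum]
    exact Finset.sum_congr rfl fun i _ => h1 _
  have h3 : sharp s (∑ i ∈ t, x i) - ∑ i ∈ t, sharp s (x i) =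
      (sharp s (∑ i ∈ t, y i) - ∑ i ∈ t, sharp s (y i)) * sharp s (x i0) := by
    rw [Finset.sum_congr rfl hy, ← Finset.mul_sum, sharp_mul,
      Finset.sum_congr rfl fun i hi => congrArg (sharp s) (hy i hi), sub_mul, Finset.sum_mul,
      mul_comm]
    congr 1
    exact Finset.sum_congr rfl fun i _ => by rw [sharp_mul, mul_comm]
  rw [h3, nm_mul, hs.nm_sharp]
  exact mul_le_mul h2 (hx i0 hi0) (nm_nonneg _) (nm_nonneg _)

theorem IsUntilt.p_ne_zero (hs : IsUntilt ϖ s) : (p : K) ≠ 0 := by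
  rw [← norm_ne_zero_iff, hs.norm_p]
  exact fun h => hs.ne (nm_eq_zero.1 h)

theorem IsUntilt.isLocalization (hs : IsUntilt ϖ s) : IsLocalization.Away (p : O K) K := by
  have hp : algebraMap (O K) K (p : O K) = (p : K) := map_natCast _ _
  refine IsLocalization.Away.mk _ (by rw [hp]; exact hs.p_ne_zero.isUnit) (fun z => ?_)
    fun a b h => ⟨0, by rw [Subtype.ext h]⟩
  have h1 : Filter.Tendsto (fun j : ℕ => ‖z‖ * nm ϖ ^ j) Filter.atTop (nhds (‖z‖ * 0)) :=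
    (tendsto_pow_atTop_nhds_zero_of_lt_one (nm_nonneg _) hs.lt).const_mul _
  rw [mul_zero] at h1
  obtain ⟨j, hj⟩ := (h1.eventually_le_const one_pos).exists
  refine ⟨j, ⟨z * (p : K) ^ j, ?_⟩, by rw [hp]; rfl⟩
  rw [mem_O, norm_mul, norm_pow, hs.norm_p]
  exact hj

theorem IsUntilt.isAdicComplete [CompleteSpace K] (hs : IsUntilt ϖ s) :
    IsAdicComplete (Ideal.span {(p : O K)}) (O K) := by
  exact isAdicComplete_span (by rw [hs.lz1_nm_p]; exact hs.lt)

variable [CompleteSpace K]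

theorem IsUntilt.summable (hs : IsUntilt ϖ s) (hn : 1 ≤ n) {Y : O C} (hY : Y ∈ mO C) :
    Summable fun r : ℤ => (sharp s (frz C p (n * r) Y) : K) * (p : K) ^ (-r) := by
  have hπ0 : 0 < nm ϖ := hs.lz1_pos
  have hgeo := summable_geometric_of_lt_one hπ0.le hs.lt
  refine Summable.of_nat_of_neg ?_ ?_
  · obtain ⟨m, hm⟩ := exists_pow_lt_of_lt_one (pow_pos hπ0 2) (mem_mO.1 hY)
    refine Summable.of_norm_bounded_eventually_nat hgeo ?_
    filter_upwards [Filter.eventually_ge_atTop (2 * (m + 1))] with j hj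
    rw [norm_mul, norm_zpow, hs.norm_p, zpow_neg, zpow_natCast, mul_inv_le_iff₀ (pow_pos hπ0 j)]
    change nm _ ≤ _
    rw [hs.nm_sharp, ← Nat.cast_mul, frz_natCast, nm_pow]
    have h1 : m * j ≤ p ^ (n * j) :=
      (lz1_mul_le hj).trans ((Nat.pow_le_pow_left (Fact.out : p.Prime).two_le j).trans
        (Nat.pow_le_pow_right (Fact.out : p.Prime).pos (Nat.le_mul_of_pos_left j hn)))
    refine (pow_le_pow_of_le_one (nm_nonneg _) (nm_le_one _) h1).trans ?_
    rw [pow_mul, ← mul_pow, ← sq]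
    exact pow_le_pow_left₀ (pow_nonneg (nm_nonneg _) _) hm.le j
  · refine Summable.of_norm_bounded hgeo fun j => ?_
    rw [norm_mul, neg_neg, zpow_natCast, norm_pow, hs.norm_p]
    exact mul_le_of_le_one_left (pow_nonneg hπ0.le _) (nm_le_one _)

theorem IsUntilt.Lz_frz (hs : IsUntilt ϖ s) (t : ℤ) (Y : O C) :
    Lz s n (frz C p (n * t) Y) = (p : K) ^ t * Lz s n Y := by
  unfold Lz
  rw [← tsum_mul_left, ← (Equiv.addRight t).tsum_eq
    (fun r : ℤ => (p : K) ^ t * ((sharp s (frz C p (n * r) Y) : K) * (p : K) ^ (-r)))]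
  refine tsum_congr fun r => ?_
  rw [← frz_add, ← mul_add, Equiv.coe_addRight, mul_left_comm, ← zpow_add₀ hs.p_ne_zero]
  congr 2
  ring

theorem Lz_mul {β : O C} (hβ : β ^ p ^ n = β) (Y : O C) :
    Lz s n (β * Y) = (sharp s β : K) * Lz s n Y := by
  unfold Lz
  rw [← tsum_mul_left]
  refine tsum_congr fun r => ?_
  rw [map_mul, frz_mul_of_pow_eq p hβ, sharp_mul, Subring.coe_mul, mul_assoc]

/-- leading term: for `r ≥ 1` use `q ^ r - 1 ≥ r (q - 1)`, for `r = -j` use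
`j (1 - 1 / q) ≥ 1 - q ^ (-j)`; the terms tend to `0`, so the supremum is attained -/
theorem IsUntilt.lead (hs : IsUntilt ϖ s) (hn : 1 ≤ n) {ρ : ℝ} (hρ : 0 < ρ)
    (h1 : ρ ^ (p ^ n - 1) < nm ϖ) (h2 : nm ϖ ^ p ^ n < ρ ^ (p ^ n - 1)) {Y : O C}
    (hY : nm Y ≤ ρ) : ‖Lz s n Y - sharp s Y‖ < ρ := by
  classical
  have hp := (Fact.out : p.Prime)
  have hπ0 : 0 < nm ϖ := hs.lz1_pos
  have hρ1 : ρ < 1 := by
    by_contra h
    have := one_le_pow₀ (not_lt.1 h) (n := p ^ n - 1)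
    linarith [hs.lt]
  have hsum := hs.summable hn (Y := Y) (hY.trans_lt hρ1)
  set q : ℝ := (p : ℝ) ^ n with hq
  have hq0 : 0 < q := pow_pos (Nat.cast_pos.2 hp.pos) n
  have hcast : ρ ^ (p ^ n - 1) = ρ ^ (q - 1) := by
    rw [← Real.rpow_natCast, Nat.cast_sub (Nat.one_le_pow _ _ hp.pos), Nat.cast_pow, Nat.cast_one]
  have t1 : ρ ^ (q - 1) * (nm ϖ)⁻¹ < 1 := by
    rw [← hcast, mul_inv_lt_iff₀ hπ0, one_mul]; exact h1
  have t2 : ρ ^ (q⁻¹ - 1) * nm ϖ < 1 := by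
    refine lt_of_pow_lt_pow_left₀ (p ^ n) zero_le_one ?_
    rw [one_pow, mul_pow, ← Real.rpow_natCast (ρ ^ (q⁻¹ - 1)), ← Real.rpow_mul hρ.le, Nat.cast_pow,
      ← hq, sub_mul, inv_mul_cancel₀ hq0.ne', one_mul, ← neg_sub, Real.rpow_neg hρ.le, ← hcast,
      inv_mul_lt_iff₀ (pow_pos hρ _), mul_one]
    exact h2
  have hθ : ρ * max (ρ ^ (q - 1) * (nm ϖ)⁻¹) (ρ ^ (q⁻¹ - 1) * nm ϖ) < ρ :=
    mul_lt_of_lt_one_right hρ (max_lt t1 t2)
  unfold Lz
  rw [hsum.tsum_eq_add_tsum_ite 0, mul_zero, frz_zero, neg_zero, zpow_zero, mul_one,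
    add_sub_cancel_left]
  refine lt_of_le_of_lt (IsUltrametricDist.norm_tsum_le_of_forall_le_of_nonneg (by positivity)
    fun r => ?_) hθ
  split_ifs with hr
  · rw [norm_zero]; positivity
  rw [norm_mul, norm_zpow, hs.norm_p]
  change nm _ * _ ≤ _
  rw [hs.nm_sharp, nm_frz, zpow_mul, zpow_natCast, ← hq]
  obtain ⟨j, rfl | rfl⟩ := Int.eq_nat_or_neg r
  · rw [zpow_natCast, zpow_neg, zpow_natCast, ← inv_pow]
    exact (lz1_real hρ hρ1.le (nm_nonneg _) hY hq0 (inv_pos.2 hπ0).le t1.le (by omega)).trans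
      (mul_le_mul_of_nonneg_left (le_max_left _ _) hρ.le)
  · rw [neg_neg, zpow_natCast, zpow_neg, zpow_natCast, ← inv_pow]
    exact (lz1_real hρ hρ1.le (nm_nonneg _) hY (inv_pos.2 hq0) hπ0.le t2.le (by omega)).trans
      (mul_le_mul_of_nonneg_left (le_max_right _ _) hρ.le)

end Crest.Agent.R227.K
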