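import Crest.Agent.R227.K.Lz2a

/-! Row 227, task `R227/K/Lz2`: additivity of `Lz`, linearisation of `Θ` and of endomorphisms. -/

set_option autoImplicit false

namespace Crest.Agent.R227.K

open MvPowerSeries Crest.LubinTate
open scoped BigOperators

variable {C : Type*} [NormedField C] [IsUltrametricDist C] [IsAlgClosed C] [CompleteSpace C]
  {p : ℕ} [Fact p.Prime] [CharP C p] {K : Type*} [NormedField K] [IsUltrametricDist K]
  [CompleteSpace K] {ϖ : O C} {s : WittVector p (O C) →+* O K} {n h : ℕ}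

/-- `lin` for a series `f` over `O C` and its `♯`-lift -/
theorem lz2_lin (hs : IsUntilt ϖ s) (hn : 1 ≤ n) (hh : 1 ≤ h) (f : PowerSeries (O C))
    (ϑ : PowerSeries (O K)) (h0 : PowerSeries.constantCoeff ϑ = 0)
    (hϑ : ∀ j, PowerSeries.coeff j ϑ = sharp s (PowerSeries.coeff j f)) (A : Fin n → K)
    (hA : CoeffIn (⊤ : Ideal (O K))
      (((hlog K p h).subst (ϑ.map (algebraMap (O K) K)) : PowerSeries K) -
        ∑ c, PowerSeries.C (A c) * Lc K p n c))
    {Y ν : O C} (hY : Y ∈ mO C) (hν : ν ∈ mO C)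
    (hc : ∀ t : ℕ, nm (frz C p (-(h * t : ℕ)) ν - ev1 (frz C p (-(n * t : ℕ)) Y) f) ≤ nm ϖ) :
    Lz s h ν = ∑ c : Fin n, A c * Lz s n (frz C p (c : ℕ) Y) := by
  refine hs.lin hn hh (σ := Unit) ϑ h0 (fun _ : Fin n => ()) (fun c => (c : ℕ)) A hA
    (Y := fun _ => Y) (fun _ => hY) hν fun t => ?_
  refine (nm_sub_le_max _ (sharp s (ev1 (frz C p (-(n * t : ℕ)) Y) f)) _).trans
    (max_le (hs.nm_sharp_sub (hc t)) ?_)
  refine hs.nm_sharp_ev (σ := Unit) f ϑ (fun d => ?_) (a := fun _ => frz C p (-(n * t : ℕ)) Y)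
    (fun _ => frz_mem_mO p _ hY)
  have h1 : coeff d ϑ = sharp s (coeff d f) := by
    have h2 : d = Finsupp.single () (d ()) := Finsupp.unique_single d
    rw [h2]
    exact hϑ _
  rw [h1, sub_self]
  simp [nm]

/-- `θ ^ p ^ e` is a homomorphism `G0 n → G0 h` modulo `ϖ`; lift it by `♯`, apply `qlog_hom` over
`O K` and `lin` -/
theorem IsUntilt.Lz_theta (hs : IsUntilt ϖ s) (hn : 1 ≤ n) (hh : 1 ≤ h) {H : FormalGroup (O C)}
    {V θ : PowerSeries (O C)} {ε : ℝ} (hε : ε ≤ nm ϖ) (hH : Near p n h H V ε)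
    (hθ : IsFGHom H (G0 p h (O C)) θ) {Θ : Wp C p n →+ Wp C p h} (hΘ : IsTheta p n h θ ε Θ)
    (e : ℕ) : ∃ A : Fin n → K, ∀ Y : Wp C p n,
      Lz s h (frz C p e (Θ Y).1) = ∑ c : Fin n, A c * Lz s n (frz C p (c : ℕ) Y.1) := by
  have := hs.isLocalization
  have := hs.isAdicComplete
  obtain ⟨red, hred, hred0⟩ := hs.exists_red
  have hp0 : ((p : ℕ) : O K ⧸ Ideal.span {(p : O K)}) = 0 := by
    rw [← map_natCast (Ideal.Quotient.mk (Ideal.span {(p : O K)})), Ideal.Quotient.eq_zero_iff_mem]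
    exact Ideal.mem_span_singleton_self _
  have hpe : p ^ e ≠ 0 := pow_ne_zero _ (Fact.out : p.Prime).ne_zero
  have hHr : H.map red = G0 p n _ := by
    rw [← G0_map p n red]
    apply FormalGroup.ext
    ext d
    change red _ = red _
    rw [← sub_eq_zero, ← map_sub]
    exact hred0 _ ((hH.near d).trans hε)
  have h1 : IsFGHom (G0 p n _) (G0 p h _) (θ.map red) := by
    have := isFGHom_map hθ red
    rwa [hHr, G0_map] at this
  have h2 := isFGHom_comp h1 (isFGHom_G0_X_pow p (n := h) _ hp0 e)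
  rw [PowerSeries.subst_pow (PowerSeries.HasSubst.of_constantCoeff_zero' h1.1),
    PowerSeries.subst_X (PowerSeries.HasSubst.of_constantCoeff_zero' h1.1), ← map_pow] at h2
  let ϑ : PowerSeries (O K) := PowerSeries.mk fun j => sharp s (PowerSeries.coeff j (θ ^ p ^ e))
  have hϑ : ∀ j, PowerSeries.coeff j ϑ = sharp s (PowerSeries.coeff j (θ ^ p ^ e)) :=
    fun j => PowerSeries.coeff_mk _ _
  have h0 : PowerSeries.constantCoeff ϑ = 0 := by
    rw [← PowerSeries.coeff_zero_eq_constantCoeff_apply, hϑ,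
      PowerSeries.coeff_zero_eq_constantCoeff_apply, map_pow, hθ.1, zero_pow hpe, sharp_zero]
  have hmap : ϑ.map (Ideal.Quotient.mk (Ideal.span {(p : O K)})) = (θ ^ p ^ e).map red := by
    ext j
    rw [PowerSeries.coeff_map, PowerSeries.coeff_map, hϑ, hred]
  obtain ⟨A, hA⟩ := qlog_hom p (K := K) (Subtype.val_injective) hn (G0 p h (O K))
    (ℓ := hlog K p h) (by rw [G0_map]; exact G0_isLog p hh K hs.p_ne_zero.isUnit) ϑ h0
    (by rw [G0_map, hmap]; exact h2)
  refine ⟨A, fun Y => lz2_lin hs hn hh (θ ^ p ^ e) ϑ h0 hϑ A hA Y.2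
    (frz_mem_mO p _ (Θ Y).2) fun t => ?_⟩
  rw [frz_natCast, map_pow, map_pow]
  obtain ⟨u, hu⟩ := sub_dvd_pow_sub_pow (frz C p (-(h * t : ℕ)) (Θ Y).1)
    (ev1 (frz C p (-(n * t : ℕ)) Y.1) θ) (p ^ e)
  rw [hu, nm_mul]
  exact (mul_le_of_le_one_right (nm_nonneg _) (nm_le_one _)).trans ((hΘ Y t).trans hε)

/-- `qlog_hom` over `W (𝔽_d)` (with `K₀ = Localization.Away p`), mapped to `K`, and `lin` -/
theorem IsUntilt.Lz_act (hs : IsUntilt ϖ s) (hh : 1 ≤ h) (φ : GaloisField p h →+* O C)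
    (d : PowerSeries (GaloisField p h))
    (hd : IsFGHom (G0 p h (GaloisField p h)) (G0 p h (GaloisField p h)) d) :
    ∃ (e₀ : ℕ) (w : Fin h → WittVector p (GaloisField p h)), ∀ ν : Wp C p h,
      (p : K) ^ e₀ * Lz s h (act p h φ d hd ν).1 =
        ∑ e : Fin h, (s (WittVector.map φ (w e)) : K) * Lz s h (frz C p (e : ℕ) ν.1) := by
  classical
  let W := WittVector p (GaloisField p h)
  let K₀ := Localization.Away (p : W)
  have hpW : (p : W) ≠ 0 := WittVector.p_nonzero p _
  have hinj : Function.Injective (algebraMap W K₀) :=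
    IsLocalization.injective K₀ (powers_le_nonZeroDivisors_of_noZeroDivisors hpW)
  have hpK₀ : IsUnit (p : K₀) := by
    rw [← map_natCast (algebraMap W K₀)]
    exact IsLocalization.Away.algebraMap_isUnit _
  let ϑ₀ : PowerSeries W := PowerSeries.mk fun j => WittVector.teichmuller p (PowerSeries.coeff j d)
  have hϑ₀ : ∀ j, PowerSeries.coeff j ϑ₀ = WittVector.teichmuller p (PowerSeries.coeff j d) :=
    fun j => PowerSeries.coeff_mk _ _
  have h0 : PowerSeries.constantCoeff ϑ₀ = 0 := by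
    rw [← PowerSeries.coeff_zero_eq_constantCoeff_apply, hϑ₀,
      PowerSeries.coeff_zero_eq_constantCoeff_apply, hd.1, WittVector.teichmuller_zero]
  let ι : GaloisField p h →+* W ⧸ Ideal.span {(p : W)} :=
    (WittVector.quotientPEquiv (p := p) (k := GaloisField p h)).symm
  have hmap : ϑ₀.map (Ideal.Quotient.mk (Ideal.span {(p : W)})) = d.map ι := by
    ext j
    rw [PowerSeries.coeff_map, PowerSeries.coeff_map, hϑ₀]
    exact ((WittVector.quotientPEquiv (p := p) (k := GaloisField p h)).symm_apply_eq.2 rfl).symm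
  obtain ⟨a, ha⟩ := qlog_hom p (A := W) (K := K₀) hinj hh (G0 p h W)
    (ℓ := hlog K₀ p h) (by rw [G0_map]; exact G0_isLog p hh K₀ hpK₀) ϑ₀ h0
    (by
      rw [G0_map, hmap]
      simpa only [G0_map] using isFGHom_map hd ι)
  let s₀ : W →+* O K := s.comp (WittVector.map φ)
  have hu : IsUnit (((algebraMap (O K) K).comp s₀) (p : W)) := by
    rw [map_natCast]; exact hs.p_ne_zero.isUnit
  let σ : K₀ →+* K := IsLocalization.Away.lift (p : W) hu
  have hσ : ∀ y, σ (algebraMap W K₀ y) = algebraMap (O K) K (s₀ y) :=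
    fun y => IsLocalization.Away.lift_eq _ hu y
  have hσc : σ.comp (algebraMap W K₀) = (algebraMap (O K) K).comp s₀ := RingHom.ext hσ
  choose e w hw using fun c => IsLocalization.Away.surj (p : W) (a c)
  refine ⟨∑ c, e c, fun c => w c * p ^ (∑ c' ∈ Finset.univ.erase c, e c'), fun ν => ?_⟩
  have hA : CoeffIn (⊤ : Ideal (O K))
      (((hlog K p h).subst ((ϑ₀.map s₀).map (algebraMap (O K) K)) : PowerSeries K) -
        ∑ c, PowerSeries.C (σ (a c)) * Lc K p h c) := by
    intro j
    obtain ⟨y, -, hy⟩ := ha j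
    refine ⟨s₀ y, trivial, ?_⟩
    have h00 : PowerSeries.constantCoeff (ϑ₀.map (algebraMap W K₀)) = 0 := by
      rw [← PowerSeries.coeff_zero_eq_constantCoeff_apply, PowerSeries.coeff_map,
        PowerSeries.coeff_zero_eq_constantCoeff_apply, h0, map_zero]
    have h3 : PowerSeries.map σ ((hlog K₀ p h).subst (ϑ₀.map (algebraMap W K₀))) =
        ((hlog K₀ p h).map σ).subst ((ϑ₀.map (algebraMap W K₀)).map σ) :=
      PowerSeries.map_subst (PowerSeries.HasSubst.of_constantCoeff_zero' h00) _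
    have h2 : PowerSeries.map σ (((hlog K₀ p h).subst (ϑ₀.map (algebraMap W K₀)) :
        PowerSeries K₀) - ∑ c, PowerSeries.C (a c) * Lc K₀ p h c) =
        ((hlog K p h).subst ((ϑ₀.map s₀).map (algebraMap (O K) K)) : PowerSeries K) -
          ∑ c, PowerSeries.C (σ (a c)) * Lc K p h c := by
      rw [map_sub, map_sum, h3, hlog_map hpK₀,
        ← RingHom.comp_apply (PowerSeries.map σ), ← PowerSeries.map_comp, hσc, PowerSeries.map_comp]
      simp only [map_mul, PowerSeries.map_C, Lc_map p hpK₀, RingHom.comp_apply]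
    rw [← hσ, hy, ← h2]
    rfl
  have hcard : ∀ β : GaloisField p h, β ^ p ^ h = β := by
    intro β
    have hc : Nat.card (GaloisField p h) = p ^ h := GaloisField.card p h (by omega)
    have := Fintype.ofFinite (GaloisField p h)
    rw [Nat.card_eq_fintype_card] at hc
    rw [← hc, FiniteField.pow_card]
  have key := lz2_lin hs hh hh (d.map φ) (ϑ₀.map s₀)
    (by
      rw [← PowerSeries.coeff_zero_eq_constantCoeff_apply, PowerSeries.coeff_map,
        PowerSeries.coeff_zero_eq_constantCoeff_apply, h0, map_zero])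
    (by
      intro j
      rw [PowerSeries.coeff_map, PowerSeries.coeff_map, hϑ₀, RingHom.comp_apply,
        WittVector.map_teichmuller]
      rfl) (fun c => σ (a c)) hA ν.2 (act p h φ d hd ν).2
    (by
      intro t
      have h1 : (d.map φ).map (frz C p (-(h * t : ℕ)) : O C →+* O C) = d.map φ := by
        ext j : 1
        rw [PowerSeries.coeff_map, PowerSeries.coeff_map]
        have h2 := frz_mul_of_pow_eq p (C := C) (t := h) (x := φ (PowerSeries.coeff j d))
          (by rw [← map_pow, hcard]) (-(t : ℤ))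
        rw [show (-(h * t : ℕ) : ℤ) = h * -(t : ℤ) by push_cast; ring]
        exact h2
      rw [act_val, frz_ev1 p _ ν.2, h1, sub_self]
      simp [nm])
  rw [key, Finset.mul_sum]
  refine Finset.sum_congr rfl fun c _ => ?_
  rw [← mul_assoc]
  congr 1
  have h1 := congrArg σ (hw c)
  rw [map_mul, map_pow, hσ, hσ, map_natCast, map_natCast] at h1
  change _ = algebraMap (O K) K (s₀ (w c * p ^ (∑ c' ∈ Finset.univ.erase c, e c')))
  rw [map_mul, map_mul, ← h1, map_pow, map_pow, map_natCast, map_natCast,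
    ← Finset.add_sum_erase _ _ (Finset.mem_univ c), pow_add]
  ring

end Crest.Agent.R227.K
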