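import Crest.Agent.R227.K.ThetaFn1

/-! Row 227, task `R227/K/ThetaFn`: universal covers and the map `Θ`. -/

set_option autoImplicit false

namespace Crest.Agent.R227.K

open MvPowerSeries Crest.LubinTate
open scoped BigOperators

variable {C : Type*} [NormedField C] [IsUltrametricDist C] [IsAlgClosed C]
  {p : ℕ} [Fact p.Prime] [CharP C p]
  [CompleteSpace C] {n h : ℕ} {H H' : FormalGroup (O C)} {V V' θ : PowerSeries (O C)}
  {ε : ℝ}

omit [CharP C p] [Fact p.Prime] in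
/-- small values are attained by a series with nonzero linear term -/
theorem thetafn_solve (h0 : PowerSeries.constantCoeff θ = 0) (h1 : PowerSeries.coeff 1 θ ≠ 0) {ν : O C}
    (hν : nm ν ≤ nm (PowerSeries.coeff 1 θ) ^ 2 / 2) : ∃ z ∈ mO C, ev1 z θ = ν := by
  obtain ⟨θ₁, e1⟩ : (PowerSeries.X : PowerSeries (O C)) ∣ θ := PowerSeries.X_dvd_iff.2 h0
  obtain ⟨θ₂, e2⟩ : (PowerSeries.X : PowerSeries (O C)) ∣
      θ₁ - PowerSeries.C (PowerSeries.constantCoeff θ₁) := PowerSeries.X_dvd_iff.2 (by simp)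
  have ea : PowerSeries.coeff 1 θ = PowerSeries.constantCoeff θ₁ := by
    rw [e1, PowerSeries.coeff_succ_X_mul, PowerSeries.coeff_zero_eq_constantCoeff_apply]
  rw [ea] at h1 hν
  generalize PowerSeries.constantCoeff θ₁ = a at h1 hν e2
  have ha : 0 < nm a ^ 2 := pow_pos (lt_of_le_of_ne (nm_nonneg a) fun h => h1 (nm_eq_zero.1 h.symm)) 2
  obtain ⟨μ, rfl⟩ : a ^ 2 ∣ ν := dvd_of_nm_le (by rw [nm_pow]; linarith)
  have hμ : nm μ < 1 := by
    rw [nm_mul, nm_pow] at hν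
    refine lt_of_mul_lt_mul_left (a := nm a ^ 2) ?_ ha.le
    linarith
  obtain ⟨t, ht, e3⟩ := exists_root (g := PowerSeries.C (-μ) + PowerSeries.X + PowerSeries.X ^ 2 *
      θ₂.subst (PowerSeries.C a * PowerSeries.X : PowerSeries (O C))) (e := 1) le_rfl
    (fun j hj => by
      obtain rfl : j = 0 := by omega
      simpa [nm] using hμ)
    (by simp [nm, PowerSeries.coeff_X_pow_mul', PowerSeries.coeff_X])
  have hz : a * t ∈ mO C := Ideal.mul_mem_left _ _ ht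
  refine ⟨a * t, hz, ?_⟩
  rw [map_add, map_add, map_mul, map_pow, ev1_C, ev1_X good_mO ht, ev1_subst good_mO ht (by simp),
    map_mul, ev1_C, ev1_X good_mO ht] at e3
  rw [e1, sub_eq_iff_eq_add.1 e2, map_mul, map_add, map_mul, ev1_C, ev1_X good_mO hz]
  linear_combination a ^ 2 * e3

/-- solve `θ (z) = ν` with `exists_root` after rescaling, extend `z` to a system -/
theorem theta_surj (hn : 1 ≤ n) (hh : 1 ≤ h) (hε : ε < 1) (hH : Near p n h H V ε)
    (hθ : IsFGHom H (G0 p h (O C)) θ) (h1 : PowerSeries.coeff 1 θ ≠ 0)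
    {Θ : Wp C p n →+ Wp C p h} (hΘ : IsTheta p n h θ ε Θ) :
    ∃ ρ : ℝ, 0 < ρ ∧ ∀ ν : Wp C p h, nm ν.1 ≤ ρ → ∃ Y, Θ Y = ν := by
  refine ⟨nm (PowerSeries.coeff 1 θ) ^ 2 / 2, half_pos (pow_pos
    (lt_of_le_of_ne (nm_nonneg _) fun h => h1 (nm_eq_zero.1 h.symm)) 2), fun ν hν => ?_⟩
  obtain ⟨z₀, hz₀, e⟩ := thetafn_solve hθ.1 h1 hν
  obtain ⟨z, hz, rfl⟩ := exists_sys hn hε hH hz₀
  obtain ⟨Y, hY⟩ := exists_isX hn hε hH hz
  have := theta_sys hn hh hε hH hθ hΘ (η := 0) ((nm_nonneg _).trans (hH.near 0)) (H' := H)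
    (fun j => by rw [sub_self]; exact (nm_eq_zero.2 rfl).le) hz hY 0
  rw [pow_zero, pow_one, pow_one, e] at this
  exact ⟨Y, Pt.ext (sub_eq_zero.1 (nm_eq_zero.1 (le_antisymm this (nm_nonneg _))))⟩

/-- transport of systems along a homomorphism close to a series `g` over `𝔽_q` -/
theorem isX_hom (hn : 1 ≤ n) (hε0 : 0 ≤ ε) {ψ g : PowerSeries (O C)} (hψ : IsFGHom H H' ψ)
    (hg : ∀ j, PowerSeries.coeff j g ^ p ^ n = PowerSeries.coeff j g)
    (hψg : ∀ j, nm (PowerSeries.coeff j ψ - PowerSeries.coeff j g) ≤ ε) {z : ℕ → O C}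
    (hz : IsSys p H z) {Y : O C} (hYm : Y ∈ mO C) (hY : IsX p n ε z Y) :
    IsSys p H' (fun s => ev1 (z s) ψ) ∧ IsX p n ε (fun s => ev1 (z s) ψ) (ev1 Y g) := by
  refine ⟨⟨fun s => ev1_mem good_mO (hz.1 s) (by rw [hψ.1]; exact zero_mem _), fun s => ?_⟩, fun s => ?_⟩
  · beta_reduce
    rw [← ev1_subst good_mO (hz.1 _) hψ.1, ← subst_mulSeries hψ,
      ev1_subst good_mO (hz.1 _) (constantCoeff_mulSeries H p), hz.2]
  · have e : g.map (frz C p (-(n * s : ℕ)) : O C →+* O C) = g := by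
      ext j : 1
      have := frz_mul_of_pow_eq p (hg j) (-(s : ℤ))
      rw [mul_neg, ← Nat.cast_mul] at this
      rw [PowerSeries.coeff_map]
      exact this
    rw [frz_ev1 p _ hYm, e]
    refine (nm_sub_le_max _ (ev1 (z s) g) _).trans (max_le ?_ ?_)
    · exact (nm_ev1_sub_le (hz.1 s) (frz_mem_mO p _ hYm) g).trans (hY s)
    · rw [nm_sub_comm]
      exact nm_ev1_sub_le_of_coeff (hz.1 s) hψg

omit [IsAlgClosed C] in
/-- `[p]_H` contracts differences -/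
theorem thetafn_contract (hH : Near p n h H V ε) {x y : O C} (hx : x ∈ mO C) (hy : y ∈ mO C) :
    nm (ev1 x (mulSeries H p) - ev1 y (mulSeries H p)) ≤ nm (x - y) ^ p ^ h := by
  have hd : p ^ h ≠ 0 := pow_ne_zero h (Fact.out : p.Prime).ne_zero
  have h0 : PowerSeries.constantCoeff (PowerSeries.X ^ p ^ h : PowerSeries (O C)) = 0 := by
    rw [map_pow, PowerSeries.constantCoeff_X, zero_pow hd]
  rw [hH.hV, ev1_subst good_mO hx h0, ev1_subst good_mO hy h0, map_pow, map_pow, ev1_X good_mO hx,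
    ev1_X good_mO hy, ← nm_pow, sub_pow_char_pow]
  exact nm_ev1_sub_le (Ideal.pow_mem_of_mem _ hy _ (Nat.pos_of_ne_zero hd))
    (Ideal.pow_mem_of_mem _ hx _ (Nat.pos_of_ne_zero hd)) V

/-- `e t = ‖z t - z' t‖` satisfies `e t ≤ max η (e (t + 1) ^ d)`, and
`e (t + r) ≤ max ε ‖Y - Y'‖ ^ (1 / q ^ (t + r))` -/
theorem sys_close (hh : 1 ≤ h) (hε : ε < 1) (hH : Near p n h H V ε) {η : ℝ}
    (hHH : ∀ j, nm (PowerSeries.coeff j (mulSeries H p) - PowerSeries.coeff j (mulSeries H' p)) ≤ η)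
    {z z' : ℕ → O C} (hz : IsSys p H z) (hz' : IsSys p H' z') {Y Y' : O C} (hY : IsX p n ε z Y)
    (hY' : IsX p n ε z' Y') (t r : ℕ) (hYY : nm (Y - Y') ≤ ε ^ (p ^ n) ^ (t + r)) :
    nm (z t - z' t) ≤ max η (ε ^ (p ^ h) ^ r) := by
  have hp := (Fact.out : p.Prime)
  have hε0 : 0 ≤ ε := (nm_nonneg _).trans (hY 0)
  have h1 : nm (z (t + r) - z' (t + r)) ≤ ε := by
    refine (nm_sub_le_max _ (frz C p (-(n * (t + r) : ℕ)) Y) _).trans (max_le ?_
      ((nm_sub_le_max _ (frz C p (-(n * (t + r) : ℕ)) Y') _).trans (max_le ?_ (hY' _))))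
    · rw [nm_sub_comm]
      exact hY _
    · refine le_of_pow_le_pow_left₀ (pow_pos hp.pos (n * (t + r))).ne' hε0 ?_
      rw [← map_sub, ← nm_pow, frz_neg_pow, pow_mul]
      exact hYY
  clear hYY
  induction r generalizing t with
  | zero => exact le_max_of_le_right (by simpa using h1)
  | succ r ih =>
    have h2 := ih (t + 1) (by rwa [add_assoc, add_comm 1 r])
    rw [← hz.2 t, ← hz'.2 t]
    refine (nm_sub_le_max _ (ev1 (z' (t + 1)) (mulSeries H p)) _).trans (max_le ?_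
      (le_max_of_le_left (nm_ev1_sub_le_of_coeff (hz'.1 _) hHH)))
    refine (thetafn_contract hH (hz.1 _) (hz'.1 _)).trans ?_
    rcases le_max_iff.1 h2 with h3 | h3
    · exact le_max_of_le_left ((pow_le_of_le_one (nm_nonneg _) (nm_le_one _)
        (pow_pos hp.pos h).ne').trans h3)
    · rw [pow_succ, pow_mul]
      exact le_max_of_le_right (pow_le_pow_left₀ (nm_nonneg _) h3 _)

/-- pairs of points that are close after a Frobenius twist -/
noncomputable def thetafn_rel [H.IsComm] (hε0 : 0 ≤ ε) (hH : Near p n h H V ε) (κ : ℤ) :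
    AddSubmonoid (Wp C p n × Pt H (mO C)) where
  carrier := {q | nm (frz C p κ q.1.1 - q.2.1) ≤ ε}
  zero_mem' := by
    change nm (frz C p κ 0 - 0) ≤ ε
    rw [map_zero, sub_zero, nm_eq_zero.2 rfl]
    exact hε0
  add_mem' := by
    intro a b ha hb
    change nm (frz C p κ (fadd _ a.1.1 b.1.1) - fadd H a.2.1 b.2.1) ≤ ε
    rw [frz_fadd_G0 p n κ a.1.2 b.1.2]
    exact nm_fadd_sub_fadd_le _ _ (frz_mem_mO p κ a.1.2) (frz_mem_mO p κ b.1.2) a.2.2 b.2.2
      (fun d => by rw [nm_sub_comm]; exact hH.near d) ha hb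

/-- sums of systems are systems, with the sum as limit; the first components `∑ c i • z i 1` are
killed by `p`, depend only on `c` modulo `p`, and are nonzero; if `‖Y‖` were tiny then `sys_close`
(with the zero system) would make the first component smaller than all these finitely many values -/
theorem indep_bound [H.IsComm] (hn : 1 ≤ n) (hh : 1 ≤ h) (hε0 : 0 < ε) (hε : ε < 1)
    (hH : Near p n h H V ε) {ι : Type} [Fintype ι] (z : ι → ℕ → O C)
    (hz : ∀ i, IsSys p H (z i)) (hz0 : ∀ i, z i 0 = 0) (Y : ι → Wp C p n)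
    (hY : ∀ i, IsX p n ε (z i) (Y i).1) (z₁ : ι → Pt H (mO C)) (hz₁ : ∀ i, (z₁ i).1 = z i 1)
    (hind : ∀ c : ι → ℕ, ∑ i, c i • z₁ i = 0 → ∀ i, p ∣ c i) :
    ∃ w : ℝ, 0 < w ∧ ∀ c : ι → ℕ, (∃ i, ¬ p ∣ c i) → w ≤ nm (∑ i, c i • Y i).1 := by
  have hp := (Fact.out : p.Prime)
  let P : ι → ℕ → Pt H (mO C) := fun i s => ⟨z i s, (hz i).1 s⟩
  have hP : ∀ i s, p • P i (s + 1) = P i s := fun i s =>
    Pt.ext ((Pt.nsmul_val p (P i (s + 1))).trans ((hz i).2 s))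
  have hP1 : ∀ i, z₁ i = P i 1 := fun i => Pt.ext (hz₁ i)
  have hP0 : ∀ i, p • z₁ i = 0 := fun i => by
    rw [hP1, hP i 0]
    exact Pt.ext (hz0 i)
  have hsys : ∀ c : ι → ℕ, IsSys p H fun s => (∑ i, c i • P i s).1 := fun c =>
    ⟨fun s => (∑ i, c i • P i s).2, fun s => by
      rw [← Pt.nsmul_val, Finset.smul_sum]
      simp only [smul_comm p, hP]⟩
  have hX : ∀ c : ι → ℕ, IsX p n ε (fun s => (∑ i, c i • P i s).1) (∑ i, c i • Y i).1 := fun c s => by
    have h1 : ∑ i, c i • (Y i, P i s) ∈ thetafn_rel hε0.le hH (-(n * s : ℕ)) :=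
      sum_mem fun i _ => nsmul_mem (S := thetafn_rel hε0.le hH (-(n * s : ℕ))) (x := (Y i, P i s))
        (hY i s) (c i)
    have h2 : nm (frz C p (-(n * s : ℕ)) (∑ i, c i • (Y i, P i s)).1.1 -
      (∑ i, c i • (Y i, P i s)).2.1) ≤ ε := h1
    rw [Prod.fst_sum, Prod.snd_sum] at h2
    exact h2
  have hlim : Filter.Tendsto (fun r : ℕ => ε ^ (p ^ h) ^ r) Filter.atTop (nhds 0) :=
    (tendsto_pow_atTop_nhds_zero_of_lt_one hε0.le hε).comp
      (tendsto_pow_atTop_atTop_of_one_lt (Nat.one_lt_pow (by omega) hp.one_lt))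
  have hev : ∀ᶠ r : ℕ in Filter.atTop, ∀ c : ι → Fin p, ∑ i, (c i : ℕ) • z₁ i ≠ 0 →
      ε ^ (p ^ h) ^ r < nm (∑ i, (c i : ℕ) • z₁ i).1 := by
    refine Filter.eventually_all.2 fun c => ?_
    by_cases hc : ∑ i, (c i : ℕ) • z₁ i = 0
    · exact Filter.Eventually.of_forall fun _ h => absurd hc h
    · have h1 : 0 < nm (∑ i, (c i : ℕ) • z₁ i).1 :=
        lt_of_le_of_ne (nm_nonneg _) fun h => hc (Pt.ext (nm_eq_zero.1 h.symm))
      exact (hlim.eventually (eventually_lt_nhds h1)).mono fun _ h _ => h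
  obtain ⟨r, hr⟩ := hev.exists
  refine ⟨ε ^ (p ^ n) ^ (1 + r), pow_pos hε0 _, fun c ⟨i, hi⟩ => ?_⟩
  by_contra hlt
  have e0 : nm (0 : O C) = 0 := nm_eq_zero.2 rfl
  have h1 := sys_close hh hε hH (η := 0) (H' := H) (fun j => by rw [sub_self, e0]) (hsys c)
    (z' := fun _ => 0) ⟨fun _ => zero_mem _, fun _ => by rw [ev1_zero, constantCoeff_mulSeries]⟩
    (hX c) (Y' := 0) (fun s => by rw [map_zero, sub_zero, e0]; exact hε0.le) 1 r
    (by rw [sub_zero]; exact (not_le.1 hlt).le)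
  have e1 : ∑ i, c i • P i 1 = ∑ i, c i • z₁ i := by simp only [hP1]
  have e2 : ∑ i, c i • z₁ i = ∑ i, ((⟨c i % p, Nat.mod_lt _ hp.pos⟩ : Fin p) : ℕ) • z₁ i :=
    Finset.sum_congr rfl fun i _ => nsmul_eq_mod_nsmul (c i) (hP0 i)
  have h2 := hr (fun i => ⟨c i % p, Nat.mod_lt _ hp.pos⟩) (by
    rw [← e2]
    exact fun h => hi (hind c h i))
  rw [sub_zero, e1, max_eq_right (pow_nonneg hε0.le _), e2] at h1
  exact absurd h1 h2.not_ge

end Crest.Agent.R227.K
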