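import Crest.Agent.R227.K.Lz
import Crest.Agent.R227.K.ThetaFn
import Crest.Agent.R227.K.Dense1

/-! Row 227, task `R227/K/Lz2a`: additivity of `Lz`, linearisation of `Θ` and of endomorphisms. -/

set_option autoImplicit false

namespace Crest.Agent.R227.K

open MvPowerSeries Crest.LubinTate
open scoped BigOperators

variable {C : Type*} [NormedField C] [IsUltrametricDist C] [IsAlgClosed C] [CompleteSpace C]
  {p : ℕ} [Fact p.Prime] [CharP C p] {K : Type*} [NormedField K] [IsUltrametricDist K]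
  [CompleteSpace K] {ϖ : O C} {s : WittVector p (O C) →+* O K} {n h : ℕ}

/-- evaluation commutes with `♯` modulo `p` (`exists_red`, `map_ev`; the images of the open balls in
`O K ⧸ p` consist of nilpotent elements, `good_radical ⊥`) -/
theorem IsUntilt.nm_sharp_ev (hs : IsUntilt ϖ s) {σ : Type*} [Finite σ]
    (f : MvPowerSeries σ (O C)) (Φ : MvPowerSeries σ (O K))
    (hf : ∀ d, nm (sharp s (coeff d f) - coeff d Φ) ≤ nm ϖ) {a : σ → O C} (ha : ∀ i, a i ∈ mO C) :
    nm (sharp s (ev (RingHom.id (O C)) a f) - ev (RingHom.id (O K)) (fun i => sharp s (a i)) Φ) ≤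
      nm ϖ := by
  obtain ⟨red, hred, -⟩ := hs.exists_red
  have hp : nm (p : O K) = nm ϖ := by rw [← hs.norm_p]; simp [nm]
  have hϖ : 0 < nm ϖ := lt_of_le_of_ne (nm_nonneg _) fun h => hs.ne (nm_eq_zero.1 h.symm)
  have hG : Good (⊥ : Ideal (O K ⧸ Ideal.span {(p : O K)})).radical := good_radical ⊥
  have hsh : ∀ i, sharp s (a i) ∈ mO K := fun i => by
    rw [mem_mO, hs.nm_sharp]; exact ha i
  have hnil : ∀ i, Ideal.Quotient.mk (Ideal.span {(p : O K)}) (sharp s (a i)) ∈
      (⊥ : Ideal (O K ⧸ Ideal.span {(p : O K)})).radical := by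
    intro i
    obtain ⟨j, hj⟩ := exists_pow_lt_of_lt_one hϖ (mem_mO.1 (hsh i))
    refine ⟨j, ?_⟩
    rw [← map_pow, Ideal.mem_bot, Ideal.Quotient.eq_zero_iff_mem, mem_span_iff, hp, nm_pow]
    exact hj.le
  have hmap : f.map red = Φ.map (Ideal.Quotient.mk (Ideal.span {(p : O K)})) := by
    ext d
    rw [coeff_map, coeff_map, hred, Ideal.Quotient.eq, mem_span_iff, hp]
    exact hf d
  rw [← hp, ← mem_span_iff, ← Ideal.Quotient.eq, ← hred,
    map_ev good_mO hG red _ ha (fun i => by rw [hred]; exact hnil i),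
    map_ev good_mO hG (Ideal.Quotient.mk _) _ hsh hnil]
  simp only [hred]
  have e1 := ev_map hG (RingHom.id _) red hnil f
  have e2 := ev_map hG (RingHom.id _) (Ideal.Quotient.mk (Ideal.span {(p : O K)})) hnil Φ
  rw [RingHom.id_comp] at e1 e2
  rw [RingHom.comp_id, RingHom.comp_id, ← e1, ← e2, hmap]

/-- `lin` with `Φ = G0`, `G0_isLog` -/
theorem IsUntilt.Lz_add (hs : IsUntilt ϖ s) (hn : 1 ≤ n) (κ : ℤ) (Y Y' : Wp C p n) :
    Lz s n (frz C p κ (Y + Y').1) = Lz s n (frz C p κ Y.1) + Lz s n (frz C p κ Y'.1) := by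
  have hpu : IsUnit (p : K) := hs.p_ne_zero.isUnit
  have hY : ∀ i, ![frz C p κ Y.1, frz C p κ Y'.1] i ∈ mO C := by
    intro i
    fin_cases i
    · exact frz_mem_mO p κ Y.2
    · exact frz_mem_mO p κ Y'.2
  have key := hs.lin hn hn (σ := Fin 2) (τ := Fin 2) (G0 p n (O K)).toPowerSeries
    (G0 p n (O K)).zero_constantCoeff id (fun _ => 0) (fun _ => 1) (by
      have e : (G0 p n (O K)).toPowerSeries.map (algebraMap (O K) K) = (G0 p n K).toPowerSeries := by
        rw [← G0_map p n (algebraMap (O K) K)]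
        rfl
      rw [e, (G0_isLog p hn K hpu).2.2, Fin.sum_univ_two]
      simp only [map_one, one_mul, pow_zero, pow_one, id, sub_self]
      exact CoeffIn.zero) hY (frz_mem_mO p κ (Y + Y').2) (by
      intro t
      have ha : ∀ i, frz C p (-(n * t : ℕ)) (![frz C p κ Y.1, frz C p κ Y'.1] i) ∈ mO C :=
        fun i => frz_mem_mO p _ (hY i)
      have h1 := hs.nm_sharp_ev (G0 p n (O C)).toPowerSeries (G0 p n (O K)).toPowerSeries (by
        intro d
        have h2 := hs.nm_sub_sharp ((coeff d (honda p n).toPowerSeries : ℤ) : WittVector p (O C))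
        rw [map_intCast, map_intCast, nm_sub_comm] at h2
        exact h2) ha
      rw [Pt.add_val, frz_fadd_G0 p n κ Y.2 Y'.2, 
        frz_fadd_G0 p n _ (frz_mem_mO p κ Y.2) (frz_mem_mO p κ Y'.2)]
      have e : (fun i => frz C p (-(n * t : ℕ)) (![frz C p κ Y.1, frz C p κ Y'.1] i)) =
          ![frz C p (-(n * t : ℕ)) (frz C p κ Y.1), frz C p (-(n * t : ℕ)) (frz C p κ Y'.1)] := by
        funext i
        fin_cases i <;> rfl
      rw [e] at h1
      exact h1)
  rw [key, Fin.sum_univ_two]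
  simp [frz_zero]

theorem IsUntilt.Lz_sum (hs : IsUntilt ϖ s) (hn : 1 ≤ n) (κ : ℤ) {ι : Type*} (t : Finset ι)
    (c : ι → ℕ) (Y : ι → Wp C p n) :
    Lz s n (frz C p κ (∑ i ∈ t, c i • Y i).1) = ∑ i ∈ t, (c i : K) * Lz s n (frz C p κ (Y i).1) := by
  let L : Wp C p n →+ K :=
    { toFun := fun Y => Lz s n (frz C p κ Y.1)
      map_zero' := by simp [Lz, sharp_zero]
      map_add' := hs.Lz_add hn κ }
  change L (∑ i ∈ t, c i • Y i) = ∑ i ∈ t, (c i : K) * L (Y i)
  rw [map_sum]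
  exact Finset.sum_congr rfl fun i _ => by rw [map_nsmul, nsmul_eq_mul]

end Crest.Agent.R227.K
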