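import Crest.Agent.R227.K.Univ
import Crest.Agent.R227.K.Compare
import Crest.Agent.R227.LT

/-! Row 227, task `R227/K/Wlog`: reduction to Honda's law. -/

set_option autoImplicit false

namespace Crest.Agent.R227.K

open MvPowerSeries Crest.LubinTate

section conj

variable {A B k : Type*} [CommRing A] [CommRing B] [Field k]

theorem wlog_map_subst (r : A →+* B) {a : PowerSeries A} (ha : PowerSeries.constantCoeff a = 0)
    (f : PowerSeries A) : PowerSeries.map r (f.subst a) = (f.map r).subst (a.map r) :=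
  PowerSeries.map_subst (PowerSeries.HasSubst.of_constantCoeff_zero' ha) f

/-- `ι : Γ → Γ'` and `κ : Γ' → Γ` are inverse isomorphisms -/
structure WlogIso (Γ Γ' : FormalGroup k) (ι κ : PowerSeries k) : Prop where
  hι : IsFGHom Γ Γ' ι
  hκ : IsFGHom Γ' Γ κ
  ικ : ι.subst κ = PowerSeries.X
  κι : κ.subst ι = PowerSeries.X

theorem WlogIso.symm {Γ Γ' : FormalGroup k} {ι κ : PowerSeries k} (h : WlogIso Γ Γ' ι κ) :
    WlogIso Γ' Γ κ ι := ⟨h.hκ, h.hι, h.κι, h.ικ⟩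

theorem WlogIso.isUnit {Γ Γ' : FormalGroup k} {ι κ : PowerSeries k} (h : WlogIso Γ Γ' ι κ) :
    IsUnit (PowerSeries.coeff 1 κ) := by
  have h1 := coeff_one_subst (f := ι) h.hκ.1
  rw [h.ικ, PowerSeries.coeff_one_X] at h1
  exact IsUnit.of_mul_eq_one_right _ h1.symm

theorem wlog_dvd {a b : PowerSeries A} (ha : PowerSeries.constantCoeff a = 0)
    (hb : PowerSeries.constantCoeff b = 0) (f : PowerSeries A) : a - b ∣ f.subst a - f.subst b := by
  rw [← R227.ev1_eq_subst1 ha, ← R227.ev1_eq_subst1 hb]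
  exact R227.sub_dvd_ev1_sub (R227.XI Unit A) _ (R227.mem_XI_unit_radical ha)
    (R227.mem_XI_unit_radical hb) f

theorem WlogIso.congr {Γ Γ' : FormalGroup k} {ι κ g : PowerSeries k} (h : WlogIso Γ Γ' ι κ)
    (hg : PowerSeries.constantCoeff g = 0) {M i : ℕ}
    (hM : ∀ i < M, PowerSeries.coeff i g = PowerSeries.coeff i PowerSeries.X) (hi : i < M) :
    PowerSeries.coeff i (ι.subst (g.subst κ : PowerSeries k) : PowerSeries k) =
      PowerSeries.coeff i PowerSeries.X := by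
  have h4 : PowerSeries.X ^ M ∣ PowerSeries.subst κ (g - PowerSeries.X) :=
    R227.X_pow_dvd_subst h.hκ.1 (PowerSeries.X_pow_dvd_iff.2 fun i hi => by
      rw [map_sub, hM i hi, sub_self])
  rw [PowerSeries.subst_sub (.of_constantCoeff_zero' h.hκ.1),
    PowerSeries.subst_X (.of_constantCoeff_zero' h.hκ.1)] at h4
  have h5 := h4.trans (wlog_dvd ((R227.constantCoeff_subst1 h.hκ.1 g).trans hg) h.hκ.1 ι)
  rw [h.ικ] at h5
  rw [← sub_eq_zero, ← map_sub]
  exact PowerSeries.X_pow_dvd_iff.1 h5 i hi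

/-- homomorphisms in both directions that lift `ι`, `κ` -/
def WlogCj (r : B →+* k) (F F' : FormalGroup B) (ι κ : PowerSeries k) : Prop :=
  ∃ a b, IsFGHom F F' a ∧ IsFGHom F' F b ∧ a.map r = ι ∧ b.map r = κ

variable {r : B →+* k} {ι κ : PowerSeries k}

theorem WlogCj.symm {F F' : FormalGroup B} (h : WlogCj r F F' ι κ) : WlogCj r F' F κ ι :=
  let ⟨a, b, h1, h2, h3, h4⟩ := h
  ⟨b, a, h2, h1, h4, h3⟩

theorem WlogCj.map {F F' : FormalGroup A} {φ : A →+* B} {r' : A →+* k} (hr : r.comp φ = r')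
    (h : WlogCj r' F F' ι κ) : WlogCj r (F.map φ) (F'.map φ) ι κ := by
  obtain ⟨a, b, h1, h2, rfl, rfl⟩ := h
  subst hr
  exact ⟨_, _, isFGHom_map h1 φ, isFGHom_map h2 φ, by ext; simp, by ext; simp⟩

theorem WlogCj.conj {F F' G G' : FormalGroup B} (hF : WlogCj r F F' ι κ) (hG : WlogCj r G G' ι κ)
    {θ : PowerSeries B} (hθ : IsFGHom F G θ) :
    ∃ θ', IsFGHom F' G' θ' ∧ θ'.map r = ι.subst ((θ.map r).subst κ : PowerSeries k) := by
  obtain ⟨-, b, -, hb, -, rfl⟩ := hF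
  obtain ⟨a, -, ha, -, rfl, -⟩ := hG
  have h := isFGHom_comp hb hθ
  exact ⟨_, isFGHom_comp h ha, by rw [wlog_map_subst r h.1, wlog_map_subst r hb.1]⟩

theorem WlogCj.star {Γ Γ' : FormalGroup k} (h : WlogIso Γ Γ' ι κ) {F F' G G' : FormalGroup B}
    (hF : WlogCj r F F' ι κ) (hG : WlogCj r G G' ι κ)
    (hθ : ∃ θ, IsFGHom F G θ ∧ θ.map r = PowerSeries.X) :
    ∃ θ, IsFGHom F' G' θ ∧ θ.map r = PowerSeries.X := by
  obtain ⟨θ, h1, h2⟩ := hθ
  obtain ⟨θ', h3, h4⟩ := hF.conj hG h1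
  exact ⟨θ', h3, by rw [h4, h2, PowerSeries.subst_X (.of_constantCoeff_zero' h.hκ.1), h.ικ]⟩

theorem wlog_lift (hr : Function.Surjective r) (hu : ∀ x, r x ≠ 0 → IsUnit x) {F : FormalGroup B}
    {Γ' : FormalGroup k} (h : WlogIso (F.map r) Γ' ι κ) :
    ∃ F' : FormalGroup B, F'.map r = Γ' ∧ WlogCj r F F' ι κ := by
  obtain ⟨b₀, hb₀⟩ := R227.exists_psmap_eq r (f := κ) fun d => hr _
  obtain ⟨b, b0, rfl⟩ : ∃ b : PowerSeries B, PowerSeries.constantCoeff b = 0 ∧ b.map r = κ :=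
    ⟨b₀ - PowerSeries.C (PowerSeries.constantCoeff b₀), by simp, by
      rw [map_sub, PowerSeries.map_C, ← R227.ps_constantCoeff_map, hb₀, h.hκ.1, map_zero, sub_zero]⟩
  have b1 := hu _ (PowerSeries.coeff_map r 1 b ▸ h.isUnit.ne_zero)
  obtain ⟨F', hF'⟩ := exists_transport' F b0 b1
  obtain ⟨a, a0, -, hba, hab⟩ := exists_substInv b0 b1
  have ha := isFGHom_inv hF' a0 hba hab
  refine ⟨F', source_unique h.isUnit (isFGHom_map hF' r) h.hκ, a, b, ha, hF', ?_, rfl⟩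
  have h1 := PowerSeries.HasSubst.of_constantCoeff_zero' (isFGHom_map ha r).1
  rw [← PowerSeries.subst_X (R := k) h1, ← h.ικ,
    PowerSeries.subst_comp_subst_apply (.of_constantCoeff_zero' h.hκ.1) h1, ← wlog_map_subst r a0,
    hba, PowerSeries.map_X, PowerSeries.X_subst]

end conj

variable {p : ℕ} [Fact p.Prime] {n : ℕ}

theorem wlog_stable {Γ Γ' : FormalGroup (GaloisField p n)} {ι κ : PowerSeries (GaloisField p n)}
    (h : WlogIso Γ Γ' ι κ) {H H' : FormalGroup (LTRing p n)}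
    (hc : WlogCj (LTRing.residue p n) H H' ι κ) {M : ℕ} {J : Ideal (LTRing p n)}
    (hJ : IsStableIdeal p n Γ' H' M J) : IsStableIdeal p n Γ H M J := by
  rintro g φ ⟨hg, hu⟩ hM ⟨h1, θ, h2, rfl⟩
  have h3 := isFGHom_comp h.hκ hg
  refine hJ _ φ ⟨isFGHom_comp h3 h.hι, ?_⟩ (fun i hi => ?_) ⟨h1, (hc.map h1).conj hc h2⟩
  · rw [coeff_one_subst h3.1, coeff_one_subst h.hκ.1]
    exact h.symm.isUnit.mul (hu.mul h.isUnit)
  · exact h.congr hg.1 hM hi

/-- let `ι : Γ → G0` be given by `exists_compare`, `ι~` its Teichmüller lift over `W (k)`, and `H'` the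
transport of `H` along `ι~`.  Deformations, ⋆-isomorphisms, automorphisms and stabilizer maps
correspond under conjugation by `ι`, `ι~` (algebra maps over `W (k)` fix `ι~`). -/
theorem exists_wlog (hn : 1 ≤ n) (Γ : FormalGroup (GaloisField p n)) [Γ.IsComm]
    (hΓ : mulSeries Γ p = PowerSeries.X ^ p ^ n) (H : FormalGroup (LTRing p n)) [H.IsComm]
    (hH : IsUniversalDeformation p n Γ H) :
    ∃ H' : FormalGroup (LTRing p n), H'.IsComm ∧
      IsUniversalDeformation p n (G0 p n (GaloisField p n)) H' ∧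
      (∀ h, heightIdeal p n H' h = heightIdeal p n H h) ∧
      ∀ M J, IsStableIdeal p n Γ H M J ↔ IsStableIdeal p n (G0 p n (GaloisField p n)) H' M J := by
  obtain ⟨ι, hι, ι1⟩ := exists_compare p (R227.pow_q_kk p hn) Γ (G0 p n (GaloisField p n)) hΓ
    (mulSeries_G0 p hn _ (CharP.cast_eq_zero _ p))
  obtain ⟨κ, κ0, -, h1, h2⟩ := exists_substInv hι.1 (ι1 ▸ isUnit_one)
  have h : WlogIso Γ (G0 p n (GaloisField p n)) ι κ := ⟨hι, isFGHom_inv hι κ0 h1 h2, h1, h2⟩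
  obtain ⟨H', h3, hc⟩ := wlog_lift (R227.residue_surjective p n)
    (fun x => (R227.isUnit_iff_residue p n).2) (F := H) (hH.1.symm ▸ h)
  obtain ⟨b, hb, rfl⟩ : ∃ b, IsFGHom H' H b ∧ b.map (LTRing.residue p n) = κ :=
    let ⟨_, b, _, hb, _, e⟩ := hc
    ⟨b, hb, e⟩
  have b1 : IsUnit (PowerSeries.coeff 1 b) := by
    rw [R227.isUnit_iff_residue, ← PowerSeries.coeff_map]
    exact h.isUnit.ne_zero
  have := R227.isComm_of_isFGHom hb b1
  refine ⟨H', this, ⟨h3, fun B _ _ _ _ hB r hr hk hW G' hG' => ?_⟩, fun j => ?_,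
    fun M J => ⟨wlog_stable h.symm hc.symm, wlog_stable h hc⟩⟩
  · obtain ⟨G, h4, hG⟩ := wlog_lift hr (fun x hx => IsLocalRing.notMem_maximalIdeal.1 (hk ▸ hx))
      (F := G') (hG'.symm ▸ h.symm)
    exact (existsUnique_congr fun φ => and_congr_right fun hφ =>
      ⟨(hc.map hφ).star h hG.symm, (hc.map hφ).symm.star h.symm hG⟩).1 (hH.2 B hB r hr hk hW G h4)
  · rw [R227.heightIdeal_eq_hI, R227.heightIdeal_eq_hI, R227.hI_eq_of_iso p hb b1]

end Crest.Agent.R227.K
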