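import Crest.Agent.R227.K.CoreP
import Crest.Agent.R227.K.Core0
import Crest.Agent.R227.K.Wlog

/-! Row 227: assembly. -/

set_option autoImplicit false

namespace Crest.Agent.R227.K

open MvPowerSeries Crest.LubinTate IsLocalRing

variable {p : ℕ} [Fact p.Prime] {n : ℕ}

theorem core (hn : 1 ≤ n) (H : FormalGroup (LTRing p n)) [H.IsComm]
    (hH : IsUniversalDeformation p n (G0 p n (GaloisField p n)) H)
    (P : Ideal (LTRing p n)) (hP : P.IsPrime) (N₀ : ℕ)
    (hact : ∀ N, N₀ ≤ N → ∀ b : PowerSeries (GaloisField p n),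
      IsFGHom (G0 p n (GaloisField p n)) (G0 p n (GaloisField p n)) b →
      ∃ φ ψ, Act p n H N b φ ψ ∧ ∀ f ∈ P, φ f ∈ P) :
    ∃ h, h ≤ n ∧ P = heightIdeal p n H h := by
  classical
  have hΓ : mulSeries (G0 p n (GaloisField p n)) p = PowerSeries.X ^ p ^ n :=
    mulSeries_G0 p hn _ (CharP.cast_eq_zero _ p)
  have htop := heightIdeal_top hn hΓ hH
  have hex : ∃ j, j ≤ n ∧ heightIdeal p n H (n - j) ≤ P :=
    ⟨n, le_rfl, by rw [Nat.sub_self]; exact bot_le⟩
  obtain ⟨hjn, hj⟩ := Nat.find_spec hex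
  set j := Nat.find hex with hjdef
  refine ⟨n - j, Nat.sub_le _ _, ?_⟩
  rcases Nat.eq_zero_or_pos j with hj0 | hj0
  · rw [hj0, Nat.sub_zero, htop, mE_eq] at hj
    rw [hj0, Nat.sub_zero, htop, mE_eq]
    exact ((maximalIdeal.isMaximal _).eq_of_le hP.ne_top hj).symm
  have ha : PowerSeries.coeff (p ^ (n - j)) (mulSeries H p) ∉ P := by
    intro ha
    refine Nat.find_min hex (m := j - 1) (by omega) ⟨by omega, ?_⟩
    rw [show n - (j - 1) = (n - j) + 1 by omega]
    exact sup_le hj ((Ideal.span_singleton_le_iff_mem _).2 ha)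
  rcases Nat.eq_zero_or_pos (n - j) with h0 | h0
  · rw [h0, pow_zero, coeff_one_mulSeries] at ha
    rw [h0]
    exact core_zero hn H hH.1 P hP ha N₀ hact
  · exact core_p H hH.1 htop h0 (by omega) P hP hj ha N₀ hact

/-- a ring automorphism that fixes `J` and is close to the identity fixes the minimal primes -/
theorem main_minimal_stable {R : Type*} [CommRing R] [IsLocalRing R] [IsNoetherianRing R]
    (J : Ideal R) : ∃ c : ℕ, ∀ φ : R →+* R, Function.Bijective φ → J.comap φ = J →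
      (∀ f, φ f - f ∈ maximalIdeal R ^ c) → ∀ P ∈ J.minimalPrimes, ∀ f ∈ P, φ f ∈ P := by
  classical
  have hfin := Ideal.finite_minimalPrimes_of_isNoetherianRing R J
  have hpair : ∀ P ∈ J.minimalPrimes, ∀ Q ∈ J.minimalPrimes, ∃ c : ℕ,
      Q ≤ P ⊔ maximalIdeal R ^ c → Q ≤ P := by
    intro P _ Q _
    by_cases h : Q ≤ P
    · exact ⟨0, fun _ => h⟩
    · obtain ⟨a, haQ, haP⟩ := SetLike.not_le_iff_exists.1 h
      obtain ⟨c, hc⟩ := not_forall.1 (mt mem_of_forall_mem_sup_pow haP)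
      exact ⟨c, fun hle => absurd (hle haQ) hc⟩
  choose! c hc using hpair
  obtain ⟨c₀, hc₀⟩ := ((hfin.prod hfin).image (fun z : Ideal R × Ideal R => c z.1 z.2)).bddAbove
  refine ⟨c₀, fun φ hφ hJ hcong P hP f hf => ?_⟩
  have hQ : P.comap φ ∈ J.minimalPrimes := by
    let e : R ≃+* R := RingEquiv.ofBijective φ hφ
    have hP' := hP
    rw [Ideal.minimalPrimes, Set.mem_ofPred_eq] at hP' ⊢
    refine ⟨⟨hP'.1.1.comap φ, ?_⟩, ?_⟩
    · rw [← hJ]; exact Ideal.comap_mono hP'.1.2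
    · rintro Q ⟨hQ, hJQ⟩ hle
      have h1 : J ≤ Q.comap (e.symm : R →+* R) := by
        intro a ha
        apply hJQ
        rw [← hJ, Ideal.mem_comap]
        change e (e.symm a) ∈ J
        rwa [e.apply_symm_apply]
      have h2 : Q.comap (e.symm : R →+* R) ≤ P := by
        intro a ha
        have : e (e.symm a) ∈ P := hle ha
        rwa [e.apply_symm_apply] at this
      have h3 := hP'.2 ⟨hQ.comap _, h1⟩ h2
      intro a ha
      have : e.symm (e a) ∈ Q := h3 ha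
      rwa [e.symm_apply_apply] at this
  have hle : P.comap φ ≤ P := by
    apply hc P hP _ hQ
    intro a ha
    have h1 : a = φ a + -(φ a - a) := by ring
    rw [h1]
    refine Submodule.add_mem_sup ha (neg_mem (Ideal.pow_le_pow_right ?_ (hcong a)))
    exact hc₀ ⟨(P, P.comap φ), ⟨hP, hQ⟩, rfl⟩
  exact hP.2 hQ.1 hle hf

theorem radical_case (hn : 1 ≤ n) (H : FormalGroup (LTRing p n)) [H.IsComm]
    (hH : IsUniversalDeformation p n (G0 p n (GaloisField p n)) H) (M : ℕ)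
    (J : Ideal (LTRing p n)) (hJ : J.IsRadical)
    (hs : IsStableIdeal p n (G0 p n (GaloisField p n)) H M J) :
    (∃ h, h ≤ n ∧ J = heightIdeal p n H h) ∨ J = ⊤ := by
  classical
  by_cases hJt : J = ⊤
  · exact Or.inr hJt
  left
  obtain ⟨c, hc⟩ := main_minimal_stable J
  have hq : 1 < p ^ n := Nat.one_lt_pow (by omega) (Fact.out : p.Prime).one_lt
  have hmin : ∀ P ∈ J.minimalPrimes, ∃ h, h ≤ n ∧ P = heightIdeal p n H h := by
    intro P hP
    refine core hn H hH P hP.1.1 (c + M + 1) fun N hN b hb => ?_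
    obtain ⟨g, φ, ψ, hg, hgX, hφ, hA⟩ := exists_act hn hH (N := N) (by omega) hb
    refine ⟨φ.toRingHom, ψ, hA, hc φ.toRingHom (stab_bijective hH hg hφ)
      (hs g φ hg (fun i hi => hgX i ?_) hφ) (fun f => ?_) P hP⟩
    · exact lt_of_lt_of_le (by omega) (Nat.lt_pow_self hq).le
    · rw [← mE_eq]
      exact Ideal.pow_le_pow_right (by omega) (aI_le_pow p n N (hA.cong0 f))
  obtain ⟨P, hP⟩ := Ideal.nonempty_minimalPrimes hJt
  obtain ⟨h, hh, hPh⟩ := hmin P hP
  refine ⟨h, hh, ?_⟩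
  rw [← hPh, ← hJ.radical, ← Ideal.sInf_minimalPrimes]
  refine le_antisymm (sInf_le hP) (le_sInf fun Q hQ => ?_)
  obtain ⟨h', -, hQh⟩ := hmin Q hQ
  rcases le_total h h' with hle | hle
  · rw [hPh, hQh, heightIdeal_eq, heightIdeal_eq]
    exact hI_mono p H hle
  · refine hP.2 hQ.1 ?_
    rw [hPh, hQh, heightIdeal_eq, heightIdeal_eq]
    exact hI_mono p H hle

theorem main (hn : 1 ≤ n) (Γ : FormalGroup (GaloisField p n)) [Γ.IsComm]
    (hΓ : mulSeries Γ p = PowerSeries.X ^ (p ^ n))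
    (H : FormalGroup (LTRing p n)) [H.IsComm] (hH : IsUniversalDeformation p n Γ H) (M : ℕ) :
    (∀ P : Ideal (LTRing p n),
        (P.IsPrime ∧ IsStableIdeal p n Γ H M P) ↔ ∃ h : ℕ, h ≤ n ∧ P = heightIdeal p n H h) ∧
    (∀ J : Ideal (LTRing p n),
        (J.IsRadical ∧ IsStableIdeal p n Γ H M J) ↔
          (∃ h : ℕ, h ≤ n ∧ J = heightIdeal p n H h) ∨ J = ⊤) := by
  have htop := heightIdeal_top hn hΓ hH
  obtain ⟨H', hc, hH', hI', hs'⟩ := exists_wlog hn Γ hΓ H hH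
  have key : ∀ J : Ideal (LTRing p n), J.IsRadical → IsStableIdeal p n Γ H M J →
      (∃ h : ℕ, h ≤ n ∧ J = heightIdeal p n H h) ∨ J = ⊤ := by
    intro J hJ hs
    have := radical_case hn H' hH' M J hJ ((hs' M J).1 hs)
    simpa only [hI'] using this
  refine ⟨fun P => ⟨fun ⟨hP, hs⟩ => ?_, ?_⟩, fun J => ⟨fun ⟨hJ, hs⟩ => key J hJ hs, ?_⟩⟩
  · rcases key P hP.isRadical hs with h | h
    · exact h
    · exact absurd h hP.ne_top
  · rintro ⟨h, hh, rfl⟩
    exact ⟨heightIdeal_isPrime H htop hh, heightIdeal_stable hH M h⟩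
  · rintro (⟨h, hh, rfl⟩ | rfl)
    · exact ⟨(heightIdeal_isPrime H htop hh).isRadical, heightIdeal_stable hH M h⟩
    · exact ⟨le_top, fun g φ _ _ _ => Ideal.comap_top⟩

end Crest.Agent.R227.K
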