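import Crest.Agent.R227.K.OC1

/-! Row 227, task `R227/K/OC`: the unit ball of a complete nonarchimedean field. -/

set_option autoImplicit false

namespace Crest.Agent.R227.K

open MvPowerSeries Crest.LubinTate

section perfect

variable (C : Type*) [NormedField C] [IsUltrametricDist C] [IsAlgClosed C] (p : ℕ) [Fact p.Prime]
  [CharP C p]

instance O_perfectRing : PerfectRing (O C) p := by
  have hp : p ≠ 0 := (Fact.out : p.Prime).ne_zero
  refine PerfectRing.ofSurjective _ _ fun x => ?_
  obtain ⟨y, hy⟩ := IsAlgClosed.exists_pow_nat_eq (x : C) (Nat.pos_of_ne_zero hp)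
  refine ⟨⟨y, ?_⟩, Subtype.ext (by simpa [frobenius_def] using hy)⟩
  rw [mem_O, ← pow_le_one_iff_of_nonneg (norm_nonneg _) hp, ← norm_pow, hy]
  exact x.2

/-- integer powers of Frobenius -/
noncomputable def frz (κ : ℤ) : O C ≃+* O C := ((frobeniusEquiv (O C) p : RingAut (O C)) ^ κ :
  RingAut (O C))

variable {C}

theorem frz_natCast (t : ℕ) (x : O C) : frz C p t x = x ^ p ^ t := by
  unfold frz
  rw [zpow_natCast]
  induction t with
  | zero => simp
  | succ t ih =>
    rw [pow_succ', RingAut.mul_apply, ih, pow_succ, pow_mul]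
    rfl

theorem frz_zero (x : O C) : frz C p 0 x = x := by
  simp [frz]

theorem frz_add (κ κ' : ℤ) (x : O C) : frz C p (κ + κ') x = frz C p κ (frz C p κ' x) := by
  unfold frz
  rw [zpow_add, RingAut.mul_apply]

theorem frz_neg_pow (t : ℕ) (x : O C) : frz C p (-(t : ℤ)) x ^ p ^ t = x := by
  rw [← frz_natCast, ← frz_add, add_neg_cancel, frz_zero]

theorem nm_frz (κ : ℤ) (x : O C) : nm (frz C p κ x) = nm x ^ ((p : ℝ) ^ κ) := by
  have hp : (0 : ℝ) < p := Nat.cast_pos.2 (Fact.out : p.Prime).pos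
  obtain ⟨t, rfl | rfl⟩ := Int.eq_nat_or_neg κ
  · rw [frz_natCast, nm_pow, zpow_natCast, ← Real.rpow_natCast, Nat.cast_pow]
  · conv_rhs => rw [← frz_neg_pow p t x, nm_pow, ← Real.rpow_natCast,
      ← Real.rpow_mul (nm_nonneg _), Nat.cast_pow, zpow_neg, zpow_natCast,
      mul_inv_cancel₀ (pow_pos hp t).ne', Real.rpow_one]

theorem frz_mem_mO (κ : ℤ) {x : O C} (hx : x ∈ mO C) : frz C p κ x ∈ mO C := by
  have hp : (0 : ℝ) < p := Nat.cast_pos.2 (Fact.out : p.Prime).pos
  rw [mem_mO, nm_frz]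
  exact Real.rpow_lt_one (nm_nonneg _) hx (zpow_pos hp _)

/-- elements of finite fields -/
theorem frz_mul_of_pow_eq {t : ℕ} {x : O C} (hx : x ^ p ^ t = x) (s : ℤ) :
    frz C p (t * s) x = x := by
  rw [← frz_natCast] at hx
  induction s using Int.induction_on with
  | zero => rw [mul_zero, frz_zero]
  | succ s ih => rw [mul_add, mul_one, frz_add, hx, ih]
  | pred s ih =>
    conv_lhs => rw [← hx, ← frz_add]
    rw [← ih]
    conv_rhs => rw [ih, ← ih]
    congr 2
    ring

theorem lim_unique {t : ℕ} (ht : 1 ≤ t) {Y Y' : O C} {η : ℝ} (hη : η < 1)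
    (h : ∀ s : ℕ, nm (frz C p (-(t * s : ℕ)) Y - frz C p (-(t * s : ℕ)) Y') ≤ η) : Y = Y' := by
  have h0 : 0 ≤ η := (nm_nonneg _).trans (h 0)
  rw [← sub_eq_zero, ← nm_eq_zero]
  refine le_antisymm (ge_of_tendsto' (tendsto_pow_atTop_nhds_zero_of_lt_one h0 hη) fun s => ?_)
    (nm_nonneg _)
  rw [← frz_neg_pow p (t * s) (Y - Y'), nm_pow, map_sub]
  refine (pow_le_pow_left₀ (nm_nonneg _) (h s) _).trans (pow_le_pow_of_le_one h0 hη.le ?_)
  exact (Nat.le_mul_of_pos_left s ht).trans
    (Nat.lt_pow_self (Fact.out : p.Prime).one_lt).le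

variable [CompleteSpace C]

theorem frz_ev1 (κ : ℤ) {z : O C} (hz : z ∈ mO C) (f : PowerSeries (O C)) :
    frz C p κ (ev1 z f) = ev1 (frz C p κ z) (f.map (frz C p κ : O C →+* O C)) :=
  map_ev1 good_mO good_mO (frz C p κ : O C →+* O C) hz (frz_mem_mO p κ hz) f

theorem frz_fadd_G0 (n : ℕ) (κ : ℤ) {a b : O C} (ha : a ∈ mO C) (hb : b ∈ mO C) :
    frz C p κ (fadd (G0 p n (O C)) a b) = fadd (G0 p n (O C)) (frz C p κ a) (frz C p κ b) := by
  have := map_fadd (F := G0 p n (O C)) good_mO good_mO (frz C p κ : O C →+* O C) ha hb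
    (frz_mem_mO p κ ha) (frz_mem_mO p κ hb)
  rwa [G0_map] at this

/-- limits `lim (w s) ^ (p ^ t) ^ s` -/
theorem exists_lim {t : ℕ} (ht : 1 ≤ t) (w : ℕ → O C) {η : ℝ} (hη : η < 1)
    (hw : ∀ s, nm (w (s + 1) ^ p ^ t - w s) ≤ η) :
    ∃ Y : O C, ∀ s : ℕ, nm (frz C p (-(t * s : ℕ)) Y - w s) ≤ η := by
  have h0 : 0 ≤ η := (nm_nonneg _).trans (hw 0)
  have hp := (Fact.out : p.Prime)
  set u : ℕ → O C := fun s => w s ^ p ^ (t * s) with hu
  have h1 : ∀ s, nm (u (s + 1) - u s) ≤ η ^ p ^ (t * s) := by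
    intro s
    have : u (s + 1) - u s = (w (s + 1) ^ p ^ t - w s) ^ p ^ (t * s) := by
      rw [sub_pow_char_pow, ← pow_mul, ← pow_add, hu]
      simp only
      rw [mul_add, mul_one, add_comm t]
    rw [this, nm_pow]
    exact pow_le_pow_left₀ (nm_nonneg _) (hw s) _
  have h2 : ∀ s k, nm (u (k + s) - u s) ≤ η ^ p ^ (t * s) := by
    intro s k
    induction k with
    | zero => simp [nm, h0]
    | succ k ih =>
      refine (nm_sub_le_max _ (u (k + s)) _).trans (max_le ?_ ih)
      rw [add_right_comm]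
      exact (h1 _).trans (pow_le_pow_of_le_one h0 hη.le
        (Nat.pow_le_pow_right hp.pos (Nat.mul_le_mul_left _ (Nat.le_add_left _ _))))
  have h3 : CauchySeq fun s => (u s : C) := by
    refine cauchySeq_of_le_geometric η 1 hη fun s => ?_
    rw [dist_comm, dist_eq_norm, one_mul]
    exact (h1 s).trans (pow_le_pow_of_le_one h0 hη.le
      ((Nat.le_mul_of_pos_left s ht).trans (Nat.lt_pow_self hp.one_lt).le))
  obtain ⟨y, hy⟩ := cauchySeq_tendsto_of_complete h3
  refine ⟨⟨y, le_of_tendsto' hy.norm fun s => (u s).2⟩, fun s => ?_⟩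
  refine le_of_pow_le_pow_left₀ (pow_pos hp.pos (t * s)).ne' h0 ?_
  rw [← nm_pow, sub_pow_char_pow, frz_neg_pow]
  exact le_of_tendsto' ((((Filter.tendsto_add_atTop_iff_nat s).2 hy).sub_const (u s : C)).norm)
    fun k => h2 s k

end perfect

section roots

variable {C : Type*} [NormedField C] [IsUltrametricDist C] [IsAlgClosed C]

theorem exists_root_monic (P : Polynomial (O C)) (hP : P.Monic) (hd : 0 < P.natDegree) :
    ∃ z : O C, P.eval z = 0 := by
  have hQ : (P.map (O C).subtype).degree ≠ 0 := by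
    rw [hP.degree_map, Polynomial.degree_eq_natDegree hP.ne_zero]
    exact_mod_cast hd.ne'
  obtain ⟨y, hy⟩ := IsAlgClosed.exists_root _ hQ
  rw [Polynomial.IsRoot.def, Polynomial.eval_map] at hy
  have h1 : ‖y‖ ≤ 1 := by
    by_contra h
    rw [not_le] at h
    rw [hP.as_sum, Polynomial.eval₂_add, Polynomial.eval₂_X_pow, Polynomial.eval₂_finsetSum,
      add_eq_zero_iff_eq_neg] at hy
    have h2 : ‖y ^ P.natDegree‖ ≤ ‖y‖ ^ (P.natDegree - 1) := by
      rw [hy, norm_neg]
      refine IsUltrametricDist.norm_sum_le_of_forall_le_of_nonneg (by positivity) fun i hi => ?_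
      rw [Polynomial.eval₂_mul, Polynomial.eval₂_C, Polynomial.eval₂_X_pow, norm_mul, norm_pow]
      refine (mul_le_of_le_one_left (by positivity) (P.coeff i).2).trans
        (pow_le_pow_right₀ h.le ?_)
      have := Finset.mem_range.1 hi
      omega
    rw [norm_pow] at h2
    exact absurd h2 (pow_lt_pow_right₀ h (by omega)).not_ge
  refine ⟨⟨y, h1⟩, (O C).subtype_injective ?_⟩
  rw [map_zero, ← hy, ← Polynomial.eval₂_at_apply]
  rfl

/-- Weierstrass preparation (`PowerSeries.IsWeierstrassDivisorAt` for the ideal generated by the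
largest of the first `e` coefficients): the distinguished polynomial has a root, of norm `< 1` -/
theorem exists_root [CompleteSpace C] {g : PowerSeries (O C)} {e : ℕ} (he : 1 ≤ e)
    (hlow : ∀ j < e, nm (PowerSeries.coeff j g) < 1) (htop : nm (PowerSeries.coeff e g) = 1) :
    ∃ z ∈ mO C, ev1 z g = 0 := by
  classical
  obtain ⟨I, hI, hc, hm⟩ := good_mO (C := C)
    ((Finset.range e).image fun j => PowerSeries.coeff j g) (by
      intro x hx
      obtain ⟨j, hj, rfl⟩ := Finset.mem_image.1 hx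
      exact hlow j (Finset.mem_range.1 hj))
  have ho : (g.map (Ideal.Quotient.mk I)).order = e := by
    rw [PowerSeries.order_eq_nat]
    refine ⟨?_, fun i hi => ?_⟩
    · rw [PowerSeries.coeff_map, Ne, Ideal.Quotient.eq_zero_iff_mem]
      exact fun h => (mem_mO.1 (hI h)).ne htop
    · rw [PowerSeries.coeff_map, Ideal.Quotient.eq_zero_iff_mem]
      exact hm _ (Finset.mem_image_of_mem _ (Finset.mem_range.2 hi))
  have H : g.IsWeierstrassDivisorAt I := by
    rw [PowerSeries.IsWeierstrassDivisorAt, ho]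
    exact isUnit_iff_nm.2 htop
  have W := H.isWeierstrassDivisionAt_div_mod (PowerSeries.X ^ e)
  generalize H.div (PowerSeries.X ^ e) = q at W
  generalize H.mod (PowerSeries.X ^ e) = r at W
  have hr : r.degree < e := by simpa [ho] using W.degree_lt
  have hco : ∀ i, r.coeff i ∈ mO C := by
    intro i
    rcases lt_or_ge i e with hi | hi
    · have := W.coeff_f_sub_r_mem (i := i) (by simpa [ho] using hi)
      rw [map_sub, PowerSeries.coeff_X_pow, if_neg hi.ne, zero_sub, Polynomial.coeff_coe,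
        neg_mem_iff] at this
      exact hI this
    · rw [Polynomial.coeff_eq_zero_of_degree_lt (hr.trans_le (by exact_mod_cast hi))]
      exact zero_mem _
  obtain ⟨z, hz⟩ := exists_root_monic (Polynomial.X ^ e - r) (Polynomial.monic_X_pow_sub hr) (by
    rw [Polynomial.natDegree_eq_of_degree_eq_some (n := e)]
    · omega
    · rw [Polynomial.degree_sub_eq_left_of_degree_lt] <;> rw [Polynomial.degree_X_pow]
      exact hr)
  have hz1 : z ∈ mO C := by
    rw [Polynomial.eval_sub, Polynomial.eval_pow, Polynomial.eval_X, sub_eq_zero] at hz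
    have : z ^ e ∈ mO C := by
      rw [hz, Polynomial.eval_eq_sum_range]
      exact Ideal.sum_mem _ fun i _ => Ideal.mul_mem_right _ _ (hco i)
    rw [mem_mO, nm_pow] at this
    exact lt_of_pow_lt_pow_left₀ e zero_le_one (this.trans_eq (one_pow e).symm)
  have e1 : g * q = ((Polynomial.X ^ e - r : Polynomial (O C)) : PowerSeries (O C)) := by
    rw [Polynomial.coe_sub, Polynomial.coe_pow, Polynomial.coe_X, W.eq_mul_add, add_sub_cancel_right]
  refine ⟨z, hz1, ?_⟩
  have e2 : ev1 z g * ev1 z q = 0 := by rw [← map_mul, e1, ev1_coe good_mO hz1, hz]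
  refine (mul_eq_zero.1 e2).resolve_right fun h => ?_
  have h0 : PowerSeries.constantCoeff q ∈ mO C := by
    have := ev_sub_const_mem good_mO (RingHom.id (O C)) (a := fun _ : Unit => z) (fun _ => hz1)
      (J := mO C) (fun _ => hz1) q
    rw [show ev (RingHom.id (O C)) (fun _ : Unit => z) q = 0 from h, zero_sub, neg_mem_iff] at this
    exact this
  have h1 : (1 : O C) ∈ mO C := by
    have := congrArg (PowerSeries.coeff e) W.eq_mul_add
    rw [PowerSeries.coeff_X_pow_self, map_add, Polynomial.coeff_coe, PowerSeries.coeff_mul] at this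
    rw [this]
    refine add_mem (Ideal.sum_mem _ fun x hx => ?_) (hco e)
    have hx := Finset.HasAntidiagonal.mem_antidiagonal.1 hx
    rcases Nat.eq_zero_or_pos x.2 with a | a
    · rw [a, PowerSeries.coeff_zero_eq_constantCoeff_apply]
      exact Ideal.mul_mem_left _ _ h0
    · exact Ideal.mul_mem_right _ _ (hlow _ (by omega))
  simp [mem_mO, nm] at h1

end roots

/-- points of Honda's law in the open unit ball -/
abbrev Wp (C : Type*) [NormedField C] [IsUltrametricDist C] (p n : ℕ) : Type _ :=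
  Pt (G0 p n (O C)) (mO C)

end Crest.Agent.R227.K
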