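import Crest.Agent.R227.K.Ev2
import Crest.Agent.R227.K.Honda

/-! Row 227, task `R227/K/OC1`: the unit ball of a complete nonarchimedean field.
Definitions: DO NOT CHANGE (owner helper98). -/

set_option autoImplicit false

namespace Crest.Agent.R227.K

open MvPowerSeries Crest.LubinTate

section defs

variable (C : Type*) [NormedField C] [IsUltrametricDist C]

/-- the closed unit ball -/
def O : Subring C where
  carrier := {x | ‖x‖ ≤ 1}
  mul_mem' {a b} ha hb := by
    change ‖a * b‖ ≤ 1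
    rw [norm_mul]
    exact mul_le_one₀ ha (norm_nonneg _) hb
  one_mem' := by simp
  add_mem' {a b} ha hb := (IsUltrametricDist.norm_add_le_max a b).trans (max_le ha hb)
  zero_mem' := by simp
  neg_mem' {a} ha := by simpa using ha

variable {C} in
/-- the norm of an element of the unit ball -/
abbrev nm (x : O C) : ℝ := ‖(x : C)‖

/-- the open unit ball -/
def mO : Ideal (O C) where
  carrier := {x | nm x < 1}
  add_mem' {a b} ha hb :=
    (IsUltrametricDist.norm_add_le_max (a : C) b).trans_lt (max_lt ha hb)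
  zero_mem' := by simp [nm]
  smul_mem' c {a} ha := by
    change ‖(c : C) * a‖ < 1
    rw [norm_mul]
    exact lt_of_le_of_lt (mul_le_of_le_one_left (norm_nonneg _) c.2) ha

/-- the closed ball of radius `η` (at least `0`) -/
def ball (η : ℝ) : Ideal (O C) where
  carrier := {x | nm x ≤ max η 0}
  add_mem' {a b} ha hb := (IsUltrametricDist.norm_add_le_max (a : C) b).trans (max_le ha hb)
  zero_mem' := by simp
  smul_mem' c {a} ha := by
    change ‖(c : C) * a‖ ≤ max η 0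
    rw [norm_mul]
    exact (mul_le_of_le_one_left (norm_nonneg _) c.2).trans ha

variable {C}

theorem mem_O {x : C} : x ∈ O C ↔ ‖x‖ ≤ 1 := Iff.rfl

theorem nm_le_one (x : O C) : nm x ≤ 1 := x.2

theorem nm_nonneg (x : O C) : 0 ≤ nm x := norm_nonneg _

theorem nm_mul (x y : O C) : nm (x * y) = nm x * nm y := norm_mul (x : C) y

theorem nm_pow (x : O C) (j : ℕ) : nm (x ^ j) = nm x ^ j := by
  simp [nm]

theorem nm_eq_zero {x : O C} : nm x = 0 ↔ x = 0 := by
  simp [nm]

theorem nm_add_le (x y : O C) : nm (x + y) ≤ max (nm x) (nm y) :=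
  IsUltrametricDist.norm_add_le_max (x : C) y

theorem nm_neg (x : O C) : nm (-x) = nm x := norm_neg (x : C)

theorem nm_sub_comm (x y : O C) : nm (x - y) = nm (y - x) := norm_sub_rev (x : C) y

theorem nm_sub_le (x y : O C) : nm (x - y) ≤ max (nm x) (nm y) := by
  rw [sub_eq_add_neg, ← nm_neg y]; exact nm_add_le _ _

theorem nm_sub_le_max (x y z : O C) : nm (x - z) ≤ max (nm (x - y)) (nm (y - z)) := by
  rw [← sub_add_sub_cancel x y z]; exact nm_add_le _ _

theorem mem_mO {x : O C} : x ∈ mO C ↔ nm x < 1 := Iff.rfl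

theorem mem_ball {η : ℝ} (hη : 0 ≤ η) {x : O C} : x ∈ ball C η ↔ nm x ≤ η := by
  change nm x ≤ max η 0 ↔ _
  rw [max_eq_left hη]

theorem dvd_of_nm_le {x y : O C} (h : nm x ≤ nm y) : y ∣ x := by
  by_cases hy : (y : C) = 0
  · have hx : x = 0 := by
      rw [← nm_eq_zero]
      refine le_antisymm ?_ (nm_nonneg x)
      simpa [nm, hy] using h
    rw [hx]
    exact dvd_zero y
  · refine ⟨⟨(x : C) / y, ?_⟩, Subtype.ext ?_⟩
    · rw [mem_O, norm_div]
      exact div_le_one_of_le₀ h (norm_nonneg _)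
    · change (x : C) = y * ((x : C) / y)
      field_simp

theorem mem_span_iff {x y : O C} : x ∈ Ideal.span {y} ↔ nm x ≤ nm y := by
  rw [Ideal.mem_span_singleton]
  refine ⟨?_, dvd_of_nm_le⟩
  rintro ⟨c, rfl⟩
  rw [nm_mul]
  exact mul_le_of_le_one_right (nm_nonneg _) (nm_le_one c)

theorem isUnit_iff_nm {x : O C} : IsUnit x ↔ nm x = 1 := by
  have h1 : nm (1 : O C) = 1 := by simp [nm]
  rw [isUnit_iff_dvd_one, ← Ideal.mem_span_singleton, mem_span_iff, h1]
  exact ⟨fun h => le_antisymm (nm_le_one x) h, fun h => h.ge⟩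

theorem nm_le_of_mem_ball_pow {η : ℝ} (hη : 0 ≤ η) {j : ℕ} {x : O C} (hx : x ∈ ball C η ^ j) :
    nm x ≤ η ^ j := by
  induction j generalizing x with
  | zero => simpa using nm_le_one x
  | succ j ih =>
    rw [pow_succ] at hx
    refine Submodule.mul_induction_on hx (fun a ha b hb => ?_) fun a b ha hb =>
      (nm_add_le a b).trans (max_le ha hb)
    rw [nm_mul, pow_succ]
    exact mul_le_mul (ih ha) ((mem_ball hη).1 hb) (nm_nonneg _) (pow_nonneg hη _)

instance (p : ℕ) [CharP C p] : CharP (O C) p := inferInstance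

end defs

section complete

variable {C : Type*} [NormedField C] [IsUltrametricDist C] [CompleteSpace C] {R σ : Type*}
  [CommRing R]

theorem isAdicComplete_span {ϖ : O C} (hϖ : nm ϖ < 1) :
    IsAdicComplete (Ideal.span {ϖ}) (O C) := by
  have key : ∀ (n : ℕ) (x y : O C),
      x ≡ y [SMOD ((Ideal.span {ϖ}) ^ n • ⊤ : Submodule (O C) (O C))] ↔ nm (x - y) ≤ nm ϖ ^ n := by
    intro n x y
    rw [SModEq.sub_mem, smul_eq_mul, Ideal.mul_top, Ideal.span_singleton_pow, mem_span_iff, nm_pow]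
  have hlim := tendsto_pow_atTop_nhds_zero_of_lt_one (nm_nonneg ϖ) hϖ
  refine { haus' := fun x hx => ?_, prec' := fun f hf => ?_ }
  · rw [← nm_eq_zero]
    refine le_antisymm (ge_of_tendsto' hlim fun n => ?_) (nm_nonneg x)
    simpa using (key n x 0).1 (hx n)
  · have h1 : ∀ m n, m ≤ n → ‖(f m : C) - f n‖ ≤ nm ϖ ^ m := fun m n h => (key m _ _).1 (hf h)
    have hc : CauchySeq fun n => (f n : C) :=
      cauchySeq_of_le_tendsto_0' _ (fun n m h => by rw [dist_eq_norm]; exact h1 n m h) hlim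
    obtain ⟨L, hL⟩ := cauchySeq_tendsto_of_complete hc
    have hL1 : ‖L‖ ≤ 1 := le_of_tendsto' hL.norm fun n => (f n).2
    refine ⟨⟨L, hL1⟩, fun n => (key n _ _).2 ?_⟩
    exact le_of_tendsto ((hL.const_sub (f n : C)).norm)
      ((Filter.eventually_ge_atTop n).mono fun m hm => h1 n m hm)

theorem good_mO : Good (mO C) := by
  intro s hs
  rcases s.eq_empty_or_nonempty with rfl | hne
  · exact ⟨⊥, bot_le, inferInstance, by simp⟩
  · obtain ⟨ϖ, hϖ, hmax⟩ := s.exists_max_image nm hne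
    exact ⟨Ideal.span {ϖ}, (Ideal.span_singleton_le_iff_mem _).2 (hs ϖ hϖ),
      isAdicComplete_span (hs ϖ hϖ), fun x hx => mem_span_iff.2 (hmax x hx)⟩

instance : Fact (Good (mO C)) := ⟨good_mO⟩

theorem nm_ev_le_pow [Finite σ] (φ : R →+* O C) {a : σ → O C} {ρ : ℝ} (hρ : ρ < 1)
    (hρ0 : 0 ≤ ρ) (ha : ∀ i, nm (a i) ≤ ρ) {f : MvPowerSeries σ R} {j : ℕ}
    (hf : ∀ d : σ →₀ ℕ, d.degree < j → coeff d f = 0) : nm (ev φ a f) ≤ ρ ^ j :=
  nm_le_of_mem_ball_pow hρ0 (ev_mem_pow good_mO φ (fun i => (ha i).trans_lt hρ)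
    (fun i => (mem_ball hρ0).2 (ha i)) hf)

omit [CompleteSpace C] in
theorem oc1_exists_rho [Finite σ] {a : σ → O C} (ha : ∀ i, a i ∈ mO C) :
    ∃ ρ : ℝ, 0 < ρ ∧ ρ < 1 ∧ ∀ i, nm (a i) ≤ ρ := by
  rcases isEmpty_or_nonempty σ with h | h
  · exact ⟨1 / 2, by norm_num, by norm_num, fun i => isEmptyElim i⟩
  · obtain ⟨i, hi⟩ := Finite.exists_max fun i => nm (a i)
    exact ⟨max (1 / 2) (nm (a i)), lt_max_of_lt_left (by norm_num), max_lt (by norm_num) (ha i),
      fun j => (hi j).trans (le_max_right _ _)⟩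

theorem oc1_tendsto [Finite σ] (φ : R →+* O C) {a : σ → O C} (ha : ∀ i, a i ∈ mO C)
    (f : MvPowerSeries σ R) :
    Filter.Tendsto (fun j => ((MvPolynomial.eval₂ φ a (f.truncTotal j) : O C) : C)) Filter.atTop
      (nhds ((ev φ a f : O C) : C)) := by
  obtain ⟨ρ, h0, h1, hρ⟩ := oc1_exists_rho ha
  rw [tendsto_iff_norm_sub_tendsto_zero]
  refine squeeze_zero (fun _ => norm_nonneg _) (fun j => ?_)
    (tendsto_pow_atTop_nhds_zero_of_lt_one h0.le h1)
  have h2 := nm_ev_le_pow φ h1 h0.le hρ (f := f - (f.truncTotal j : MvPolynomial σ R)) (j := j)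
    fun d hd => by rw [map_sub, MvPolynomial.coeff_coe, coeff_truncTotal _ hd, sub_self]
  rw [map_sub, ev_coe good_mO φ ha, nm_sub_comm] at h2
  exact h2

/-- truncate and let the degree go to infinity -/
theorem nm_ev_le_of_coeff [Finite σ] (φ : R →+* O C) {a : σ → O C} (ha : ∀ i, a i ∈ mO C)
    {f : MvPowerSeries σ R} {η : ℝ} (hf : ∀ d, nm (φ (coeff d f)) ≤ η) : nm (ev φ a f) ≤ η := by
  have hη : 0 ≤ η := (nm_nonneg _).trans (hf 0)
  refine le_of_tendsto' (oc1_tendsto φ ha f).norm fun j => (mem_ball hη).1 ?_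
  rw [MvPolynomial.eval₂_eq]
  refine Ideal.sum_mem _ fun d _ => Ideal.mul_mem_right _ _ ?_
  rw [coeff_truncTotal_eq_ite]
  split_ifs
  · exact (mem_ball hη).2 (hf d)
  · rw [map_zero]; exact zero_mem _

theorem nm_ev_sub_le [Finite σ] (φ : R →+* O C) {a a' : σ → O C} (ha : ∀ i, a i ∈ mO C)
    (ha' : ∀ i, a' i ∈ mO C) {η : ℝ} (hη : 0 ≤ η) (h : ∀ i, nm (a' i - a i) ≤ η)
    (f : MvPowerSeries σ R) : nm (ev φ a' f - ev φ a f) ≤ η :=
  (mem_ball hη).1 (ev_sub_mem good_mO φ ha ha' (fun i => (mem_ball hη).2 (h i)) f)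

theorem tendsto_ev_truncTotal [Finite σ] (φ : R →+* O C) {a : σ → O C} (ha : ∀ i, a i ∈ mO C)
    (f : MvPowerSeries σ R) :
    Filter.Tendsto (fun j => ((MvPolynomial.eval₂ φ a (f.truncTotal j) : O C) : C)) Filter.atTop
      (nhds ((ev φ a f : O C) : C)) :=
  oc1_tendsto φ ha f

theorem nm_ev1_sub_le {z z' : O C} (hz : z ∈ mO C) (hz' : z' ∈ mO C) (f : PowerSeries (O C)) :
    nm (ev1 z' f - ev1 z f) ≤ nm (z' - z) :=
  nm_ev_sub_le (RingHom.id _) (fun _ : Unit => hz) (fun _ => hz') (nm_nonneg _) (fun _ => le_rfl) f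

theorem nm_ev1_le {z : O C} (hz : z ∈ mO C) {f : PowerSeries (O C)}
    (hf : PowerSeries.constantCoeff f = 0) : nm (ev1 z f) ≤ nm z := by
  have h := nm_ev1_sub_le (zero_mem _) hz f
  rwa [ev1_zero, hf, sub_zero, sub_zero] at h

theorem nm_ev1_sub_le_of_coeff {z : O C} (hz : z ∈ mO C) {f g : PowerSeries (O C)} {η : ℝ}
    (h : ∀ j, nm (PowerSeries.coeff j f - PowerSeries.coeff j g) ≤ η) :
    nm (ev1 z f - ev1 z g) ≤ η := by
  rw [← map_sub]
  refine nm_ev_le_of_coeff (RingHom.id _) (fun _ : Unit => hz) fun d => ?_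
  have h1 := h (d ())
  rw [← map_sub, PowerSeries.coeff_def (s := d) rfl] at h1
  exact h1

theorem nm_fadd_le (F : FormalGroup (O C)) {a b : O C} (ha : a ∈ mO C) (hb : b ∈ mO C) :
    nm (fadd F a b) ≤ max (nm a) (nm b) := by
  have h := mem_span_iff.1 (fadd_sub_mem (F := F) good_mO ha hb)
  rw [nm_mul] at h
  have h1 : nm (fadd F a b - (a + b)) ≤ nm a :=
    h.trans (mul_le_of_le_one_right (nm_nonneg _) (nm_le_one _))
  rw [← sub_add_cancel (fadd F a b) (a + b)]
  exact (nm_add_le _ _).trans (max_le (h1.trans (le_max_left _ _)) (nm_add_le _ _))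

theorem nm_fadd_sub_le (F : FormalGroup (O C)) {a b : O C} (ha : a ∈ mO C) (hb : b ∈ mO C) :
    nm (fadd F a b - a) ≤ nm b := by
  have h := mem_span_iff.1 (fadd_sub_mem (F := F) good_mO ha hb)
  rw [nm_mul] at h
  have h1 : nm (fadd F a b - (a + b)) ≤ nm b :=
    h.trans (mul_le_of_le_one_left (nm_nonneg _) (nm_le_one _))
  rw [show fadd F a b - a = fadd F a b - (a + b) + b by ring]
  exact (nm_add_le _ _).trans (max_le h1 le_rfl)

theorem nm_fadd_sub_fadd_le (F G : FormalGroup (O C)) {a b a' b' : O C} (ha : a ∈ mO C)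
    (hb : b ∈ mO C) (ha' : a' ∈ mO C) (hb' : b' ∈ mO C) {η : ℝ}
    (hFG : ∀ d, nm (coeff d F.toPowerSeries - coeff d G.toPowerSeries) ≤ η)
    (haa : nm (a - a') ≤ η) (hbb : nm (b - b') ≤ η) : nm (fadd F a b - fadd G a' b') ≤ η := by
  have hη : 0 ≤ η := (nm_nonneg _).trans haa
  have h1 : ∀ i, (![a, b] : Fin 2 → O C) i ∈ mO C := by
    intro i; fin_cases i; exacts [ha, hb]
  have h2 : ∀ i, (![a', b'] : Fin 2 → O C) i ∈ mO C := by
    intro i; fin_cases i; exacts [ha', hb']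
  refine (nm_sub_le_max _ (fadd F a' b') _).trans (max_le ?_ ?_)
  · refine nm_ev_sub_le (RingHom.id _) h2 h1 hη (fun i => ?_) _
    fin_cases i
    exacts [haa, hbb]
  · unfold fadd
    rw [← map_sub]
    exact nm_ev_le_of_coeff (RingHom.id _) h2 fun d => by rw [map_sub]; exact hFG d

/-- a ring map from a power series ring with the variables in the open ball is small on the
maximal ideal -/
theorem exists_eps [Finite σ] (x : MvPowerSeries σ R →+* O C) (hx : ∀ i, x (X i) ∈ mO C) :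
    ∃ ε : ℝ, 0 < ε ∧ ε < 1 ∧ ∀ (j : ℕ) (f : MvPowerSeries σ R),
      (∀ d : σ →₀ ℕ, d.degree < j → coeff d f = 0) → nm (x f) ≤ ε ^ j := by
  obtain ⟨ρ, h0, h1, hρ⟩ := oc1_exists_rho hx
  refine ⟨ρ, h0, h1, fun j f hf => ?_⟩
  rw [eq_ev good_mO x (x.comp MvPowerSeries.C) (fun i => x (X i)) hx (fun _ => rfl) fun _ => rfl]
  exact nm_ev_le_pow _ h1 h0.le hρ hf

/-- uniqueness of simple roots -/
theorem root_unique {z z' : O C} (hz : z ∈ mO C) (hz' : z' ∈ mO C) {f : PowerSeries (O C)}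
    (h : ev1 z f = ev1 z' f)
    (hlt : nm (z' - z) < nm (ev1 z (PowerSeries.derivative (O C) f))) : z = z' := by
  obtain ⟨c, hc⟩ := ev1_taylor good_mO hz hz' f
  have h1 : (z' - z) * (ev1 z (PowerSeries.derivative (O C) f) + (z' - z) * c) = 0 := by
    linear_combination -hc - h
  rcases mul_eq_zero.1 h1 with h2 | h2
  · exact (sub_eq_zero.1 h2).symm
  · exfalso
    have h3 : ev1 z (PowerSeries.derivative (O C) f) = -((z' - z) * c) := by
      linear_combination h2
    rw [h3, nm_neg, nm_mul] at hlt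
    exact absurd hlt (not_lt.2 (mul_le_of_le_one_right (nm_nonneg _) (nm_le_one _)))

end complete

end Crest.Agent.R227.K
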