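import Crest.Agent.R227.K.Per2

/-! Row 227, task `R227/K/Per`: periods at a point of characteristic zero. -/

set_option autoImplicit false

namespace Crest.Agent.R227.K

open MvPowerSeries Crest.LubinTate
open scoped BigOperators

variable {p : ℕ} [Fact p.Prime] {n : ℕ} {A K : Type*} [CommRing A] [CommRing K] [Algebra A K]
  {H : FormalGroup (LTRing p n)} {x : LTRing p n →+* A} {t : ℕ} {ϑ : PowerSeries A}

/-- the key congruence modulo `p` -/
theorem per_modp [H.IsComm] (hn : 1 ≤ n)
    (hH : H.map (LTRing.residue p n) = G0 p n (GaloisField p n))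
    [CharP (A ⧸ Ideal.span {(p : A)}) p] (hϑ : Versch p n H x t ϑ) {N : ℕ}
    (β : GaloisField p n) (j : ℕ) {φ : LTRing p n →+* LTRing p n} {ψ : PowerSeries (LTRing p n)}
    (hact : Act p n H N (PowerSeries.C β * PowerSeries.X ^ p ^ j) φ ψ)
    (hφ : ∀ f, x (φ f) - x f ∈ Ideal.span {(p : A)}) :
    PowerSeries.map (Ideal.Quotient.mk (Ideal.span {(p : A)}))
      ((mulSeries (H.map (x.comp φ)) (p ^ (n * t))).subst
        ((PowerSeries.map x ψ).subst ϑ : PowerSeries A)) =
    PowerSeries.map (Ideal.Quotient.mk (Ideal.span {(p : A)}))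
      ((mulSeries (H.map (x.comp φ)) (p ^ (n * t))).subst (ϑ.subst (gser p n N
        (PowerSeries.C (x (C (WittVector.teichmuller p β))) * PowerSeries.X ^ p ^ j)) :
          PowerSeries A)) := by
  have hp0 := (Fact.out : p.Prime).ne_zero
  set π := Ideal.Quotient.mk (Ideal.span {(p : A)}) with hπ
  set Fr := iterateFrobenius (A ⧸ Ideal.span {(p : A)}) p (n * t) with hFr
  have hpB : ((p : ℕ) : A ⧸ Ideal.span {(p : A)}) = 0 := CharP.cast_eq_zero _ p
  have hkill : ∀ f, LTRing.residue p n f = 0 → (Fr.comp (π.comp x)) f = 0 := fun f hf => by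
    rw [RingHom.comp_apply, RingHom.comp_apply, hFr, iterateFrobenius_def, ← map_pow, pow_mul]
    exact Ideal.Quotient.eq_zero_iff_mem.2 (hϑ.nil f hf)
  set β₁ : A ⧸ Ideal.span {(p : A)} := π (x (C (WittVector.teichmuller p β))) with hβ₁
  have hβ : β₁ ^ p ^ n = β₁ := by
    rw [hβ₁, ← map_pow, per_teich hn]
  have hβt : Fr β₁ = β₁ := by
    rw [hFr, iterateFrobenius_def, pow_mul, per_pow_fix hβ]
  set g := gser p n N (PowerSeries.C β₁ * PowerSeries.X ^ p ^ j) with hg
  have hgh : IsFGHom (G0 p n _) (G0 p n _) g :=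
    gser_hom hn hpB N (isFGHom_G0_C_mul_X_pow p hn _ hpB hβ j)
  have hθ0 := per_const_map π hϑ.const
  have hψ0 := hact.hom.1
  have e1 : PowerSeries.map π ϑ ^ p ^ (n * t) = PowerSeries.X ^ (p ^ n) ^ (n * t) := by
    have h1 := congrArg (PowerSeries.map Fr) hϑ.fac
    rw [per_map_subst _ _ (per_const_X_pow (pow_ne_zero _ hp0)), map_pow, PowerSeries.map_X,
      mulSeries_map, ← RingHom.comp_apply (PowerSeries.map Fr), ← PowerSeries.map_comp,
      per_map_congr hkill (g := PowerSeries.X ^ (p ^ n) ^ (n * t)) (by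
        rw [← mulSeries_map, hH, mulSeries_pow_of_eq_X_pow p
          (mulSeries_G0 p hn _ (CharP.cast_eq_zero _ p)), map_pow, PowerSeries.map_X]),
      map_pow, PowerSeries.map_X] at h1
    rw [per_pow p, h1]
  have e2 : PowerSeries.map Fr (PowerSeries.map π (PowerSeries.map x ψ)) = g := by
    rw [← RingHom.comp_apply (PowerSeries.map π), ← PowerSeries.map_comp,
      ← RingHom.comp_apply (PowerSeries.map Fr), ← PowerSeries.map_comp,
      per_map_congr hkill (g := gser p n N (PowerSeries.C (C (WittVector.teichmuller p β)) *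
        PowerSeries.X ^ p ^ j)) (by
          rw [hact.lift, gser_map _ (per_const_b p j _), map_mul, map_pow, PowerSeries.map_X, PowerSeries.map_C,
            residue_C]
          rfl),
      gser_map _ (per_const_b p j _), map_mul, map_pow, PowerSeries.map_X, PowerSeries.map_C]
    exact congrArg (fun r => gser p n N (PowerSeries.C r * PowerSeries.X ^ p ^ j)) hβt
  have e3 : PowerSeries.map π (gser p n N (PowerSeries.C (x (C (WittVector.teichmuller p β))) *
      PowerSeries.X ^ p ^ j)) = g := by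
    rw [gser_map _ (per_const_b p j _), map_mul, map_pow, PowerSeries.map_X, PowerSeries.map_C]
  have e4 : g.subst (PowerSeries.X ^ (p ^ n) ^ (n * t) : PowerSeries _) = g ^ (p ^ n) ^ (n * t) := by
    have h1 := subst_mulSeries hgh (p ^ (n * t))
    rwa [mulSeries_pow_of_eq_X_pow p (mulSeries_G0 p hn _ hpB), per_X_pow_subst _ hgh.1] at h1
  have e5 : PowerSeries.map π (mulSeries (H.map (x.comp φ)) (p ^ (n * t))) =
      (PowerSeries.map π ϑ).subst (PowerSeries.X ^ p ^ (n * t) : PowerSeries _) := by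
    have : π.comp (x.comp φ) = π.comp x := RingHom.ext fun f => Ideal.Quotient.eq.2 (hφ f)
    rw [← mulSeries_map, map_map, this, hϑ.fac]
  have hu := per_const (per_const_map x hψ0) hϑ.const
  have hg0 := gser_constantCoeff (p := p) (n := n) (N := N)
    (per_const_b p j (x (C (WittVector.teichmuller p β))))
  have hv := per_const hϑ.const hg0
  have hX := per_const_X_pow (R := A ⧸ Ideal.span {(p : A)}) (pow_ne_zero (n * t) hp0)
  rw [per_map_subst _ _ hu, per_map_subst _ _ hv, e5, per_assoc _ hX (per_const_map π hu),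
    per_assoc _ hX (per_const_map π hv), per_X_pow_subst _ (per_const_map π hu),
    per_X_pow_subst _ (per_const_map π hv), per_map_subst _ _ hϑ.const, per_map_subst _ _ hg0, e3,
    per_subst_pow p _ _ hθ0, e2, e1, e4, ← PowerSeries.subst_pow (per_hs hgh.1), e1,
    per_X_pow_subst _ hgh.1]

section loc

variable [IsLocalization.Away (p : A) K] [IsAdicComplete (Ideal.span {(p : A)}) A]

/-- equivariance.  Modulo `p`, `ψ ∘ ϑ` and `ϑ ∘ g` are congruent modulo `x (𝔪)` (both reduce to
`g ∘ X ^ q ^ (t (n - 1))`), so their `q ^ t`-th powers agree and, applying `ϑ`, so do their images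
under `[p ^ (n t)]`.  Take logarithms (`LogLike.subst_congr`, `IsLog.subst_hom`); with the lift
`ĝ = G0 (X, ([β] X ^ p ^ j) ^ q ^ N)` we have `Lc c (ĝ) ≡ Lc c + p ^ N [β] ^ p ^ c Lc (c + j)` up to
integral series (`G0_subst_pow_congr`, `hlog_eq`, `hlog_subst_C_mul`, `Lc_add_n`); `qlog_unique`. -/
theorem per_equiv [H.IsComm] (hn : 1 ≤ n)
    (hH : H.map (LTRing.residue p n) = G0 p n (GaloisField p n))
    (hinj : Function.Injective (algebraMap A K)) (hϑ : Versch p n H x t ϑ) {N : ℕ}
    (β : GaloisField p n) (j : Fin n) {φ : LTRing p n →+* LTRing p n}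
    {ψ : PowerSeries (LTRing p n)}
    (hact : Act p n H N (PowerSeries.C β * PowerSeries.X ^ p ^ (j : ℕ)) φ ψ)
    (hφ : ∀ f, x (φ f) - x f ∈ Ideal.span {(p : A)}) {a a' : Fin n → K}
    (ha : Per p n (H.map x) ϑ a) (ha' : Per p n (H.map (x.comp φ)) ϑ a') (k : Fin n) :
    algebraMap A K (x (PowerSeries.coeff 1 ψ)) * a k = a' k + (p : K) ^ N * ∑ c : Fin n,
      a' c * algebraMap A K (x (C (WittVector.teichmuller p β))) ^ p ^ (c : ℕ) *
        (if (c : ℕ) + j = k then 1 else if (c : ℕ) + j = k + n then (p : K) else 0) := by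
  have hp0 := (Fact.out : p.Prime).ne_zero
  have hp : IsUnit (p : K) := per_isUnit p A p hp0
  by_cases hpu : IsUnit (p : A)
  · have : Subsingleton A := IsHausdorff.subsingleton (R := A) (M := A)
      (Ideal.span_singleton_eq_top.2 hpu ▸ (inferInstance : IsHausdorff (Ideal.span {(p : A)}) A))
    have := (algebraMap A K).codomain_trivial
    exact Subsingleton.elim _ _
  have := CharP.quotient A p hpu
  have : IsAddTorsionFree K := ⟨fun m hm y z e => by
    simp only [nsmul_eq_mul] at e
    exact (per_isUnit p A m hm).mul_left_cancel e⟩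
  obtain ⟨ℓ, hℓ, h1⟩ := ha
  obtain ⟨ℓ', hℓ', h2⟩ := ha'
  set β₁ : A := x (C (WittVector.teichmuller p β)) with hβ₁
  have hβ : β₁ ^ p ^ n = β₁ := per_teich hn x β
  set g := gser p n N (PowerSeries.C β₁ * PowerSeries.X ^ p ^ (j : ℕ)) with hg
  have hg0 : PowerSeries.constantCoeff g = 0 := gser_constantCoeff (per_const_b p j _)
  have hψ0 := per_const_map x hact.hom.1
  have hu := per_const hψ0 hϑ.const
  have hv := per_const hϑ.const hg0
  have hm := constantCoeff_mulSeries (H.map (x.comp φ)) (p ^ (n * t))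
  have h3 : CoeffIn (Ideal.span {(p : A)}) (ℓ'.subst (PowerSeries.map (algebraMap A K) _) -
      ℓ'.subst (PowerSeries.map (algebraMap A K) _)) :=
    hℓ'.logLike.subst_congr p (isUnit_natCast_of_isAdicComplete p) (per_const hm hu)
      (per_const hm hv) fun d => Ideal.Quotient.eq.1
        (congrArg (coeff d) (per_modp hn hH hϑ β j hact hφ))
  have h4 : ∀ {u : PowerSeries A}, PowerSeries.constantCoeff u = 0 →
      ℓ'.subst (PowerSeries.map (algebraMap A K)
        ((mulSeries (H.map (x.comp φ)) (p ^ (n * t))).subst u)) = PowerSeries.C ((p : K) ^ (n * t)) *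
          (ℓ'.subst (PowerSeries.map (algebraMap A K) u) : PowerSeries K) := fun hu => by
    rw [per_map_subst _ _ hu, ← per_assoc _ (per_const_map _ hm) (per_const_map _ hu),
      ← mulSeries_map, hℓ'.subst_mulSeries, ← map_natCast PowerSeries.C,
      per_C_mul_subst _ _ (per_const_map _ hu), Nat.cast_pow]
  rw [h4 hu, h4 hv, ← mul_sub] at h3
  have h5 := (PerBd.of_int (p := p) h3).of_pow
  have hhom : IsFGHom (H.map x) (H.map (x.comp φ)) (PowerSeries.map x ψ) :=
    map_map (F := H) φ x ▸ isFGHom_map hact.hom x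
  have hθK := per_const_map (algebraMap A K) hϑ.const
  have hgK := per_const_map (algebraMap A K) hg0
  rw [per_map_subst _ _ hϑ.const, ← per_assoc _ (per_const_map _ hψ0) hθK,
    hℓ.subst_hom hℓ' (isFGHom_map hhom _), per_C_mul_subst _ _ hθK, per_map_subst _ _ hg0,
    ← per_assoc _ hθK hgK, PowerSeries.coeff_map, PowerSeries.coeff_map] at h5
  have h6 : CoeffIn (⊤ : Ideal A) (PowerSeries.subst (PowerSeries.map (algebraMap A K) g) _) :=
    h2.psubst hg0
  rw [PowerSeries.subst_sub (per_hs hgK), per_sum_subst _ _ hgK] at h6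
  simp only [per_C_mul_subst _ _ hgK] at h6
  set w : Fin n → Fin n → K := fun c k =>
    if (c : ℕ) + j = k then 1 else if (c : ℕ) + j = k + n then (p : K) else 0 with hw
  have h7 : ∀ c : Fin n, PerBd p A (Lc K p n (c + j) - ∑ k, PowerSeries.C (w c k) * Lc K p n k) := by
    intro c
    by_cases hc : (c : ℕ) + j < n
    · rw [Finset.sum_eq_single ⟨c + j, hc⟩ (fun k _ hk => ?_) (by simp)]
      · simpa [hw] using PerBd.of_int (I := ⊤) CoeffIn.zero
      · have h8 : (c : ℕ) + j ≠ k := fun e => hk (Fin.ext e.symm)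
        have h9 : (c : ℕ) + j ≠ k + n := by omega
        simp [hw, h8, h9]
    · rw [Finset.sum_eq_single ⟨c + j - n, by omega⟩ (fun k _ hk => ?_) (by simp)]
      · have h8 : (c : ℕ) + j ≠ c + j - n := by omega
        have h9 : (c : ℕ) + j = c + j - n + n := by omega
        have := per_Lc_add (A := A) hn hp (c + j - n) 1
        rw [mul_one, ← h9, pow_one] at this
        simpa only [hw, if_neg h8, if_pos h9] using this
      · have h8 : (c : ℕ) + j ≠ k := by omega
        have h9 : (c : ℕ) + j ≠ k + n := fun e => hk (Fin.ext (by simp only []; omega))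
        simp [hw, h8, h9]
  set c₁ := algebraMap A K (x (PowerSeries.coeff 1 ψ)) with hc₁
  have h8 := ((h5.sub ((PerBd.of_int h1).C_mul c₁)).add (PerBd.of_int h6)).add
    (PerBd.sum Finset.univ fun (c : Fin n) _ => ((per_Lc_gser hn hp hβ N j c).add
      ((h7 c).C_mul ((p : K) ^ N * algebraMap A K β₁ ^ p ^ (c : ℕ)))).C_mul (a' c))
  obtain ⟨e, he⟩ := h8
  have h9 := qlog_unique p hinj hn (fun k => c₁ * a k - (a' k + (p : K) ^ N * ∑ c : Fin n,
    a' c * algebraMap A K β₁ ^ p ^ (c : ℕ) * w c k)) e (by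
      convert he using 2
      simp only [map_sub, map_add, map_mul, map_sum, sub_mul, add_mul, mul_sub, mul_add,
        Finset.sum_sub_distrib, Finset.sum_add_distrib, Finset.mul_sum, Finset.sum_mul]
      rw [Finset.sum_comm]
      simp only [mul_assoc, mul_left_comm (PowerSeries.C (a' _))]
      ring)
  exact sub_eq_zero.1 (congrFun h9 k)

end loc

end Crest.Agent.R227.K
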