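import Crest.Agent.R227.K.PerAux

/-! Row 227, task `R227/K/Per1`: periods at a point of characteristic zero.
Definitions: DO NOT CHANGE (owner helper98). -/

set_option autoImplicit false

namespace Crest.Agent.R227.K

open MvPowerSeries Crest.LubinTate
open scoped BigOperators

variable (p : ℕ) [Fact p.Prime] (n : ℕ) {A K : Type*} [CommRing A] [CommRing K] [Algebra A K]

/-- `a` is the period vector of `G` with respect to `ϑ` -/
def Per (G : FormalGroup A) (ϑ : PowerSeries A) (a : Fin n → K) : Prop :=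
  ∃ ℓ : PowerSeries K, IsLog (G.map (algebraMap A K)) ℓ ∧ CoeffIn (⊤ : Ideal A)
    ((ℓ.subst (ϑ.map (algebraMap A K)) : PowerSeries K) - ∑ c, PowerSeries.C (a c) * Lc K p n c)

/-- the data at a point `x`: modulo `p`, the `q ^ t`-th power map kills `x (𝔪)`, and `ϑ` is the
Verschiebung `G0 = H^(q ^ t) → H` with `ϑ (X ^ q ^ t) = [p ^ (n t)]` -/
structure Versch (H : FormalGroup (LTRing p n)) (x : LTRing p n →+* A) (t : ℕ)
    (ϑ : PowerSeries A) : Prop where
  nil : ∀ f ∈ mE p n, x f ^ (p ^ n) ^ t ∈ Ideal.span {(p : A)}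
  const : PowerSeries.constantCoeff ϑ = 0
  hom : IsFGHom (G0 p n (A ⧸ Ideal.span {(p : A)}))
    (H.map ((Ideal.Quotient.mk (Ideal.span {(p : A)})).comp x))
    (ϑ.map (Ideal.Quotient.mk (Ideal.span {(p : A)})))
  fac : mulSeries (H.map ((Ideal.Quotient.mk (Ideal.span {(p : A)})).comp x)) (p ^ (n * t)) =
    (ϑ.map (Ideal.Quotient.mk (Ideal.span {(p : A)}))).subst
      (PowerSeries.X ^ p ^ (n * t) : PowerSeries (A ⧸ Ideal.span {(p : A)}))

variable {p n} {H : FormalGroup (LTRing p n)} {x : LTRing p n →+* A} {t : ℕ} {ϑ : PowerSeries A}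

/-- `exists_V_mod` with `h = 1`, `exists_factor_mulSeries_pow`; the `q ^ t`-Frobenius twist of `H` over
`A ⧸ p` is `G0` because the coefficients of `H` are integers modulo `𝔪` -/
theorem exists_versch [H.IsComm] (hn : 1 ≤ n)
    (hH : H.map (LTRing.residue p n) = G0 p n (GaloisField p n)) (x : LTRing p n →+* A)
    (hp : ¬ IsUnit (p : A)) {c : ℕ} (hx : (mE p n).map x ^ c ≤ Ideal.span {(p : A)}) :
    ∃ t ϑ, Versch p n H x t ϑ := by
  have := CharP.quotient A p hp
  set π := Ideal.Quotient.mk (Ideal.span {(p : A)}) with hπ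
  have hq : 1 < p ^ n := Nat.one_lt_pow (by omega) (Fact.out : p.Prime).one_lt
  have hnil : ∀ f ∈ mE p n, x f ^ (p ^ n) ^ c ∈ Ideal.span {(p : A)} := fun f hf =>
    Ideal.pow_mem_of_pow_mem _ (hx (Ideal.pow_mem_pow (Ideal.mem_map_of_mem x hf) c))
      (Nat.lt_pow_self hq).le
  obtain ⟨V, hV⟩ := exists_V_mod p (F := H.map x) 1 (J := Ideal.span {(p : A)}) (by
    simp only [hI, pow_zero, coeff_one_mulSeries, bot_le, sup_of_le_right, le_refl])
  rw [map_map] at hV
  obtain ⟨W, hW, hW'⟩ := exists_factor_mulSeries_pow p hV (n * c)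
  rw [one_mul] at hW hW'
  have e : (H.map (π.comp x)).map (iterateFrobenius _ p (n * c)) = G0 p n _ := by
    rw [map_map, ← G0_map p n ((iterateFrobenius _ p (n * c)).comp (π.comp x))]
    ext d
    have h1 := congrArg (fun F : FormalGroup _ => coeff d F.toPowerSeries)
      (hH.trans (G0_map p n (LTRing.residue p n)).symm)
    change LTRing.residue p n (coeff d H.toPowerSeries) =
      LTRing.residue p n (coeff d (G0 p n (LTRing p n)).toPowerSeries) at h1
    change ((iterateFrobenius _ p (n * c)).comp (π.comp x)) (coeff d H.toPowerSeries) =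
      ((iterateFrobenius _ p (n * c)).comp (π.comp x)) (coeff d (G0 p n (LTRing p n)).toPowerSeries)
    rw [← sub_eq_zero, ← map_sub] at h1 ⊢
    rw [RingHom.comp_apply, RingHom.comp_apply, iterateFrobenius_def, ← map_pow, pow_mul]
    exact Ideal.Quotient.eq_zero_iff_mem.2 (hnil _ h1)
  rw [e] at hW'
  choose s hs using Ideal.Quotient.mk_surjective (I := Ideal.span {(p : A)})
  have hϑ : PowerSeries.map π (PowerSeries.mk fun i =>
      if i = 0 then 0 else s (PowerSeries.coeff i W)) = W := by
    ext i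
    rw [PowerSeries.coeff_map, PowerSeries.coeff_mk]
    split_ifs with h
    · rw [h, map_zero, PowerSeries.coeff_zero_eq_constantCoeff_apply, hW'.1]
    · exact hs _
  refine ⟨c, _, hnil, ?_, hϑ.symm ▸ hW', hϑ.symm ▸ hW⟩
  rw [← PowerSeries.coeff_zero_eq_constantCoeff_apply, PowerSeries.coeff_mk, if_pos rfl]

/-- substitution of a series congruent to `X ^ m` modulo a nilpotent ideal is injective -/
theorem per_subst_inj {B : Type*} [CommRing B] {I : Ideal B} {c : ℕ} (hI : I ^ c = ⊥) {m : ℕ}
    (hm : m ≠ 0) {s f : PowerSeries B} (hs : PowerSeries.constantCoeff s = 0)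
    (h : PowerSeries.map (Ideal.Quotient.mk I) s = PowerSeries.X ^ m) (hf : f.subst s = 0) :
    f = 0 := by
  have hX := per_hs (per_const_X_pow (R := B) hm)
  have key : ∀ i k, PowerSeries.coeff k f ∈ I ^ i := by
    intro i
    induction i with
    | zero => simp
    | succ i ih =>
      intro k
      have h1 : PowerSeries.coeff (k * m) (f.subst (PowerSeries.X ^ m : PowerSeries B)) -
          PowerSeries.coeff (k * m) (f.subst s) ∈ I ^ (i + 1) := by
        rw [PowerSeries.coeff_subst' hX, PowerSeries.coeff_subst' (per_hs hs),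
          ← finsum_sub_distrib (PowerSeries.coeff_subst_finite' hX f _)
            (PowerSeries.coeff_subst_finite' (per_hs hs) f _)]
        refine finsum_induction (· ∈ I ^ (i + 1)) (zero_mem _) (fun _ _ => add_mem) fun d => ?_
        rw [← smul_sub, smul_eq_mul, pow_succ]
        refine Ideal.mul_mem_mul (ih d) (Ideal.Quotient.eq.1 ?_)
        rw [← PowerSeries.coeff_map, ← PowerSeries.coeff_map]
        simp only [map_pow, h, PowerSeries.map_X]
      rwa [hf, map_zero, sub_zero, PowerSeries.coeff_subst_X_pow hm, if_pos (dvd_mul_left _ _),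
        Nat.mul_div_cancel _ (Nat.pos_of_ne_zero hm)] at h1
  ext k
  simpa [hI] using key c k

section loc

variable [IsLocalization.Away (p : A) K] [IsAdicComplete (Ideal.span {(p : A)}) A]

include p A in
theorem isUnit_natCast_loc (j : ℕ) (hj : j ≠ 0) : IsUnit (j : K) := per_isUnit p A j hj

/-- if the periods vanish, `log (ϑ)` is integral, so `p ^ (n t) log` is integral; let `ℓ = p ^ e log`
be integral with `e` minimal, then `ℓ ([p] X) = p ℓ ≡ 0` modulo `p` while substitution of
`[p] ≡ X ^ q` (modulo the nilpotent ideal `x (𝔪)`) is injective over `A ⧸ p` -/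
theorem per_ne_zero [H.IsComm] (hn : 1 ≤ n)
    (hH : H.map (LTRing.residue p n) = G0 p n (GaloisField p n))
    (hinj : Function.Injective (algebraMap A K)) (hp : ¬ IsUnit (p : A)) {c : ℕ}
    (hx : (mE p n).map x ^ c ≤ Ideal.span {(p : A)}) (hϑ : Versch p n H x t ϑ) {a : Fin n → K}
    (ha : Per p n (H.map x) ϑ a) : a ≠ 0 := by
  rintro rfl
  have hp0 := (Fact.out : p.Prime).ne_zero
  have hpK : IsUnit (p : K) := per_isUnit p A p hp0
  obtain ⟨ℓ, hℓ, h1⟩ := ha
  simp only [Pi.zero_apply, map_zero, zero_mul, Finset.sum_const_zero, sub_zero] at h1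
  set π := Ideal.Quotient.mk (Ideal.span {(p : A)}) with hπ
  have hXA := per_const_X_pow (R := A) (pow_ne_zero (n * t) hp0)
  have hm := fun m => constantCoeff_mulSeries (H.map x) m
  have hmul : ∀ m : ℕ, ℓ.subst (PowerSeries.map (algebraMap A K) (mulSeries (H.map x) m)) =
      PowerSeries.C (m : K) * ℓ := fun m => by
    rw [← mulSeries_map, hℓ.subst_mulSeries, map_natCast]
  have h2 : CoeffIn (Ideal.span {(p : A)}) (ℓ.subst (PowerSeries.map (algebraMap A K) _) -
      ℓ.subst (PowerSeries.map (algebraMap A K) _)) :=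
    hℓ.logLike.subst_congr p (isUnit_natCast_of_isAdicComplete p) (hm (p ^ (n * t)))
      (per_const hϑ.const hXA) fun d => Ideal.Quotient.eq.1 (congrArg (coeff d) (show
        PowerSeries.map π _ = PowerSeries.map π _ by
          rw [← mulSeries_map, map_map, hϑ.fac, per_map_subst _ _ hXA, map_pow,
            PowerSeries.map_X]))
  have h3 : CoeffIn (⊤ : Ideal A) (PowerSeries.subst (PowerSeries.map (algebraMap A K) _) _) :=
    h1.psubst hXA
  rw [per_assoc _ (per_const_map _ hϑ.const) (per_const_map _ hXA), ← per_map_subst _ _ hXA] at h3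
  have h4 := (h2.mono le_top).add h3
  rw [sub_add_cancel, hmul, Nat.cast_pow] at h4
  have hs : PowerSeries.map (Ideal.Quotient.mk ((mE p n).map (π.comp x)))
      (PowerSeries.map π (mulSeries (H.map x) p)) = PowerSeries.X ^ p ^ n := by
    rw [mulSeries_map, ← RingHom.comp_apply (PowerSeries.map π), ← PowerSeries.map_comp,
      ← RingHom.comp_apply (PowerSeries.map _), ← PowerSeries.map_comp,
      per_map_congr (r := LTRing.residue p n)
        (h := (Ideal.Quotient.mk ((mE p n).map (π.comp x))).comp (π.comp x))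
        (fun f hf => Ideal.Quotient.eq_zero_iff_mem.2 (Ideal.mem_map_of_mem (π.comp x) hf))
        (g := PowerSeries.X ^ p ^ n) (by
          rw [← mulSeries_map, hH, mulSeries_G0 p hn _ (CharP.cast_eq_zero _ p), map_pow,
            PowerSeries.map_X]), map_pow, PowerSeries.map_X]
  have hnil : (mE p n).map (π.comp x) ^ c = ⊥ := by
    rw [← Ideal.map_map, ← Ideal.map_pow, Ideal.map_eq_bot_iff_le_ker, Ideal.mk_ker]
    exact hx
  have key : ∀ e : ℕ, CoeffIn (⊤ : Ideal A) (PowerSeries.C ((p : K) ^ e) * ℓ) →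
      CoeffIn (Ideal.span {(p : A)}) (PowerSeries.C ((p : K) ^ e) * ℓ) := fun e he => by
    obtain ⟨g, -, hg⟩ := coeffIn_iff.1 he
    change PowerSeries.map (algebraMap A K) g = _ at hg
    have h5 : PowerSeries.subst (mulSeries (H.map x) p) g = PowerSeries.C (p : A) * g := by
      refine PowerSeries.map_injective _ hinj ?_
      rw [per_map_subst _ _ (hm p), map_mul, hg, per_C_mul_subst _ _ (per_const_map _ (hm p)), hmul,
        PowerSeries.map_C, map_natCast (algebraMap A K), mul_left_comm]
    have h6 : PowerSeries.map π g = 0 := per_subst_inj hnil (pow_ne_zero n hp0)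
      (per_const_map π (hm p)) hs (by
        rw [← per_map_subst _ _ (hm p), h5, map_mul, PowerSeries.map_C,
          Ideal.Quotient.eq_zero_iff_mem.2 (Ideal.mem_span_singleton_self _), map_zero, zero_mul])
    exact coeffIn_iff.2 ⟨g, fun d => Ideal.Quotient.eq_zero_iff_mem.1 (congrArg (coeff d) h6), hg⟩
  generalize n * t = e at h4
  induction e with
  | zero =>
    obtain ⟨b, hb, hb'⟩ := key 0 h4 (Finsupp.single () 1)
    rw [pow_zero, map_one, one_mul] at hb'
    have : b = 1 := hinj (hb'.trans (hℓ.2.1.trans (map_one _).symm))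
    exact hp (Ideal.span_singleton_eq_top.1 ((Ideal.eq_top_iff_one _).2 (this ▸ hb)))
  | succ e ih =>
    refine ih fun d => ?_
    obtain ⟨b, hb, hb'⟩ := key _ h4 d
    obtain ⟨b', rfl⟩ := Ideal.mem_span_singleton'.1 hb
    refine ⟨b', trivial, hpK.mul_left_cancel ?_⟩
    rw [map_mul, map_natCast, mul_comm, pow_succ', map_mul PowerSeries.C, mul_assoc] at hb'
    exact hb'.trans (coeff_C_mul d _ _)

end loc

end Crest.Agent.R227.K
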