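import Crest.Agent.R227.K.Per1

/-! Row 227, task `R227/K/Per2`: periods at a point of characteristic zero. -/

set_option autoImplicit false

namespace Crest.Agent.R227.K

open MvPowerSeries Crest.LubinTate
open scoped BigOperators

variable {p : ℕ} [Fact p.Prime] {n : ℕ} {A K : Type*} [CommRing A] [CommRing K] [Algebra A K]
  {H : FormalGroup (LTRing p n)} {x : LTRing p n →+* A} {t : ℕ} {ϑ : PowerSeries A}

theorem per_spec {A' K' : Type*} [CommRing A'] [CommRing K'] [Algebra A' K'] (s : A' →+* A)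
    (s' : K' →+* K) (hs : ∀ y, s' (algebraMap A' K' y) = algebraMap A K (s y)) (hp : IsUnit (p : K'))
    {G : FormalGroup A'} {θ : PowerSeries A'} (h0 : PowerSeries.constantCoeff θ = 0)
    {a : Fin n → K'} (h : Per p n G θ a) :
    Per p n (G.map s) (PowerSeries.map s θ) fun k => s' (a k) := by
  obtain ⟨ℓ, hℓ, h1⟩ := h
  have e : s'.comp (algebraMap A' K') = (algebraMap A K).comp s := RingHom.ext hs
  refine ⟨PowerSeries.map s' ℓ, ?_, fun d => ?_⟩
  · have := hℓ.map s'
    rwa [map_map, e, ← map_map] at this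
  · obtain ⟨y, -, hy⟩ := h1 d
    refine ⟨s y, trivial, ?_⟩
    have h2 : PowerSeries.map s' ((ℓ.subst (PowerSeries.map (algebraMap A' K') θ) : PowerSeries K') -
        ∑ c, PowerSeries.C (a c) * Lc K' p n c) =
        ((PowerSeries.map s' ℓ).subst (PowerSeries.map (algebraMap A K) (PowerSeries.map s θ)) :
          PowerSeries K) - ∑ c, PowerSeries.C (s' (a c)) * Lc K p n c := by
      rw [map_sub, map_sum, per_map_subst _ _ (per_const_map _ h0),
        ← RingHom.comp_apply (PowerSeries.map s'), ← PowerSeries.map_comp, e, PowerSeries.map_comp]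
      simp only [map_mul, PowerSeries.map_C, Lc_map p hp, RingHom.comp_apply]
    rw [← hs, hy, ← h2]
    rfl

section loc

variable [IsLocalization.Away (p : A) K] [IsAdicComplete (Ideal.span {(p : A)}) A]

/-- periods in the family `u ↦ x (u) + p δ` over `A' = A⟦δ⟧` (`p`-adically complete and torsion free,
`K' = Localization.Away p`): `exists_isLog`, `qlog_hom` over `A'`; clear denominators, specialise
`δ` (`IsLog.map`, `Lc_map`) and expand to first order -/
theorem per_family [H.IsComm] (hn : 1 ≤ n) (hinj : Function.Injective (algebraMap A K)) {c : ℕ}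
    (hx : (mE p n).map x ^ c ≤ Ideal.span {(p : A)}) (hϑ : Versch p n H x t ϑ) :
    ∃ (a : Fin n → K) (J : Fin n → Fin (n - 1) → K) (e : ℕ), Per p n (H.map x) ϑ a ∧
      ∀ (x' : LTRing p n →+* A) (r : ℕ), (∀ w, x' (C w) = x (C w)) → 2 ≤ r →
        (∀ l, x' (X l) - x (X l) ∈ Ideal.span {(p : A) ^ r}) →
        ∃ a' : Fin n → K, Per p n (H.map x') ϑ a' ∧ ∀ k, ∃ y : A,
          (p : K) ^ e * (a' k - a k - ∑ l, J k l * algebraMap A K (x' (X l) - x (X l))) =
            (p : K) ^ (2 * r) * algebraMap A K y := by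
  classical
  have hpK : IsUnit (p : K) := per_isUnit p A p (Fact.out : p.Prime).ne_zero
  let A' := MvPowerSeries (Fin (n - 1)) A
  have := isAdicComplete_liftI (σ := Fin (n - 1)) (Ideal.span {(p : A)})
    (Submodule.fg_span_singleton _)
  have : IsAdicComplete (Ideal.span {(p : A')}) A' :=
    isAdicComplete_of_le_of_fg (I := liftI (Fin (n - 1)) (Ideal.span {(p : A)}))
      ((Ideal.span_singleton_le_iff_mem _).2 (mem_liftI.2 (by
        rw [map_natCast]; exact Ideal.mem_span_singleton_self _))) (Submodule.fg_span_singleton _)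
  let K' := Localization.Away (p : A')
  have hinj' : Function.Injective (algebraMap A' K') := by
    refine IsLocalization.injective K' (M := Submonoid.powers (p : A'))
      (Submonoid.powers_le.2 (mem_nonZeroDivisors_iff_left.2 fun f hf => ?_))
    ext d
    refine hinj (hpK.mul_left_cancel ?_)
    have h1 := congrArg (fun g => algebraMap A K (coeff d g)) hf
    simp only [← map_natCast (C : A →+* A') p, A', coeff_C_mul, map_mul, map_natCast (algebraMap A K),
      map_zero] at h1
    simpa using h1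
  have hxX : ∀ l, x (X l) ∈ (Ideal.span {(p : A)}).radical := fun l =>
    ⟨c, hx (Ideal.pow_mem_pow (Ideal.mem_map_of_mem x ((mem_mE p n).2 (residue_X p n l))) c)⟩
  have hCp : ∀ y ∈ Ideal.span {(p : A)}, (C y : A') ∈ Ideal.span {(p : A')} := fun y hy => by
    obtain ⟨z, rfl⟩ := Ideal.mem_span_singleton'.1 hy
    rw [map_mul, map_natCast]
    exact Ideal.mul_mem_left _ _ (Ideal.mem_span_singleton_self _)
  have hC : ∀ l, (C (x (X l)) : A') ∈ (Ideal.span {(p : A')}).radical := fun l => by
    obtain ⟨m, hm⟩ := hxX l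
    exact ⟨m, by rw [← map_pow]; exact hCp _ hm⟩
  have hpX : ∀ l, (p : A') * X l ∈ Ideal.span {(p : A')} := fun l =>
    Ideal.mul_mem_right _ _ (Ideal.mem_span_singleton_self _)
  have hCX : ∀ l, (C (x (X l)) + (p : A') * X l : A') ∈ (Ideal.span {(p : A')}).radical := fun l =>
    add_mem (hC l) (Ideal.le_radical (hpX l))
  have hg := good_radical (Ideal.span {(p : A')})
  let x₁ : LTRing p n →+* A' :=
    ev ((C : A →+* A').comp (x.comp C)) fun l => C (x (X l)) + (p : A') * X l
  let π := Ideal.Quotient.mk (Ideal.span {(p : A)})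
  let π' := Ideal.Quotient.mk (Ideal.span {(p : A')})
  let κ : A ⧸ Ideal.span {(p : A)} →+* A' ⧸ Ideal.span {(p : A')} :=
    Ideal.Quotient.lift _ (π'.comp C) fun y hy => Ideal.Quotient.eq_zero_iff_mem.2 (hCp y hy)
  have hκ : κ.comp π = π'.comp C := rfl
  have e1 : π'.comp x₁ = κ.comp (π.comp x) := RingHom.ext fun f => by
    have h1 := eq_ev hg ((C : A →+* A').comp x) ((C : A →+* A').comp (x.comp C))
      (fun l => C (x (X l))) hC (fun _ => rfl) fun _ => rfl
    change π' (x₁ f) = π' (((C : A →+* A').comp x) f)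
    rw [h1]
    exact Ideal.Quotient.eq.2 (ev_sub_mem hg _ hC hCX (fun l => by simpa using hpX l) f)
  have h0 := per_const_map (C : A →+* A') hϑ.const
  obtain ⟨ℓ, hℓ⟩ := exists_isLog (per_isUnit p A' (K := K')) ((H.map x₁).map (algebraMap A' K'))
  obtain ⟨a₁, ha₁⟩ := qlog_hom p hinj' hn (H.map x₁) hℓ (PowerSeries.map C ϑ) h0 (by
    have h1 := isFGHom_map hϑ.hom κ
    rwa [G0_map, map_map, ← e1, ← map_map, ← RingHom.comp_apply (PowerSeries.map κ),
      ← PowerSeries.map_comp, hκ, PowerSeries.map_comp] at h1)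
  have hper : Per p n (H.map x₁) (PowerSeries.map C ϑ) a₁ := ⟨ℓ, hℓ, ha₁⟩
  obtain ⟨⟨_, e, rfl⟩, hb⟩ :=
    IsLocalization.exist_integer_multiples_of_finite (Submonoid.powers (p : A')) a₁
  choose b hb using hb
  have hgA := good_of_isAdicComplete (Ideal.span {(p : A)})
  have key : ∀ (x' : LTRing p n →+* A) (d : Fin (n - 1) → A), (∀ w, x' (C w) = x (C w)) →
      (∀ l, d l ∈ Ideal.span {(p : A)}) → (∀ l, x' (X l) = x (X l) + p * d l) →
      ∃ a' : Fin n → K, Per p n (H.map x') ϑ a' ∧
        ∀ k, (p : K) ^ e * a' k = algebraMap A K (ev (RingHom.id A) d (b k)) := by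
    intro x' d h1 h2 h3
    let s : A' →+* A := ev (RingHom.id A) d
    let s' : K' →+* K := IsLocalization.Away.lift (p : A') (g := (algebraMap A K).comp s)
      (by rw [map_natCast]; exact hpK)
    have hs : ∀ y, s' (algebraMap A' K' y) = algebraMap A K (s y) :=
      IsLocalization.Away.lift_eq _ _
    have hsC : s.comp C = RingHom.id A := RingHom.ext fun y => ev_C _ _ y
    have hsX : ∀ l, (s.comp x₁) (X l) = x' (X l) := fun l => by
      rw [RingHom.comp_apply, ev_X hg _ hCX, map_add, map_mul, map_natCast, ev_C, ev_X hgA _ h2, h3]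
      rfl
    have e2 : s.comp x₁ = x' := hom_ext (good_radical (Ideal.span {(p : A)})) _ _
      (fun w => by rw [RingHom.comp_apply, ev_C, h1]; exact ev_C _ _ _) hsX fun l => by
        rw [hsX, h3]
        exact add_mem (hxX l) (Ideal.le_radical
          (Ideal.mul_mem_right _ _ (Ideal.mem_span_singleton_self _)))
    have h4 := per_spec s s' hs (per_isUnit p A' p (Fact.out : p.Prime).ne_zero) h0 hper
    rw [map_map, e2, ← RingHom.comp_apply (PowerSeries.map s), ← PowerSeries.map_comp, hsC,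
      PowerSeries.map_id] at h4
    refine ⟨_, h4, fun k => ?_⟩
    rw [← hs, hb, Algebra.smul_def, map_mul, hs]
    simp only [map_pow]
    rw [map_natCast s, map_natCast]
  obtain ⟨a, ha, ha'⟩ := key x (fun _ => 0) (fun _ => rfl) (fun _ => zero_mem _) fun _ => by simp
  obtain ⟨u, hu⟩ := hpK.exists_left_inv
  refine ⟨a, fun k l => u ^ (e + 1) * algebraMap A K (ev (RingHom.id A) (fun _ => 0)
    (pderiv A l (b k))), e + 2, ha, fun x' r h1 hr h2 => ?_⟩
  obtain ⟨r, rfl⟩ := Nat.exists_eq_add_of_le' hr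
  choose y hy using fun l => Ideal.mem_span_singleton'.1 (h2 l)
  have hd : ∀ l, (p : A) * (y l * p ^ (r + 1)) = x' (X l) - x (X l) := fun l => by
    rw [← hy]; ring
  have hdm : ∀ l, y l * (p : A) ^ (r + 1) ∈ Ideal.span {(p : A)} := fun l =>
    Ideal.mem_span_singleton'.2 ⟨y l * p ^ r, by ring⟩
  obtain ⟨a', h3, h4⟩ := key x' (fun l => y l * p ^ (r + 1)) h1 hdm fun l => by rw [hd]; ring
  refine ⟨a', h3, fun k => ?_⟩
  have h5 := ev_taylor hgA (RingHom.id A) (a := fun _ => 0) (fun _ => zero_mem _) hdm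
    (J := Ideal.span {(p : A) ^ (r + 1)}) (fun l => Ideal.mem_span_singleton'.2 ⟨y l, by simp⟩) (b k)
  rw [Ideal.span_singleton_pow] at h5
  obtain ⟨z, hz⟩ := Ideal.mem_span_singleton'.1 h5
  refine ⟨z, ?_⟩
  have h6 := congrArg (algebraMap A K) hz
  simp only [map_sub, map_sum, map_mul, map_pow, map_natCast, ← h4, ← ha', sub_zero] at h6
  have h7 : (p : K) ^ (e + 1) * u ^ (e + 1) = 1 := by rw [← mul_pow, mul_comm, hu, one_pow]
  have h8 : (p : K) ^ (e + 2) * ∑ l, u ^ (e + 1) * algebraMap A K (ev (RingHom.id A) (fun _ => 0)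
      (pderiv A l (b k))) * algebraMap A K (x' (X l) - x (X l)) =
      (p : K) ^ 2 * ∑ l, algebraMap A K (y l) * (p : K) ^ (r + 1) *
        algebraMap A K (ev (RingHom.id A) (fun _ => 0) (pderiv A l (b k))) := by
    rw [Finset.mul_sum, Finset.mul_sum]
    refine Finset.sum_congr rfl fun l _ => ?_
    rw [← hd]
    simp only [map_mul, map_pow, map_natCast]
    linear_combination ((p : K) ^ 2 * algebraMap A K (y l) * (p : K) ^ (r + 1) *
      algebraMap A K (ev (RingHom.id A) (fun _ => 0) (pderiv A l (b k)))) * h7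
  rw [mul_sub, h8]
  linear_combination -(p : K) ^ 2 * h6

end loc

end Crest.Agent.R227.K
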