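import Crest.Agent.R227.K.QLog
import Crest.Agent.R227.K.ActEx

/-! Row 227: auxiliary lemmas for `Per1`, `Per2`, `Per`. -/

set_option autoImplicit false

namespace Crest.Agent.R227.K

open MvPowerSeries Crest.LubinTate
open scoped BigOperators

variable {p : ℕ} [Fact p.Prime] {n : ℕ} {A K : Type*} [CommRing A] [CommRing K] [Algebra A K]

section formal

variable {R S : Type*} [CommRing R] [CommRing S]

theorem per_hs {g : PowerSeries R} (hg : PowerSeries.constantCoeff g = 0) :
    PowerSeries.HasSubst g := PowerSeries.HasSubst.of_constantCoeff_zero' hg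

theorem per_map_subst (h : R →+* S) (f : PowerSeries R) {g : PowerSeries R}
    (hg : PowerSeries.constantCoeff g = 0) :
    PowerSeries.map h (f.subst g) = (PowerSeries.map h f).subst (PowerSeries.map h g) :=
  PowerSeries.map_subst (per_hs hg) f

theorem per_assoc (f : PowerSeries R) {g h : PowerSeries R} (hg : PowerSeries.constantCoeff g = 0)
    (hh : PowerSeries.constantCoeff h = 0) :
    PowerSeries.subst h (f.subst g : PowerSeries R) = f.subst (g.subst h : PowerSeries R) :=
  PowerSeries.subst_comp_subst_apply (per_hs hg) (per_hs hh) f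

theorem per_const {f g : PowerSeries R} (hf : PowerSeries.constantCoeff f = 0)
    (hg : PowerSeries.constantCoeff g = 0) : PowerSeries.constantCoeff (f.subst g) = 0 :=
  PowerSeries.constantCoeff_subst_eq_zero hg f hf

theorem per_const_map (h : R →+* S) {f : PowerSeries R} (hf : PowerSeries.constantCoeff f = 0) :
    PowerSeries.constantCoeff (PowerSeries.map h f) = 0 := by
  rw [← PowerSeries.coeff_zero_eq_constantCoeff_apply, PowerSeries.coeff_map,
    PowerSeries.coeff_zero_eq_constantCoeff_apply, hf, map_zero]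

theorem per_const_X_pow {m : ℕ} (hm : m ≠ 0) :
    PowerSeries.constantCoeff (PowerSeries.X ^ m : PowerSeries R) = 0 := by
  rw [map_pow, PowerSeries.constantCoeff_X, zero_pow hm]

theorem per_X_pow_subst (m : ℕ) {g : PowerSeries R} (hg : PowerSeries.constantCoeff g = 0) :
    (PowerSeries.X ^ m : PowerSeries R).subst g = g ^ m := by
  rw [PowerSeries.subst_pow (per_hs hg), PowerSeries.subst_X (per_hs hg)]

theorem per_C_mul_subst (c : R) (f : PowerSeries R) {g : PowerSeries R}
    (hg : PowerSeries.constantCoeff g = 0) :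
    (PowerSeries.C c * f).subst g = PowerSeries.C c * (f.subst g : PowerSeries R) := by
  rw [PowerSeries.subst_mul (per_hs hg), PowerSeries.subst_C]
  rfl

theorem per_sum_subst {ι : Type*} (s : Finset ι) (f : ι → PowerSeries R) {g : PowerSeries R}
    (hg : PowerSeries.constantCoeff g = 0) :
    (∑ i ∈ s, f i).subst g = ∑ i ∈ s, ((f i).subst g : PowerSeries R) := by
  rw [← PowerSeries.coe_substAlgHom (per_hs hg), map_sum]

theorem per_map_two (h : R →+* S) (F : FormalGroup R) {f g : PowerSeries R}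
    (hf : PowerSeries.constantCoeff f = 0) (hg : PowerSeries.constantCoeff g = 0) :
    PowerSeries.map h (F.toPowerSeries.subst ![f, g]) =
      (F.map h).toPowerSeries.subst ![PowerSeries.map h f, PowerSeries.map h g] := by
  have := MvPowerSeries.map_subst (h := h) (a := ![f, g])
    (hasSubst_of_constantCoeff_zero (Fin.forall_fin_two.2 ⟨hf, hg⟩)) F.toPowerSeries
  refine this.trans ?_
  congr 1
  funext i
  fin_cases i <;> rfl

theorem per_map_congr {T : Type*} [CommRing T] {r : R →+* S} {h : R →+* T}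
    (hr : ∀ a, r a = 0 → h a = 0) {f g : PowerSeries R}
    (e : PowerSeries.map r f = PowerSeries.map r g) : PowerSeries.map h f = PowerSeries.map h g := by
  ext i
  have := congrArg (PowerSeries.coeff i) e
  rw [PowerSeries.coeff_map, PowerSeries.coeff_map, ← sub_eq_zero, ← map_sub] at this ⊢
  exact hr _ this

theorem per_pow (p : ℕ) [Fact p.Prime] [CharP R p] (m : ℕ) (f : PowerSeries R) :
    f ^ p ^ m = (PowerSeries.map (iterateFrobenius R p m) f).subst
      (PowerSeries.X ^ p ^ m : PowerSeries R) := by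
  have hp := (Fact.out : p.Prime).ne_zero
  rw [← PowerSeries.expand_apply _ (pow_ne_zero m hp), ← PowerSeries.map_expand]
  exact (MvPowerSeries.map_iterateFrobenius_expand p hp f m).symm

theorem per_subst_pow (p : ℕ) [Fact p.Prime] [CharP R p] (m : ℕ) (f : PowerSeries R)
    {u : PowerSeries R} (hu : PowerSeries.constantCoeff u = 0) :
    (f.subst u : PowerSeries R) ^ p ^ m =
      (PowerSeries.map (iterateFrobenius R p m) f).subst (u ^ p ^ m) := by
  rw [← PowerSeries.subst_pow (per_hs hu), per_pow p m f,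
    per_assoc _ (per_const_X_pow (pow_ne_zero m (Fact.out : p.Prime).ne_zero)) hu,
    per_X_pow_subst _ hu]

theorem per_pow_fix {M : Type*} [Monoid M] {b : M} {q : ℕ} (h : b ^ q = b) (N : ℕ) :
    b ^ q ^ N = b := by
  induction N with
  | zero => simp
  | succ N ih => rw [pow_succ, pow_mul, ih, h]

theorem per_const_b (p : ℕ) [Fact p.Prime] (j : ℕ) (r : R) :
    PowerSeries.constantCoeff (PowerSeries.C r * PowerSeries.X ^ p ^ j : PowerSeries R) = 0 := by
  rw [map_mul, per_const_X_pow (pow_ne_zero _ (Fact.out : p.Prime).ne_zero), mul_zero]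

end formal

theorem per_teich (hn : 1 ≤ n) (x : LTRing p n →+* A) (β : GaloisField p n) :
    x (C (WittVector.teichmuller p β)) ^ p ^ n = x (C (WittVector.teichmuller p β)) := by
  have := Fintype.ofFinite (GaloisField p n)
  rw [← map_pow, ← map_pow, ← map_pow, ← GaloisField.card p n (by omega),
    Nat.card_eq_fintype_card, FiniteField.pow_card]

theorem per_isUnit (p : ℕ) [Fact p.Prime] (A : Type*) [CommRing A] [Algebra A K]
    [IsLocalization.Away (p : A) K] [IsAdicComplete (Ideal.span {(p : A)}) A] (j : ℕ)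
    (hj : j ≠ 0) : IsUnit (j : K) := by
  obtain ⟨s, j', h1, rfl⟩ := Nat.exists_eq_pow_mul_and_not_dvd hj p (Fact.out : p.Prime).ne_one
  have h2 := IsLocalization.Away.algebraMap_isUnit (S := K) (p : A)
  have h3 := (isUnit_natCast_of_isAdicComplete (A := A) p j' h1).map (algebraMap A K)
  rw [map_natCast] at h2 h3
  rw [Nat.cast_mul, Nat.cast_pow]
  exact (h2.pow s).mul h3

/-- bounded denominators -/
def PerBd (p : ℕ) (A : Type*) {K : Type*} [CommRing A] [CommRing K] [Algebra A K]
    (f : PowerSeries K) : Prop :=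
  ∃ e : ℕ, CoeffIn (⊤ : Ideal A) (PowerSeries.C ((p : K) ^ e) * f)

section bd

variable {f g : PowerSeries K}

omit [Fact p.Prime] in
theorem per_C_mul {I : Ideal A} (hf : CoeffIn I f) (a : A) :
    CoeffIn (⊤ : Ideal A) (PowerSeries.C (algebraMap A K a) * f) := fun d => by
  obtain ⟨b, -, hb⟩ := hf d
  exact ⟨a * b, trivial, by rw [map_mul, hb]; exact (coeff_C_mul d f _).symm⟩

omit [Fact p.Prime] in
theorem PerBd.of_int {I : Ideal A} (hf : CoeffIn I f) : PerBd p A f :=
  ⟨0, by simpa using hf.mono le_top⟩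

omit [Fact p.Prime] in
theorem PerBd.up {e : ℕ} (hf : CoeffIn (⊤ : Ideal A) (PowerSeries.C ((p : K) ^ e) * f)) (e' : ℕ) :
    CoeffIn (⊤ : Ideal A) (PowerSeries.C ((p : K) ^ (e' + e)) * f) := by
  have := per_C_mul hf ((p : A) ^ e')
  rwa [← mul_assoc, ← map_mul, map_pow, map_natCast, ← pow_add] at this

omit [Fact p.Prime] in
theorem PerBd.add (hf : PerBd p A f) (hg : PerBd p A g) : PerBd p A (f + g) := by
  obtain ⟨e, he⟩ := hf
  obtain ⟨e', he'⟩ := hg
  refine ⟨e' + e, ?_⟩
  rw [mul_add]
  exact (PerBd.up he e').add (add_comm e e' ▸ PerBd.up he' e)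

omit [Fact p.Prime] in
theorem PerBd.neg (hf : PerBd p A f) : PerBd p A (-f) := by
  obtain ⟨e, he⟩ := hf
  exact ⟨e, by rw [mul_neg]; exact he.neg⟩

omit [Fact p.Prime] in
theorem PerBd.sub (hf : PerBd p A f) (hg : PerBd p A g) : PerBd p A (f - g) := by
  rw [sub_eq_add_neg]
  exact hf.add hg.neg

omit [Fact p.Prime] in
theorem PerBd.sum {ι : Type*} (s : Finset ι) {f : ι → PowerSeries K}
    (hf : ∀ i ∈ s, PerBd p A (f i)) : PerBd p A (∑ i ∈ s, f i) :=
  Finset.sum_induction f _ (fun _ _ => PerBd.add) (PerBd.of_int (I := ⊤) CoeffIn.zero) hf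

omit [Fact p.Prime] in
theorem PerBd.of_pow {m : ℕ} (hf : PerBd p A (PowerSeries.C ((p : K) ^ m) * f)) : PerBd p A f := by
  obtain ⟨e, he⟩ := hf
  exact ⟨e + m, by rwa [← mul_assoc, ← map_mul, ← pow_add] at he⟩

omit [Fact p.Prime] in
theorem PerBd.C_mul [IsLocalization.Away (p : A) K] (hf : PerBd p A f) (k : K) :
    PerBd p A (PowerSeries.C k * f) := by
  obtain ⟨e, he⟩ := hf
  obtain ⟨m, a, ha⟩ := IsLocalization.Away.surj (p : A) k
  refine ⟨m + e, ?_⟩
  have := per_C_mul he a
  rw [← ha, map_natCast] at this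
  convert this using 1
  simp only [map_mul, pow_add]
  ring

omit [Fact p.Prime] in
theorem per_X_pow_int (m : ℕ) : CoeffIn (⊤ : Ideal A) (PowerSeries.X ^ m : PowerSeries K) := by
  have : CoeffIn (⊤ : Ideal A) (PowerSeries.map (algebraMap A K) (PowerSeries.X ^ m)) :=
    coeffIn_map _
  rwa [map_pow, PowerSeries.map_X] at this

theorem per_Lc_add [IsLocalization.Away (p : A) K] (hn : 1 ≤ n) (hp : IsUnit (p : K)) (c N : ℕ) :
    PerBd p A (Lc K p n (c + n * N) - PowerSeries.C ((p : K) ^ N) * Lc K p n c) := by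
  induction N with
  | zero => simpa using PerBd.of_int (I := ⊤) CoeffIn.zero
  | succ N ih =>
    have := (ih.sub (PerBd.of_int (per_X_pow_int (p ^ (c + n * N))))).C_mul (p : K)
    convert this using 1
    rw [mul_add, mul_one, ← add_assoc, Lc_add_n p hn hp, pow_succ, map_mul, map_natCast]
    ring

/-- the action of `1 + p ^ N β X ^ p ^ j` on the quasi-logarithms -/
theorem per_Lc_gser [IsLocalization.Away (p : A) K] (hn : 1 ≤ n) (hp : IsUnit (p : K)) {β : A}
    (hβ : β ^ p ^ n = β) (N j c : ℕ) :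
    PerBd p A ((Lc K p n c).subst (PowerSeries.map (algebraMap A K)
        (gser p n N (PowerSeries.C β * PowerSeries.X ^ p ^ j))) - (Lc K p n c +
      PowerSeries.C ((p : K) ^ N * algebraMap A K β ^ p ^ c) * Lc K p n (c + j))) := by
  have hp0 := (Fact.out : p.Prime).ne_zero
  have hq : 1 < p ^ n := Nat.one_lt_pow (by omega) (Fact.out : p.Prime).one_lt
  set b : PowerSeries A := PowerSeries.C β * PowerSeries.X ^ p ^ j with hb
  have hb0 : PowerSeries.constantCoeff b = 0 := by
    rw [hb, map_mul, per_const_X_pow (pow_ne_zero _ hp0), mul_zero]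
  have hw0 : PowerSeries.constantCoeff (b ^ (p ^ n) ^ N) = 0 := by
    rw [map_pow, hb0, zero_pow (by positivity)]
  have hg0 := gser_constantCoeff (p := p) (n := n) (N := N) hb0
  have hβN : β ^ (p ^ n) ^ N = β := per_pow_fix hβ N
  have hw : (b ^ (p ^ n) ^ N) ^ p ^ c =
      PowerSeries.C (β ^ p ^ c) * PowerSeries.X ^ p ^ (c + j + n * N) := by
    rw [hb, mul_pow, mul_pow, ← map_pow, hβN, ← map_pow, ← pow_mul, ← pow_mul, ← pow_mul,
      ← pow_add, ← pow_add]
    congr 3
    ring
  have hX0 : ∀ m, PowerSeries.constantCoeff (PowerSeries.X ^ p ^ m : PowerSeries A) = 0 :=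
    fun m => per_const_X_pow (pow_ne_zero _ hp0)
  have hXK : ∀ m, PowerSeries.constantCoeff (PowerSeries.X ^ p ^ m : PowerSeries K) = 0 :=
    fun m => per_const_X_pow (pow_ne_zero _ hp0)
  have hw1 : PowerSeries.constantCoeff ((b ^ (p ^ n) ^ N) ^ p ^ c) = 0 := by
    rw [map_pow, hw0, zero_pow (by positivity)]
  have h1 : CoeffIn (Ideal.span {(p : A)}) ((hlog K p n).subst (PowerSeries.map (algebraMap A K)
      (gser p n N b ^ p ^ c)) - (hlog K p n).subst (PowerSeries.map (algebraMap A K)
        ((G0 p n A).toPowerSeries.subst ![PowerSeries.X ^ p ^ c, (b ^ (p ^ n) ^ N) ^ p ^ c]))) :=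
    hlog_subst_congr p n hn hp (a := gser p n N b ^ p ^ c)
      (by rw [map_pow]; exact (congrArg (· ^ p ^ c) hg0).trans (zero_pow (by positivity)))
      (constantCoeff_subst_eq_zero
        (hasSubst_of_constantCoeff_zero (Fin.forall_fin_two.2 ⟨hX0 c, hw1⟩))
        (Fin.forall_fin_two.2 ⟨hX0 c, hw1⟩) (G0 p n A).zero_constantCoeff)
      (G0_subst_pow_congr p A PowerSeries.constantCoeff_X hw0 c)
  rw [per_map_two _ _ (hX0 c) hw1, G0_map, (G0_isLog p hn K hp).subst_add
    (per_const_map _ (hX0 c)) (per_const_map _ hw1), hw] at h1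
  simp only [map_mul, map_pow, PowerSeries.map_X, PowerSeries.map_C] at h1
  have h2 : (hlog K p n).subst (PowerSeries.C (algebraMap A K β) ^ p ^ c *
      PowerSeries.X ^ p ^ (c + j + n * N) : PowerSeries K) =
      PowerSeries.C (algebraMap A K β ^ p ^ c) * Lc K p n (c + j + n * N) := by
    rw [← map_pow]
    refine hlog_subst_C_mul hq ?_ (hXK _)
    rw [← pow_mul, mul_comm, pow_mul, ← map_pow, hβ]
  rw [h2] at h1
  have h3 := (PerBd.of_int (p := p) h1).add
    ((per_Lc_add (A := A) hn hp (c + j) N).C_mul (algebraMap A K β ^ p ^ c))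
  convert h3 using 1
  rw [Lc, per_assoc _ (hXK c) (per_const_map _ hg0), per_X_pow_subst _ (per_const_map _ hg0),
    map_mul]
  ring

end bd

end Crest.Agent.R227.K
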