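import Crest.Agent.R227.K.Honda

/-! Row 227, task `R227/K/QLog1`: quasi-logarithms of Honda's law.
Definitions: DO NOT CHANGE (owner helper98). -/

set_option autoImplicit false

namespace Crest.Agent.R227.K

open MvPowerSeries Crest.LubinTate
open scoped BigOperators

/-- `L (X ^ p ^ c)` -/
noncomputable def Lc (K : Type*) [CommRing K] (p n c : ℕ) : PowerSeries K :=
  (hlog K p n).subst (PowerSeries.X ^ p ^ c : PowerSeries K)

variable (p : ℕ) [Fact p.Prime] {n : ℕ} {A K : Type*} [CommRing A] [CommRing K] [Algebra A K]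

theorem Lc_map {K' : Type*} [CommRing K'] (hp : IsUnit (p : K)) (φ : K →+* K') (c : ℕ) :
    (Lc K p n c).map φ = Lc K' p n c := by
  have h := PowerSeries.map_subst (h := φ) (PowerSeries.HasSubst.X_pow (R := K)
    (pow_ne_zero c (Fact.out : p.Prime).ne_zero)) (hlog K p n)
  rw [hlog_map hp] at h
  refine h.trans (congrArg (fun g : PowerSeries K' => (hlog K' p n).subst g) ?_)
  change PowerSeries.map φ _ = _
  rw [map_pow, PowerSeries.map_X]

theorem ql_one_lt (hn : 1 ≤ n) : 1 < p ^ n :=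
  Nat.one_lt_pow (by omega) (Fact.out : p.Prime).one_lt

theorem ql_Lc_subst {σ : Type*} (c : ℕ) {b : MvPowerSeries σ K} (hb : constantCoeff b = 0) :
    (Lc K p n c).subst b = (hlog K p n).subst (b ^ p ^ c) := by
  have h := PowerSeries.HasSubst.of_constantCoeff_zero hb
  rw [Lc, PowerSeries.subst_comp_subst_apply (PowerSeries.HasSubst.X_pow
    (pow_ne_zero c (Fact.out : p.Prime).ne_zero)) h, PowerSeries.subst_pow h, PowerSeries.subst_X h]

theorem coeff_Lc (hn : 1 ≤ n) (c r : ℕ) :
    PowerSeries.coeff (p ^ (c + n * r)) (Lc K p n c) = Ring.inverse (p : K) ^ r := by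
  have hp := (Fact.out : p.Prime).pos
  rw [Lc, PowerSeries.coeff_subst_X_pow (pow_ne_zero c hp.ne'), pow_add, if_pos (dvd_mul_right _ _),
    Nat.mul_div_cancel_left _ (pow_pos hp c), pow_mul, coeff_hlog_pow (ql_one_lt p hn)]
  rfl

theorem coeff_Lc_of_ne {c j : ℕ} (hj : ∀ r, j ≠ p ^ (c + n * r)) :
    PowerSeries.coeff j (Lc K p n c) = 0 := by
  have hp := (Fact.out : p.Prime).pos
  rw [Lc, PowerSeries.coeff_subst_X_pow (pow_ne_zero c hp.ne')]
  split_ifs with h
  · rw [coeff_hlog_of_ne fun r e => hj r ?_, map_zero]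
    rw [pow_add, pow_mul, ← e, Nat.mul_div_cancel' h]
  · rfl

theorem Lc_add_n (hn : 1 ≤ n) (hp : IsUnit (p : K)) (c : ℕ) :
    Lc K p n (c + n) = (p : PowerSeries K) * Lc K p n c -
      (p : PowerSeries K) * PowerSeries.X ^ p ^ c := by
  have hp0 := (Fact.out : p.Prime).ne_zero
  have hs := PowerSeries.HasSubst.X_pow (R := K) (pow_ne_zero c hp0)
  have h := congrArg (PowerSeries.substAlgHom (R := K) hs) (hlog_eq (ql_one_lt p hn) hp)
  rw [map_mul, map_add, map_mul, map_natCast, PowerSeries.coe_substAlgHom, PowerSeries.subst_X hs,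
    PowerSeries.subst_comp_subst_apply (PowerSeries.HasSubst.X_pow (pow_ne_zero n hp0)) hs,
    PowerSeries.subst_pow hs, PowerSeries.subst_X hs, ← pow_mul, ← pow_add] at h
  exact eq_sub_of_add_eq' h.symm

/-- the coboundary of `Lc` is `≡ 0 mod p` (`G0_subst_pow_congr`, `hlog_subst_congr`, `G0_isLog`) -/
theorem Lc_coboundary (hn : 1 ≤ n) (hp : IsUnit (p : K)) (c : ℕ) :
    CoeffIn (Ideal.span {(p : A)})
      ((Lc K p n c).subst (G0 p n K).toPowerSeries -
        (Lc K p n c).subst (X 0 : MvPowerSeries (Fin 2) K) -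
        (Lc K p n c).subst (X 1 : MvPowerSeries (Fin 2) K)) := by
  have hp0 := (Fact.out : p.Prime).ne_zero
  have hX : ∀ (B : Type _) [CommRing B] (i : Fin 2),
      constantCoeff (X i ^ p ^ c : MvPowerSeries (Fin 2) B) = 0 := fun B _ i => by
    rw [map_pow, constantCoeff_X, zero_pow (pow_ne_zero c hp0)]
  have hXA : ∀ i : Fin 2, constantCoeff (X i ^ p ^ c : MvPowerSeries (Fin 2) A) = 0 := fun i => by
    rw [map_pow, constantCoeff_X, zero_pow (pow_ne_zero c hp0)]
  have hv := Fin.forall_fin_two (p := fun i => constantCoeff (![X 0 ^ p ^ c, X 1 ^ p ^ c] i :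
    MvPowerSeries (Fin 2) A) = 0).2 ⟨hXA 0, hXA 1⟩
  have e : (G0 p n A).toPowerSeries.subst ![(X 0 : MvPowerSeries (Fin 2) A), X 1] =
      (G0 p n A).toPowerSeries := by
    rw [show ![(X 0 : MvPowerSeries (Fin 2) A), X 1] = X from by
      funext i; fin_cases i <;> rfl, subst_self]
    rfl
  have h1 := G0_subst_pow_congr (n := n) p A (constantCoeff_X (0 : Fin 2)) (constantCoeff_X 1) c
  rw [e] at h1
  have h2 := hlog_subst_congr p n hn hp (by
      rw [map_pow, (G0 p n A).zero_constantCoeff, zero_pow (pow_ne_zero c hp0)])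
    (constantCoeff_subst_eq_zero (hasSubst_of_constantCoeff_zero hv) hv
      (G0 p n A).zero_constantCoeff) h1
  have e1 : MvPowerSeries.map (algebraMap A K) (G0 p n A).toPowerSeries =
      (G0 p n K).toPowerSeries := congrArg FormalGroup.toPowerSeries (G0_map p n _)
  have e2 : (fun i => MvPowerSeries.map (algebraMap A K) (![X 0 ^ p ^ c, X 1 ^ p ^ c] i :
      MvPowerSeries (Fin 2) A)) = ![X 0 ^ p ^ c, X 1 ^ p ^ c] := by
    funext i
    fin_cases i <;> simp
  rw [map_pow, map_subst (hasSubst_of_constantCoeff_zero hv), e1, e2,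
    (G0_isLog p hn K hp).subst_add (hX K 0) (hX K 1), ← sub_sub] at h2
  rwa [ql_Lc_subst p c (G0 p n K).zero_constantCoeff, ql_Lc_subst p c (constantCoeff_X _),
    ql_Lc_subst p c (constantCoeff_X _)]

theorem ql_coeff_sum (hn : 1 ≤ n) (a : Fin n → K) (c : Fin n) (r : ℕ) :
    PowerSeries.coeff (p ^ (c + n * r)) (∑ c, PowerSeries.C (a c) * Lc K p n c) =
      a c * Ring.inverse (p : K) ^ r := by
  rw [map_sum, Finset.sum_eq_single c (fun c' _ hc => ?_) (by simp), PowerSeries.coeff_C_mul,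
    coeff_Lc p hn]
  rw [PowerSeries.coeff_C_mul, coeff_Lc_of_ne p fun r' e => hc (Fin.ext ?_), mul_zero]
  have := congrArg (· % n) (Nat.pow_right_injective (Fact.out : p.Prime).two_le e)
  simpa only [Nat.add_mul_mod_self_left, Nat.mod_eq_of_lt c.2, Nat.mod_eq_of_lt c'.2, eq_comm]
    using this

theorem ql_isUnit (A : Type*) [CommRing A] [Algebra A K] [IsLocalization.Away (p : A) K] :
    IsUnit (p : K) := by
  simpa using IsLocalization.Away.algebraMap_isUnit (S := K) (p : A)

omit [Fact p.Prime] in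
theorem ql_pow_inv (hp : IsUnit (p : K)) (r : ℕ) : (p : K) ^ r * Ring.inverse (p : K) ^ r = 1 := by
  rw [← mul_pow, Ring.mul_inverse_cancel _ hp, one_pow]

/-- uniqueness: look at the coefficients of `X ^ p ^ (c + n r)` -/
theorem qlog_unique [IsLocalization.Away (p : A) K] [IsHausdorff (Ideal.span {(p : A)}) A]
    (hinj : Function.Injective (algebraMap A K)) (hn : 1 ≤ n) (a : Fin n → K) (e : ℕ)
    (h : CoeffIn (⊤ : Ideal A)
      (PowerSeries.C ((p : K) ^ e) * ∑ c, PowerSeries.C (a c) * Lc K p n c)) : a = 0 := by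
  have hp := ql_isUnit (K := K) p A
  funext c
  have key : ∀ r, ∃ y : A, algebraMap A K ((p : A) ^ r * y) = (p : K) ^ e * a c := fun r => by
    obtain ⟨y, -, hy⟩ := h (Finsupp.single () (p ^ (c + n * r)))
    change _ = PowerSeries.coeff _ _ at hy
    rw [PowerSeries.coeff_C_mul, ql_coeff_sum p hn] at hy
    refine ⟨y, ?_⟩
    rw [map_mul, map_pow, map_natCast, hy]
    linear_combination ((p : K) ^ e * a c) * ql_pow_inv p hp r
  choose y hy using key
  have h0 : (p : A) ^ 0 * y 0 = 0 := IsHausdorff.haus ‹_› _ fun r => by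
    rw [SModEq.zero, smul_eq_mul, Ideal.mul_top, Ideal.span_singleton_pow,
      hinj ((hy 0).trans (hy r).symm)]
    exact Ideal.mul_mem_right _ _ (Ideal.mem_span_singleton_self _)
  have h1 := hy 0
  rw [h0, map_zero] at h1
  exact (hp.pow e).mul_right_eq_zero.1 h1.symm

end Crest.Agent.R227.K
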