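import Crest.Agent.R227.K.OC
import Crest.Agent.R227.K.Compare

/-! Row 227, task `R227/K/Theta`: an integral homomorphism onto the height `h` Honda law.
Definitions: DO NOT CHANGE (owner helper98). -/

set_option autoImplicit false

namespace Crest.Agent.R227.K

open MvPowerSeries Crest.LubinTate

section aux

variable {R : Type*} [CommRing R]

theorem theta_rec {α : Type*} (F : (j : ℕ) → (Fin j → α) → α) :
    ∃ a : ℕ → α, ∀ j, a j = F j fun i => a i :=
  ⟨Nat.lt_wfRel.wf.fix fun j ih => F j fun i => ih i i.2, fun _ => WellFounded.fix_eq _ _ _⟩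

theorem theta_inj {k : ℕ} (hk : k ≠ 0) {f g : PowerSeries R}
    (h : f.subst (PowerSeries.X ^ k : PowerSeries R) = g.subst (PowerSeries.X ^ k : PowerSeries R)) :
    f = g := by
  ext i
  rw [← R227.coeff_mul_subst_X_pow hk f, h, R227.coeff_mul_subst_X_pow hk g]

theorem theta_pow (p : ℕ) [Fact p.Prime] [CharP R p] (h : ℕ) (θ : PowerSeries R) :
    (θ.map (iterateFrobenius R p h)).subst (PowerSeries.X ^ p ^ h : PowerSeries R) = θ ^ p ^ h := by
  have hp := (Fact.out : p.Prime).ne_zero
  rw [← PowerSeries.expand_apply _ (pow_ne_zero h hp), ← PowerSeries.map_expand]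
  exact map_iterateFrobenius_expand p hp θ h

theorem theta_V0 {H : FormalGroup R} {V : PowerSeries R} {m k : ℕ} (hk : k ≠ 0)
    (hV : mulSeries H m = V.subst (PowerSeries.X ^ k : PowerSeries R)) :
    PowerSeries.constantCoeff V = 0 := by
  have := constantCoeff_mulSeries H m
  rwa [hV, ← PowerSeries.expand_apply _ hk, PowerSeries.constantCoeff_expand] at this

theorem theta_assoc {θ V : PowerSeries R} {k : ℕ} (hk : k ≠ 0)
    (h0 : PowerSeries.constantCoeff V = 0) :
    θ.subst (V.subst (PowerSeries.X ^ k : PowerSeries R)) =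
      PowerSeries.subst (PowerSeries.X ^ k : PowerSeries R) (θ.subst V : PowerSeries R) :=
  (PowerSeries.subst_comp_subst_apply (PowerSeries.HasSubst.of_constantCoeff_zero' h0)
    (PowerSeries.HasSubst.X_pow hk) θ).symm

theorem theta_X_pow {θ : PowerSeries R} (h0 : PowerSeries.constantCoeff θ = 0) (k : ℕ) :
    (PowerSeries.X ^ k : PowerSeries R).subst θ = θ ^ k := by
  have hs := PowerSeries.HasSubst.of_constantCoeff_zero' h0
  rw [PowerSeries.subst_pow hs, PowerSeries.subst_X hs]

theorem theta_cancel {θ f g : PowerSeries R} (h0 : PowerSeries.constantCoeff θ = 0)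
    (h1 : IsUnit (PowerSeries.coeff 1 θ)) (h : f.subst θ = g.subst θ) : f = g := by
  obtain ⟨ι, i0, -, hι, -⟩ := exists_substInv h0 h1
  have key : ∀ f : PowerSeries R, PowerSeries.subst ι (f.subst θ : PowerSeries R) = f := fun f => by
    rw [PowerSeries.subst_comp_subst_apply (PowerSeries.HasSubst.of_constantCoeff_zero' h0)
      (PowerSeries.HasSubst.of_constantCoeff_zero' i0), hι, PowerSeries.X_subst]
  rw [← key f, h, key g]

theorem theta_coeff_subst {V : PowerSeries R} (h0 : PowerSeries.constantCoeff V = 0)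
    (θ : PowerSeries R) (j : ℕ) :
    PowerSeries.coeff j (θ.subst V : PowerSeries R) =
      ∑ i : Fin j, PowerSeries.coeff i θ * PowerSeries.coeff j (V ^ (i : ℕ)) +
        PowerSeries.coeff j θ * PowerSeries.coeff 1 V ^ j := by
  obtain ⟨W, rfl⟩ := PowerSeries.X_dvd_iff.2 h0
  rw [PowerSeries.coeff_subst' (PowerSeries.HasSubst.of_constantCoeff_zero' h0),
    finsum_eq_sum_of_support_subset (s := Finset.range (j + 1)), Finset.sum_range_succ,
    Finset.sum_range]
  · simp only [smul_eq_mul]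
    congr 2
    rw [mul_pow, PowerSeries.coeff_X_pow_mul', if_pos le_rfl, Nat.sub_self,
      PowerSeries.coeff_zero_eq_constantCoeff_apply, map_pow, PowerSeries.coeff_succ_X_mul,
      PowerSeries.coeff_zero_eq_constantCoeff_apply]
  · intro i hi
    rw [Finset.mem_coe, Finset.mem_range]
    by_contra hlt
    apply hi
    simp only
    rw [mul_pow, PowerSeries.coeff_X_pow_mul', if_neg (by omega), smul_zero]

end aux

variable {C : Type*} [NormedField C] [IsUltrametricDist C]

/-- `H` is `ε`-close to Honda's law of height `n` and `[p]_H = V (X ^ p ^ h)` -/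
structure Near (p n h : ℕ) (H : FormalGroup (O C)) (V : PowerSeries (O C)) (ε : ℝ) : Prop where
  near : ∀ d, nm (coeff d H.toPowerSeries - coeff d (G0 p n (O C)).toPowerSeries) ≤ ε
  hV : mulSeries H p = V.subst (PowerSeries.X ^ p ^ h : PowerSeries (O C))

variable (p : ℕ) [Fact p.Prime] [CharP C p]

/-- reduce modulo `ball C ε` and use `mulSeries_G0` -/
theorem Near.mul {n h : ℕ} (hn : 1 ≤ n) {H : FormalGroup (O C)} {V : PowerSeries (O C)} {ε : ℝ}
    (hH : Near p n h H V ε) (j : ℕ) :
    nm (PowerSeries.coeff j (mulSeries H p) -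
      PowerSeries.coeff j (PowerSeries.X ^ p ^ n : PowerSeries (O C))) ≤ ε := by
  have hε : 0 ≤ ε := (nm_nonneg _).trans (hH.near 0)
  set π := Ideal.Quotient.mk (ball C ε) with hπ
  have e : H.map π = (G0 p n (O C)).map π := by
    ext d
    change coeff d (map π H.toPowerSeries) = coeff d (map π (G0 p n (O C)).toPowerSeries)
    rw [coeff_map, coeff_map, hπ, Ideal.Quotient.eq, mem_ball hε]
    exact hH.near d
  have e2 : (mulSeries H p).map π = (PowerSeries.X ^ p ^ n : PowerSeries (O C)).map π := by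
    rw [← mulSeries_map, e, mulSeries_map, mulSeries_G0 p hn _ (CharP.cast_eq_zero _ _)]
  have e3 := congrArg (PowerSeries.coeff j) e2
  rwa [PowerSeries.coeff_map, PowerSeries.coeff_map, hπ, Ideal.Quotient.eq, mem_ball hε] at e3

theorem Near.V {h m : ℕ} (hn : 1 ≤ h + m) {H : FormalGroup (O C)} {V : PowerSeries (O C)} {ε : ℝ}
    (hH : Near p (h + m) h H V ε) (j : ℕ) :
    nm (PowerSeries.coeff j V -
      PowerSeries.coeff j (PowerSeries.X ^ p ^ m : PowerSeries (O C))) ≤ ε := by
  have hq : p ^ h ≠ 0 := pow_ne_zero _ (Fact.out : p.Prime).ne_zero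
  have e := Near.mul p hn hH (p ^ h * j)
  rwa [hH.hV, R227.coeff_mul_subst_X_pow hq, pow_add, pow_mul,
    ← theta_X_pow (θ := PowerSeries.X ^ p ^ h)
      (by rw [map_pow, PowerSeries.constantCoeff_X, zero_pow hq]),
    R227.coeff_mul_subst_X_pow hq] at e

/-- solve `θ (V (Y)) = θ^(d) (Y)` (`d = p ^ h`) coefficient by coefficient: with `u = coeff 1 V`,
`θ 1 ^ (d - 1) = u`, and `θ j` is a root of the monic `T ^ d - u ^ j T - c j` (`exists_root_monic`).
Then `θ ([p]_H X) = θ (X) ^ d`. -/
theorem exists_theta_aux [IsAlgClosed C] {h : ℕ} (hh : 1 ≤ h) (V : PowerSeries (O C))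
    (h0 : PowerSeries.constantCoeff V = 0) (h1 : PowerSeries.coeff 1 V ≠ 0) :
    ∃ θ : PowerSeries (O C), PowerSeries.constantCoeff θ = 0 ∧ PowerSeries.coeff 1 θ ≠ 0 ∧
      θ.subst V = θ.map (iterateFrobenius (O C) p h) := by
  have hd : 1 < p ^ h := honda_one_lt p hh
  set u := PowerSeries.coeff 1 V with hu
  have key : ∀ (j : ℕ) (c : O C), ∃ z : O C, z ^ p ^ h = c + z * u ^ j ∧
      (c = 0 → j = 0 → z = 0) ∧ (c = 0 → j = 1 → z ≠ 0) := by
    intro j c
    by_cases a0 : c = 0 ∧ j = 0
    · exact ⟨0, by rw [a0.1, zero_pow (by omega), zero_mul, add_zero], fun _ _ => rfl,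
        fun _ h => by omega⟩
    by_cases a1 : c = 0 ∧ j = 1
    · obtain ⟨z, hz⟩ := exists_root_monic (Polynomial.X ^ (p ^ h - 1) - Polynomial.C u)
        (Polynomial.monic_X_pow_sub_C _ (by omega))
        (by rw [Polynomial.natDegree_X_pow_sub_C]; omega)
      rw [Polynomial.eval_sub, Polynomial.eval_pow, Polynomial.eval_X, Polynomial.eval_C,
        sub_eq_zero] at hz
      refine ⟨z, ?_, fun _ h => by omega, fun _ _ h => h1 ?_⟩
      · rw [a1.1, a1.2, zero_add, pow_one, ← hz, ← pow_succ', Nat.sub_add_cancel hd.le]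
      · rw [← hz, h, zero_pow (by omega)]
    have hr : (Polynomial.C (u ^ j) * Polynomial.X + Polynomial.C c).degree <
        ((p ^ h : ℕ) : WithBot ℕ) :=
      Polynomial.degree_linear_le.trans_lt (by exact_mod_cast hd)
    obtain ⟨z, hz⟩ := exists_root_monic
      (Polynomial.X ^ p ^ h - (Polynomial.C (u ^ j) * Polynomial.X + Polynomial.C c))
      (Polynomial.monic_X_pow_sub hr) (by
        rw [Polynomial.natDegree_eq_of_degree_eq_some (n := p ^ h)]
        · omega
        · rw [Polynomial.degree_sub_eq_left_of_degree_lt] <;> rw [Polynomial.degree_X_pow]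
          exact hr)
    rw [Polynomial.eval_sub, Polynomial.eval_pow, Polynomial.eval_X, Polynomial.eval_add,
      Polynomial.eval_mul, Polynomial.eval_C, Polynomial.eval_C, Polynomial.eval_X,
      sub_eq_zero] at hz
    exact ⟨z, by rw [hz]; ring, fun a b => absurd ⟨a, b⟩ a0, fun a b => absurd ⟨a, b⟩ a1⟩
  choose r hr using key
  obtain ⟨a, ha⟩ := theta_rec fun j (b : Fin j → O C) =>
    r j (∑ i : Fin j, b i * PowerSeries.coeff j (V ^ (i : ℕ)))
  have a0 : a 0 = 0 := by
    rw [ha]
    exact (hr _ _).2.1 (by simp) rfl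
  refine ⟨PowerSeries.mk a, by simpa using a0, ?_, ?_⟩
  · rw [PowerSeries.coeff_mk, ha]
    exact (hr _ _).2.2 (by simp [a0]) rfl
  · ext j
    rw [theta_coeff_subst h0, PowerSeries.coeff_map, iterateFrobenius_def]
    simp only [PowerSeries.coeff_mk]
    conv_rhs => rw [ha j, (hr _ _).1, ← ha j]

/-- transport `H` over the field `C` along `θ` (`exists_transport`): the new law has
`[p] = X ^ d`, so it descends (`coeff_pow_of_mulSeries_eq`, `exists_descend`) to the subfield of
elements with `c ^ d = c`, which lies in `O`; compose with `exists_compare`. -/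
theorem exists_theta [IsAlgClosed C] {h : ℕ} (hh : 1 ≤ h) (H : FormalGroup (O C)) [H.IsComm]
    (V : PowerSeries (O C))
    (hV : mulSeries H p = V.subst (PowerSeries.X ^ p ^ h : PowerSeries (O C)))
    (h1 : PowerSeries.coeff 1 V ≠ 0) :
    ∃ θ : PowerSeries (O C), IsFGHom H (G0 p h (O C)) θ ∧ PowerSeries.coeff 1 θ ≠ 0 := by
  have hd : 1 < p ^ h := honda_one_lt p hh
  have hq : p ^ h ≠ 0 := by omega
  have h0 := theta_V0 hq hV
  obtain ⟨θ, t0, t1, ht⟩ := exists_theta_aux p hh V h0 h1
  have e1 : θ.subst (mulSeries H p) = θ ^ p ^ h := by rw [hV, theta_assoc hq h0, ht, theta_pow]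
  set φ := (O C).subtype with hφ
  have hφi : Function.Injective φ := Subtype.val_injective
  have s0 : PowerSeries.constantCoeff (θ.map φ) = 0 := by
    rw [← PowerSeries.coeff_zero_eq_constantCoeff_apply, PowerSeries.coeff_map,
      PowerSeries.coeff_zero_eq_constantCoeff_apply, t0, map_zero]
  have s1 : IsUnit (PowerSeries.coeff 1 (θ.map φ)) := by
    rw [PowerSeries.coeff_map, isUnit_iff_ne_zero]
    exact (map_ne_zero_iff _ hφi).2 t1
  obtain ⟨G, hGc, hG⟩ := exists_transport (H.map φ) s0 s1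
  have e2 : mulSeries G p = PowerSeries.X ^ p ^ h := by
    refine theta_cancel s0 s1 ?_
    rw [← subst_mulSeries hG, theta_X_pow s0, ← map_pow, ← e1, mulSeries_map]
    exact (PowerSeries.map_subst
      (PowerSeries.HasSubst.of_constantCoeff_zero' (constantCoeff_mulSeries H p)) θ).symm
  let κ : Subfield C := RingHom.eqLocusField (iterateFrobenius C p h) (RingHom.id C)
  have hκ : ∀ c : C, c ∈ κ ↔ c ^ p ^ h = c := fun c => Iff.rfl
  obtain ⟨F, hFc, hF⟩ := exists_descend G (φ := κ.subtype) Subtype.val_injective fun d =>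
    ⟨⟨_, (hκ _).2 (coeff_pow_of_mulSeries_eq p e2 d)⟩, rfl⟩
  have e3 : mulSeries F p = PowerSeries.X ^ p ^ h := by
    refine PowerSeries.map_injective κ.subtype Subtype.val_injective ?_
    rw [← mulSeries_map, hF, e2, map_pow, PowerSeries.map_X]
  obtain ⟨ι, hι, i1⟩ := exists_compare p (κ := κ) (fun c => Subtype.ext ((hκ _).1 c.2)) F
    (G0 p h κ) e3 (mulSeries_G0 p hh _ (CharP.cast_eq_zero _ _))
  let ψ : κ →+* O C := κ.subtype.codRestrict (O C) fun c => by
    rw [mem_O]
    by_contra hc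
    rw [not_le] at hc
    have e := congrArg norm ((hκ _).1 c.2)
    rw [norm_pow] at e
    exact (lt_self_pow₀ hc hd).ne' e
  have hψ : φ.comp ψ = κ.subtype := rfl
  have g1 : IsFGHom H (F.map ψ) θ := isFGHom_of_map hφi (by rwa [map_map, hψ, hF])
  have g2 := isFGHom_map hι ψ
  rw [G0_map] at g2
  refine ⟨_, isFGHom_comp g1 g2, ?_⟩
  rwa [coeff_one_subst t0, PowerSeries.coeff_map, i1, map_one, one_mul]

/-- from `θ ∘ [p]_H = [p] ∘ θ = θ ^ d` and injectivity of `expand` -/
theorem theta_subst_V {h : ℕ} (hh : 1 ≤ h) {H : FormalGroup (O C)} {V θ : PowerSeries (O C)}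
    (hV : mulSeries H p = V.subst (PowerSeries.X ^ p ^ h : PowerSeries (O C)))
    (hθ : IsFGHom H (G0 p h (O C)) θ) : θ.subst V = θ.map (iterateFrobenius (O C) p h) := by
  have hq : p ^ h ≠ 0 := pow_ne_zero _ (Fact.out : p.Prime).ne_zero
  have e := subst_mulSeries hθ p
  rw [hV, theta_assoc hq (theta_V0 hq hV), mulSeries_G0 p hh _ (CharP.cast_eq_zero _ _),
    theta_X_pow hθ.1, ← theta_pow p h θ] at e
  exact theta_inj hq e

end Crest.Agent.R227.K
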