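import Crest.Agent.R227.K.Theta

/-! Row 227, task `R227/K/ThetaFn1`: universal covers and the map `Θ`.
Definitions: DO NOT CHANGE (owner helper98). -/

set_option autoImplicit false

namespace Crest.Agent.R227.K

open MvPowerSeries Crest.LubinTate
open scoped BigOperators

variable {C : Type*} [NormedField C] [IsUltrametricDist C] [IsAlgClosed C]
  (p : ℕ) [Fact p.Prime] [CharP C p]

/-- a compatible system of points under `[p]_H` -/
def IsSys (H : FormalGroup (O C)) (z : ℕ → O C) : Prop :=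
  (∀ s, z s ∈ mO C) ∧ ∀ s, ev1 (z (s + 1)) (mulSeries H p) = z s

/-- `Y = lim (z s) ^ q ^ s` -/
def IsX (n : ℕ) (ε : ℝ) (z : ℕ → O C) (Y : O C) : Prop :=
  ∀ s : ℕ, nm (frz C p (-(n * s : ℕ)) Y - z s) ≤ ε

/-- `Θ Y = lim θ (Y ^ (1 / q ^ r)) ^ d ^ r` -/
def IsTheta [CompleteSpace C] (n h : ℕ) (θ : PowerSeries (O C)) (ε : ℝ)
    (Θ : Wp C p n →+ Wp C p h) : Prop :=
  ∀ (Y : Wp C p n) (r : ℕ),
    nm (frz C p (-(h * r : ℕ)) (Θ Y).1 - ev1 (frz C p (-(n * r : ℕ)) Y.1) θ) ≤ ε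

variable [CompleteSpace C] {p} {n h : ℕ} {H H' : FormalGroup (O C)} {V V' θ : PowerSeries (O C)}
  {ε : ℝ}

omit [IsAlgClosed C] in
theorem thetafn1_mul (hn : 1 ≤ n) (hH : Near p n h H V ε) {z : O C} (hz : z ∈ mO C) :
    nm (ev1 z (mulSeries H p) - z ^ p ^ n) ≤ ε := by
  have h1 := nm_ev1_sub_le_of_coeff hz (hH.mul p hn)
  rwa [map_pow, ev1_X good_mO hz] at h1

omit [IsAlgClosed C] [Fact p.Prime] [CharP C p] in
theorem thetafn1_mul_mem {z : O C} (hz : z ∈ mO C) : ev1 z (mulSeries H p) ∈ mO C :=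
  ev1_mem good_mO hz (by rw [constantCoeff_mulSeries]; exact zero_mem _)

omit [IsAlgClosed C] [Fact p.Prime] [CharP C p] in
theorem thetafn1_theta_mem (hθ : IsFGHom H (G0 p h (O C)) θ) {z : O C} (hz : z ∈ mO C) :
    ev1 z θ ∈ mO C :=
  ev1_mem good_mO hz (by rw [hθ.1]; exact zero_mem _)

omit [IsAlgClosed C] in
theorem thetafn1_pow (hh : 1 ≤ h) (hθ : IsFGHom H (G0 p h (O C)) θ) {a : O C} (ha : a ∈ mO C) :
    ev1 a θ ^ p ^ h = ev1 (ev1 a (mulSeries H p)) θ := by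
  have h1 := congrArg (ev1 a) (subst_mulSeries hθ p)
  rw [ev1_subst good_mO ha (constantCoeff_mulSeries H p), ev1_subst good_mO ha hθ.1,
    mulSeries_G0 p hh (O C) (CharP.cast_eq_zero _ p), map_pow,
    ev1_X good_mO (thetafn1_theta_mem hθ ha)] at h1
  exact h1.symm

omit [IsAlgClosed C] [Fact p.Prime] [CharP C p] [CompleteSpace C] in
theorem thetafn1_mem {x y : O C} (hε : ε < 1) (h : nm (x - y) ≤ ε) (hy : y ∈ mO C) :
    x ∈ mO C := by
  have h1 : x - y ∈ mO C := mem_mO.2 (h.trans_lt hε)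
  simpa using add_mem h1 hy

omit [CompleteSpace C] in
theorem thetafn1_frz_succ (t r : ℕ) (x : O C) :
    frz C p (-(t * (r + 1) : ℕ)) x ^ p ^ t = frz C p (-(t * r : ℕ)) x := by
  rw [← frz_natCast, ← frz_add]
  congr 2
  push_cast
  ring

omit [CompleteSpace C] in
theorem thetafn1_frz_zero (t : ℕ) (x : O C) : frz C p (-(t * 0 : ℕ)) x = x := by
  simp [frz_zero]

theorem thetafn1_step (hn : 1 ≤ n) (hε : ε < 1) (hH : Near p n h H V ε) {z : O C}
    (hz : z ∈ mO C) : ∃ z' ∈ mO C, ev1 z' (mulSeries H p) = z := by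
  have hq : 1 ≤ p ^ n := Nat.one_le_pow _ _ (Fact.out : p.Prime).pos
  obtain ⟨z', h1, h2⟩ := exists_root (g := mulSeries H p - PowerSeries.C z) hq
    (fun j hj => by
      have h1 := hH.mul p hn j
      rw [PowerSeries.coeff_X_pow, if_neg hj.ne, sub_zero] at h1
      rw [map_sub]
      refine (nm_sub_le _ _).trans_lt (max_lt (h1.trans_lt hε) ?_)
      rw [PowerSeries.coeff_C]
      split_ifs
      · exact hz
      · exact (mO C).zero_mem)
    (by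
      have h1 := hH.mul p hn (p ^ n)
      rw [PowerSeries.coeff_X_pow_self] at h1
      rw [map_sub, PowerSeries.coeff_C, if_neg (by omega), sub_zero]
      refine le_antisymm (nm_le_one _) (not_lt.1 fun h2 => ?_)
      have h3 : (1 : O C) ∈ mO C := thetafn1_mem hε (by rwa [nm_sub_comm] at h1) (mem_mO.2 h2)
      simp [mem_mO, nm] at h3)
  rw [map_sub, ev1_C, sub_eq_zero] at h2
  exact ⟨z', h1, h2⟩

theorem exists_sys (hn : 1 ≤ n) (hε : ε < 1) (hH : Near p n h H V ε) {z₀ : O C} (hz : z₀ ∈ mO C) :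
    ∃ z, IsSys p H z ∧ z 0 = z₀ := by
  choose f hf1 hf2 using fun z : mO C => thetafn1_step hn hε hH z.2
  let g : mO C → mO C := fun z => ⟨f z, hf1 z⟩
  refine ⟨fun s => (g^[s] ⟨z₀, hz⟩).1, ⟨fun s => (g^[s] ⟨z₀, hz⟩).2, fun s => ?_⟩, rfl⟩
  simp only [Function.iterate_succ_apply']
  exact hf2 _

/-- `exists_lim` with `w = z` -/
theorem exists_isX (hn : 1 ≤ n) (hε : ε < 1) (hH : Near p n h H V ε) {z : ℕ → O C}
    (hz : IsSys p H z) : ∃ Y : Wp C p n, IsX p n ε z Y.1 := by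
  obtain ⟨Y, hY⟩ := exists_lim p hn z hε fun s => by
    have h1 := thetafn1_mul hn hH (hz.1 (s + 1))
    rwa [hz.2 s, nm_sub_comm] at h1
  have h0 := hY 0
  rw [thetafn1_frz_zero] at h0
  exact ⟨⟨Y, thetafn1_mem hε h0 (hz.1 0)⟩, hY⟩

/-- `exists_lim` with `w r = θ (Y ^ (1 / q ^ r))`, using `θ (a) ^ d = θ ([p]_H a)`; additivity by
`lim_unique` -/
theorem exists_isTheta (hn : 1 ≤ n) (hh : 1 ≤ h) (hε : ε < 1) (hH : Near p n h H V ε)
    (hθ : IsFGHom H (G0 p h (O C)) θ) : ∃ Θ : Wp C p n →+ Wp C p h, IsTheta p n h θ ε Θ := by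
  have hm : ∀ (Y : Wp C p n) (r : ℕ), frz C p (-(n * r : ℕ)) Y.1 ∈ mO C :=
    fun Y r => frz_mem_mO p _ Y.2
  choose T hT using fun Y : Wp C p n =>
    exists_lim p hh (fun r => ev1 (frz C p (-(n * r : ℕ)) Y.1) θ) hε fun r => by
      rw [thetafn1_pow hh hθ (hm Y (r + 1))]
      refine (nm_ev1_sub_le (hm Y r) (thetafn1_mul_mem (hm Y (r + 1))) θ).trans ?_
      rw [← thetafn1_frz_succ n r]
      exact thetafn1_mul hn hH (hm Y (r + 1))
  have hTm : ∀ Y, T Y ∈ mO C := fun Y => by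
    have h0 := hT Y 0
    rw [thetafn1_frz_zero] at h0
    exact thetafn1_mem hε h0 (thetafn1_theta_mem hθ (hm Y 0))
  have h0 : 0 ≤ ε := (nm_nonneg _).trans (hT 0 0)
  have hz : nm (0 : O C) ≤ ε := by simpa [nm] using h0
  refine ⟨⟨⟨fun Y => ⟨T Y, hTm Y⟩, Pt.ext ?_⟩, fun Y Y' => Pt.ext ?_⟩, hT⟩
  · refine lim_unique p hh hε fun s => ?_
    have h1 := hT 0 s
    rw [Pt.zero_val, map_zero, ev1_zero, hθ.1] at h1
    rw [Pt.zero_val, map_zero]
    exact h1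
  · refine lim_unique p hh hε fun s => ?_
    have h1 := hT (Y + Y') s
    rw [Pt.add_val, frz_fadd_G0 p n _ Y.2 Y'.2] at h1
    rw [Pt.add_val, frz_fadd_G0 p h _ (hTm Y) (hTm Y')]
    refine (nm_sub_le_max _ _ _).trans (max_le h1 ?_)
    refine (nm_sub_le_max _ (ev1 (fadd H (frz C p (-(n * s : ℕ)) Y.1)
      (frz C p (-(n * s : ℕ)) Y'.1)) θ) _).trans (max_le ?_ ?_)
    · refine (nm_ev1_sub_le (fadd_mem good_mO (hm Y s) (hm Y' s))
        (fadd_mem good_mO (hm Y s) (hm Y' s)) θ).trans ?_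
      rw [nm_sub_comm]
      exact nm_fadd_sub_fadd_le _ _ (hm Y s) (hm Y' s) (hm Y s) (hm Y' s) hH.near
        (by rwa [sub_self]) (by rwa [sub_self])
    · rw [ev1_fadd good_mO hθ (hm Y s) (hm Y' s), nm_sub_comm]
      exact nm_fadd_sub_fadd_le _ _ (frz_mem_mO p _ (hTm Y)) (frz_mem_mO p _ (hTm Y'))
        (thetafn1_theta_mem hθ (hm Y s)) (thetafn1_theta_mem hθ (hm Y' s))
        (fun d => by rwa [sub_self]) (hT Y s) (hT Y' s)

/-- for a neighbouring law: `w s = θ (z' s)` satisfies `‖w (s + 1) ^ d - w s‖ ≤ η` -/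
theorem theta_sys (hn : 1 ≤ n) (hh : 1 ≤ h) (hε : ε < 1) (hH : Near p n h H V ε)
    (hθ : IsFGHom H (G0 p h (O C)) θ) {Θ : Wp C p n →+ Wp C p h} (hΘ : IsTheta p n h θ ε Θ)
    {η : ℝ} (hη : η ≤ ε)
    (hHH : ∀ j, nm (PowerSeries.coeff j (mulSeries H p) - PowerSeries.coeff j (mulSeries H' p)) ≤ η)
    {z' : ℕ → O C} (hz' : IsSys p H' z') {Y : Wp C p n} (hY : IsX p n ε z' Y.1) (s : ℕ) :
    nm ((Θ Y).1 - ev1 (z' s) θ ^ (p ^ h) ^ s) ≤ η ^ (p ^ h) ^ s := by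
  obtain ⟨Y₁, hY₁⟩ := exists_lim p hh (fun s => ev1 (z' s) θ) (hη.trans_lt hε) fun s => by
    rw [thetafn1_pow hh hθ (hz'.1 (s + 1))]
    refine (nm_ev1_sub_le (hz'.1 s) (thetafn1_mul_mem (hz'.1 (s + 1))) θ).trans ?_
    rw [← hz'.2 s]
    exact nm_ev1_sub_le_of_coeff (hz'.1 (s + 1)) hHH
  have h1 : (Θ Y).1 = Y₁ := by
    refine lim_unique p hh hε fun r => (nm_sub_le_max _ _ _).trans (max_le (hΘ Y r) ?_)
    refine (nm_sub_le_max _ (ev1 (z' r) θ) _).trans (max_le ?_ ?_)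
    · exact (nm_ev1_sub_le (hz'.1 r) (frz_mem_mO p _ Y.2) θ).trans (hY r)
    · rw [nm_sub_comm]
      exact (hY₁ r).trans hη
  rw [h1, ← pow_mul p h s, ← frz_neg_pow p (h * s) Y₁, ← sub_pow_char_pow, nm_pow]
  exact pow_le_pow_left₀ (nm_nonneg _) (hY₁ s) _

end Crest.Agent.R227.K
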