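import Crest.Agent.R227.K.E0
import Crest.Agent.R227.Stab
import Crest.Agent.R227.K.Honda

/-! Row 227, task `R227/K/Univ`: consequences of the universal property.
Definitions: DO NOT CHANGE (owner helper98). -/

set_option autoImplicit false

namespace Crest.Agent.R227.K

open MvPowerSeries Crest.LubinTate IsLocalRing

variable (p : ℕ) [Fact p.Prime] (n : ℕ)

/-- `𝔞 0 = 𝔪`, `𝔞 (i + 1) = p 𝔞 i + (𝔞 i) ^ 2` -/
noncomputable def aI : ℕ → Ideal (LTRing p n)
  | 0 => mE p n
  | i + 1 => Ideal.span {(p : LTRing p n)} * aI i ⊔ aI i ^ 2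

/-- the automorphism `1 + p ^ N b` of Honda's law -/
noncomputable def gser {κ : Type*} [CommRing κ] (N : ℕ) (b : PowerSeries κ) : PowerSeries κ :=
  (G0 p n κ).toPowerSeries.subst ![PowerSeries.X, b ^ (p ^ n) ^ N]

/-- `φ` is the action of (the inverse of) `1 + p ^ N b` -/
structure Act (H : FormalGroup (LTRing p n)) (N : ℕ) (b : PowerSeries (GaloisField p n))
    (φ : LTRing p n →+* LTRing p n) (ψ : PowerSeries (LTRing p n)) : Prop where
  map_C : ∀ w, φ (C w) = C w
  res : ∀ f, LTRing.residue p n (φ f) = LTRing.residue p n f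
  hom : IsFGHom H (H.map φ) ψ
  lift : ψ.map (LTRing.residue p n) = gser p n N b
  cong0 : ∀ f, φ f - f ∈ aI p n N
  congh : ∀ h, 1 ≤ h → h ≤ n → ∀ f, φ f - f ∈ heightIdeal p n H h ⊔ mE p n ^ (p ^ h) ^ N

theorem aI_le_pow (i : ℕ) : aI p n i ≤ mE p n ^ (i + 1) := by
  induction i with
  | zero => simp [aI]
  | succ i ih =>
    rw [aI, sup_le_iff]
    constructor
    · rw [pow_succ']
      refine Ideal.mul_mono ?_ ih
      rw [Ideal.span_singleton_le_iff_mem, mE_eq]; exact R227.p_mem_maximalIdeal p n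
    · refine (Ideal.pow_right_mono ih 2).trans ?_
      rw [← pow_mul]; exact Ideal.pow_le_pow_right (by omega)

variable {p n}

section general

variable {Γ : FormalGroup (GaloisField p n)} {H : FormalGroup (LTRing p n)}

/-- the uniqueness clause for quotients of `E₀`, in terms of ring maps -/
theorem univ_unique (hH : IsUniversalDeformation p n Γ H) {J : Ideal (LTRing p n)} (hJ : J ≠ ⊤)
    (φ₁ φ₂ : LTRing p n →+* LTRing p n ⧸ J)
    (h₁ : ∀ w, φ₁ (C w) = Ideal.Quotient.mk J (C w))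
    (h₂ : ∀ w, φ₂ (C w) = Ideal.Quotient.mk J (C w))
    (r₁ : ∀ f ∈ mE p n, φ₁ f ∈ (mE p n).map (Ideal.Quotient.mk J))
    (r₂ : ∀ f ∈ mE p n, φ₂ f ∈ (mE p n).map (Ideal.Quotient.mk J))
    (θ : PowerSeries (LTRing p n ⧸ J)) (hθ : IsFGHom (H.map φ₁) (H.map φ₂) θ)
    (hX : ∀ j, PowerSeries.coeff j θ - PowerSeries.coeff j PowerSeries.X ∈
      (mE p n).map (Ideal.Quotient.mk J)) : φ₁ = φ₂ := by
  have hr : ∀ y ∈ (mE p n).map (Ideal.Quotient.mk J), R227.resQ hJ y = 0 := fun y hy => by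
    obtain ⟨x, hx, rfl⟩ := (Ideal.mem_map_iff_of_surjective _ Ideal.Quotient.mk_surjective).mp hy
    exact hx
  have key : ∀ φ : LTRing p n →+* LTRing p n ⧸ J, (∀ w, φ (C w) = Ideal.Quotient.mk J (C w)) →
      (∀ f ∈ mE p n, φ f ∈ (mE p n).map (Ideal.Quotient.mk J)) →
      (R227.resQ hJ).comp φ = LTRing.residue p n := fun φ h r => RingHom.ext fun f => by
    have h1 : f - C (constantCoeff f) ∈ mE p n := by
      rw [mE_eq_span]; exact Ideal.mem_sup_right (R227.sub_C_mem_XI f)
    have h2 := hr _ (r _ h1)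
    rw [map_sub, map_sub, h, sub_eq_zero] at h2
    rw [RingHom.comp_apply, h2, R227.resQ_mk, residue_C]; rfl
  have := R227.univ_unique_quot hH hJ (φ₁ := ⟨φ₁, h₁⟩) (φ₂ := ⟨φ₂, h₂⟩) (key φ₁ h₁ r₁)
    (key φ₂ h₂ r₂) hθ (by
      ext j
      have := hr _ (hX j)
      rw [map_sub, sub_eq_zero] at this
      rw [PowerSeries.coeff_map, this, ← PowerSeries.coeff_map, PowerSeries.map_X])
  exact congrArg AlgHom.toRingHom this

theorem heightIdeal_le_mE (hΓ : mulSeries Γ p = PowerSeries.X ^ p ^ n)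
    (hH : H.map (LTRing.residue p n) = Γ) {h : ℕ} (hh : h ≤ n) : heightIdeal p n H h ≤ mE p n := by
  rw [R227.heightIdeal_eq_hI, R227.hI_le_iff]
  intro j hj
  rw [mem_mE, ← R227.hc_map, hH, R227.hc, hΓ, PowerSeries.coeff_X_pow, if_neg]
  exact fun e => absurd (Nat.pow_right_injective (Fact.out : p.Prime).two_le e) (by omega)

/-- over `B = E₀ ⧸ I n`, `[p] = V (X ^ q)` with `V ≡ X` a homomorphism from the `q`-Frobenius twist;
so the projection and its `q`-th power agree (`univ_unique`), i.e. `a ^ q - a ∈ I n` for all `a` -/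
theorem heightIdeal_top (hn : 1 ≤ n) [H.IsComm] (hΓ : mulSeries Γ p = PowerSeries.X ^ p ^ n)
    (hH : IsUniversalDeformation p n Γ H) : heightIdeal p n H n = mE p n := by
  rw [R227.heightIdeal_eq_hI, mE_eq]; exact R227.hI_eq_maximalIdeal hn hΓ hH

/-- existence: apply universality to the transport of `H` along a lift of `g` -/
theorem exists_stab (hH : IsUniversalDeformation p n Γ H) {g : PowerSeries (GaloisField p n)}
    (hg : IsFGAut Γ g) : ∃ φ, IsStabilizerMap p n H g φ := by
  exact R227.exists_stabilizerMap hH hg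

theorem univ_map_subst {R S : Type*} [CommRing R] [CommRing S] (ψ : R →+* S) {b : PowerSeries R}
    (hb : PowerSeries.constantCoeff b = 0) (f : PowerSeries R) :
    PowerSeries.map ψ (f.subst b) = (PowerSeries.map ψ f).subst (PowerSeries.map ψ b) :=
  PowerSeries.map_subst (PowerSeries.HasSubst.of_constantCoeff_zero' hb) f

/-- compose with the map of the inverse automorphism and use uniqueness for `B = E₀` -/
theorem stab_bijective (hH : IsUniversalDeformation p n Γ H) {g : PowerSeries (GaloisField p n)}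
    (hg : IsFGAut Γ g)
    {φ : LTRing p n →ₐ[WittVector p (GaloisField p n)] LTRing p n}
    (hφ : IsStabilizerMap p n H g φ) : Function.Bijective φ := by
  obtain ⟨g', g0, g1, h1, h2⟩ := exists_substInv hg.1.1 hg.2
  obtain ⟨φ', r', θ', hθ', e'⟩ := exists_stab hH ⟨isFGHom_inv hg.1 g0 h1 h2, g1⟩
  obtain ⟨r, θ, hθ, e⟩ := hφ
  have h3 := isFGHom_comp (isFGHom_map hθ' φ.toRingHom) hθ
  rw [map_map] at h3
  have h4 := R227.univ_unique hH (LTRing.residue p n) (residue_surjective p n)
    (R227.residue_comp_algebraMap p n) (φ₁ := φ.comp φ') (φ₂ := AlgHom.id _ _)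
    (RingHom.ext fun x => (RingHom.congr_fun r (φ' x)).trans (RingHom.congr_fun r' x)) rfl
    (θ := θ.subst (PowerSeries.map φ.toRingHom θ')) (by rw [← map_id' (F := H)] at h3; exact h3)
    (by
      rw [univ_map_subst _ (isFGHom_map hθ' φ.toRingHom).1, e, ← RingHom.comp_apply,
        ← PowerSeries.map_comp, r, e', h1])
  have hs : Function.Surjective φ := fun x => ⟨φ' x, AlgHom.congr_fun h4 x⟩
  exact ⟨R227.injective_of_surjective_endo φ.toRingHom hs, hs⟩

theorem heightIdeal_stable [H.IsComm] (hH : IsUniversalDeformation p n Γ H) (M h : ℕ) :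
    IsStableIdeal p n Γ H M (heightIdeal p n H h) := by
  intro g φ hg _ hφ
  rw [R227.heightIdeal_eq_hI]
  conv_lhs => rw [← R227.IsStabilizerMap.map_hI hg.2 hφ h]
  exact Ideal.comap_map_of_bijective φ.toRingHom (stab_bijective hH hg hφ)

end general

end Crest.Agent.R227.K
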